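import Vale.Agent.P198.Join

/-! Pulled back cutoff functions have small energy. -/

namespace Vale.Agent.P198

open Set Filter Topology Metric MeasureTheory
open scoped Classical

/-- cutoff at scale `ρ` -/
noncomputable def apF (w : ℝ × ℝ) (ρ : ℝ) (x : ℝ × ℝ) : ℝ := max 0 (min 1 ((dist x w - ρ) / ρ))

theorem apF_zero {w x : ℝ × ℝ} {ρ : ℝ} (hρ : 0 < ρ) (h : dist x w ≤ ρ) : apF w ρ x = 0 :=
  max_eq_left ((min_le_right _ _).trans (div_nonpos_of_nonpos_of_nonneg (by linarith) hρ.le))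

theorem apF_one {w x : ℝ × ℝ} {ρ : ℝ} (hρ : 0 < ρ) (h : 2 * ρ ≤ dist x w) : apF w ρ x = 1 := by
  rw [apF, min_eq_left ((one_le_div hρ).2 (by linarith)), max_eq_right zero_le_one]

theorem apF_lip (w x y : ℝ × ℝ) {ρ : ℝ} (hρ : 0 < ρ) : |apF w ρ x - apF w ρ y| ≤ dist x y / ρ := by
  have h1 : |(dist x w - ρ) / ρ - (dist y w - ρ) / ρ| ≤ dist x y / ρ := by
    rw [← sub_div, sub_sub_sub_cancel_right, abs_div, abs_of_pos hρ]
    gcongr
    exact abs_dist_sub_le _ _ _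
  refine le_trans ?_ h1
  refine (abs_max_sub_max_le_max _ _ _ _).trans (max_le (by simp) ?_)
  exact (abs_min_sub_min_le_max _ _ _ _).trans (max_le (by simp) le_rfl)

variable {G : Type*} [Group G] {X : Type} [MetricSpace X] [MulAction G X]

theorem ap_osc {K : Ctx G X} {e : ℝ × ℝ → X} (he : IsOpenEmbedding e) {n : ℕ} {E : K.Sol e n}
    {ω : ℝ} (hω : Ctx.Small E ω) (hω1 : ω ≤ 1 / 16) {w : ℝ × ℝ} (hw0 : 3 / 8 ≤ w.1)
    (hw1 : w.1 ≤ 5 / 8) {u : G} (hu : u ∈ K.fam e n) {z : ℝ × ℝ} (hz : e z ∈ K.U u)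
    (hd : dist (Ctx.phi E z) w ≤ 1 / 16) : K.U u ⊆ e '' sq ∧ ∀ x y, e x ∈ K.U u → e y ∈ K.U u →
      dist (Ctx.phi E x) (Ctx.phi E y) ≤ 2 * E.hat u := by
  have h1 := Ctx.Df_close E hu hz
  have h2 : dist (Ctx.Df E z) w.1 ≤ 1 / 16 := (le_max_left _ _).trans hd
  have h3 := hω.1 u hu
  rw [Real.dist_eq, abs_le] at h2
  have h4 := (abs_nonneg _).trans h1
  rw [abs_le] at h1
  have h5 := Ctx.inside E he hω hu (by linarith) (by linarith)
  refine ⟨h5, fun x y hx hy => max_le ?_ ?_⟩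
  · have a1 := Ctx.Df_close E hu hx
    have a2 := Ctx.Df_close E hu hy
    rw [abs_le] at a1 a2
    rw [Real.dist_eq, abs_le]
    simp only [Ctx.phi]
    constructor <;> linarith
  · exact (Ctx.Hf_osc E he h5 hx hy).trans (by linarith)

theorem Ctx.ap (K : Ctx G X) : ∃ C : ℝ, 0 < C ∧ ∀ (e : ℝ × ℝ → X), IsOpenEmbedding e →
    ∀ n, K.cov.n0 ≤ n → ∀ (E : K.Sol e n) (k : ℕ) (r ω : ℝ) (w : ℝ × ℝ), 1 ≤ k → 0 < r →
      4 ^ k * r ≤ 1 / 16 → Ctx.Small E ω → 0 < ω → ω ≤ r / 100 → 3 / 8 ≤ w.1 → w.1 ≤ 5 / 8 →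
      ∃ (f : X → ℝ) (τ : G → ℝ), (∀ u, 0 ≤ τ u) ∧ ∑ u ∈ K.lev n, τ u ^ 2 ≤ C / k ∧
        (∀ u ∈ K.fam e n, ∀ a ∈ K.U u, ∀ b ∈ K.U u, |f a - f b| ≤ τ u) ∧
        (∀ z, dist (Ctx.phi E z) w ≤ r → f (e z) = 0) ∧
        ∀ z, 4 ^ k * r ≤ dist (Ctx.phi E z) w → f (e z) = 1 := by
  refine ⟨100 * ((K.D : ℝ) ^ K.lam) ^ 2 + 1, by positivity,
    fun e he n hn E k r ω w hk hr hkr hω hω0 hωr hw0 hw1 => ?_⟩
  have hk0 : (0 : ℝ) < k := by exact_mod_cast hk
  have hρ : ∀ l : ℕ, r ≤ 4 ^ l * r := fun l => le_mul_of_one_le_left hr.le (one_le_pow₀ (by norm_num))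
  have hρ0 : ∀ l : ℕ, 0 < 4 ^ l * r := fun l => by positivity
  have hlt : ∀ {l m : ℕ}, l < m → 4 * (4 ^ l * r) ≤ 4 ^ m * r := fun {l m} h => by
    rw [← mul_assoc, ← pow_succ']
    exact mul_le_mul_of_nonneg_right (pow_le_pow_right₀ (by norm_num) h) hr.le
  have hω1 : ω ≤ 1 / 16 := by linarith [hρ k]
  let A : ℕ → Finset G := fun l => (K.fam e n).filter fun u => ∃ x y, e x ∈ K.U u ∧ e y ∈ K.U u ∧
    apF w (4 ^ l * r) (phi E x) ≠ apF w (4 ^ l * r) (phi E y)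
  have hA : ∀ l < k, ∀ u ∈ A l, K.U u ⊆ e '' sq ∧ (∀ x y, e x ∈ K.U u → e y ∈ K.U u →
      dist (phi E x) (phi E y) ≤ 2 * E.hat u) ∧ ∀ z, e z ∈ K.U u →
      4 ^ l * r - 2 * ω < dist (phi E z) w ∧ dist (phi E z) w < 2 * (4 ^ l * r) + 2 * ω := by
    intro l hl u hu
    obtain ⟨hu, x, y, hx, hy, hne⟩ := Finset.mem_filter.1 hu
    obtain ⟨z1, hz1, h1⟩ : ∃ z, e z ∈ K.U u ∧ dist (phi E z) w < 2 * (4 ^ l * r) := by
      by_contra h
      push Not at h
      exact hne ((apF_one (hρ0 l) (h x hx)).trans (apF_one (hρ0 l) (h y hy)).symm)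
    obtain ⟨z2, hz2, h2⟩ : ∃ z, e z ∈ K.U u ∧ 4 ^ l * r < dist (phi E z) w := by
      by_contra h
      push Not at h
      exact hne ((apF_zero (hρ0 l) (h x hx)).trans (apF_zero (hρ0 l) (h y hy)).symm)
    obtain ⟨h3, h4⟩ := ap_osc he hω hω1 hw0 hw1 hu hz1 (by linarith [hlt hl, hρ0 l])
    refine ⟨h3, h4, fun z hz => ?_⟩
    have h5 := hω.1 u hu
    constructor
    · linarith [dist_triangle (phi E z2) (phi E z) w, h4 z2 z hz2 hz]
    · linarith [dist_triangle (phi E z) (phi E z1) w, h4 z z1 hz hz1]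
  have hdis : ∀ l < k, ∀ m < k, l < m → ∀ u ∈ A l, u ∉ A m := by
    intro l hl m hm hlm u hu hu'
    obtain ⟨-, x, -, hx, -⟩ := Finset.mem_filter.1 hu
    linarith [((hA l hl u hu).2.2 x hx).2, ((hA m hm u hu').2.2 x hx).1, hlt hlm, hρ l]
  let g : ℕ → G → ℝ := fun l u => if u ∈ A l then (2 * E.hat u / (k * (4 ^ l * r))) ^ 2 else 0
  have hg : ∀ l u, 0 ≤ g l u := fun l u => by simp only [g]; split_ifs <;> positivity
  have hf : ∀ z, Function.invFun e (e z) = z := Function.leftInverse_invFun he.injective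
  refine ⟨fun ξ => (∑ l ∈ Finset.range k, apF w (4 ^ l * r) (phi E (Function.invFun e ξ))) / k,
    fun u => √(∑ l ∈ Finset.range k, g l u), fun u => Real.sqrt_nonneg _, ?_,
    fun u hu a ha b hb => ?_, fun z hz => ?_, fun z hz => ?_⟩
  · simp only [Real.sq_sqrt (Finset.sum_nonneg fun l _ => hg l _)]
    rw [Finset.sum_comm]
    have key : ∀ l ∈ Finset.range k, ∑ u ∈ K.lev n, g l u ≤
        100 * ((K.D : ℝ) ^ K.lam) ^ 2 / k ^ 2 := by
      intro l hl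
      rw [Finset.mem_range] at hl
      set ρ := 4 ^ l * r with hρd
      have a0 : 0 < ρ := hρ0 l
      have a1 : r ≤ ρ := hρ l
      have a2 : 4 * ρ ≤ 4 ^ k * r := hlt hl
      have hsub : A l ⊆ K.fam e n := Finset.filter_subset _ _
      have h1 := msq E he hω0 hω1 hω (a := w.1 - (2 * ρ + 3 * ω)) (b := w.1 + (2 * ρ + 3 * ω))
        (c := w.2 - (2 * ρ + 2 * ω)) (d := w.2 + (2 * ρ + 2 * ω)) (by linarith) (by linarith)
        (by linarith) (by linarith)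
      have h2 := K.sum_hat hn E hsub (fun u hu v hv ⟨ξ, hξ, hξ'⟩ => by
        obtain ⟨b1, -, b2⟩ := hA l hl u hu
        obtain ⟨z, hz, rfl⟩ := b1 hξ
        have b3 := (b2 z hξ).2
        have b4 : dist (Df E z) w.1 < _ := (le_max_left _ _).trans_lt b3
        have b5 : dist (Hf E z) w.2 < _ := (le_max_right _ _).trans_lt b3
        have b6 := (Df_close E hv hξ').trans (hω.1 v hv)
        rw [Real.dist_eq, abs_lt] at b4 b5
        rw [abs_le] at b6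
        exact Finset.mem_filter.2 ⟨hv, by linarith, by linarith, z, hz, hξ', by linarith,
          by linarith⟩ : ∀ u ∈ A l, ∀ v ∈ K.fam e n, K.adj u v → v ∈ (K.fam e n).filter
          (fun u => w.1 - (2 * ρ + 3 * ω) ≤ E.pot u ∧ E.pot u ≤ w.1 + (2 * ρ + 3 * ω) ∧
            ∃ z ∈ sq, e z ∈ K.U u ∧ w.2 - (2 * ρ + 2 * ω) ≤ Hf E z ∧
              Hf E z ≤ w.2 + (2 * ρ + 2 * ω)))
      have h3 : ∑ u ∈ A l, E.hat u ^ 2 ≤ ((K.D : ℝ) ^ K.lam) ^ 2 * (25 * ρ ^ 2) :=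
        h2.trans (mul_le_mul_of_nonneg_left (h1.trans (by nlinarith)) (by positivity))
      calc ∑ u ∈ K.lev n, g l u = ∑ u ∈ A l, (2 * E.hat u / (k * ρ)) ^ 2 := by
            simp only [g]
            rw [Finset.sum_ite_mem, Finset.inter_eq_right.2 (hsub.trans (K.fam_subset n))]
        _ = 4 / (k * ρ) ^ 2 * ∑ u ∈ A l, E.hat u ^ 2 := by
            rw [Finset.mul_sum]
            exact Finset.sum_congr rfl fun u _ => by ring
        _ ≤ 4 / (k * ρ) ^ 2 * (((K.D : ℝ) ^ K.lam) ^ 2 * (25 * ρ ^ 2)) := by gcongr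
        _ = _ := by field_simp; ring
    refine (Finset.sum_le_card_nsmul _ _ _ key).trans ?_
    rw [Finset.card_range, nsmul_eq_mul]
    calc (k : ℝ) * (100 * ((K.D : ℝ) ^ K.lam) ^ 2 / k ^ 2) = 100 * ((K.D : ℝ) ^ K.lam) ^ 2 / k := by
          field_simp
      _ ≤ _ := by gcongr; linarith
  · obtain ⟨x, -, rfl⟩ := (Finset.mem_filter.1 hu).2 ha
    obtain ⟨y, -, rfl⟩ := (Finset.mem_filter.1 hu).2 hb
    have hz : ∀ l, u ∉ A l → apF w (4 ^ l * r) (phi E x) - apF w (4 ^ l * r) (phi E y) = 0 :=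
      fun l h => sub_eq_zero.2 (by_contra fun h' => h (Finset.mem_filter.2 ⟨hu, x, y, ha, hb, h'⟩))
    simp only [hf]
    rw [← sub_div, ← Finset.sum_sub_distrib]
    by_cases h : ∃ l < k, u ∈ A l
    · obtain ⟨l, hl, h⟩ := h
      rw [Finset.sum_eq_single_of_mem l (Finset.mem_range.2 hl) fun m hm hml => hz m fun h' =>
        (lt_or_gt_of_ne hml).elim (fun c => hdis m (Finset.mem_range.1 hm) l hl c u h' h)
          fun c => hdis l hl m (Finset.mem_range.1 hm) c u h h']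
      refine Real.le_sqrt_of_sq_le (le_trans ?_
        (Finset.single_le_sum (fun m _ => hg m u) (Finset.mem_range.2 hl)))
      simp only [g, if_pos h]
      have h1 := (apF_lip w (phi E x) (phi E y) (hρ0 l)).trans
        (div_le_div_of_nonneg_right ((hA l hl u h).2.1 x y ha hb) (hρ0 l).le)
      rw [abs_div, abs_of_pos hk0, mul_comm (k : ℝ), ← div_div]
      gcongr
    · push Not at h
      rw [Finset.sum_eq_zero fun l hl => hz l (h l (Finset.mem_range.1 hl)), zero_div, abs_zero]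
      exact Real.sqrt_nonneg _
  · simp only [hf]
    rw [Finset.sum_eq_zero fun l _ => apF_zero (hρ0 l) (hz.trans (hρ l)), zero_div]
  · simp only [hf]
    rw [Finset.sum_congr rfl fun l hl => apF_one (hρ0 l)
      (by linarith [hlt (Finset.mem_range.1 hl), hρ0 l])]
    simp [hk0.ne']

end Vale.Agent.P198
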