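import Vale.Agent.P198.Defs

/-! Elementary consequences of the boundary data axioms. -/

namespace Vale.Agent.P198

open Set Filter Topology Metric MeasureTheory
open scoped Classical

variable {G : Type*} [Group G] {X : Type} [MetricSpace X] [MulAction G X]

namespace BD
variable (B : BD G X)

theorem δ_ge : (1 : ℝ) ≤ B.δ := by
  exact_mod_cast B.one_le_δ

theorem d_nonneg (a b : G) : 0 ≤ B.d a b := by
  exact Nat.cast_nonneg _

theorem d_self (a : G) : B.d a a = 0 := by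
  simp [d, B.len_one]

theorem d_comm (a b : G) : B.d a b = B.d b a := by
  rw [d, d, ← B.len_inv, mul_inv_rev, inv_inv]

theorem d_tri (a b c : G) : B.d a c ≤ B.d a b + B.d b c := by
  have h := B.len_mul (a⁻¹ * b) (b⁻¹ * c)
  rw [mul_assoc, mul_inv_cancel_left] at h
  unfold d
  exact_mod_cast h

theorem d_mul (g a b : G) : B.d (g * a) (g * b) = B.d a b := by
  rw [d, d, mul_inv_rev, mul_assoc, inv_mul_cancel_left]

theorem d_one (a : G) : B.d 1 a = B.len a := by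
  rw [d, inv_one, one_mul]

theorem d_eq (a b : G) : B.d a b = B.len a + B.len b - 2 * B.gp a b := by
  unfold d gp gpr
  ring

theorem gp_comm (a b : G) : B.gp a b = B.gp b a := by
  linarith [B.d_eq a b, B.d_eq b a, B.d_comm a b]

theorem gp_nonneg (a b : G) : 0 ≤ B.gp a b := by
  linarith [B.d_eq a b, B.d_tri a 1 b, B.d_one b, B.d_one a, B.d_comm a 1]

theorem gp_le (a b : G) : B.gp a b ≤ B.len a := by
  linarith [B.d_eq a b, B.d_tri 1 a b, B.d_one b, B.d_one a]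

theorem gp_self (a : G) : B.gp a a = B.len a := by
  linarith [B.d_eq a a, B.d_self a]

theorem gp_four (a b c : G) : min (B.gp a b) (B.gp b c) - B.δ ≤ B.gp a c := by
  exact B.four a b c

theorem P_H1 (ξ : X) (a b : G) : min (B.P ξ a) (B.P ξ b) - B.δ ≤ B.gp a b := by
  exact B.H1 ξ a b

theorem P_H2 (ξ : X) (a b : G) : min (B.P ξ a) (B.gp a b) - B.δ ≤ B.P ξ b := by
  exact B.H2 ξ a b

theorem h_eq (ξ : X) (u : G) : B.h ξ u = B.len u - 2 * B.P ξ u := by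
  unfold P ppr
  ring

theorem P_nonneg (ξ : X) (u : G) : 0 ≤ B.P ξ u := by
  have h := B.h_lip ξ u 1
  rw [B.h_one, mul_one, B.len_inv] at h
  linarith [B.h_eq ξ u]

theorem P_le (ξ : X) (u : G) : B.P ξ u ≤ B.len u := by
  have h := B.h_lip ξ 1 u
  rw [B.h_one, inv_one, one_mul] at h
  linarith [B.h_eq ξ u]

theorem P_ray (ξ : X) (n : ℕ) : B.P ξ (B.ray ξ n) = n := by
  have h := B.h_eq ξ (B.ray ξ n)
  rw [B.ray_h, B.ray_len] at h
  linarith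

theorem P_lip (ξ : X) (u v : G) :
    |B.P ξ u - B.P ξ v - ((B.len u : ℝ) - B.len v) / 2| ≤ B.d u v / 2 := by
  have h1 : B.h ξ u - B.h ξ v ≤ B.d u v := B.h_lip ξ u v
  have h2 : B.h ξ v - B.h ξ u ≤ B.d v u := B.h_lip ξ v u
  rw [B.d_comm v u] at h2
  rw [abs_le]
  constructor <;> linarith [B.h_eq ξ u, B.h_eq ξ v]

theorem len_tr (p u : G) : (B.len (p⁻¹ * u) : ℝ) = B.len u + B.len p - 2 * B.gp u p := by
  have h : (B.len (p⁻¹ * u) : ℝ) = B.d p u := rfl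
  linarith [B.d_eq u p, B.d_comm u p]

theorem gp_tr (p u v : G) :
    B.gp (p⁻¹ * u) (p⁻¹ * v) = B.gp u v + B.len p - B.gp u p - B.gp v p := by
  linarith [B.d_eq (p⁻¹ * u) (p⁻¹ * v), B.d_mul p⁻¹ u v, B.d_eq u v, B.len_tr p u, B.len_tr p v]

theorem P_tr (g : G) (ξ : X) (u : G) :
    |B.P (g⁻¹ • ξ) (g⁻¹ * u) - (B.P ξ u + B.len g - B.gp g u - B.P ξ g)| ≤ B.δ := by
  have h := abs_le.1 (B.H4 g⁻¹ ξ u g)
  rw [inv_mul_cancel, B.h_one] at h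
  rw [abs_le]
  constructor <;> linarith [h.1, h.2, B.h_eq (g⁻¹ • ξ) (g⁻¹ * u), B.h_eq ξ u, B.h_eq ξ g,
    B.len_tr g u, B.gp_comm g u, B.δ_ge]

theorem P_inv (u : G) (ξ : X) : |B.P (u⁻¹ • ξ) u⁻¹ - (B.len u - B.P ξ u)| ≤ B.δ := by
  have h := B.P_tr u ξ 1
  have h1 := B.P_le ξ 1
  have h2 := B.gp_le 1 u
  rw [B.len_one, Nat.cast_zero] at h1 h2
  rw [mul_one, B.gp_comm, le_antisymm h1 (B.P_nonneg ξ 1), le_antisymm h2 (B.gp_nonneg 1 u)] at h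
  simpa only [zero_add, sub_zero] using h

theorem P_smul (g : G) (ξ : X) (u : G) : B.P ξ u - B.len g - B.δ ≤ B.P (g • ξ) (g * u) := by
  have h := abs_le.1 (B.P_tr g⁻¹ ξ u)
  have h1 := B.P_le ξ g⁻¹
  have h2 := B.gp_le g⁻¹ u
  rw [inv_inv] at h
  rw [B.len_inv] at h h1 h2
  linarith [h.1]

theorem h_coc (g : G) (x : X) : |B.h (g • x) g + B.h x g⁻¹| ≤ B.δ := by
  have h := B.H4 g x 1 g⁻¹
  rw [mul_one, mul_inv_cancel, B.h_one, B.h_one] at h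
  simpa only [sub_zero, zero_sub, sub_neg_eq_add] using h

theorem near_refl (R : ℝ) (ξ : X) : B.Near R ξ ξ := by
  have h : R ≤ B.P ξ (B.ray ξ ⌈R⌉₊) := by
    rw [B.P_ray]
    exact Nat.le_ceil R
  exact ⟨_, h, h⟩

theorem near_zero (ξ η : X) : B.Near 0 ξ η := by
  exact ⟨1, B.P_nonneg _ _, B.P_nonneg _ _⟩

variable {B} in
theorem Near.symm {R : ℝ} {ξ η : X} (h : B.Near R ξ η) : B.Near R η ξ := by
  obtain ⟨u, h1, h2⟩ := h
  exact ⟨u, h2, h1⟩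

variable {B} in
theorem Near.mono {R R' : ℝ} {ξ η : X} (h : B.Near R ξ η) (hR : R' ≤ R) : B.Near R' ξ η := by
  obtain ⟨u, h1, h2⟩ := h
  exact ⟨u, hR.trans h1, hR.trans h2⟩

variable {B} in
theorem Near.trans {a b : ℝ} {ξ η ζ : X} (h : B.Near a ξ η) (h' : B.Near b η ζ) :
    B.Near (min a b - 2 * B.δ) ξ ζ := by
  obtain ⟨u, h1, h2⟩ := h
  obtain ⟨v, h3, h4⟩ := h'
  have hδ := B.δ_ge
  have h5 := B.P_H1 η u v
  have h6 := B.P_H2 ξ u v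
  have h7 := min_le_min h2 h3
  have h8 : min a b - B.δ ≤ min (B.P ξ u) (B.gp u v) :=
    le_min (by linarith [min_le_left a b]) (by linarith)
  exact ⟨v, by linarith, by linarith [min_le_right a b]⟩

variable {B} in
theorem Near.P_ge {R : ℝ} {ξ η : X} (h : B.Near R ξ η) (u : G) :
    min R (B.P ξ u) - 2 * B.δ ≤ B.P η u := by
  obtain ⟨v, h1, h2⟩ := h
  have hδ := B.δ_ge
  have h5 := B.P_H1 ξ v u
  have h6 := B.P_H2 η v u
  have h7 := min_le_min_right (B.P ξ u) h1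
  have h8 : min R (B.P ξ u) - B.δ ≤ min (B.P η v) (B.gp v u) :=
    le_min (by linarith [min_le_left R (B.P ξ u)]) (by linarith)
  linarith

variable {B} in
theorem Near.smul {R : ℝ} {ξ η : X} (h : B.Near R ξ η) (g : G) :
    B.Near (R - B.len g - B.δ) (g • ξ) (g • η) := by
  obtain ⟨u, h1, h2⟩ := h
  exact ⟨g * u, by linarith [B.P_smul g ξ u], by linarith [B.P_smul g η u]⟩

variable {B} in
theorem Near.coc {R : ℝ} {x a : X} (h : B.Near R x a) (g : G) (hR : B.P x g⁻¹ + 3 * B.δ ≤ R) :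
    B.Near (R + B.h x g⁻¹ - 5 * B.δ) (g • x) (g • a) := by
  obtain ⟨u, h1, h2⟩ := h
  have hδ := B.δ_ge
  have h3 := (abs_le.1 (B.P_tr g⁻¹ x u)).1
  have h4 := (abs_le.1 (B.P_tr g⁻¹ a u)).1
  rw [inv_inv] at h3 h4
  have h5 := B.P_H2 x u g⁻¹
  have h6 := B.P_H1 a u g⁻¹
  have h7 : B.gp u g⁻¹ ≤ B.P x g⁻¹ + B.δ := by
    rcases min_cases (B.P x u) (B.gp u g⁻¹) with h | h <;> linarith [h.1]
  have h8 : B.P a g⁻¹ ≤ B.P x g⁻¹ + 2 * B.δ := by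
    rcases min_cases (B.P a u) (B.P a g⁻¹) with h | h <;> linarith [h.1, h.2]
  have h9 := B.h_eq x g⁻¹
  have h10 := B.gp_comm u g⁻¹
  exact ⟨g * u, by linarith, by linarith⟩

theorem near_dist {ε : ℝ} (hε : 0 < ε) : ∃ R : ℝ, ∀ ξ η, B.Near R ξ η → dist ξ η < ε := by
  obtain ⟨R, hR⟩ := B.T1 ε hε
  exact ⟨R, fun ξ η ⟨u, h1, h2⟩ => hR ξ η u h1 h2⟩

theorem dist_near (R : ℝ) : ∃ ε : ℝ, 0 < ε ∧ ∀ ξ η, dist ξ η < ε → B.Near R ξ η := by
  obtain ⟨ε, hε, h⟩ := B.T2 (R + B.δ)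
  refine ⟨ε, hε, fun ξ η hd => ?_⟩
  have h1 : R + B.δ ≤ B.P ξ (B.ray ξ ⌈R + B.δ⌉₊) := by
    rw [B.P_ray]
    exact Nat.le_ceil _
  have h2 : min (B.P ξ (B.ray ξ ⌈R + B.δ⌉₊)) (R + B.δ) - B.δ ≤ B.P η (B.ray ξ ⌈R + B.δ⌉₊) :=
    h ξ η hd _
  rw [min_eq_right h1] at h2
  exact ⟨_, by linarith [B.δ_ge], by linarith⟩

theorem dist_P (R : ℝ) : ∃ ε : ℝ, 0 < ε ∧ ∀ ξ η, dist ξ η < ε → ∀ u,
    min (B.P ξ u) R - B.δ ≤ B.P η u := by
  exact B.T2 R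

theorem not_near {ξ η : X} (h : ξ ≠ η) : ∃ R : ℝ, ¬ B.Near R ξ η := by
  obtain ⟨R, hR⟩ := B.near_dist (dist_pos.2 h)
  exact ⟨R, fun hh => lt_irrefl _ (hR _ _ hh)⟩

theorem mem_lev {n : ℕ} {u : G} : u ∈ B.lev n ↔ B.len u = n := by
  rw [lev, Finset.mem_filter, B.mem_ball]
  exact ⟨fun h => h.2, fun h => ⟨h.le, h⟩⟩

theorem card_lev (n : ℕ) : (B.lev n).card ≤ B.D ^ n := by
  exact (Finset.card_filter_le _ _).trans (B.card_ball n)

theorem card_near (a : G) (r : ℕ) (s : Finset G) (h : ∀ x ∈ s, B.d a x ≤ r) :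
    s.card ≤ B.D ^ r := by
  refine le_trans (Finset.card_le_card_of_injOn (fun x => a⁻¹ * x) (fun x hx => ?_)
    fun x _ y _ hxy => mul_left_cancel hxy) (B.card_ball r)
  have h1 : (B.len (a⁻¹ * x) : ℝ) ≤ r := h x hx
  exact Finset.mem_coe.2 ((B.mem_ball r _).2 (by exact_mod_cast h1))

theorem countable (B : BD G X) : Countable G := by
  refine countable_univ_iff.1 ((countable_iUnion fun r => (B.ball r).countable_toSet).mono
    fun a _ => mem_iUnion.2 ⟨B.len a, ?_⟩)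
  exact Finset.mem_coe.2 ((B.mem_ball _ a).2 le_rfl)

theorem mac_smul (R : ℝ) (Γ : Set X) (g q : G) :
    B.Mac R ((fun ξ => g • ξ) '' Γ) (g * q) ↔ B.Mac R Γ q := by
  have e : ∀ ξ : X, (g * q)⁻¹ • g • ξ = q⁻¹ • ξ := fun ξ => by
    rw [mul_inv_rev, mul_smul, inv_smul_smul]
  constructor
  · rintro ⟨_, ⟨ξ, hξ, rfl⟩, _, ⟨η, hη, rfl⟩, h⟩
    rw [e, e] at h
    exact ⟨ξ, hξ, η, hη, h⟩
  · rintro ⟨ξ, hξ, η, hη, h⟩
    refine ⟨_, mem_image_of_mem _ hξ, _, mem_image_of_mem _ hη, ?_⟩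
    rwa [e, e]

theorem mid {Γ : Set X} (hΓ : IsPreconnected Γ) {x b : X} (hx : x ∈ Γ) (hb : b ∈ Γ) {R : ℝ}
    (h : ¬ B.Near R x b) : ∃ ζ ∈ Γ, ¬ B.Near R x ζ ∧ B.Near (R - 2 * B.δ) x ζ := by
  by_contra hcon
  have h1 : ∀ ζ ∈ Γ, B.Near (R - 2 * B.δ) x ζ → B.Near R x ζ := fun ζ hζ h2 =>
    by_contra fun h3 => hcon ⟨ζ, hζ, h3, h2⟩
  obtain ⟨ε, hε, h2⟩ := B.dist_P R
  have hδ := B.δ_ge
  have h3 : ∀ ζ ζ', ζ' ∈ Γ → dist ζ ζ' < ε → B.Near R x ζ → B.Near R x ζ' := by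
    rintro ζ ζ' hζ' hd ⟨u, h4, h5⟩
    have h6 := h2 ζ ζ' hd u
    rw [min_eq_right h5] at h6
    exact h1 ζ' hζ' ⟨u, by linarith, by linarith⟩
  refine h (hΓ.induction₂' (fun y z => B.Near R x y → B.Near R x z) (fun y hy => ?_)
    (fun _ _ _ _ _ _ h4 h5 h6 => h5 (h4 h6)) hx hb (B.near_refl R x))
  filter_upwards [self_mem_nhdsWithin, mem_nhdsWithin_of_mem_nhds (ball_mem_nhds y hε)]
    with z hz hz'
  exact ⟨h3 y z hz (mem_ball'.1 hz'), h3 z y hy (Metric.mem_ball.1 hz')⟩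

end BD

end Vale.Agent.P198
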