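import Vale.Agent.P198.Rays

/-! The action on the boundary sphere. -/

namespace Vale.Agent.P198

open Set Filter Topology Metric MeasureTheory
open scoped Classical

/-- the round sphere -/
abbrev Sph : Type := Metric.sphere (0 : EuclideanSpace ℝ (Fin 3)) 1

theorem sph_chart (ω : Sph) : ∃ e : ℝ × ℝ → Sph, IsOpenEmbedding e ∧ range e = {ω}ᶜ := by
  have : Fact (Module.finrank ℝ (EuclideanSpace ℝ (Fin 3)) = 2 + 1) := ⟨by simp⟩
  let φ := stereographic' 2 ω
  let ψ : (ℝ × ℝ) ≃L[ℝ] EuclideanSpace ℝ (Fin 2) := ContinuousLinearEquiv.ofFinrankEq (by simp)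
  have h1 : IsOpenEmbedding φ.symm :=
    φ.symm.isOpenEmbedding (by simp [φ])
  refine ⟨φ.symm ∘ ψ, h1.comp ψ.toHomeomorph.isOpenEmbedding, ?_⟩
  rw [ψ.surjective.range_comp, ← image_univ, ← stereographic'_target (n := 2) ω,
    ← stereographic'_source (n := 2) ω]
  exact φ.symm_image_target_eq_source

section
variable {G : Type*} [Group G] {S : Finset G}

/-- two sequences diverge together -/
def BDiv (S : Finset G) (x y : ℕ → G) : Prop :=
  Tendsto (fun N => gpr (wlen S) (x N) (y N)) atTop atTop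

theorem bd_comm (hS : Subgroup.closure (S : Set G) = ⊤) (a b : G) :
    gpr (wlen S) a b = gpr (wlen S) b a := by
  have : wlen S (a⁻¹ * b) = wlen S (b⁻¹ * a) := by
    rw [← wlen_inv hS, mul_inv_rev, inv_inv]
  simp only [gpr, this]
  ring

theorem bd_len (hS : Subgroup.closure (S : Set G) = ⊤) (g a : G) :
    (wlen S a : ℝ) - wlen S g ≤ wlen S (g * a) := by
  have := wlen_mul hS g⁻¹ (g * a)
  rw [inv_mul_cancel_left, wlen_inv hS] at this
  have : (wlen S a : ℝ) ≤ wlen S g + wlen S (g * a) := by exact_mod_cast this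
  linarith

theorem BDiv.symm (hS : Subgroup.closure (S : Set G) = ⊤) {x y : ℕ → G} (h : BDiv S x y) :
    BDiv S y x := by
  unfold BDiv at h ⊢
  simpa only [bd_comm hS (y _)] using h

theorem BDiv.trans {δ : ℕ} (h4 : Four S δ) {x y z : ℕ → G} (h : BDiv S x y) (h' : BDiv S y z) :
    BDiv S x z := by
  refine tendsto_atTop.2 fun R => ?_
  filter_upwards [h.eventually_ge_atTop (R + δ), h'.eventually_ge_atTop (R + δ)] with N a b
  have := h4 (x N) (y N) (z N)
  linarith [le_min a b]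

theorem BDiv.mul (hS : Subgroup.closure (S : Set G) = ⊤) {x y : ℕ → G} (h : BDiv S x y) (g : G) :
    BDiv S (fun N => g * x N) fun N => g * y N := by
  refine tendsto_atTop.2 fun R => ?_
  filter_upwards [h.eventually_ge_atTop (R + wlen S g)] with N a
  have e : (g * x N)⁻¹ * (g * y N) = (x N)⁻¹ * y N := by group
  simp only [gpr, e] at a ⊢
  linarith [bd_len hS g (x N), bd_len hS g (y N)]

theorem bd_ray (r : Ray S) {i N : ℕ} (h : i ≤ N) : gpr (wlen S) (r.1 i) (r.1 N) = i := by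
  have := r.2.2 i N h
  rw [wdist] at this
  rw [gpr, this, ray_len, ray_len, Nat.cast_sub h]
  ring

theorem bd_le (hS : Subgroup.closure (S : Set G) = ⊤) (a b : G) :
    gpr (wlen S) a b ≤ wlen S a := by
  have := bd_len hS a⁻¹ b
  rw [wlen_inv hS] at this
  simp only [gpr]
  linarith

theorem bd_open (p : G → G → Prop) (N : ℕ) :
    IsOpen {x : Ray S × Ray S | p (x.1.1 N) (x.2.1 N)} := by
  let : TopologicalSpace G := ⊥
  have : DiscreteTopology G := ⟨rfl⟩
  have hc : Continuous fun r : Ray S => r.1 N := (continuous_apply N).comp continuous_induced_dom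
  exact (isOpen_discrete {q : G × G | p q.1 q.2}).preimage
    ((hc.comp continuous_fst).prodMk (hc.comp continuous_snd))

variable {X : Type} [MetricSpace X]

theorem bd_T2 (hS : Subgroup.closure (S : Set G) = ⊤) {π : Ray S → X} (hπ : Continuous π)
    (hiff : ∀ r s, π r = π s ↔ BDiv S r.1 s.1) (R : ℝ) : ∃ ε : ℝ, 0 < ε ∧ ∀ r s,
      dist (π r) (π s) < ε → ∃ N, R ≤ gpr (wlen S) (r.1 N) (s.1 N) := by
  have := ray_compact hS
  have hW : IsOpen (⋃ N, {x : Ray S × Ray S | R ≤ gpr (wlen S) (x.1.1 N) (x.2.1 N)}) :=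
    isOpen_iUnion fun N => bd_open (fun a b => R ≤ gpr (wlen S) a b) N
  obtain ⟨ε, hε, h⟩ := hW.isClosed_compl.isCompact.exists_forall_le'
    (f := fun x : Ray S × Ray S => dist (π x.1) (π x.2))
    ((hπ.comp continuous_fst).dist (hπ.comp continuous_snd)).continuousOn (a := 0) (by
      intro x hx
      refine dist_pos.2 fun h => hx ?_
      obtain ⟨N, hN⟩ := (((hiff _ _).1 h).eventually_ge_atTop R).exists
      exact mem_iUnion.2 ⟨N, hN⟩)
  refine ⟨ε, hε, fun r s hrs => ?_⟩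
  by_contra hn
  exact absurd (h (r, s) fun hx => hn (mem_iUnion.1 hx)) (not_le.2 hrs)

theorem bd_T1 (hS : Subgroup.closure (S : Set G) = ⊤) {δ : ℕ} (h4 : Four S δ) {π : Ray S → X}
    (hπ : Continuous π) (hiff : ∀ r s, π r = π s ↔ BDiv S r.1 s.1) {ε : ℝ} (hε : 0 < ε) :
    ∃ R : ℝ, ∀ r s N, R ≤ gpr (wlen S) (r.1 N) (s.1 N) → dist (π r) (π s) < ε := by
  have := ray_compact hS
  have hD : IsCompact {x : Ray S × Ray S | ε ≤ dist (π x.1) (π x.2)} :=
    (isClosed_le continuous_const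
      ((hπ.comp continuous_fst).dist (hπ.comp continuous_snd))).isCompact
  obtain ⟨t, ht⟩ := hD.elim_finite_subcover
    (fun i : ℕ => {x : Ray S × Ray S | gpr (wlen S) (x.1.1 i) (x.2.1 i) < i - 2 * δ})
    (fun i => bd_open (fun a b => gpr (wlen S) a b < i - 2 * δ) i) (by
      intro x hx
      by_contra hn
      simp only [mem_iUnion, mem_ofPred_eq, not_exists, not_lt] at hn
      have : π x.1 = π x.2 := (hiff _ _).2 (tendsto_atTop_mono hn
        (tendsto_atTop_add_const_right _ (-(2 * δ : ℝ)) tendsto_natCast_atTop_atTop))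
      rw [mem_ofPred_eq, this, dist_self] at hx
      linarith)
  refine ⟨(t.sup id : ℕ), fun r s N hN => ?_⟩
  by_contra hn
  obtain ⟨i, hi, hlt⟩ := mem_iUnion₂.1 (ht (show (r, s) ∈ _ from not_lt.1 hn))
  have h1 : (i : ℝ) ≤ (t.sup id : ℕ) := by exact_mod_cast Finset.le_sup (f := id) hi
  have h2 : i ≤ N := by
    have := bd_le hS (r.1 N) (s.1 N)
    rw [ray_len] at this
    exact_mod_cast h1.trans (hN.trans this)
  have a1 := h4 (r.1 i) (r.1 N) (s.1 i)
  have a2 := h4 (r.1 N) (s.1 N) (s.1 i)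
  rw [bd_ray r h2] at a1
  rw [bd_comm hS (s.1 N), bd_ray s h2, min_eq_right (h1.trans hN)] at a2
  have hδ : (0 : ℝ) ≤ δ := Nat.cast_nonneg _
  have : (i : ℝ) - δ ≤ min (i : ℝ) (gpr (wlen S) (r.1 N) (s.1 i)) := le_min (by linarith) a2
  simp only [mem_ofPred_eq] at hlt
  linarith

end

theorem exists_BD {G : Type*} [Group G] {S : Finset G} (hS : Subgroup.closure (S : Set G) = ⊤)
    (hyp : IsHyperbolic S) (θ : Boundary S ≃ₜ Sph) :
    ∃ inst : MulAction G Sph, Nonempty (@BD G _ Sph _ inst) := by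
  obtain ⟨δ, h4⟩ : ∃ δ, Four S δ := four_point hS hyp
  obtain ⟨D, ball, hD, hball, hcard⟩ := exists_ball hS
  set π : Ray S → Sph := fun r => θ (Quot.mk (Asym S) r) with hπdef
  have hπ : Continuous π := θ.continuous.comp continuous_coinduced_rng
  have hiff : ∀ r s, π r = π s ↔ BDiv S r.1 s.1 := by
    intro r s
    refine θ.injective.eq_iff.trans (Iff.trans ?_ (asym_iff hS h4 r s))
    exact Quot.eq.trans (asym_equiv hS).eqvGen_iff
  have hsurj : ∀ ξ, ∃ r, π r = ξ := by
    intro ξ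
    obtain ⟨r, hr⟩ := Quot.exists_rep (θ.symm ξ)
    refine ⟨r, ?_⟩
    rw [← θ.apply_symm_apply ξ, ← hr]
  choose rep hrep using hsurj
  choose tr htr using exists_translate hS h4
  have htr' : ∀ g r, BDiv S (tr g r).1 fun N => g * r.1 N := htr
  have hchar : ∀ g r s, π s = π (tr g (rep (π r))) ↔ BDiv S s.1 fun N => g * r.1 N := by
    intro g r s
    have h1 := (htr' g (rep (π r))).trans h4 (((hiff _ _).1 (hrep (π r))).mul hS g)
    rw [hiff]
    exact ⟨fun h => h.trans h4 h1, fun h => h.trans h4 (h1.symm hS)⟩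
  let inst : MulAction G Sph :=
    { smul := fun g ξ => π (tr g (rep ξ))
      one_smul := fun ξ => by
        show π (tr 1 (rep ξ)) = ξ
        have := (hchar 1 (rep ξ) (rep ξ)).2 (by
          simpa only [one_mul] using (hiff _ _).1 (rfl : π (rep ξ) = _))
        rw [hrep] at this
        exact this.symm
      mul_smul := fun g h ξ => by
        show π (tr (g * h) (rep ξ)) = π (tr g (rep (π (tr h (rep ξ)))))
        refine (hchar g _ _).2 ((htr' _ _).trans h4 ?_)
        simpa only [mul_assoc] using ((htr' h (rep ξ)).mul hS g).symm hS }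
  have hδ : (0 : ℝ) ≤ δ := Nat.cast_nonneg _
  have hH4 : ∀ (g : G) (ξ : Sph) a b, |hor (rep (g • ξ)) (g * a) - hor (rep (g • ξ)) (g * b) -
      (hor (rep ξ) a - hor (rep ξ) b)| ≤ 2 * δ := by
    intro g ξ a b
    refine hor_H4 hS h4 ((hchar g (rep ξ) _).1 ?_) a b
    rw [hrep, hrep]
    rfl
  have hT1 : ∀ ε : ℝ, 0 < ε → ∃ R : ℝ, ∀ ξ η u, R ≤ ppr (wlen S) (hor (rep ξ)) u →
      R ≤ ppr (wlen S) (hor (rep η)) u → dist ξ η < ε := by
    intro ε hε
    obtain ⟨R, hR⟩ := bd_T1 hS h4 hπ hiff hε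
    refine ⟨R + δ, fun ξ η u a b => ?_⟩
    obtain ⟨N, h1, h2⟩ := ((ppr_ev hS (rep ξ) u).and (ppr_ev hS (rep η) u)).exists
    rw [← hrep ξ, ← hrep η]
    refine hR _ _ N ?_
    have := h4 ((rep ξ).1 N) u ((rep η).1 N)
    rw [bd_comm hS u, ← h1, ← h2] at this
    linarith [le_min a b]
  have hT2 : ∀ R : ℝ, ∃ ε : ℝ, 0 < ε ∧ ∀ ξ η, dist ξ η < ε → ∀ u,
      min (ppr (wlen S) (hor (rep ξ)) u) R - δ ≤ ppr (wlen S) (hor (rep η)) u := by
    intro R
    obtain ⟨ε, hε, h⟩ := bd_T2 hS hπ hiff R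
    refine ⟨ε, hε, fun ξ η hd u => ?_⟩
    obtain ⟨N0, hN0⟩ := h (rep ξ) (rep η) (by rwa [hrep, hrep])
    obtain ⟨N, ⟨h1, h2⟩, h3⟩ := (((ppr_ev hS (rep ξ) u).and (ppr_ev hS (rep η) u)).and
      (eventually_ge_atTop N0)).exists
    have h5 : R ≤ gpr (wlen S) ((rep ξ).1 N) ((rep η).1 N) :=
      hN0.trans (gpr_ray_mono hS _ _ h3)
    have := h4 ((rep η).1 N) ((rep ξ).1 N) u
    rw [bd_comm hS ((rep η).1 N), ← h1, ← h2, min_comm] at this
    linarith [min_le_min_left (ppr (wlen S) (hor (rep ξ)) u) h5]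
  have hsm : ∀ (g : G) (ξ : Sph) u, ppr (wlen S) (hor (rep ξ)) u - wlen S g - δ ≤
      ppr (wlen S) (hor (rep (g • ξ))) (g * u) := by
    intro g ξ u
    have h1 := (abs_le.1 (hH4 g ξ u g⁻¹)).2
    have h2 := hor_lip hS (rep ξ) 1 g⁻¹
    rw [mul_inv_cancel, hor_one hS] at h1
    rw [hor_one hS, inv_one, one_mul, wlen_inv hS] at h2
    simp only [ppr]
    linarith [bd_len hS g u]
  refine ⟨inst, ⟨{
    len := wlen S
    δ := 2 * δ + 1
    D := D
    ball := ball
    h := fun ξ => hor (rep ξ)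
    ray := fun ξ => (rep ξ).1
    one_le_δ := by omega
    two_le_D := hD
    len_one := wlen_one
    len_inv := wlen_inv hS
    len_mul := wlen_mul hS
    mem_ball := hball
    card_ball := hcard
    four := fun a b c => by
      have := h4 a b c
      push_cast
      linarith
    h_one := fun ξ => hor_one hS _
    h_lip := fun ξ => hor_lip hS _
    H1 := fun ξ a b => by
      have := hor_H1 hS h4 (rep ξ) a b
      push_cast
      linarith
    H2 := fun ξ a b => by
      have := hor_H2 hS h4 (rep ξ) a b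
      push_cast
      linarith
    H4 := fun g ξ a b => by
      have := hH4 g ξ a b
      push_cast
      linarith
    ray_len := fun ξ => ray_len _
    ray_h := fun ξ => hor_ray hS _
    T1 := hT1
    T2 := fun R => by
      obtain ⟨ε, hε, h⟩ := hT2 R
      refine ⟨ε, hε, fun ξ η hd u => ?_⟩
      have := h ξ η hd u
      push_cast
      linarith
    cont := fun g => ?_
    sph := sph_chart
    cpt := isCompact_univ }⟩⟩
  refine Metric.continuous_iff.2 fun ξ ε hε => ?_
  obtain ⟨R, hR⟩ := hT1 ε hε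
  obtain ⟨m, hm⟩ := exists_nat_ge (R + wlen S g + 2 * δ)
  obtain ⟨ε', hε', h⟩ := hT2 m
  refine ⟨ε', hε', fun η hd => ?_⟩
  have h1 : ppr (wlen S) (hor (rep ξ)) ((rep ξ).1 m) = m := by
    rw [ppr, ray_len, hor_ray hS]
    ring
  have h2 := h ξ η (by rwa [dist_comm]) ((rep ξ).1 m)
  rw [h1, min_self] at h2
  exact hR _ _ (g * (rep ξ).1 m) (by linarith [hsm g η ((rep ξ).1 m)])
    (by linarith [hsm g ξ ((rep ξ).1 m)])

end Vale.Agent.P198
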