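import Vale.Agent.P198.Ulim

/-! Abstract ultrafilter limit of approximate charts of a compact space minus a point. -/

namespace Vale.Agent.P198

open Set Filter Topology Metric MeasureTheory
open scoped Classical

theorem bA_limit {X : Type} [MetricSpace X] [CompactSpace X] (U : Ultrafilter ℕ) (b : X)
    (fi : ℕ → X → ℂ) (gi : ℕ → ℂ → X)
    (hbdd : ∀ ε : ℝ, 0 < ε → ∃ ρ : ℝ, ∀ᶠ i in (U : Filter ℕ), ∀ ζ, ε ≤ dist ζ b →
      gi i (fi i ζ) = ζ ∧ ‖fi i ζ‖ ≤ ρ)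
    (hequi : ∀ ε : ℝ, 0 < ε → ∀ κ : ℝ, 0 < κ → ∃ r : ℝ, 0 < r ∧ ∀ᶠ i in (U : Filter ℕ), ∀ ζ ζ',
      ε ≤ dist ζ b → ε ≤ dist ζ' b → dist ζ ζ' < r → ‖fi i ζ - fi i ζ'‖ ≤ κ)
    (hinj : ∀ ε : ℝ, 0 < ε → ∃ κ : ℝ, 0 < κ ∧ ∀ᶠ i in (U : Filter ℕ), ∀ ζ ζ',
      ε ≤ dist ζ b → ε ≤ dist ζ' b → ε ≤ dist ζ ζ' → κ ≤ ‖fi i ζ - fi i ζ'‖)
    (hprop : ∀ ρ : ℝ, ∃ ε : ℝ, 0 < ε ∧ ∀ᶠ i in (U : Filter ℕ), ∀ w : ℂ, ‖w‖ ≤ ρ →
      fi i (gi i w) = w ∧ ε ≤ dist (gi i w) b) :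
    ∃ (F : X ≃ₜ OnePoint ℂ) (f : X → ℂ), F b = OnePoint.infty ∧
      (∀ ζ, ζ ≠ b → F ζ = (f ζ : ℂ)) ∧
      (∀ ε : ℝ, 0 < ε → ContinuousOn f {ζ | ε ≤ dist ζ b} ∧
        TendstoUniformlyOn fi f U {ζ | ε ≤ dist ζ b}) ∧
      ∀ ρ : ℝ, TendstoUniformlyOn gi (fun w => F.symm (w : OnePoint ℂ)) U (closedBall 0 ρ) := by
  have hex : ∀ ζ, ∃ c : ℂ, ζ ≠ b → Tendsto (fun i => fi i ζ) U (𝓝 c) := by
    intro ζ
    by_cases h : ζ = b
    · exact ⟨0, fun h' => (h' h).elim⟩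
    obtain ⟨ρ, hρ⟩ := hbdd (dist ζ b) (dist_pos.2 h)
    obtain ⟨c, -, hc⟩ := (isCompact_closedBall (0 : ℂ) ρ).ultrafilter_le_nhds
      (U.map fun i => fi i ζ) (by
        rw [le_principal_iff, Ultrafilter.coe_map, mem_map]
        filter_upwards [hρ] with i hi
        exact mem_closedBall_zero_iff.2 (hi ζ le_rfl).2)
    exact ⟨c, fun _ => hc⟩
  choose f hf using hex
  have hne : ∀ {ε : ℝ} {ζ : X}, 0 < ε → ε ≤ dist ζ b → ζ ≠ b := fun hε h =>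
    dist_pos.1 (hε.trans_le h)
  have hcl : ∀ ε : ℝ, IsClosed {ζ | ε ≤ dist ζ b} := fun ε =>
    isClosed_le continuous_const (by fun_prop)
  have hun : ∀ ε : ℝ, 0 < ε → ContinuousOn f {ζ | ε ≤ dist ζ b} ∧
      TendstoUniformlyOn fi f U {ζ | ε ≤ dist ζ b} := by
    intro ε hε
    refine ulim_unif (hcl ε).isCompact U (fun y hy => hf y (hne hε hy)) fun κ hκ => ?_
    obtain ⟨r, hr, h⟩ := hequi ε hε κ hκ
    refine ⟨r, hr, h.mono fun i hi x hx y hy hxy => ?_⟩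
    rw [dist_eq_norm]
    exact hi x y hx hy hxy
  have hinj' : ∀ ε : ℝ, 0 < ε → ∃ κ : ℝ, 0 < κ ∧ ∀ ζ ζ',
      ε ≤ dist ζ b → ε ≤ dist ζ' b → ε ≤ dist ζ ζ' → κ ≤ ‖f ζ - f ζ'‖ := by
    intro ε hε
    obtain ⟨κ, hκ, h⟩ := hinj ε hε
    refine ⟨κ, hκ, fun ζ ζ' h1 h2 h3 => ?_⟩
    exact ge_of_tendsto (((hf ζ (hne hε h1)).sub (hf ζ' (hne hε h2))).norm)
      (h.mono fun i hi => hi ζ ζ' h1 h2 h3)
  have hsurj : ∀ w : ℂ, ∃ ζ, ζ ≠ b ∧ f ζ = w := by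
    intro w
    obtain ⟨ε, hε, h⟩ := hprop ‖w‖
    obtain ⟨ζ, hζ, hc⟩ := (hcl ε).isCompact.ultrafilter_le_nhds (U.map fun i => gi i w) (by
      rw [le_principal_iff, Ultrafilter.coe_map, mem_map]
      filter_upwards [h] with i hi
      exact (hi w le_rfl).2)
    refine ⟨ζ, hne hε hζ, ?_⟩
    have ht : Tendsto (fun i => gi i w) U (𝓝[{ζ | ε ≤ dist ζ b}] ζ) :=
      tendsto_nhdsWithin_iff.2 ⟨hc, h.mono fun i hi => (hi w le_rfl).2⟩
    have h2 := (hun ε hε).2.tendsto_comp ((hun ε hε).1 ζ hζ) ht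
    have h3 : Tendsto (fun i => fi i (gi i w)) U (𝓝 w) :=
      tendsto_const_nhds.congr' (h.mono fun i hi => (hi w le_rfl).1.symm)
    exact tendsto_nhds_unique h2 h3
  have hprop' : ∀ ρ : ℝ, ∃ ε : ℝ, 0 < ε ∧ ∀ ζ, ζ ≠ b → ‖f ζ‖ < ρ → ε ≤ dist ζ b := by
    intro ρ
    obtain ⟨ε, hε, h⟩ := hprop ρ
    refine ⟨ε, hε, fun ζ hζ hlt => ?_⟩
    obtain ⟨ρ', hρ'⟩ := hbdd (dist ζ b) (dist_pos.2 hζ)
    have h1 : ∀ᶠ i in (U : Filter ℕ), ‖fi i ζ‖ < ρ := (hf ζ hζ).norm.eventually (gt_mem_nhds hlt)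
    obtain ⟨i, hi1, hi2, hi3⟩ := (h.and (hρ'.and h1)).exists
    have := (hi1 _ hi3.le).2
    rwa [(hi2 ζ le_rfl).1] at this
  set F0 : X → OnePoint ℂ := fun ζ => if ζ = b then OnePoint.infty else (f ζ : ℂ) with hF0
  have hFb : F0 b = OnePoint.infty := by simp [hF0]
  have hFne : ∀ ζ, ζ ≠ b → F0 ζ = (f ζ : ℂ) := fun ζ h => by simp [hF0, h]
  have hbij : Function.Bijective F0 := by
    constructor
    · intro ζ ζ' h
      by_cases h1 : ζ = b <;> by_cases h2 : ζ' = b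
      · rw [h1, h2]
      · rw [h1, hFb, hFne ζ' h2] at h
        exact absurd h (OnePoint.infty_ne_coe _)
      · rw [h2, hFb, hFne ζ h1] at h
        exact absurd h (OnePoint.coe_ne_infty _)
      · rw [hFne ζ h1, hFne ζ' h2, OnePoint.coe_eq_coe] at h
        by_contra h3
        obtain ⟨κ, hκ, hk⟩ := hinj' (min (dist ζ b) (min (dist ζ' b) (dist ζ ζ')))
          (lt_min (dist_pos.2 h1) (lt_min (dist_pos.2 h2) (dist_pos.2 h3)))
        have := hk ζ ζ' (min_le_left _ _) ((min_le_right _ _).trans (min_le_left _ _))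
          ((min_le_right _ _).trans (min_le_right _ _))
        rw [h, sub_self, norm_zero] at this
        exact absurd this (not_le.2 hκ)
    · intro y
      induction y using OnePoint.rec with
      | infty => exact ⟨b, hFb⟩
      | coe w =>
        obtain ⟨ζ, h1, h2⟩ := hsurj w
        exact ⟨ζ, by rw [hFne ζ h1, h2]⟩
  have hcont : Continuous F0 := by
    rw [continuous_iff_continuousAt]
    intro ζ
    by_cases h : ζ = b
    · rw [h, ContinuousAt, hFb, OnePoint.hasBasis_nhds_infty.tendsto_right_iff]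
      rintro s ⟨-, hs⟩
      obtain ⟨ρ, hρ⟩ := hs.isBounded.subset_ball (0 : ℂ)
      obtain ⟨ε, hε, h1⟩ := hprop' ρ
      filter_upwards [ball_mem_nhds b hε] with x hx
      by_cases h2 : x = b
      · exact Or.inr (by rw [h2, hFb]; rfl)
      · refine Or.inl ⟨f x, fun h3 => ?_, (hFne x h2).symm⟩
        exact absurd (h1 x h2 (mem_ball_zero_iff.1 (hρ h3))) (not_le.2 (mem_ball.1 hx))
    · have hd : 0 < dist ζ b / 2 := half_pos (dist_pos.2 h)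
      have hS : {x | dist ζ b / 2 ≤ dist x b} ∈ 𝓝 ζ := by
        have : Continuous fun x : X => dist x b := by fun_prop
        exact this.continuousAt.eventually (le_mem_nhds (half_lt_self (dist_pos.2 h)))
      have h1 : ContinuousAt (fun x => ((f x : ℂ) : OnePoint ℂ)) ζ :=
        OnePoint.continuous_coe.continuousAt.comp ((hun _ hd).1.continuousAt hS)
      refine h1.congr ?_
      filter_upwards [hS] with x hx
      exact (hFne x (hne hd hx)).symm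
  let F : X ≃ₜ OnePoint ℂ :=
    Continuous.homeoOfEquivCompactToT2 (f := Equiv.ofBijective F0 hbij) hcont
  have hF : ∀ ζ, F ζ = F0 ζ := fun _ => rfl
  refine ⟨F, f, hFb, hFne, hun, fun ρ => ?_⟩
  rw [Metric.tendstoUniformlyOn_iff]
  intro η hη
  obtain ⟨ε, hε, h1⟩ := hprop ρ
  obtain ⟨ε', hε', h2⟩ := hprop' (ρ + 1)
  have he : 0 < min η (min ε ε') := lt_min hη (lt_min hε hε')
  obtain ⟨κ, hκ, h3⟩ := hinj' _ he
  have h4 := Metric.tendstoUniformlyOn_iff.1 (hun _ he).2 κ hκ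
  filter_upwards [h1, h4] with i hi1 hi4 w hw
  have hw' := mem_closedBall_zero_iff.1 hw
  obtain ⟨ζ, hζ1, hζ2⟩ := hsurj w
  have hζ3 : F.symm (w : OnePoint ℂ) = ζ := by
    rw [Homeomorph.symm_apply_eq, hF, hFne ζ hζ1, hζ2]
  rw [hζ3]
  have a1 : min η (min ε ε') ≤ dist ζ b :=
    ((min_le_right _ _).trans (min_le_right _ _)).trans (h2 ζ hζ1 (by rw [hζ2]; linarith))
  have a2 : min η (min ε ε') ≤ dist (gi i w) b :=
    ((min_le_right _ _).trans (min_le_left _ _)).trans (hi1 w hw').2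
  have a3 := hi4 _ a2
  rw [(hi1 w hw').1, dist_comm, dist_eq_norm, ← hζ2] at a3
  by_contra hc
  have a4 := h3 ζ (gi i w) a1 a2 ((min_le_left _ _).trans (not_lt.1 hc))
  rw [hζ2] at a3 a4
  exact absurd a4 (not_le.2 a3)

end Vale.Agent.P198
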