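import Vale.Agent.P198.Defs

/-! Uniform convergence along an ultrafilter. -/

namespace Vale.Agent.P198

open Set Filter Topology Metric MeasureTheory
open scoped Classical

theorem ulim_unif {Y Z : Type*} [MetricSpace Y] [MetricSpace Z] {F : ℕ → Y → Z} {s : Set Y}
    (hs : IsCompact s) (U : Ultrafilter ℕ) {f : Y → Z}
    (hp : ∀ y ∈ s, Tendsto (fun n => F n y) U (𝓝 (f y)))
    (he : ∀ ε : ℝ, 0 < ε → ∃ r : ℝ, 0 < r ∧ ∀ᶠ n in (U : Filter ℕ), ∀ x ∈ s, ∀ y ∈ s,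
      dist x y < r → dist (F n x) (F n y) ≤ ε) :
    ContinuousOn f s ∧ TendstoUniformlyOn F f U s := by
  have hf : ∀ ε : ℝ, 0 < ε → ∃ r : ℝ, 0 < r ∧ (∀ᶠ n in (U : Filter ℕ), ∀ x ∈ s, ∀ y ∈ s,
      dist x y < r → dist (F n x) (F n y) ≤ ε) ∧
      ∀ x ∈ s, ∀ y ∈ s, dist x y < r → dist (f x) (f y) ≤ ε := by
    intro ε hε
    obtain ⟨r, hr, h⟩ := he ε hε
    refine ⟨r, hr, h, fun x hx y hy hxy => ?_⟩
    exact le_of_tendsto ((hp x hx).dist (hp y hy)) (h.mono fun n hn => hn x hx y hy hxy)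
  constructor
  · rw [Metric.continuousOn_iff]
    intro x hx ε hε
    obtain ⟨r, hr, -, h⟩ := hf (ε / 2) (half_pos hε)
    exact ⟨r, hr, fun y hy hxy => (h y hy x hx hxy).trans_lt (half_lt_self hε)⟩
  · rw [Metric.tendstoUniformlyOn_iff]
    intro ε hε
    obtain ⟨r, hr, h1, h2⟩ := hf (ε / 4) (by positivity)
    obtain ⟨t, hts, ht, hcov⟩ := finite_cover_balls_of_compact hs hr
    have h3 : ∀ᶠ n in (U : Filter ℕ), ∀ x ∈ t, dist (F n x) (f x) < ε / 4 :=
      (ht.eventually_all).2 fun x hx =>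
        (Metric.tendsto_nhds.1 (hp x (hts hx))) _ (by positivity)
    filter_upwards [h1, h3] with n hn1 hn3 y hy
    obtain ⟨x, hx, hyx⟩ := mem_iUnion₂.1 (hcov hy)
    have hyx' : dist y x < r := hyx
    have a1 := h2 y hy x (hts hx) hyx'
    have a2 := hn1 y hy x (hts hx) hyx'
    have a3 := hn3 x hx
    have a4 := dist_triangle4 (f y) (f x) (F n x) (F n y)
    rw [dist_comm (f x) (F n x), dist_comm (F n x) (F n y)] at a4
    linarith

end Vale.Agent.P198
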