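import Vale.Agent.P198.BlowA
import Vale.Agent.P198.Ulim
import Vale.Agent.P198.BlowAux

/-! The blow-up limit is a homeomorphism onto the Riemann sphere. -/

namespace Vale.Agent.P198

open Set Filter Topology Metric MeasureTheory
open scoped Classical

variable {G : Type*} [Group G] {X : Type} [MetricSpace X] [MulAction G X]

theorem QSC.blow {B : BD G X} (Q : QSC B) {z0 : ℂ} (hz : z0 ∈ ball (0 : ℂ) 1) (A : ℂ ≃L[ℝ] ℂ) :
    ∃ (F : X ≃ₜ OnePoint ℂ) (s : ℕ → ℝ) (p : ℕ → G), (∀ i, 0 < s i) ∧ Tendsto s atTop (𝓝 0) ∧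
      ∀ (g : G) (C : Set ℂ), IsCompact C →
        (∀ w ∈ C, F (g • F.symm (w : OnePoint ℂ)) ≠ OnePoint.infty) →
        (∀ᶠ i in (hyperfilter ℕ : Filter ℕ), ∀ w ∈ C,
          dn A z0 (s i) w ∈ Q.W (p i * g * (p i)⁻¹)) ∧
        ∃ k : ℂ → ℂ, ContinuousOn k C ∧ (∀ w ∈ C, F (g • F.symm (w : OnePoint ℂ)) = (k w : ℂ)) ∧
          TendstoUniformlyOn
            (fun i w => up A z0 (s i) (Q.ψ (p i * g * (p i)⁻¹) (dn A z0 (s i) w))) k
            (hyperfilter ℕ : Filter ℕ) C := by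
  obtain ⟨D⟩ := Q.exists_blowData hz A
  have : CompactSpace X := ⟨B.cpt⟩
  have hU : (hyperfilter ℕ : Filter ℕ) ≤ atTop := Nat.hyperfilter_le_atTop
  obtain ⟨b, -, hb⟩ := B.cpt.ultrafilter_le_nhds ((hyperfilter ℕ).map D.ω) (by simp)
  have hb' : ∀ ε : ℝ, 0 < ε → ∀ᶠ i in (hyperfilter ℕ : Filter ℕ), dist (D.ω i) b < ε :=
    fun ε hε => Metric.tendsto_nhds.1 hb ε hε
  have hto : ∀ {ε : ℝ} {ζ x y : X}, dist x y < ε / 2 → ε ≤ dist ζ y → ε / 2 ≤ dist ζ x := by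
    intro ε ζ x y h1 h2
    linarith [dist_triangle ζ x y]
  set fi : ℕ → X → ℂ := fun i ζ => up A z0 (D.s i) (Q.φ (D.p i • ζ)) with hfi
  set gi : ℕ → ℂ → X := fun i w => (D.p i)⁻¹ • Q.ι (dn A z0 (D.s i) w) with hgi
  have hbdd : ∀ ε : ℝ, 0 < ε → ∃ ρ : ℝ, ∀ᶠ i in (hyperfilter ℕ : Filter ℕ), ∀ ζ, ε ≤ dist ζ b →
      D.p i • ζ ∈ Q.ι '' ball 0 1 ∧ ‖fi i ζ‖ ≤ ρ := by
    intro ε hε
    obtain ⟨ρ, hρ⟩ := D.bdd (ε / 2) (half_pos hε)
    refine ⟨ρ, ?_⟩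
    filter_upwards [hU hρ, hb' _ (half_pos hε)] with i h1 h2 ζ hζ
    exact h1 ζ (hto h2 hζ)
  have hprop : ∀ ρ : ℝ, ∃ ε : ℝ, 0 < ε ∧ ∀ᶠ i in (hyperfilter ℕ : Filter ℕ), ∀ w : ℂ, ‖w‖ ≤ ρ →
      dn A z0 (D.s i) w ∈ ball (0 : ℂ) 1 ∧ ε ≤ dist (gi i w) b := by
    intro ρ
    obtain ⟨ε, hε, h⟩ := D.prop ρ
    refine ⟨ε / 2, half_pos hε, ?_⟩
    filter_upwards [hU h, hb' _ (half_pos hε)] with i h1 h2 w hw
    exact ⟨(h1 w hw).1, hto (by rwa [dist_comm]) (h1 w hw).2⟩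
  obtain ⟨F, f, hFb, hFne, hun, hg⟩ := bA_limit (hyperfilter ℕ) b fi gi
    (by
      intro ε hε
      obtain ⟨ρ, hρ⟩ := hbdd ε hε
      refine ⟨ρ, hρ.mono fun i hi ζ hζ => ⟨?_, (hi ζ hζ).2⟩⟩
      obtain ⟨z, hz1, hz2⟩ := (hi ζ hζ).1
      simp only [hfi, hgi]
      rw [dn_up A z0 (D.s_pos i), ← hz2, Q.linv z (ball_subset_closedBall hz1), hz2,
        inv_smul_smul])
    (by
      intro ε hε κ hκ
      obtain ⟨r, hr, h⟩ := D.equi (ε / 2) (half_pos hε) κ hκ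
      refine ⟨r, hr, ?_⟩
      filter_upwards [hU h, hb' _ (half_pos hε)] with i h1 h2 ζ ζ' a1 a2 a3
      exact h1 ζ ζ' (hto h2 a1) (hto h2 a2) a3)
    (by
      intro ε hε
      obtain ⟨κ, hκ, h⟩ := D.inj (ε / 2) (half_pos hε)
      refine ⟨κ, hκ, ?_⟩
      filter_upwards [hU h, hb' _ (half_pos hε)] with i h1 h2 ζ ζ' a1 a2 a3
      exact h1 ζ ζ' (hto h2 a1) (hto h2 a2) (by linarith))
    (by
      intro ρ
      obtain ⟨ε, hε, h⟩ := hprop ρ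
      refine ⟨ε, hε, h.mono fun i hi w hw => ⟨?_, (hi w hw).2⟩⟩
      simp only [hfi, hgi]
      rw [smul_inv_smul, Q.linv _ (ball_subset_closedBall (hi w hw).1), up_dn A z0 (D.s_pos i)])
  refine ⟨F, D.s, D.p, D.s_pos, D.s_lim, fun g C hC hne => ?_⟩
  have hne' : ∀ w ∈ C, g • F.symm (w : OnePoint ℂ) ≠ b := fun w hw h => hne w hw (by rw [h, hFb])
  have hc : Continuous fun w : ℂ => g • F.symm (w : OnePoint ℂ) :=
    (B.cont g).comp (F.symm.continuous.comp OnePoint.continuous_coe)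
  obtain ⟨ε2, hε2, hfar⟩ := hC.exists_forall_le' (a := (0 : ℝ))
    (f := fun w : ℂ => dist (g • F.symm (w : OnePoint ℂ)) b)
    ((hc.dist continuous_const).continuousOn) fun w hw => dist_pos.2 (hne' w hw)
  obtain ⟨ρ, hρ⟩ := hC.isBounded.subset_closedBall (0 : ℂ)
  have hgu : TendstoUniformlyOn (fun i w => g • gi i w) (fun w => g • F.symm (w : OnePoint ℂ))
      (hyperfilter ℕ : Filter ℕ) C :=
    (CompactSpace.uniformContinuous_of_continuous (B.cont g)).comp_tendstoUniformlyOn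
      ((hg ρ).mono hρ)
  have hε : 0 < ε2 / 2 := half_pos hε2
  have hin : ∀ᶠ i in (hyperfilter ℕ : Filter ℕ), ∀ w ∈ C, ε2 / 2 ≤ dist (g • gi i w) b := by
    filter_upwards [Metric.tendstoUniformlyOn_iff.1 hgu _ hε] with i hi w hw
    have h1 := hi w hw
    have h2 := hfar w hw
    linarith [dist_triangle (g • F.symm (w : OnePoint ℂ)) (g • gi i w) b]
  have hsm : ∀ i w, (D.p i * g * (D.p i)⁻¹) • Q.ι (dn A z0 (D.s i) w) = D.p i • g • gi i w := by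
    intro i w
    simp only [hgi, mul_smul]
  have hS : ∀ w ∈ C, g • F.symm (w : OnePoint ℂ) ∈ {ζ | ε2 / 2 ≤ dist ζ b} := fun w hw =>
    (half_le_self hε2.le).trans (hfar w hw)
  refine ⟨?_, fun w => f (g • F.symm (w : OnePoint ℂ)), (hun _ hε).1.comp hc.continuousOn hS,
    fun w hw => hFne _ (hne' w hw), ?_⟩
  · obtain ⟨ρ', h1⟩ := hbdd _ hε
    obtain ⟨ε', -, h2⟩ := hprop ρ
    filter_upwards [h1, h2, hin] with i a1 a2 a3 w hw
    refine ⟨(a2 w (mem_closedBall_zero_iff.1 (hρ hw))).1, ?_⟩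
    rw [hsm]
    exact (a1 _ (a3 w hw)).1
  · rw [Metric.tendstoUniformlyOn_iff]
    intro η hη
    have hcl : IsClosed {ζ | ε2 / 2 ≤ dist ζ b} := isClosed_le continuous_const (by fun_prop)
    obtain ⟨r, hr, h1⟩ := Metric.uniformContinuousOn_iff.1
      (hcl.isCompact.uniformContinuousOn_of_continuous (hun _ hε).1) _ (half_pos hη)
    filter_upwards [Metric.tendstoUniformlyOn_iff.1 hgu _ hr, hin,
      Metric.tendstoUniformlyOn_iff.1 (hun _ hε).2 _ (half_pos hη)] with i a1 a2 a3 w hw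
    have e : up A z0 (D.s i) (Q.ψ (D.p i * g * (D.p i)⁻¹) (dn A z0 (D.s i) w)) =
        fi i (g • gi i w) := by
      simp only [QSC.ψ, hsm, hfi]
    rw [e]
    have b1 := h1 _ (hS w hw) _ (a2 w hw) (a1 w hw)
    have b2 := a3 _ (a2 w hw)
    linarith [dist_triangle (f (g • F.symm (w : OnePoint ℂ))) (f (g • gi i w))
      (fi i (g • gi i w))]

end Vale.Agent.P198
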