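import Vale.Agent.P198.Basic

/-! Visibility, shadows, triples. -/

namespace Vale.Agent.P198

open Set Filter Topology Metric MeasureTheory
open scoped Classical

variable {G : Type*} [Group G] {X : Type} [MetricSpace X] [MulAction G X]

namespace BD
variable (B : BD G X)

theorem nontrivial (B : BD G X) [Nonempty X] : Nontrivial X := by
  obtain ⟨ω⟩ := ‹Nonempty X›
  obtain ⟨e, -, he⟩ := B.sph ω
  have : e 0 ∈ ({ω}ᶜ : Set X) := he ▸ mem_range_self 0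
  exact ⟨e 0, ω, this⟩

theorem locPath (B : BD G X) : LocallyPathConnectedSpace X := by
  refine ⟨fun x => ⟨fun U => ⟨fun hU => ?_, fun ⟨V, hV, h⟩ => mem_of_superset hV.1 h⟩⟩⟩
  have : Nonempty X := ⟨x⟩
  have := B.nontrivial
  obtain ⟨ω, hω⟩ := exists_ne x
  obtain ⟨e, he, hr⟩ := B.sph ω
  obtain ⟨z, rfl⟩ : x ∈ range e := hr ▸ hω.symm
  obtain ⟨V, hV, h⟩ := (path_connected_basis z).mem_iff.1 (he.continuous.continuousAt hU)
  exact ⟨e '' V, ⟨he.image_mem_nhds.2 hV.1, hV.2.image he.continuous⟩, image_subset_iff.2 h⟩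

theorem cover_P (u : G) (ξ : X) : (B.len u : ℝ) - B.P ξ u⁻¹ - B.δ ≤ B.P (u • ξ) u := by
  have h := B.P_inv u⁻¹ ξ
  rw [inv_inv, B.len_inv, abs_le] at h
  linarith

theorem exists_vis [Nonempty X] : ∃ Cv : ℕ, ∀ u, ∃ ξ, B.len u - (Cv : ℝ) ≤ B.P ξ u := by
  have := B.nontrivial
  obtain ⟨a, b, hab⟩ := exists_pair_ne X
  obtain ⟨R, hR⟩ := B.not_near hab
  refine ⟨⌈R + B.δ⌉₊, fun u => ?_⟩
  have h0 := Nat.le_ceil (R + B.δ)
  by_cases h : R ≤ B.P a u⁻¹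
  · have h2 : ¬ R ≤ B.P b u⁻¹ := fun h2 => hR ⟨_, h, h2⟩
    exact ⟨u • b, by linarith [B.cover_P u b]⟩
  · exact ⟨u • a, by linarith [B.cover_P u a]⟩

theorem cover_V (B : BD G X) {ε : ℝ} (hε : 0 < ε) : ∃ ε' : ℝ, 0 < ε' ∧ ∀ w : X, ∃ V : Set X,
    IsOpen V ∧ IsPreconnected V ∧ (Metric.ball w ε)ᶜ ⊆ V ∧ V ⊆ (Metric.ball w ε')ᶜ := by
  have h1 : ∀ w : X, ∃ η : ℝ, 0 < η ∧ ∃ V : Set X, IsOpen V ∧ IsPreconnected V ∧
      (Metric.ball w (ε / 2))ᶜ ⊆ V ∧ V ⊆ (Metric.ball w η)ᶜ := by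
    intro w
    obtain ⟨e, he, hr⟩ := B.sph w
    have hK : IsCompact (Metric.ball w (ε / 2))ᶜ :=
      B.cpt.of_isClosed_subset isOpen_ball.isClosed_compl (subset_univ _)
    have hs : (Metric.ball w (ε / 2))ᶜ ⊆ range e := by
      rw [hr]
      exact compl_subset_compl.2 (singleton_subset_iff.2 (mem_ball_self (half_pos hε)))
    obtain ⟨ρ, hρ⟩ := (he.isInducing.isCompact_preimage' hK hs).isBounded.subset_ball 0
    have hc : IsClosed (e '' closedBall 0 ρ) :=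
      ((isCompact_closedBall _ _).image he.continuous).isClosed
    have hw : w ∈ (e '' closedBall 0 ρ)ᶜ := fun h => by
      have : w ∈ ({w}ᶜ : Set X) := hr ▸ image_subset_range _ _ h
      exact this rfl
    obtain ⟨η, hη, hb⟩ := Metric.isOpen_iff.1 hc.isOpen_compl w hw
    refine ⟨η, hη, e '' Metric.ball 0 ρ, he.isOpenMap _ isOpen_ball,
      (convex_ball _ _).isPreconnected.image _ he.continuous.continuousOn, fun x hx => ?_,
      (image_mono ball_subset_closedBall).trans (subset_compl_comm.1 hb)⟩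
    obtain ⟨z, rfl⟩ := hs hx
    exact mem_image_of_mem _ (hρ hx)
  choose η hη V hV using h1
  obtain ⟨ε', hε', h⟩ := lebesgue_number_lemma_of_metric (c := fun w => Metric.ball w (min (η w) (ε / 2)))
    B.cpt (fun _ => isOpen_ball) fun w _ =>
      mem_iUnion.2 ⟨w, mem_ball_self (lt_min (hη w) (half_pos hε))⟩
  refine ⟨ε', hε', fun w => ?_⟩
  obtain ⟨w0, hw⟩ := h w (mem_univ _)
  obtain ⟨a1, a2, a3, a4⟩ := hV w0
  refine ⟨V w0, a1, a2, (compl_subset_compl.2 fun x hx => ?_).trans a3,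
    a4.trans (compl_subset_compl.2 (hw.trans (ball_subset_ball (min_le_left _ _))))⟩
  have h2 := hw (mem_ball_self hε')
  rw [Metric.mem_ball] at h2 hx ⊢
  linarith [dist_triangle_right x w w0, min_le_right (η w0) (ε / 2)]

theorem exists_cov [Nonempty X] (A : ℝ) : Nonempty (Cov B A) := by
  obtain ⟨Cv, hv⟩ := B.exists_vis
  choose ω hω using hv
  obtain ⟨ε, hε, hP⟩ := B.dist_P (A + 3 * B.δ)
  obtain ⟨ε', hε', hV⟩ := B.cover_V hε
  choose V hV using hV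
  obtain ⟨R, hR⟩ := B.T1 ε' hε'
  have hδ := B.δ_ge
  have hn : ∀ u, ⌈max (A + 3 * B.δ) R + Cv⌉₊ ≤ B.len u →
      A + 3 * B.δ ≤ B.P (ω u⁻¹) u⁻¹ ∧ R ≤ B.P (ω u⁻¹) u⁻¹ := fun u hu => by
    have h1 := Nat.ceil_le.1 hu
    have h2 := hω u⁻¹
    rw [B.len_inv] at h2
    constructor <;> linarith [le_max_left (A + 3 * B.δ) R, le_max_right (A + 3 * B.δ) R]
  refine ⟨⟨⌈R + B.δ⌉₊, ⌈max (A + 3 * B.δ) R + Cv⌉₊, fun u => (fun ξ => u⁻¹ • ξ) ⁻¹' V (ω u⁻¹),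
    fun u => (hV _).1.preimage (B.cont _), fun u => ?_, fun u ξ hu h => ?_, fun u ξ hu h => ?_⟩⟩
  · have e : (fun ξ : X => u⁻¹ • ξ) ⁻¹' V (ω u⁻¹) = (fun ξ => u • ξ) '' V (ω u⁻¹) := by
      ext ξ
      exact ⟨fun h => ⟨_, h, smul_inv_smul _ _⟩, fun ⟨ζ, h, e⟩ => by simpa [← e] using h⟩
    rw [e]
    exact (hV _).2.1.image _ (B.cont u).continuousOn
  · refine (hV _).2.2.1 fun hd => ?_
    have h1 := hP _ _ (mem_ball'.1 hd) u⁻¹
    have h2 := B.P_inv u ξ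
    rw [min_eq_right (hn u hu).1] at h1
    rw [abs_le] at h2
    linarith
  · have h1 := (hV _).2.2.2 h
    have h2 : ¬ R ≤ B.P (u⁻¹ • ξ) u⁻¹ := fun h2 => h1 (hR _ _ _ h2 (hn u hu).2)
    have h3 := B.P_inv u ξ
    rw [abs_le] at h3
    linarith [Nat.le_ceil (R + B.δ)]

theorem exists_ctx [Nonempty X] : ∃ K : Ctx G X, K.toBD = B := by
  obtain ⟨Cv, hv⟩ := B.exists_vis
  obtain ⟨c⟩ := B.exists_cov (Cv + 2 * B.δ)
  exact ⟨⟨B, Cv, hv, c⟩, rfl⟩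

theorem triple_proper (R : ℝ) : ∃ C : ℕ, ∀ (g : G) (a b c : X), ¬ B.Near R a b → ¬ B.Near R b c →
    ¬ B.Near R a c → ¬ B.Near R (g • a) (g • b) → ¬ B.Near R (g • b) (g • c) →
    ¬ B.Near R (g • a) (g • c) → B.len g ≤ C := by
  refine ⟨⌈2 * R + B.δ⌉₊, fun g a b c h1 h2 h3 h4 h5 h6 => ?_⟩
  have key : ∀ x y : X, ¬ R ≤ B.P x g⁻¹ → ¬ R ≤ B.P y g⁻¹ → ¬ B.Near R (g • x) (g • y) →
      B.len g ≤ ⌈2 * R + B.δ⌉₊ := by
    intro x y hx hy h
    by_contra hc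
    have h7 : ((⌈2 * R + B.δ⌉₊ : ℕ) : ℝ) < B.len g := by exact_mod_cast not_le.1 hc
    have h8 := Nat.le_ceil (2 * R + B.δ)
    exact h ⟨g, by linarith [B.cover_P g x], by linarith [B.cover_P g y]⟩
  by_cases ha : R ≤ B.P a g⁻¹
  · exact key b c (fun h => h1 ⟨_, ha, h⟩) (fun h => h3 ⟨_, ha, h⟩) h5
  · by_cases hb : R ≤ B.P b g⁻¹
    · exact key a c ha (fun h => h2 ⟨_, hb, h⟩) h6
    · exact key a b ha hb h4

theorem cover_zoom {i : ℕ} {a x y : X} (h : B.Near i a x) (h' : ¬ B.Near (i + 1) x y) :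
    ¬ B.Near (11 * B.δ + 1) ((B.ray a i)⁻¹ • x) ((B.ray a i)⁻¹ • y) := by
  intro h1
  have h2 := h.P_ge (B.ray a i)
  rw [B.P_ray, min_self] at h2
  have h3 := B.P_inv (B.ray a i) x
  rw [B.ray_len, abs_le] at h3
  have hδ := B.δ_ge
  have h4 := h1.coc (B.ray a i) (by linarith)
  rw [smul_inv_smul, smul_inv_smul, B.h_eq, B.len_inv, B.ray_len] at h4
  exact h' (h4.mono (by linarith))

theorem triple_cocompact : ∃ R : ℝ, ∀ a b c : X, a ≠ b → b ≠ c → a ≠ c → ∃ g : G,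
    ¬ B.Near R (g • a) (g • b) ∧ ¬ B.Near R (g • b) (g • c) ∧ ¬ B.Near R (g • a) (g • c) := by
  refine ⟨11 * B.δ + 1, fun a b c hab hbc hac => ?_⟩
  obtain ⟨R1, h1⟩ := B.not_near hab
  obtain ⟨R2, h2⟩ := B.not_near hbc
  obtain ⟨R3, h3⟩ := B.not_near hac
  obtain ⟨i, hi, hi'⟩ := Nat.exists_not_and_succ_of_not_zero_of_exists
    (p := fun n : ℕ => ¬ B.Near n a b ∧ ¬ B.Near n b c ∧ ¬ B.Near n a c)
    (fun h => h.1 (by simpa using B.near_zero a b)) (by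
      obtain ⟨n, hn⟩ := exists_nat_ge (max R1 (max R2 R3))
      simp only [max_le_iff] at hn
      exact ⟨n, fun h => h1 (h.mono hn.1), fun h => h2 (h.mono hn.2.1),
        fun h => h3 (h.mono hn.2.2)⟩)
  push_cast at hi'
  obtain ⟨k1, k2, k3⟩ := hi'
  by_cases c1 : B.Near i a b
  · exact ⟨_, B.cover_zoom (B.near_refl _ a) k1, B.cover_zoom c1 k2,
      B.cover_zoom (B.near_refl _ a) k3⟩
  by_cases c2 : B.Near i b c
  · exact ⟨_, fun h => B.cover_zoom (B.near_refl _ b) (fun h => k1 h.symm) h.symm,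
      B.cover_zoom (B.near_refl _ b) k2, fun h => B.cover_zoom c2 (fun h => k3 h.symm) h.symm⟩
  have c3 : B.Near i a c := by
    by_contra c3
    exact hi ⟨c1, c2, c3⟩
  exact ⟨_, B.cover_zoom (B.near_refl _ a) k1,
    fun h => B.cover_zoom c3 (fun h => k2 h.symm) h.symm, B.cover_zoom (B.near_refl _ a) k3⟩

end BD

end Vale.Agent.P198
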