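import Vale.Agent.P198.QSB
import Vale.Agent.P198.Cover

/-! Estimates for the blown up charts. -/

namespace Vale.Agent.P198

open Set Filter Topology Metric MeasureTheory
open scoped Classical

variable {G : Type*} [Group G] {X : Type} [MetricSpace X] [MulAction G X]

/-- data of the blow-up at the point `z0` -/
structure BlowData {B : BD G X} (Q : QSC B) (z0 : ℂ) (A : ℂ ≃L[ℝ] ℂ) where
  s : ℕ → ℝ
  p : ℕ → G
  ω : ℕ → X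
  s_pos : ∀ i, 0 < s i
  s_lim : Tendsto s atTop (𝓝 0)
  bdd : ∀ ε : ℝ, 0 < ε → ∃ ρ : ℝ, ∀ᶠ i in atTop, ∀ ζ, ε ≤ dist ζ (ω i) →
    p i • ζ ∈ Q.ι '' ball 0 1 ∧ ‖up A z0 (s i) (Q.φ (p i • ζ))‖ ≤ ρ
  equi : ∀ ε : ℝ, 0 < ε → ∀ κ : ℝ, 0 < κ → ∃ r : ℝ, 0 < r ∧ ∀ᶠ i in atTop, ∀ ζ ζ',
    ε ≤ dist ζ (ω i) → ε ≤ dist ζ' (ω i) → dist ζ ζ' < r →
      ‖up A z0 (s i) (Q.φ (p i • ζ)) - up A z0 (s i) (Q.φ (p i • ζ'))‖ ≤ κ
  inj : ∀ ε : ℝ, 0 < ε → ∃ κ : ℝ, 0 < κ ∧ ∀ᶠ i in atTop, ∀ ζ ζ',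
    ε ≤ dist ζ (ω i) → ε ≤ dist ζ' (ω i) → ε ≤ dist ζ ζ' →
      κ ≤ ‖up A z0 (s i) (Q.φ (p i • ζ)) - up A z0 (s i) (Q.φ (p i • ζ'))‖
  prop : ∀ ρ : ℝ, ∃ ε : ℝ, 0 < ε ∧ ∀ᶠ i in atTop, ∀ w : ℂ, ‖w‖ ≤ ρ →
    dn A z0 (s i) w ∈ ball (0 : ℂ) 1 ∧ ε ≤ dist ((p i)⁻¹ • Q.ι (dn A z0 (s i) w)) (ω i)

theorem blowA_up (A : ℂ ≃L[ℝ] ℂ) (z0 : ℂ) {s : ℝ} (hs : 0 < s) (y y' : ℂ) :
    s * ‖up A z0 s y - up A z0 s y'‖ = ‖A (y - y')‖ := by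
  rw [up, up, ← smul_sub, ← map_sub, sub_sub_sub_cancel_right, norm_smul, norm_inv,
    Real.norm_of_nonneg hs.le, mul_inv_cancel_left₀ hs.ne']

theorem blowA_ev (c : ℝ) : ∀ᶠ i : ℕ in atTop, c ≤ (i : ℝ) :=
  tendsto_natCast_atTop_atTop.eventually_ge_atTop c

theorem blowA_pts {B : BD G X} (Q : QSC B) {z0 : ℂ} (hz : z0 ∈ ball (0 : ℂ) 1) :
    ∃ a : ℕ → ℂ, (∀ i, a i ∈ ball (0 : ℂ) 1) ∧ (∀ i, a i ≠ z0) ∧ ∀ᶠ i : ℕ in atTop,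
      ¬ B.Near i (Q.ι z0) (Q.ι (a i)) ∧ B.Near (i - 2 * B.δ) (Q.ι z0) (Q.ι (a i)) := by
  obtain ⟨b, hb, hbz⟩ : ∃ b ∈ ball (0 : ℂ) 1, b ≠ z0 := by
    by_cases h : z0 = 0
    · exact ⟨(1 / 2 : ℝ), by rw [mem_ball_zero_iff, Complex.norm_real]; norm_num, by
        rw [h]; exact_mod_cast (by norm_num : (1 / 2 : ℝ) ≠ 0)⟩
    · exact ⟨0, mem_ball_self one_pos, Ne.symm h⟩
  obtain ⟨R0, hR0⟩ := B.not_near (ξ := Q.ι z0) (η := Q.ι b) fun h =>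
    hbz (Q.ι_inj (ball_subset_closedBall hz) (ball_subset_closedBall hb) h).symm
  have : ∀ i : ℕ, ∃ a ∈ ball (0 : ℂ) 1, a ≠ z0 ∧ (R0 ≤ i →
      ¬ B.Near i (Q.ι z0) (Q.ι a) ∧ B.Near (i - 2 * B.δ) (Q.ι z0) (Q.ι a)) := by
    intro i
    by_cases hi : R0 ≤ i
    · obtain ⟨a, ha, h1, h2⟩ := Q.mid hz hb fun h => hR0 (h.mono hi)
      refine ⟨a, (convex_ball _ _).segment_subset hz hb ha, ?_, fun _ => ⟨h1, h2⟩⟩
      rintro rfl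
      exact h1 (B.near_refl _ _)
    · exact ⟨b, hb, hbz, fun h => absurd h hi⟩
  choose a ha hne h using this
  exact ⟨a, ha, hne, (blowA_ev R0).mono h⟩

theorem QSC.exists_blowData {B : BD G X} (Q : QSC B) {z0 : ℂ} (hz : z0 ∈ ball (0 : ℂ) 1)
    (A : ℂ ≃L[ℝ] ℂ) : Nonempty (BlowData Q z0 A) := by
  have : Nonempty X := ⟨Q.ι z0⟩
  obtain ⟨a, ha, hne, hN⟩ := blowA_pts Q hz
  obtain ⟨Cv, hv⟩ := B.exists_vis
  choose ω hω using hv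
  have hδ := B.δ_ge
  set x0 := Q.ι z0 with hx0
  have hlen : ∀ i : ℕ, (B.len (B.ray x0 i) : ℝ) = i := fun i => by rw [B.ray_len]
  have hlen' : ∀ i : ℕ, (B.len (B.ray x0 i)⁻¹ : ℝ) = i := fun i => by rw [B.len_inv, B.ray_len]
  have hs : ∀ i, 0 < ‖a i - z0‖ := fun i => norm_pos_iff.2 (sub_ne_zero.2 (hne i))
  have hlim : Tendsto (fun i => ‖a i - z0‖) atTop (𝓝 0) := by
    refine (tendsto_order.2 ⟨fun r hr => Eventually.of_forall fun i => hr.trans (hs i),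
      fun r hr => ?_⟩)
    obtain ⟨R, hR⟩ := Q.close_of_near hz hr
    filter_upwards [hN, blowA_ev (R + 2 * B.δ)] with i hi hi2
    obtain ⟨a', ha', e, h⟩ := hR _ (hi.2.mono (by linarith))
    rwa [Q.ι_inj (ball_subset_closedBall (ha i)) (ball_subset_closedBall ha') e]
  have hA := norm_nonneg (A : ℂ →L[ℝ] ℂ)
  have hA' := norm_nonneg (A.symm : ℂ →L[ℝ] ℂ)
  have hAle : ∀ v, ‖A v‖ ≤ ‖(A : ℂ →L[ℝ] ℂ)‖ * ‖v‖ := (A : ℂ →L[ℝ] ℂ).le_opNorm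
  have hAle' : ∀ v, ‖A.symm v‖ ≤ ‖(A.symm : ℂ →L[ℝ] ℂ)‖ * ‖v‖ := (A.symm : ℂ →L[ℝ] ℂ).le_opNorm
  have K : ∀ ε : ℝ, 0 < ε → ∃ R L : ℝ, 0 ≤ R ∧ 0 ≤ L ∧ ∀ᶠ i : ℕ in atTop, ∀ ζ,
      ε ≤ dist ζ (ω (B.ray x0 i)⁻¹) → B.P ζ (B.ray x0 i)⁻¹ ≤ R ∧ ∃ y ∈ ball (0 : ℂ) 1,
        B.ray x0 i • ζ = Q.ι y ∧ B.Near (i - R - B.δ) x0 (Q.ι y) ∧ ‖y - z0‖ ≤ L * ‖a i - z0‖ := by
    intro ε hε
    obtain ⟨R1, hR1⟩ := B.T1 ε hε
    obtain ⟨R2, hR2⟩ := Q.close_of_near hz one_pos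
    obtain ⟨L, hL⟩ := Q.qs1 (max R1 0 + B.δ)
    have m1 := le_max_left R1 0
    have m2 := le_max_right R1 0
    refine ⟨max R1 0, max L 0, m2, le_max_right _ _, ?_⟩
    filter_upwards [hN, blowA_ev (R1 + Cv), blowA_ev (R2 + max R1 0 + B.δ)] with i hi h1 h2 ζ hζ
    have h3 : B.P ζ (B.ray x0 i)⁻¹ ≤ max R1 0 := by
      by_contra h
      have h4 := hω (B.ray x0 i)⁻¹
      rw [hlen'] at h4
      exact absurd (hR1 ζ (ω (B.ray x0 i)⁻¹) (B.ray x0 i)⁻¹ (by unfold BD.P at h; linarith)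
        (by unfold BD.P at h4; linarith)) (not_lt.2 hζ)
    have h5 := B.P_inv (B.ray x0 i)⁻¹ ζ
    rw [inv_inv, hlen', abs_le] at h5
    have h6 : B.Near (i - max R1 0 - B.δ) x0 (B.ray x0 i • ζ) :=
      ⟨B.ray x0 i, by rw [B.P_ray]; linarith, by linarith⟩
    obtain ⟨y, hy, e, -⟩ := hR2 _ (h6.mono (by linarith))
    rw [e] at h6
    refine ⟨h3, y, hy, e, h6, (hL z0 hz y hy _ (ha i) i hi.1 (h6.mono (by linarith))).trans ?_⟩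
    exact mul_le_mul_of_nonneg_right (le_max_left _ _) (norm_nonneg _)
  refine ⟨⟨fun i => ‖a i - z0‖, B.ray x0, fun i => ω (B.ray x0 i)⁻¹, hs, hlim, fun ε hε => ?_,
    fun ε hε κ hκ => ?_, fun ε hε => ?_, fun ρ => ?_⟩⟩
  · obtain ⟨R, L, -, -, h⟩ := K ε hε
    refine ⟨‖(A : ℂ →L[ℝ] ℂ)‖ * L, h.mono fun i hi ζ hζ => ?_⟩
    obtain ⟨-, y, hy, e, -, h2⟩ := hi ζ hζ
    rw [e, Q.linv y (ball_subset_closedBall hy)]
    refine ⟨mem_image_of_mem _ hy, le_of_mul_le_mul_left ?_ (hs i)⟩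
    have h3 := blowA_up A z0 (hs i) y z0
    have h4 : up A z0 ‖a i - z0‖ z0 = 0 := by simp [up]
    rw [h4, sub_zero] at h3
    rw [h3]
    refine (hAle _).trans ?_
    nlinarith [mul_le_mul_of_nonneg_left h2 hA]
  · obtain ⟨R, L, hR, hL, h⟩ := K ε hε
    have hc : 0 < (‖(A : ℂ →L[ℝ] ℂ)‖ + 1) * (L + 1) := by positivity
    obtain ⟨k, hk, hq⟩ := Q.qs2 (div_pos hκ hc)
    obtain ⟨r, hr, hn⟩ := B.dist_near (2 * R + 7 * B.δ + k)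
    refine ⟨r, hr, ?_⟩
    filter_upwards [h, hN] with i hi hi2 ζ ζ' hζ hζ' hd
    obtain ⟨h1, y, hy, e, -, h2⟩ := hi ζ hζ
    obtain ⟨-, y', hy', e', -, -⟩ := hi ζ' hζ'
    have h3 := (hn _ _ hd).coc (B.ray x0 i) (by linarith)
    rw [e, e', B.h_eq, hlen'] at h3
    rw [e, e', Q.linv y (ball_subset_closedBall hy), Q.linv y' (ball_subset_closedBall hy')]
    obtain ⟨c, hc1, hc2, hc3⟩ : ∃ c ∈ ball (0 : ℂ) 1, ¬ B.Near (i + 2 * B.δ) (Q.ι y) (Q.ι c) ∧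
        ‖c - y‖ ≤ (L + 1) * ‖a i - z0‖ := by
      by_cases h4 : B.Near (i + 2 * B.δ) (Q.ι y) x0
      · refine ⟨a i, ha i, fun h5 => hi2.1 ((h4.symm.trans h5).mono (by simp)), ?_⟩
        have := norm_sub_le_norm_sub_add_norm_sub (a i) z0 y
        rw [norm_sub_rev z0] at this
        linarith
      · exact ⟨z0, hz, h4, by rw [norm_sub_rev]; linarith [hs i]⟩
    have h6 := hq y hy y' hy' c hc1 _ hc2 (h3.mono (by linarith))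
    refine le_of_mul_le_mul_left ?_ (hs i)
    rw [blowA_up A z0 (hs i)]
    refine (hAle _).trans ?_
    rw [norm_sub_rev]
    calc ‖(A : ℂ →L[ℝ] ℂ)‖ * ‖y' - y‖ ≤ (‖(A : ℂ →L[ℝ] ℂ)‖ + 1) *
          (κ / ((‖(A : ℂ →L[ℝ] ℂ)‖ + 1) * (L + 1)) * ((L + 1) * ‖a i - z0‖)) := by
          gcongr
          · linarith
          · exact h6.trans (by gcongr)
      _ = _ := by field_simp
  · obtain ⟨R, L, hR, hL, h⟩ := K ε hε
    obtain ⟨R', hR'⟩ := B.near_dist hε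
    have m1 := le_max_left R' 0
    have m2 := le_max_right R' 0
    obtain ⟨L', hq⟩ := Q.qs1 (max R' 0 + R + 9 * B.δ)
    have m3 := le_max_left L' 0
    have m4 := le_max_right L' 0
    have hc : 0 < 2 * max L' 0 * ‖(A.symm : ℂ →L[ℝ] ℂ)‖ + 1 := by positivity
    refine ⟨_, inv_pos.2 hc, ?_⟩
    filter_upwards [h, hN] with i hi hi2 ζ ζ' hζ hζ' hd
    obtain ⟨-, y, hy, e, h1, -⟩ := hi ζ hζ
    obtain ⟨-, y', hy', e', -, -⟩ := hi ζ' hζ'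
    have h3 : ¬ B.Near (i + max R' 0 + 5 * B.δ) (Q.ι y) (Q.ι y') := by
      intro h3
      rw [← e, ← e'] at h3
      have h4 := B.P_le (B.ray x0 i • ζ) (B.ray x0 i)
      rw [hlen] at h4
      have h5 := h3.coc (B.ray x0 i)⁻¹ (by rw [inv_inv]; linarith)
      rw [inv_inv, inv_smul_smul, inv_smul_smul, B.h_eq, hlen] at h5
      exact absurd (hR' _ _ (h5.mono (by linarith))) (not_lt.2 hd)
    have h6 := hq y hy z0 hz y' hy' _ h3 (h1.symm.mono (by linarith))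
    have h7 := hq y hy (a i) (ha i) y' hy' _ h3 ((h1.symm.trans hi2.2).mono (by
      have : (i : ℝ) - R - 2 * B.δ ≤ min (i - R - B.δ) (i - 2 * B.δ) :=
        le_min (by linarith) (by linarith)
      linarith))
    rw [e, e', Q.linv y (ball_subset_closedBall hy), Q.linv y' (ball_subset_closedBall hy')]
    have h8 := blowA_up A z0 (hs i) y y'
    have h9 := hAle' (A (y - y'))
    rw [A.symm_apply_apply, ← h8, norm_sub_rev] at h9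
    have h10 := norm_sub_le_norm_sub_add_norm_sub (a i) y z0
    rw [norm_sub_rev y] at h10
    set D := ‖up A z0 ‖a i - z0‖ y - up A z0 ‖a i - z0‖ y'‖ with hD
    have hD0 : 0 ≤ D := norm_nonneg _
    have h11 : ‖a i - z0‖ ≤ 2 * max L' 0 * ‖y' - y‖ := by
      nlinarith [mul_le_mul_of_nonneg_right m3 (norm_nonneg (y' - y))]
    have h12 : ‖a i - z0‖ * 1 ≤ ‖a i - z0‖ * (2 * max L' 0 * ‖(A.symm : ℂ →L[ℝ] ℂ)‖ * D) := by
      nlinarith [mul_le_mul_of_nonneg_left h9 (mul_nonneg zero_le_two m4)]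
    have h13 := le_of_mul_le_mul_left h12 (hs i)
    rw [inv_le_iff_one_le_mul₀ hc]
    nlinarith
  · set M := ‖(A.symm : ℂ →L[ℝ] ℂ)‖ * |ρ| with hM
    have hM0 : 0 ≤ M := by positivity
    obtain ⟨k, hk, hq⟩ := Q.qs2 (inv_pos.2 (by linarith : 0 < M + 1))
    obtain ⟨ε, hε, hP⟩ := B.dist_P (k + 7 * B.δ)
    refine ⟨ε, hε, ?_⟩
    have h0 : 0 < 1 - ‖z0‖ := sub_pos.2 (mem_ball_zero_iff.1 hz)
    have hl2 : Tendsto (fun i => ‖a i - z0‖ * M) atTop (𝓝 0) := by simpa using hlim.mul_const M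
    filter_upwards [hN, hl2.eventually_lt_const h0, blowA_ev (k + 7 * B.δ + Cv)]
      with i hi hi2 hi3 w hw
    set y := dn A z0 ‖a i - z0‖ w with hy
    have h1 : ‖y - z0‖ ≤ ‖a i - z0‖ * M := by
      rw [hy, dn, add_sub_cancel_left, norm_smul, norm_norm]
      gcongr
      exact (hAle' w).trans (mul_le_mul_of_nonneg_left (hw.trans (le_abs_self _)) hA')
    have h2 : y ∈ ball (0 : ℂ) 1 := by
      rw [mem_ball_zero_iff]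
      linarith [norm_le_norm_add_norm_sub' y z0]
    refine ⟨h2, not_lt.1 fun hd => ?_⟩
    have h3 : B.Near (i - 2 * B.δ - k) x0 (Q.ι y) := by
      by_contra h3
      have h4 := hq z0 hz (a i) (ha i) y h2 _ h3 (hi.2.mono (by linarith))
      rw [le_inv_mul_iff₀ (by linarith)] at h4
      nlinarith [hs i]
    have h4 := h3.P_ge (B.ray x0 i)
    rw [B.P_ray, min_eq_left (by linarith)] at h4
    have h5 := B.P_inv (B.ray x0 i) (Q.ι y)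
    rw [hlen, abs_le] at h5
    have h6 := hP _ _ (by rwa [dist_comm] at hd) (B.ray x0 i)⁻¹
    have h7 := hω (B.ray x0 i)⁻¹
    rw [hlen'] at h7
    rw [min_eq_right (by linarith)] at h6
    linarith

end Vale.Agent.P198
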