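import Vale.Agent.P198.Basic

/-! Exponential growth along a continuum. -/

namespace Vale.Agent.P198

open Set Filter Topology Metric MeasureTheory
open scoped Classical

variable {G : Type*} [Group G] {X : Type} [MetricSpace X] [MulAction G X]

namespace BD
variable (B : BD G X)

theorem countA_walk {H : SimpleGraph G} {T : ℝ} (hH : ∀ x y, H.Adj x y → T ≤ B.gp x y) (k : ℕ) :
    ∀ (a b : G) (p : H.Walk a b), T ≤ B.len a → p.length ≤ 2 ^ k → T - k * B.δ ≤ B.gp a b := by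
  induction k with
  | zero =>
    intro a b p ha hp
    rw [Nat.cast_zero, zero_mul, sub_zero]
    rcases Nat.le_one_iff_eq_zero_or_eq_one.1 hp with h | h
    · rw [← p.eq_of_length_eq_zero h, B.gp_self]
      exact ha
    · exact hH _ _ (p.adj_of_length_eq_one h)
  | succ k ih =>
    intro a b p ha hp
    have hδ := B.δ_ge
    by_cases h : p.length ≤ 2 ^ k
    · have := ih a b p ha h
      push_cast
      linarith
    · have h1 := ih _ _ (p.take (2 ^ k)) ha (by rw [p.take_length]; exact inf_le_left)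
      have h2 := ih _ _ (p.drop (2 ^ k))
        ((hH _ _ (p.adj_getVert_succ (not_le.1 h))).trans (B.gp_le _ _))
        (by rw [p.drop_length]; omega)
      have h3 := B.gp_four a (p.getVert (2 ^ k)) b
      have h4 := le_min h1 h2
      push_cast
      linarith

theorem chain_gp {Y : Finset G} {T : ℝ} {k : ℕ} (hY : Y.card ≤ 2 ^ k) (hT : ∀ y ∈ Y, T ≤ B.len y)
    {a b : G} (ha : a ∈ Y)
    (h : Relation.ReflTransGen (fun x y => x ∈ Y ∧ y ∈ Y ∧ T ≤ B.gp x y) a b) :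
    T - k * B.δ ≤ B.gp a b := by
  let H : SimpleGraph G := SimpleGraph.fromRel fun x y => x ∈ Y ∧ y ∈ Y ∧ T ≤ B.gp x y
  have hH : ∀ x y, H.Adj x y → y ∈ Y ∧ T ≤ B.gp x y := by
    rintro x y ⟨-, h | h⟩
    · exact h.2
    · exact ⟨h.1, B.gp_comm y x ▸ h.2.2⟩
  have hr : H.Reachable a b := by
    induction h with
    | refl => rfl
    | @tail x y _ h2 ih =>
      by_cases e : x = y
      · exact e ▸ ih
      · exact ih.trans (SimpleGraph.Adj.reachable ⟨e, Or.inl h2⟩)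
  obtain ⟨p, hp⟩ := hr.exists_isPath
  have hs : ∀ (x y : G) (q : H.Walk x y), x ∈ Y → ∀ z ∈ q.support, z ∈ Y := by
    intro x y q
    induction q with
    | nil =>
      intro hx z hz
      rw [SimpleGraph.Walk.support_nil, List.mem_singleton] at hz
      exact hz ▸ hx
    | cons h q ih =>
      intro hx z hz
      rw [SimpleGraph.Walk.support_cons, List.mem_cons] at hz
      rcases hz with rfl | hz
      · exact hx
      · exact ih (hH _ _ h).1 z hz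
  have h1 : p.support.toFinset.card ≤ Y.card :=
    Finset.card_le_card fun z hz => hs a b p ha z (List.mem_toFinset.1 hz)
  rw [List.toFinset_card_of_nodup hp.support_nodup, p.length_support] at h1
  exact B.countA_walk (fun x y h => (hH x y h).2) k a b p (hT a ha) (by omega)

theorem grow {Γ : Set X} (hΓ : IsPreconnected Γ) {ξs : X} {R1 R : ℝ}
    (hfar : ∃ η ∈ Γ, ¬ B.Near R1 ξs η) (hR : R1 + 2 * B.δ ≤ R) {i i' k : ℕ}
    (hi : R + 8 * B.δ ≤ i) (hk : i + (k + 2) * B.δ ≤ i') :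
    2 ^ k * (B.act Γ ξs R i).card ≤
      B.D ^ (14 * B.δ) * (B.act Γ ξs (R - 2 * B.δ) i').card := by
  have hδ := B.δ_ge
  have hk0 : (0 : ℝ) ≤ k * B.δ := by positivity
  have hk1 : (i : ℝ) + (k + 2) * B.δ ≤ i' := by exact_mod_cast hk
  obtain ⟨η, hη, hfar⟩ := hfar
  obtain ⟨ε, hε, hP⟩ := B.dist_P i'
  rw [mul_comm, mul_comm (B.D ^ _)]
  refine Finset.card_mul_le_card_mul (fun x y => ∃ ζ ∈ Γ, i - 4 * B.δ ≤ B.P ζ x ∧ y = B.ray ζ i')
    (fun x hx => le_of_not_ge fun hc => hfar ?_) fun y _ => ?_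
  · obtain ⟨-, ξ, hξ, hn, rfl⟩ := Finset.mem_filter.1 hx
    obtain ⟨Y, hY, hc⟩ : ∃ Y : Finset G, (∀ y, y ∈ Y ↔ y ∈ B.act Γ ξs (R - 2 * B.δ) i' ∧
        ∃ ζ ∈ Γ, i - 4 * B.δ ≤ B.P ζ (B.ray ξ i) ∧ y = B.ray ζ i') ∧ Y.card ≤ 2 ^ k :=
      ⟨_, fun y => Finset.mem_filter, hc⟩
    have h0 := B.P_ray ξ i
    have h1 : ∀ ζ ∈ Γ, i - 4 * B.δ ≤ B.P ζ (B.ray ξ i) → B.ray ζ i' ∈ Y := fun ζ hζ h =>
      (hY _).2 ⟨Finset.mem_filter.2 ⟨B.mem_lev.2 (B.ray_len _ _), ζ, hζ,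
        (hn.trans (b := R) ⟨B.ray ξ i, by linarith, by linarith⟩).mono (by rw [min_self]), rfl⟩,
        ζ, hζ, h, rfl⟩
    have h2 : ∀ y ∈ Y, (i' : ℝ) - 2 * B.δ ≤ B.len y := fun y hy => by
      obtain ⟨-, ζ, -, -, rfl⟩ := (hY y).1 hy
      rw [B.ray_len]
      linarith
    let Q : X → Prop := fun ζ => i - 3 * B.δ ≤ B.P ζ (B.ray ξ i) ∧ Relation.ReflTransGen
      (fun x y => x ∈ Y ∧ y ∈ Y ∧ i' - 2 * B.δ ≤ B.gp x y) (B.ray ξ i') (B.ray ζ i')
    have h3 : ∀ ζ ∈ Γ, ∀ ζ' ∈ Γ, dist ζ ζ' < ε → Q ζ → Q ζ' := by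
      rintro ζ hζ ζ' hζ' hd ⟨h4, h5⟩
      have h6 := hP ζ ζ' hd (B.ray ξ i)
      have h7 := hP ζ ζ' hd (B.ray ζ i')
      have h8 := B.P_H1 ζ' (B.ray ζ i') (B.ray ζ' i')
      rw [B.P_ray, min_self] at h7
      rw [B.P_ray] at h8
      have h9 : (i : ℝ) - 3 * B.δ ≤ min (B.P ζ (B.ray ξ i)) i' := le_min h4 (by linarith)
      have h10 : (i' : ℝ) - B.δ ≤ min (B.P ζ' (B.ray ζ i')) i' := le_min h7 (by linarith)
      have h11 := h5.tail ⟨h1 ζ hζ (by linarith), h1 ζ' hζ' (by linarith), by linarith⟩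
      refine ⟨?_, h11⟩
      have h12 := B.chain_gp hc h2 (h1 ξ hξ (by linarith)) h11
      have h13 := B.P_H2 ζ' (B.ray ζ' i') (B.ray ξ i')
      have h14 := B.P_H1 ξ (B.ray ξ i') (B.ray ξ i)
      have h15 := B.P_H2 ζ' (B.ray ξ i') (B.ray ξ i)
      rw [B.P_ray, B.gp_comm] at h13
      rw [B.P_ray, B.P_ray, min_eq_right (by linarith)] at h14
      have h16 : (i : ℝ) ≤ min (i' : ℝ) (B.gp (B.ray ξ i') (B.ray ζ' i')) :=
        le_min (by linarith) (by linarith)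
      have h17 : (i : ℝ) - B.δ ≤ min (B.P ζ' (B.ray ξ i')) (B.gp (B.ray ξ i') (B.ray ξ i)) :=
        le_min (by linarith) h14
      linarith
    have h4 : Q η := hΓ.induction₂' (fun y z => Q y → Q z) (fun y hy => by
        filter_upwards [self_mem_nhdsWithin, mem_nhdsWithin_of_mem_nhds (ball_mem_nhds y hε)]
          with z hz hz'
        exact ⟨h3 y hy z hz (mem_ball'.1 hz'), h3 z hz y hy (Metric.mem_ball.1 hz')⟩)
      (fun _ _ _ _ _ _ h4 h5 h6 => h5 (h4 h6)) hξ hη ⟨by linarith, Relation.ReflTransGen.refl⟩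
    exact (hn.trans (b := R) ⟨B.ray ξ i, by linarith, by linarith [h4.1]⟩).mono
      (by rw [min_self]; linarith)
  · have h1 : ∀ x ∈ (B.act Γ ξs R i).bipartiteBelow
        (fun x y => ∃ ζ ∈ Γ, i - 4 * B.δ ≤ B.P ζ x ∧ y = B.ray ζ i') y,
        B.len x = i ∧ i - 5 * B.δ ≤ B.gp x y := fun x hx => by
      obtain ⟨h2, ζ, -, h3, rfl⟩ := Finset.mem_filter.1 hx
      have h4 := B.P_H1 ζ x (B.ray ζ i')
      rw [B.P_ray] at h4
      have h5 : (i : ℝ) - 4 * B.δ ≤ min (B.P ζ x) i' := le_min h3 (by linarith)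
      exact ⟨B.mem_lev.1 (Finset.mem_filter.1 h2).1, by linarith⟩
    rcases Finset.eq_empty_or_nonempty ((B.act Γ ξs R i).bipartiteBelow
        (fun x y => ∃ ζ ∈ Γ, i - 4 * B.δ ≤ B.P ζ x ∧ y = B.ray ζ i') y) with h | ⟨a, ha⟩
    · rw [h]
      exact Nat.zero_le _
    · refine B.card_near a _ _ fun x hx => ?_
      have h2 := B.gp_four a y x
      have h3 := le_min (h1 a ha).2 (B.gp_comm x y ▸ (h1 x hx).2)
      rw [B.d_eq, (h1 a ha).1, (h1 x hx).1]
      push_cast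
      linarith

end BD

end Vale.Agent.P198
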