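import Vale.Agent.P198.Basic
import Vale.Agent.P198.CountA

/-! Double counting step for the growth count. -/

namespace Vale.Agent.P198

open Set Filter Topology Metric MeasureTheory
open scoped Classical

variable {G : Type*} [Group G] {X : Type} [MetricSpace X] [MulAction G X]

namespace BD
variable (B : BD G X)

theorem cA_mem_act {Γ : Set X} {ξs : X} {R : ℝ} {j : ℕ} {p : G} :
    p ∈ B.act Γ ξs R j ↔ ∃ ξ ∈ Γ, B.Near R ξs ξ ∧ p = B.ray ξ j := by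
  unfold act
  rw [Finset.mem_filter, B.mem_lev]
  constructor
  · exact fun h => h.2
  · rintro ⟨ξ, hξ, hn, rfl⟩
    exact ⟨B.ray_len ξ j, ξ, hξ, hn, rfl⟩

theorem cA_len_act {Γ : Set X} {ξs : X} {R : ℝ} {j : ℕ} {p : G} (hp : p ∈ B.act Γ ξs R j) :
    B.len p = j := by
  obtain ⟨ξ, -, -, rfl⟩ := B.cA_mem_act.1 hp
  exact B.ray_len ξ j

theorem cA_act_mono {Γ : Set X} {ξs : X} {R R' : ℝ} (h : R' ≤ R) (j : ℕ) :
    B.act Γ ξs R j ⊆ B.act Γ ξs R' j := by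
  intro p hp
  obtain ⟨ξ, hξ, hn, rfl⟩ := B.cA_mem_act.1 hp
  exact B.cA_mem_act.2 ⟨ξ, hξ, hn.mono h, rfl⟩

theorem cA_card_act (Γ : Set X) (ξs : X) (R : ℝ) (j : ℕ) : (B.act Γ ξs R j).card ≤ B.D ^ j :=
  (Finset.card_filter_le _ _).trans (B.card_lev j)

theorem cA_gp_half {p q : G} {j : ℕ} (hp : B.len p = j) (hq : B.len (p⁻¹ * q) = j) :
    B.gp p q = B.len q / 2 := by
  have h := B.d_eq p q
  unfold d at h
  rw [hq, hp] at h
  linarith

theorem cA_len_le {p q : G} {j : ℕ} (hp : B.len p = j) (hq : B.len (p⁻¹ * q) = j) :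
    B.len q ≤ 2 * j := by
  have h := B.len_mul p (p⁻¹ * q)
  rw [mul_inv_cancel_left, hp, hq] at h
  omega

/-- a viewpoint seeing the continuum big lies close to an active vertex -/
theorem cA_close {Γ : Set X} {ξs : X} {R R2 : ℝ} {j i R3 : ℕ} {p q : G}
    (hp : p ∈ B.act Γ ξs R j) (hq : B.len (p⁻¹ * q) = j) (hi : B.len q = i)
    (hM : B.Mac R2 Γ q) (h1 : 2 * R2 + 2 * B.δ ≤ i) (h2 : 2 * R + 2 * B.δ ≤ i)
    (h3 : 2 * max R2 0 + 4 * B.δ ≤ R3) :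
    ∃ x ∈ B.act Γ ξs (R - 2 * B.δ) i, B.d x q ≤ R3 := by
  have hpl := B.cA_len_act hp
  have hg := B.cA_gp_half hpl hq
  have hle := B.cA_len_le hpl hq
  obtain ⟨ξ', hξ', hn, rfl⟩ := B.cA_mem_act.1 hp
  have key : ∃ ξ ∈ Γ, B.P (q⁻¹ • ξ) q⁻¹ < R2 := by
    obtain ⟨a, ha, b, hb, hab⟩ := hM
    by_contra hc
    push Not at hc
    exact hab ⟨q⁻¹, hc a ha, hc b hb⟩
  obtain ⟨ξ, hξ, hlt⟩ := key
  have hP := B.P_inv q ξ
  rw [abs_le, hi] at hP
  have hPq : (i : ℝ) - R2 - B.δ ≤ B.P ξ q := by linarith [hP.1]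
  have hδ := B.δ_ge
  rw [hi] at hg hle
  have hle' : (i : ℝ) ≤ 2 * j := by exact_mod_cast hle
  refine ⟨B.ray ξ i, B.cA_mem_act.2 ⟨ξ, hξ, ?_, rfl⟩, ?_⟩
  · have hA := B.P_H2 ξ q (B.ray ξ' j)
    rw [B.gp_comm, hg] at hA
    have hA' : (i : ℝ) / 2 - B.δ ≤ B.P ξ (B.ray ξ' j) := by
      have : (i : ℝ) / 2 ≤ min (B.P ξ q) (i / 2) := le_min (by linarith) le_rfl
      linarith
    have hn2 : B.Near ((i : ℝ) / 2 - B.δ) ξ' ξ :=
      ⟨B.ray ξ' j, by rw [B.P_ray]; linarith, hA'⟩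
    refine (hn.trans hn2).mono ?_
    have : R ≤ min R ((i : ℝ) / 2 - B.δ) := le_min le_rfl (by linarith)
    linarith
  · have hA := B.P_H1 ξ (B.ray ξ i) q
    rw [B.P_ray] at hA
    have hm : (i : ℝ) - max R2 0 - B.δ ≤ min (i : ℝ) (B.P ξ q) :=
      le_min (by linarith [le_max_right R2 0]) (by linarith [le_max_left R2 0])
    rw [B.d_eq, B.ray_len, hi]
    linarith

/-- the number of viewpoints of a given length -/
theorem cA_card_Q {Γ : Set X} {ξs : X} {R R2 : ℝ} {j i R3 : ℕ}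
    (h1 : 2 * R2 + 2 * B.δ ≤ i) (h2 : 2 * R + 2 * B.δ ≤ i)
    (h3 : 2 * max R2 0 + 4 * B.δ ≤ R3) :
    ((B.lev i).filter fun q => ∃ p ∈ B.act Γ ξs R j, B.len (p⁻¹ * q) = j ∧ B.Mac R2 Γ q).card ≤
      (B.act Γ ξs (R - 2 * B.δ) i).card * B.D ^ R3 := by
  have hsub : ((B.lev i).filter fun q => ∃ p ∈ B.act Γ ξs R j, B.len (p⁻¹ * q) = j ∧
      B.Mac R2 Γ q) ⊆ (B.act Γ ξs (R - 2 * B.δ) i).biUnion
        fun x => (B.lev i).filter fun q => B.d x q ≤ R3 := by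
    intro q hq
    obtain ⟨hq1, p, hp, hpq, hM⟩ := Finset.mem_filter.1 hq
    obtain ⟨x, hx, hd⟩ := B.cA_close hp hpq (B.mem_lev.1 hq1) hM h1 h2 h3
    exact Finset.mem_biUnion.2 ⟨x, hx, Finset.mem_filter.2 ⟨hq1, hd⟩⟩
  refine (Finset.card_le_card hsub).trans (Finset.card_biUnion_le.trans ?_)
  refine (Finset.sum_le_card_nsmul _ _ (B.D ^ R3) fun x _ => ?_).trans (by simp)
  exact B.card_near x R3 _ fun q hq => (Finset.mem_filter.1 hq).2

/-- the number of active vertices sharing a viewpoint -/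
theorem cA_card_below {Γ : Set X} {ξs : X} {R : ℝ} {j : ℕ} (q : G) (r : G → Prop) :
    ((B.act Γ ξs R j).filter fun p => B.len (p⁻¹ * q) = j ∧ r q).card ≤
      B.D ^ (2 * j - B.len q + 2 * B.δ) := by
  rcases ((B.act Γ ξs R j).filter fun p => B.len (p⁻¹ * q) = j ∧ r q).eq_empty_or_nonempty with
    h | ⟨p0, hp0⟩
  · rw [h]; simp
  obtain ⟨hp0, hq0, -⟩ := Finset.mem_filter.1 hp0
  refine B.card_near p0 _ _ fun p hp => ?_
  obtain ⟨hp, hq, -⟩ := Finset.mem_filter.1 hp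
  have e0 := B.cA_len_act hp0
  have e1 := B.cA_len_act hp
  have g0 := B.cA_gp_half e0 hq0
  have g1 := B.cA_gp_half e1 hq
  have hle := B.cA_len_le e0 hq0
  have h4 := B.gp_four p0 q p
  rw [B.gp_comm q p, g0, g1, min_self] at h4
  rw [B.d_eq, e0, e1]
  push_cast [Nat.cast_sub hle]
  linarith

/-- pairs of a given length -/
theorem cA_pairs {Γ : Set X} (hΓ : IsPreconnected Γ) {ξs : X} {R1 R R2 : ℝ} {j i R3 u : ℕ}
    (hfar : ∃ η ∈ Γ, ¬ B.Near R1 ξs η) (hR : R1 + 4 * B.δ ≤ R)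
    (h1 : 2 * R2 + 2 * B.δ ≤ i) (h2 : 2 * R + 2 * B.δ ≤ i) (h2' : R + 6 * B.δ ≤ i)
    (h3 : 2 * max R2 0 + 4 * B.δ ≤ R3) (hij : i ≤ 2 * j) (hu : 1 ≤ u)
    (hn : 2 ^ (3 * u) * 2 ^ (5 * u * B.δ * B.D) ≤ (B.act Γ ξs R j).card) :
    2 ^ (3 * u) * ∑ p ∈ B.act Γ ξs R j,
        ((B.lev i).filter fun q => B.len (p⁻¹ * q) = j ∧ B.Mac R2 Γ q).card ≤
      B.D ^ (R3 + 14 * B.δ) * (B.act Γ ξs (R - 4 * B.δ) (2 * j + 2 * B.δ)).card *
        (B.act Γ ξs R j).card := by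
  set A := B.act Γ ξs R j with hA
  set n' := (B.act Γ ξs (R - 4 * B.δ) (2 * j + 2 * B.δ)).card with hn'
  set ni := (B.act Γ ξs (R - 2 * B.δ) i).card with hni
  set μ := min A.card (B.D ^ (2 * j - i + 2 * B.δ)) with hμ
  have hswap : ∑ p ∈ A, ((B.lev i).filter fun q => B.len (p⁻¹ * q) = j ∧ B.Mac R2 Γ q).card =
      ∑ q ∈ B.lev i, (A.filter fun p => B.len (p⁻¹ * q) = j ∧ B.Mac R2 Γ q).card := by
    simp only [Finset.card_filter]
    exact Finset.sum_comm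
  set Q := (B.lev i).filter fun q => ∃ p ∈ A, B.len (p⁻¹ * q) = j ∧ B.Mac R2 Γ q with hQ
  have hs1 : ∑ q ∈ B.lev i, (A.filter fun p => B.len (p⁻¹ * q) = j ∧ B.Mac R2 Γ q).card =
      ∑ q ∈ Q, (A.filter fun p => B.len (p⁻¹ * q) = j ∧ B.Mac R2 Γ q).card := by
    refine (Finset.sum_subset (Finset.filter_subset _ _) fun q hq hq' => ?_).symm
    rw [Finset.card_eq_zero, Finset.filter_eq_empty_iff]
    intro p hp hpq
    exact hq' (Finset.mem_filter.2 ⟨hq, p, hp, hpq⟩)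
  have hs2 : ∑ q ∈ Q, (A.filter fun p => B.len (p⁻¹ * q) = j ∧ B.Mac R2 Γ q).card ≤
      Q.card * μ := by
    refine (Finset.sum_le_card_nsmul _ _ μ fun q hq => ?_).trans (by simp)
    refine le_min (Finset.card_filter_le _ _) ?_
    have hq1 : B.len q = i := B.mem_lev.1 (Finset.mem_filter.1 hq).1
    have := B.cA_card_below (Γ := Γ) (ξs := ξs) (R := R) (j := j) q (B.Mac R2 Γ)
    rwa [hq1] at this
  have hQc : Q.card ≤ ni * B.D ^ R3 := B.cA_card_Q h1 h2 h3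
  have hgrow : ∀ k : ℕ, i + k * B.δ ≤ 2 * j → 2 ^ k * ni ≤ B.D ^ (14 * B.δ) * n' := by
    intro k hk
    have := B.grow hΓ hfar (R := R - 2 * B.δ) (by linarith) (i := i) (i' := 2 * j + 2 * B.δ)
      (k := k) (by linarith) (by nlinarith)
    have e : R - 2 * B.δ - 2 * B.δ = R - 4 * B.δ := by ring
    rwa [e] at this
  have hmain : 2 ^ (3 * u) * (ni * μ) ≤ B.D ^ (14 * B.δ) * n' * A.card := by
    by_cases hc : i + 3 * u * B.δ ≤ 2 * j
    · calc 2 ^ (3 * u) * (ni * μ) = (2 ^ (3 * u) * ni) * μ := by ring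
        _ ≤ B.D ^ (14 * B.δ) * n' * A.card := Nat.mul_le_mul (hgrow _ hc) (min_le_left _ _)
    · have h0 := hgrow 0 (by omega)
      have hD : B.D ≤ 2 ^ B.D := Nat.lt_two_pow_self.le
      have hδu : B.δ ≤ u * B.δ := Nat.le_mul_of_pos_left _ hu
      have hexp : 2 * j - i + 2 * B.δ ≤ 5 * u * B.δ := by
        have e1 : 3 * u * B.δ = 3 * (u * B.δ) := by ring
        have e2 : 5 * u * B.δ = 5 * (u * B.δ) := by ring
        omega
      have hμ2 : μ ≤ 2 ^ (5 * u * B.δ * B.D) := by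
        calc μ ≤ B.D ^ (2 * j - i + 2 * B.δ) := min_le_right _ _
          _ ≤ B.D ^ (5 * u * B.δ) := Nat.pow_le_pow_right (by linarith [B.two_le_D]) hexp
          _ ≤ (2 ^ B.D) ^ (5 * u * B.δ) := Nat.pow_le_pow_left hD _
          _ = 2 ^ (5 * u * B.δ * B.D) := by rw [← pow_mul, mul_comm]
      calc 2 ^ (3 * u) * (ni * μ) = (2 ^ 0 * ni) * (2 ^ (3 * u) * μ) := by ring
        _ ≤ B.D ^ (14 * B.δ) * n' * A.card :=
          Nat.mul_le_mul h0 ((Nat.mul_le_mul_left _ hμ2).trans hn)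
  rw [hswap, hs1]
  calc 2 ^ (3 * u) * ∑ q ∈ Q, (A.filter fun p => B.len (p⁻¹ * q) = j ∧ B.Mac R2 Γ q).card
      ≤ 2 ^ (3 * u) * (ni * B.D ^ R3 * μ) :=
        Nat.mul_le_mul_left _ (hs2.trans (Nat.mul_le_mul_right _ hQc))
    _ = B.D ^ R3 * (2 ^ (3 * u) * (ni * μ)) := by ring
    _ ≤ B.D ^ R3 * (B.D ^ (14 * B.δ) * n' * A.card) := Nat.mul_le_mul_left _ hmain
    _ = _ := by ring

/-- splitting the viewpoint count by length -/
theorem cA_cnt_le {Γ : Set X} {R2 : ℝ} {j : ℕ} (i0 : ℕ) {p : G} (hp : B.len p = j) :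
    max (B.cnt R2 Γ p j) 1 ≤ B.D ^ i0 + ∑ i ∈ Finset.Icc i0 (2 * j),
      ((B.lev i).filter fun q => B.len (p⁻¹ * q) = j ∧ B.Mac R2 Γ q).card := by
  have hD : 1 ≤ B.D ^ i0 := Nat.one_le_pow _ _ (by linarith [B.two_le_D])
  refine max_le ?_ (by omega)
  have hinj : B.cnt R2 Γ p j ≤ (B.ball i0 ∪ (Finset.Icc i0 (2 * j)).biUnion fun i =>
      (B.lev i).filter fun q => B.len (p⁻¹ * q) = j ∧ B.Mac R2 Γ q).card := by
    unfold cnt
    refine Finset.card_le_card_of_injOn (fun v => p * v) (fun v hv => ?_)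
      (fun a _ b _ h => mul_left_cancel h)
    obtain ⟨hv1, hv2⟩ := Finset.mem_filter.1 (Finset.mem_coe.1 hv)
    have hv3 : B.len (p⁻¹ * (p * v)) = j := by rw [inv_mul_cancel_left]; exact B.mem_lev.1 hv1
    refine Finset.mem_coe.2 (Finset.mem_union.2 ?_)
    by_cases hc : B.len (p * v) ≤ i0
    · exact Or.inl ((B.mem_ball _ _).2 hc)
    · refine Or.inr (Finset.mem_biUnion.2 ⟨B.len (p * v), Finset.mem_Icc.2
        ⟨by omega, B.cA_len_le hp hv3⟩, Finset.mem_filter.2 ⟨B.mem_lev.2 rfl, hv3, hv2⟩⟩)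
  exact hinj.trans ((Finset.card_union_le _ _).trans
    (Nat.add_le_add (B.card_ball i0) Finset.card_biUnion_le))

end BD

/-- if the weight sum is small, at least half of the counts are large -/
theorem cA_half {α : Type*} (A : Finset α) (m : α → ℕ) (hm : ∀ p, 1 ≤ m p) {j : ℕ} (hj : 0 < j)
    (hs : ∑ p ∈ A, 1 / Real.sqrt (m p) < j) :
    A.card ≤ 2 * (A.filter fun p => A.card ^ 2 ≤ 4 * j ^ 2 * m p).card := by
  rcases Nat.eq_zero_or_pos A.card with h0 | h0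
  · omega
  set n := A.card with hn
  have hsplit := Finset.card_filter_add_card_filter_not (s := A)
    (fun p => n ^ 2 ≤ 4 * j ^ 2 * m p)
  set bad := A.filter fun p => ¬ n ^ 2 ≤ 4 * j ^ 2 * m p with hbad
  have hn0 : (0 : ℝ) < n := by exact_mod_cast h0
  have hj0 : (0 : ℝ) < j := by exact_mod_cast hj
  have h1 : (bad.card : ℝ) * (2 * j / n) ≤ ∑ p ∈ bad, 1 / Real.sqrt (m p) := by
    rw [← nsmul_eq_mul]
    refine Finset.card_nsmul_le_sum _ _ _ fun p hp => ?_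
    have hp2 := not_le.1 (Finset.mem_filter.1 hp).2
    have hp3 : 4 * (j : ℝ) ^ 2 * m p < n ^ 2 := by exact_mod_cast hp2
    have hm0 : (0 : ℝ) < m p := by exact_mod_cast hm p
    have hsq := Real.sqrt_pos.2 hm0
    rw [div_le_div_iff₀ hn0 hsq, one_mul]
    refine abs_le_of_sq_le_sq' ?_ hn0.le |>.2
    rw [mul_pow, Real.sq_sqrt hm0.le]
    nlinarith
  have h2 : ∑ p ∈ bad, 1 / Real.sqrt (m p) ≤ ∑ p ∈ A, 1 / Real.sqrt (m p) :=
    Finset.sum_le_sum_of_subset_of_nonneg (Finset.filter_subset _ _) fun p _ _ => by positivity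
  have h3 : (bad.card : ℝ) * (2 * j / n) < j := by linarith
  rw [← mul_div_assoc, div_lt_iff₀ hn0] at h3
  have h4 : 2 * (bad.card : ℝ) < n := by nlinarith
  have h5 : 2 * bad.card < n := by exact_mod_cast h4
  omega

end Vale.Agent.P198
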