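import Vale.Agent.P198.Basic
import Vale.Agent.P198.CountA
import Vale.Agent.P198.CountAux

/-! Growth counting along a continuum. -/

namespace Vale.Agent.P198

open Set Filter Topology Metric MeasureTheory
open scoped Classical

variable {G : Type*} [Group G] {X : Type} [MetricSpace X] [MulAction G X]

theorem cA_exp (C : ℕ) : ∃ t : ℕ, 1 ≤ t ∧ ∀ u, t ≤ u → C * u ^ 3 ≤ 2 ^ u := by
  have h := tendsto_pow_const_div_const_pow_of_one_lt 3 (r := 2) (by norm_num)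
  have hC : (0 : ℝ) < 1 / (C + 1) := by positivity
  obtain ⟨t, ht⟩ := eventually_atTop.1 (h.eventually (gt_mem_nhds hC))
  refine ⟨max t 1, le_max_right _ _, fun u hu => ?_⟩
  have h1 := ht u ((le_max_left _ _).trans hu)
  rw [div_lt_div_iff₀ (by positivity) (by positivity), one_mul] at h1
  have h2 : (C : ℝ) * u ^ 3 ≤ 2 ^ u := by
    have : (0 : ℝ) ≤ (u : ℝ) ^ 3 := by positivity
    nlinarith
  exact_mod_cast h2

namespace BD
variable (B : BD G X)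

theorem cA_step {Γ : Set X} (hΓ : IsPreconnected Γ) {ξs : X} {R1 R R2 : ℝ} {j i0 R3 u : ℕ}
    (hfar : ∃ η ∈ Γ, ¬ B.Near R1 ξs η) (hR : R1 + 4 * B.δ ≤ R)
    (h1 : 2 * R2 + 2 * B.δ ≤ i0) (h2 : 2 * R + 2 * B.δ ≤ i0) (h2' : R + 6 * B.δ ≤ i0)
    (h3 : 2 * max R2 0 + 4 * B.δ ≤ R3) (hj : 0 < j) (hu : 1 ≤ u)
    (hn : 2 ^ (3 * u) * 2 ^ (5 * u * B.δ * B.D) ≤ (B.act Γ ξs R j).card)
    (hW : 16 * j ^ 2 * (2 * j + 1) * B.D ^ (R3 + 14 * B.δ) ≤ 2 ^ u)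
    (hW2 : 8 * j ^ 2 * B.D ^ i0 ≤ 2 ^ u)
    (hs : ∑ p ∈ B.act Γ ξs R j, 1 / Real.sqrt (max (B.cnt R2 Γ p j) 1) < j) :
    2 ^ (2 * u) * (B.act Γ ξs R j).card ^ 2 ≤
      (B.act Γ ξs (R - 4 * B.δ) (2 * j + 2 * B.δ)).card := by
  have hpairs : ∀ i ∈ Finset.Icc i0 (2 * j), 2 ^ (3 * u) * ∑ p ∈ B.act Γ ξs R j,
        ((B.lev i).filter fun q => B.len (p⁻¹ * q) = j ∧ B.Mac R2 Γ q).card ≤
      B.D ^ (R3 + 14 * B.δ) * (B.act Γ ξs (R - 4 * B.δ) (2 * j + 2 * B.δ)).card *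
        (B.act Γ ξs R j).card := by
    intro i hi
    obtain ⟨hi1, hi2⟩ := Finset.mem_Icc.1 hi
    have hi3 : (i0 : ℝ) ≤ i := by exact_mod_cast hi1
    exact B.cA_pairs hΓ hfar hR (by linarith) (by linarith) (by linarith) h3 hi2 hu hn
  have hhalf := cA_half (B.act Γ ξs R j) (fun p => max (B.cnt R2 Γ p j) 1)
    (fun p => le_max_right _ _) hj (by simpa only [Nat.cast_max, Nat.cast_one] using hs)
  have hlen : ∀ p ∈ B.act Γ ξs R j, B.len p = j := fun p hp => B.cA_len_act hp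
  set A := B.act Γ ξs R j with hA
  set n := A.card with hn0
  set n' := (B.act Γ ξs (R - 4 * B.δ) (2 * j + 2 * B.δ)).card with hn'
  set c : G → ℕ := fun p => ∑ i ∈ Finset.Icc i0 (2 * j),
      ((B.lev i).filter fun q => B.len (p⁻¹ * q) = j ∧ B.Mac R2 Γ q).card with hc
  set good := A.filter fun p => n ^ 2 ≤ 4 * j ^ 2 * max (B.cnt R2 Γ p j) 1 with hgood
  have hun : 2 ^ u ≤ n := by
    refine le_trans ?_ hn
    calc 2 ^ u ≤ 2 ^ (3 * u) := Nat.pow_le_pow_right (by norm_num) (by omega)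
      _ ≤ _ := Nat.le_mul_of_pos_right _ (by positivity)
  have hnpos : 0 < n := lt_of_lt_of_le (by positivity) hun
  have hn2 : 8 * j ^ 2 * B.D ^ i0 ≤ n ^ 2 := hW2.trans (hun.trans (by nlinarith))
  have hcg : ∀ p ∈ good, n ^ 2 ≤ 8 * j ^ 2 * c p := by
    intro p hp
    obtain ⟨hp1, hp2⟩ := Finset.mem_filter.1 hp
    have h4 : max (B.cnt R2 Γ p j) 1 ≤ B.D ^ i0 + c p := B.cA_cnt_le i0 (hlen p hp1)
    have h5 := hp2.trans (Nat.mul_le_mul_left _ h4)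
    nlinarith
  have hsum1 : good.card * n ^ 2 ≤ 8 * j ^ 2 * ∑ p ∈ A, c p := by
    calc good.card * n ^ 2 = ∑ _p ∈ good, n ^ 2 := by simp
      _ ≤ ∑ p ∈ good, 8 * j ^ 2 * c p := Finset.sum_le_sum hcg
      _ ≤ ∑ p ∈ A, 8 * j ^ 2 * c p :=
        Finset.sum_le_sum_of_subset (Finset.filter_subset _ _)
      _ = _ := by rw [Finset.mul_sum]
  have hsum2 : 2 ^ (3 * u) * ∑ p ∈ A, c p ≤ (2 * j + 1) * (B.D ^ (R3 + 14 * B.δ) * n' * n) := by
    rw [hc]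
    simp only
    rw [Finset.sum_comm, Finset.mul_sum]
    refine (Finset.sum_le_card_nsmul _ _ _ hpairs).trans ?_
    rw [smul_eq_mul, Nat.card_Icc]
    exact Nat.mul_le_mul_right _ (by omega)
  have hfin : 2 ^ u * n * (2 ^ (2 * u) * n ^ 2) ≤ 2 ^ u * n * n' := by
    calc 2 ^ u * n * (2 ^ (2 * u) * n ^ 2) = 2 ^ (3 * u) * (n * n ^ 2) := by ring
      _ ≤ 2 ^ (3 * u) * (2 * good.card * n ^ 2) :=
        Nat.mul_le_mul_left _ (Nat.mul_le_mul_right _ hhalf)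
      _ = 2 * 2 ^ (3 * u) * (good.card * n ^ 2) := by ring
      _ ≤ 2 * 2 ^ (3 * u) * (8 * j ^ 2 * ∑ p ∈ A, c p) := Nat.mul_le_mul_left _ hsum1
      _ = 16 * j ^ 2 * (2 ^ (3 * u) * ∑ p ∈ A, c p) := by ring
      _ ≤ 16 * j ^ 2 * ((2 * j + 1) * (B.D ^ (R3 + 14 * B.δ) * n' * n)) :=
        Nat.mul_le_mul_left _ hsum2
      _ = (16 * j ^ 2 * (2 * j + 1) * B.D ^ (R3 + 14 * B.δ)) * n * n' := by ring
      _ ≤ 2 ^ u * n * n' := Nat.mul_le_mul_right _ (Nat.mul_le_mul_right _ hW)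
  exact Nat.le_of_mul_le_mul_left hfin (by positivity)

theorem count : ∃ T : ℕ, ∀ (R1 R2 B0 : ℝ) (j0 : ℕ), ∃ J : Finset ℕ, J.card ≤ T ∧
    (∀ j ∈ J, j0 ≤ j) ∧ ∀ (Γ : Set X) (ξs : X), IsPreconnected Γ → ξs ∈ Γ →
      (∃ η ∈ Γ, ¬ B.Near R1 ξs η) →
      ∃ j ∈ J, (j : ℝ) ≤ ∑ p ∈ B.act Γ ξs B0 j, 1 / Real.sqrt (max (B.cnt R2 Γ p j) 1) := by
  obtain ⟨a, ha⟩ : ∃ a : ℕ, a = 5 * B.δ * B.D + 3 := ⟨_, rfl⟩
  obtain ⟨K, hK⟩ : ∃ K : ℕ, K = a * B.δ + 1 := ⟨_, rfl⟩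
  obtain ⟨T, hT⟩ : ∃ T : ℕ, T = B.D * K + 1 := ⟨_, rfl⟩
  refine ⟨T, fun R1 R2 B0 j0 => ?_⟩
  have hδ := B.δ_ge
  obtain ⟨Bm, hBm⟩ : ∃ Bm : ℝ, Bm = max B0 (R1 + 4 * B.δ) + 4 * B.δ * T := ⟨_, rfl⟩
  obtain ⟨i0, hi0⟩ := exists_nat_ge (max (2 * R2 + 2 * B.δ) (max (2 * Bm + 2 * B.δ)
    (Bm + 10 * B.δ)))
  simp only [max_le_iff] at hi0
  obtain ⟨hi1, hi2, hi3⟩ := hi0
  obtain ⟨R3, hR3⟩ := exists_nat_ge (2 * max R2 0 + 4 * B.δ)
  obtain ⟨t0, ht1, ht0⟩ := cA_exp (48 * K ^ 3 * B.D ^ (R3 + 14 * B.δ) + 8 * K ^ 2 * B.D ^ i0)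
  obtain ⟨t, ht⟩ : ∃ t : ℕ, t = t0 + j0 + 1 + i0 + 14 * B.δ * B.D * B.δ + 4 * B.δ := ⟨_, rfl⟩
  have hK1 : 1 ≤ K := by omega
  have hKu : ∀ r : ℕ, t ≤ 2 ^ r * t ∧ 2 ^ r * t ≤ K * (2 ^ r * t) := fun r =>
    ⟨Nat.le_mul_of_pos_left _ (by positivity), Nat.le_mul_of_pos_left _ hK1⟩
  set jj : ℕ → ℕ := fun r => K * (2 ^ r * t) - 2 * B.δ with hjj
  have hj1 : ∀ r, jj r + 2 * B.δ = K * (2 ^ r * t) := fun r => by
    have := hKu r
    simp only [hjj]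
    omega
  have hj2 : ∀ r, j0 + 1 ≤ jj r := fun r => by
    have := hKu r
    have := hj1 r
    omega
  have hj3 : ∀ r, jj (r + 1) = 2 * jj r + 2 * B.δ := fun r => by
    have h1 := hj1 r
    have h2 := hj1 (r + 1)
    have e : K * (2 ^ (r + 1) * t) = 2 * (K * (2 ^ r * t)) := by ring
    omega
  refine ⟨(Finset.range T).image jj, Finset.card_image_le.trans (by simp), ?_, ?_⟩
  · intro j hj
    obtain ⟨r, -, rfl⟩ := Finset.mem_image.1 hj
    have := hj2 r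
    omega
  intro Γ ξs hΓ hξs hfar
  by_contra hcon
  push Not at hcon
  have hind : ∀ r : ℕ, r ≤ T →
      2 ^ ((a + r) * (2 ^ r * t)) ≤ (B.act Γ ξs (Bm - 4 * B.δ * r) (jj r)).card := by
    intro r
    induction r with
    | zero =>
      intro _
      have hT0 : (0 : ℝ) ≤ 4 * B.δ * T := by positivity
      have hk : i0 + (a * t + 14 * B.δ * B.D + 2) * B.δ ≤ jj 0 := by
        have h1 := hj1 0
        have e1 : K * (2 ^ 0 * t) = a * t * B.δ + t := by rw [hK]; ring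
        have e2 : (a * t + 14 * B.δ * B.D + 2) * B.δ =
          a * t * B.δ + 14 * B.δ * B.D * B.δ + 2 * B.δ := by ring
        omega
      have hg := B.grow hΓ hfar (R := Bm + 2 * B.δ)
        (by linarith [le_max_right B0 (R1 + 4 * B.δ)]) (i := i0) (i' := jj 0)
        (k := a * t + 14 * B.δ * B.D) (by linarith) (by exact_mod_cast hk)
      have hne : 1 ≤ (B.act Γ ξs (Bm + 2 * B.δ) i0).card :=
        Finset.card_pos.2 ⟨_, B.cA_mem_act.2 ⟨ξs, hξs, B.near_refl _ _, rfl⟩⟩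
      have hD : B.D ^ (14 * B.δ) ≤ 2 ^ (14 * B.δ * B.D) := by
        calc B.D ^ (14 * B.δ) ≤ (2 ^ B.D) ^ (14 * B.δ) :=
            Nat.pow_le_pow_left Nat.lt_two_pow_self.le _
          _ = _ := by rw [← pow_mul, mul_comm]
      have e : Bm + 2 * B.δ - 2 * B.δ = Bm - 4 * B.δ * (0 : ℕ) := by simp
      rw [e] at hg
      have h5 : 2 ^ (14 * B.δ * B.D) * 2 ^ ((a + 0) * (2 ^ 0 * t)) ≤
          2 ^ (14 * B.δ * B.D) * (B.act Γ ξs (Bm - 4 * B.δ * (0 : ℕ)) (jj 0)).card := by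
        calc 2 ^ (14 * B.δ * B.D) * 2 ^ ((a + 0) * (2 ^ 0 * t))
            = 2 ^ (a * t + 14 * B.δ * B.D) * 1 := by ring
          _ ≤ 2 ^ (a * t + 14 * B.δ * B.D) * (B.act Γ ξs (Bm + 2 * B.δ) i0).card :=
            Nat.mul_le_mul_left _ hne
          _ ≤ _ := hg.trans (Nat.mul_le_mul_right _ hD)
      exact Nat.le_of_mul_le_mul_left h5 (by positivity)
    | succ r ih =>
      intro hr
      have ih' := ih (by omega)
      have hrT : (r : ℝ) ≤ T := by exact_mod_cast (by omega : r ≤ T)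
      have hr0 : (0 : ℝ) ≤ 4 * B.δ * r := by positivity
      have hrT' : 4 * (B.δ : ℝ) * r ≤ 4 * B.δ * T := by gcongr
      obtain ⟨u, hu⟩ : ∃ u, u = 2 ^ r * t := ⟨_, rfl⟩
      have hut : t ≤ u := hu ▸ (hKu r).1
      have hu1 : 1 ≤ u := by omega
      have hjle : jj r ≤ K * u := by
        have := hj1 r
        rw [← hu] at this
        omega
      have hjpos : 0 < jj r := by
        have := hj2 r
        omega
      have hexp := ht0 u (by omega)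
      have hW : 16 * jj r ^ 2 * (2 * jj r + 1) * B.D ^ (R3 + 14 * B.δ) ≤ 2 ^ u := by
        refine le_trans ?_ hexp
        calc 16 * jj r ^ 2 * (2 * jj r + 1) * B.D ^ (R3 + 14 * B.δ)
            ≤ 16 * (K * u) ^ 2 * (3 * (K * u)) * B.D ^ (R3 + 14 * B.δ) := by
              gcongr
              omega
          _ = 48 * K ^ 3 * B.D ^ (R3 + 14 * B.δ) * u ^ 3 := by ring
          _ ≤ _ := Nat.mul_le_mul_right _ (Nat.le_add_right _ _)
      have hW2 : 8 * jj r ^ 2 * B.D ^ i0 ≤ 2 ^ u := by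
        refine le_trans ?_ hexp
        calc 8 * jj r ^ 2 * B.D ^ i0 ≤ 8 * (K * u) ^ 2 * B.D ^ i0 := by gcongr
          _ = 8 * K ^ 2 * B.D ^ i0 * u ^ 2 := by ring
          _ ≤ 8 * K ^ 2 * B.D ^ i0 * u ^ 3 :=
            Nat.mul_le_mul_left _ (Nat.pow_le_pow_right hu1 (by norm_num))
          _ ≤ _ := Nat.mul_le_mul_right _ (Nat.le_add_left _ _)
      rw [← hu] at ih'
      have hn : 2 ^ (3 * u) * 2 ^ (5 * u * B.δ * B.D) ≤
          (B.act Γ ξs (Bm - 4 * B.δ * r) (jj r)).card := by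
        refine le_trans ?_ ih'
        rw [← pow_add]
        refine Nat.pow_le_pow_right (by norm_num) ?_
        rw [ha]
        nlinarith [Nat.zero_le (r * u)]
      have hs : ∑ p ∈ B.act Γ ξs (Bm - 4 * B.δ * r) (jj r),
          1 / Real.sqrt (max (B.cnt R2 Γ p (jj r)) 1) < jj r := by
        refine lt_of_le_of_lt ?_ (hcon (jj r) (Finset.mem_image.2
          ⟨r, Finset.mem_range.2 (by omega), rfl⟩))
        refine Finset.sum_le_sum_of_subset_of_nonneg (B.cA_act_mono ?_ _) fun p _ _ => by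
          positivity
        linarith [le_max_left B0 (R1 + 4 * B.δ)]
      have hstep := B.cA_step hΓ hfar (R := Bm - 4 * B.δ * r)
        (by linarith [le_max_right B0 (R1 + 4 * B.δ)]) hi1 (by linarith) (by linarith) hR3
        hjpos hu1 hn hW hW2 hs
      have e : Bm - 4 * B.δ * r - 4 * B.δ = Bm - 4 * B.δ * (r + 1 : ℕ) := by
        push_cast
        ring
      rw [e, ← hj3] at hstep
      refine le_trans ?_ hstep
      calc 2 ^ ((a + (r + 1)) * (2 ^ (r + 1) * t)) = 2 ^ (2 * u) * (2 ^ ((a + r) * u)) ^ 2 := by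
            rw [← pow_mul, ← pow_add, hu]
            congr 1
            ring
        _ ≤ _ := by gcongr
  have h1 := (hind T le_rfl).trans (B.cA_card_act _ _ _ _)
  have h2 : B.D ^ jj T ≤ 2 ^ (B.D * jj T) := by
    rw [pow_mul]
    exact Nat.pow_le_pow_left Nat.lt_two_pow_self.le _
  have h3 := (Nat.pow_le_pow_iff_right (by norm_num)).1 (h1.trans h2)
  have h4 : jj T ≤ K * (2 ^ T * t) := by
    have := hj1 T
    omega
  have h5 : 0 < 2 ^ T * t := by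
    have : 0 < t := by omega
    positivity
  have h6 : (a + T) * (2 ^ T * t) ≤ (B.D * K) * (2 ^ T * t) := by
    calc (a + T) * (2 ^ T * t) ≤ B.D * jj T := h3
      _ ≤ B.D * (K * (2 ^ T * t)) := Nat.mul_le_mul_left _ h4
      _ = _ := by ring
  have h7 := Nat.le_of_mul_le_mul_right h6 h5
  omega

end BD

end Vale.Agent.P198
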