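import Vale.Agent.P198.Basic

/-! Admissible weights: self-similarity and capacity of points. -/

namespace Vale.Agent.P198

open Set Filter Topology Metric MeasureTheory
open scoped Classical

theorem sub_walk {ι : Type*} {r : ι → ι → Prop} {f : ι → ℝ} {l T1 T2 : ℝ} (hl : 0 ≤ l)
    (hf : ∀ x y, r x y → |f x - f y| ≤ l) (hT : T2 ≤ T1) {a b : ι}
    (h : Relation.ReflTransGen r a b) (ha : T1 ≤ f a) (hb : f b < T2) :
    ∃ a' b', T1 ≤ f a' ∧ f a' ≤ T1 + l ∧ T2 - l ≤ f b' ∧ f b' < T2 ∧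
      Relation.ReflTransGen (fun x y => r x y ∧ (T2 - l ≤ f x ∧ f x ≤ T1 + l) ∧
        (T2 - l ≤ f y ∧ f y ≤ T1 + l)) a' b' := by
  set r' := fun x y => r x y ∧ (T2 - l ≤ f x ∧ f x ≤ T1 + l) ∧ (T2 - l ≤ f y ∧ f y ≤ T1 + l)
  have key : ∀ u, Relation.ReflTransGen r a u → (∃ a' b', T1 ≤ f a' ∧ f a' ≤ T1 + l ∧
      T2 - l ≤ f b' ∧ f b' < T2 ∧ Relation.ReflTransGen r' a' b') ∨ T1 ≤ f u ∨
      ∃ a', T1 ≤ f a' ∧ f a' ≤ T1 + l ∧ Relation.ReflTransGen r' a' u ∧ T2 ≤ f u ∧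
        f u ≤ T1 + l := fun u hu => by
    induction hu with
    | refl => exact Or.inr (Or.inl ha)
    | @tail u v _ h ih =>
      have h1 := abs_le.1 (hf u v h)
      refine ih.elim Or.inl fun ih => (le_or_gt T1 (f v)).elim (fun h => Or.inr (Or.inl h))
        fun hv => ?_
      obtain ⟨a', h2, h3, h4, h5, h6⟩ : ∃ a', T1 ≤ f a' ∧ f a' ≤ T1 + l ∧
          Relation.ReflTransGen r' a' u ∧ T2 ≤ f u ∧ f u ≤ T1 + l :=
        ih.elim (fun ih => ⟨u, ih, by linarith, .refl, by linarith, by linarith⟩) id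
      have h7 := h4.tail (c := v) ⟨h, ⟨by linarith, h6⟩, by linarith, by linarith⟩
      rcases lt_or_ge (f v) T2 with h8 | h8
      · exact Or.inl ⟨a', v, h2, h3, by linarith, h8, h7⟩
      · exact Or.inr (Or.inr ⟨a', h2, h3, h7, h8, by linarith⟩)
  rcases key b h with h | h | ⟨_, _, _, _, h, _⟩
  · exact h
  · linarith
  · linarith

variable {G : Type*} [Group G] {X : Type} [MetricSpace X] [MulAction G X]

namespace Ctx
variable (K : Ctx G X)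

theorem modLe_card (m : ℕ) : K.ModLe m (K.shell m).card :=
  ⟨fun _ => 1, ⟨fun _ => zero_le_one, fun c _ a ha _ _ _ _ => by
    simpa using Finset.card_pos.2 ⟨a, ha⟩⟩, by simp⟩

theorem ModLe.mono {K : Ctx G X} {m : ℕ} {M M' : ℝ} (h : K.ModLe m M) (hM : M ≤ M') :
    K.ModLe m M' :=
  h.imp fun _ h => ⟨h.1, h.2.trans hM⟩

theorem mod_a2 : (K.a2 : ℝ) = K.lam + 3 * K.δ := by simp [a2]

theorem mod_a3 : (K.a3 : ℝ) = 2 * K.lam + 4 * K.δ := by simp [a3]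

theorem mod_gap : (K.gap : ℝ) = 2 * K.lam + 3 * K.δ + 1 := by simp [gap]

theorem fwd_gp (ξ : X) (j : ℕ) {u : G} (h : (j : ℝ) - K.a2 - K.lam ≤ K.P ξ u) :
    (j : ℝ) - K.a3 ≤ K.gp u (K.ray ξ j) := by
  have h1 := K.P_H1 ξ u (K.ray ξ j)
  have h2 : (0 : ℝ) ≤ K.lam := Nat.cast_nonneg _
  have h3 := K.δ_ge
  rw [K.P_ray] at h1
  rw [mod_a2] at h
  rw [mod_a3]
  rcases min_choice (K.P ξ u) j with e | e <;> rw [e] at h1 <;> linarith

theorem fwd_shell {n j : ℕ} (hj : j ≤ n) {p u : G} (hp : p ∈ K.lev j) (hu : u ∈ K.lev n)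
    (h : (j : ℝ) - K.a3 ≤ K.gp u p) : p⁻¹ * u ∈ K.shell (n - j) := by
  have h1 := K.len_tr p u
  have h2 := K.gp_le p u
  rw [K.gp_comm, K.mem_lev.1 hp] at h2
  rw [K.mem_lev.1 hp, K.mem_lev.1 hu] at h1
  rw [shell, Finset.mem_filter, K.mem_ball, ← Nat.cast_le (α := ℝ), ← Nat.cast_le (α := ℝ)]
  push_cast [hj]
  constructor <;> linarith

theorem fwd_card (j : ℕ) (u : G) :
    ((K.lev j).filter fun p => (j : ℝ) - K.a3 ≤ K.gp u p).card ≤ K.D ^ (2 * K.a3 + 2 * K.δ) := by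
  rcases Finset.eq_empty_or_nonempty ((K.lev j).filter fun p => (j : ℝ) - K.a3 ≤ K.gp u p) with
    h | ⟨p0, h0⟩
  · rw [h]
    exact Nat.zero_le _
  refine K.card_near p0 _ _ fun p hp => ?_
  rw [Finset.mem_filter, K.mem_lev] at h0 hp
  have h1 := K.gp_four p0 u p
  have h2 := le_min (h0.2.trans_eq (K.gp_comm _ _)) hp.2
  rw [K.d_eq, h0.1, hp.1]
  push_cast
  linarith

theorem fwd {n j : ℕ} (hj : j ≤ n) {ρ : G → ℝ} (hρ : K.Adm (n - j) ρ) (ξ : X) {c : Finset G}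
    (hc : c ⊆ K.lev n) {a b : G} (hab : K.Chain c a b)
    (ha : (j : ℝ) - K.lam ≤ K.P ξ a) (hb : K.P ξ b < (j : ℝ) - K.a2) :
    1 ≤ ∑ u ∈ c.filter (fun u => (j : ℝ) - K.a2 - K.lam ≤ K.P ξ u ∧ K.P ξ u ≤ j),
      ρ ((K.ray ξ j)⁻¹ * u) := by
  have l0 : (0 : ℝ) ≤ K.lam := Nat.cast_nonneg _
  have d1 := K.δ_ge
  have e2 := K.mod_a2
  obtain ⟨a', b', h1, h2, h3, h4, h5⟩ := sub_walk (f := K.P ξ) l0 (fun x y h => by
    have := K.P_lip ξ x y
    rw [K.mem_lev.1 (hc h.1), K.mem_lev.1 (hc h.2.1), sub_self, zero_div, sub_zero] at this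
    linarith [h.2.2]) (by linarith) hab ha hb
  simp only [sub_add_cancel] at h2 h5
  have ha' : a' ∈ c := by
    rcases h5.cases_head with rfl | ⟨_, h, _⟩
    · linarith
    · exact h.1.1
  have hb' : b' ∈ c := by
    rcases h5.cases_tail with rfl | ⟨_, _, h⟩
    · linarith
    · exact h.1.2.1
  have hp := K.P_ray ξ j
  rw [← Finset.sum_image (g := fun u => (K.ray ξ j)⁻¹ * u) fun _ _ _ _ h => mul_left_cancel h]
  refine hρ.2 _ (fun v hv => ?_) _ (Finset.mem_image_of_mem _ (Finset.mem_filter.2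
    ⟨ha', by linarith, h2⟩)) _ (Finset.mem_image_of_mem _ (Finset.mem_filter.2
    ⟨hb', h3, by linarith⟩)) (Relation.ReflTransGen.lift _ (fun x y h => ⟨Finset.mem_image_of_mem _
      (Finset.mem_filter.2 ⟨h.1.1, h.2.1⟩), Finset.mem_image_of_mem _
      (Finset.mem_filter.2 ⟨h.1.2.1, h.2.2⟩), (K.d_mul _ _ _).trans_le h.1.2.2⟩) _ _ h5) ?_
  · obtain ⟨u, hu, rfl⟩ := Finset.mem_image.1 hv
    rw [Finset.mem_filter] at hu
    exact K.fwd_shell hj (K.mem_lev.2 (K.ray_len ξ j)) (hc hu.1) (K.fwd_gp ξ j hu.2.1)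
  · have g1 := K.P_H1 ξ a' (K.ray ξ j)
    have g2 := K.P_H2 ξ (K.ray ξ j) b'
    have g3 := K.gp_four b' a' (K.ray ξ j)
    rw [hp, min_eq_left h2] at g1
    rw [hp, K.gp_comm] at g2
    rw [K.gp_tr, K.ray_len, K.gp_comm a' b']
    rcases min_choice (j : ℝ) (K.gp b' (K.ray ξ j)) with e | e <;> rw [e] at g2
    · linarith
    rcases min_choice (K.gp b' a') (K.gp a' (K.ray ξ j)) with e | e <;> rw [e] at g3 <;> linarith

theorem mod_en {n j : ℕ} (hj : j ≤ n) {p : G} (hp : p ∈ K.lev j) (ρ : G → ℝ) {Q : G → Prop}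
    [DecidablePred Q] (hQ : ∀ u, Q u → (j : ℝ) - K.a3 ≤ K.gp u p) :
    ∑ u ∈ K.lev n, (if Q u then ρ (p⁻¹ * u) else 0) ^ 2 ≤ ∑ v ∈ K.shell (n - j), ρ v ^ 2 := by
  simp only [ite_pow, zero_pow two_ne_zero, ← Finset.sum_filter]
  rw [← Finset.sum_image (g := fun u => p⁻¹ * u) (f := fun v => ρ v ^ 2)
    fun _ _ _ _ h => mul_left_cancel h]
  refine Finset.sum_le_sum_of_subset_of_nonneg (fun v hv => ?_) fun _ _ _ => sq_nonneg _
  obtain ⟨u, hu, rfl⟩ := Finset.mem_image.1 hv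
  rw [Finset.mem_filter] at hu
  exact K.fwd_shell hj hp hu.1 (hQ u hu.2)

theorem cap {M : ℝ} (hM : ∀ m, K.ModLe m M) {k : ℕ} (hk : 1 ≤ k) (ξ : X) (R n : ℕ)
    (hn : R + k * K.gap ≤ n) : ∃ ρ : G → ℝ, (∀ u, 0 ≤ ρ u) ∧ ∑ u ∈ K.lev n, ρ u ^ 2 ≤ M / k ∧
      ∀ c ⊆ K.lev n, ∀ a b, K.Chain c a b → ((R + k * K.gap : ℕ) : ℝ) ≤ K.P ξ a → K.P ξ b ≤ R →
        1 ≤ ∑ u ∈ c, ρ u := by
  choose ρ h1 h2 using hM
  have l0 : (0 : ℝ) ≤ K.lam := Nat.cast_nonneg _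
  have d1 := K.δ_ge
  have e2 := K.mod_a2
  have e3 := K.mod_gap
  have k0 : (0 : ℝ) < k := by exact_mod_cast hk
  let i : ℕ → ℕ := fun l => R + (l + 1) * K.gap
  have hi : ∀ l ∈ Finset.range k, i l ≤ R + k * K.gap := fun l hl =>
    Nat.add_le_add_left (Nat.mul_le_mul_right _ (Finset.mem_range.1 hl)) _
  have hi' : ∀ l l', l < l' → (i l : ℝ) + K.gap ≤ i l' := fun l l' h => by
    have := Nat.mul_le_mul_right K.gap (Nat.succ_le_succ h)
    exact_mod_cast (by simp only [i]; nlinarith : i l + K.gap ≤ i l')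
  let g : ℕ → G → ℝ := fun l u => if (i l : ℝ) - K.a2 - K.lam ≤ K.P ξ u ∧ K.P ξ u ≤ i l then
    ρ (n - i l) ((K.ray ξ (i l))⁻¹ * u) else 0
  have g0 : ∀ l u, 0 ≤ g l u := fun l u => ite_nonneg ((h1 _).1 _) le_rfl
  refine ⟨fun u => (∑ l ∈ Finset.range k, g l u) / k,
    fun u => div_nonneg (Finset.sum_nonneg fun l _ => g0 l u) k0.le, ?_,
    fun c hc a b hab ha hb => ?_⟩
  · have h3 : ∀ u, (∑ l ∈ Finset.range k, g l u) ^ 2 = ∑ l ∈ Finset.range k, g l u ^ 2 :=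
      fun u => by
      rw [pow_two, Finset.sum_mul_sum]
      refine Finset.sum_congr rfl fun l hl => (Finset.sum_eq_single_of_mem l hl
        fun l' _ h => ?_).trans (pow_two _).symm
      simp only [g]
      split_ifs with a1 a2
      · rcases lt_or_gt_of_ne h with h | h <;> linarith [hi' _ _ h, a1.1, a1.2, a2.1, a2.2]
      all_goals simp
    simp only [div_pow, ← Finset.sum_div, h3]
    rw [Finset.sum_comm, div_le_div_iff₀ (by positivity) k0]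
    refine (mul_le_mul_of_nonneg_right (Finset.sum_le_card_nsmul _ _ M fun l hl =>
      (K.mod_en ((hi l hl).trans hn) (K.mem_lev.2 (K.ray_len ξ _)) _
        fun u hu => K.fwd_gp ξ _ hu.1).trans (h2 _)) k0.le).trans_eq ?_
    rw [Finset.card_range, nsmul_eq_mul]
    ring
  · rw [← Finset.sum_div, one_le_div k0, Finset.sum_comm]
    refine le_of_eq_of_le (by simp) (Finset.card_nsmul_le_sum _ _ 1 fun l hl =>
      (K.fwd ((hi l hl).trans hn) (h1 _) ξ hc hab ?_ ?_).trans_eq (Finset.sum_filter _ _))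
    · linarith [(Nat.cast_le (α := ℝ)).2 (hi l hl)]
    · have : (R : ℝ) + K.gap ≤ i l := by
        exact_mod_cast Nat.add_le_add_left (Nat.le_mul_of_pos_left _ l.succ_pos) R
      linarith

theorem big {M : ℝ} (hM : ∀ m, K.ModLe m M) (R : ℝ) : ∃ (C : ℝ) (n1 : ℕ), 0 < C ∧ ∀ n, n1 ≤ n →
    ∃ ρ : G → ℝ, (∀ u, 0 ≤ ρ u) ∧ ∑ u ∈ K.lev n, ρ u ^ 2 ≤ C ∧
      ∀ c ⊆ K.lev n, ∀ a ∈ c, ∀ b, K.Chain c a b → K.gp a b ≤ R → 1 ≤ ∑ u ∈ c, ρ u := by
  choose ρ h1 h2 using hM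
  have l0 : (0 : ℝ) ≤ K.lam := Nat.cast_nonneg _
  have d1 := K.δ_ge
  have e2 := K.mod_a2
  obtain ⟨i, hi⟩ := exists_nat_gt (R + K.δ + K.a2)
  refine ⟨(K.lev i).card ^ 2 * |M| + 1, i + K.Cv, by positivity, fun n hn => ?_⟩
  have hin : i ≤ n := le_of_add_le_left hn
  have g0 : ∀ u p, 0 ≤ if (i : ℝ) - K.a3 ≤ K.gp u p then ρ (n - i) (p⁻¹ * u) else 0 :=
    fun u p => ite_nonneg ((h1 _).1 _) le_rfl
  refine ⟨fun u => ∑ p ∈ K.lev i, if (i : ℝ) - K.a3 ≤ K.gp u p then ρ (n - i) (p⁻¹ * u) else 0,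
    fun u => Finset.sum_nonneg fun p _ => g0 u p, ?_, fun c hc a ha b hab h => ?_⟩
  · refine (Finset.sum_le_sum fun u _ => sq_sum_le_card_mul_sum_sq).trans ?_
    rw [← Finset.mul_sum, Finset.sum_comm]
    refine (mul_le_mul_of_nonneg_left (Finset.sum_le_card_nsmul _ _ |M| fun p hp =>
      ((K.mod_en hin hp _ fun u hu => hu).trans (h2 _)).trans (le_abs_self M))
      (Nat.cast_nonneg _)).trans ?_
    rw [nsmul_eq_mul]
    linarith
  · obtain ⟨ξ, hξ⟩ := K.vis a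
    have a1 : (i : ℝ) + K.Cv ≤ n := by exact_mod_cast hn
    have a2 := K.P_H1 ξ a b
    rw [K.mem_lev.1 (hc ha)] at hξ
    refine (K.fwd hin (h1 _) ξ hc hab (by linarith) ?_).trans ((Finset.sum_le_sum fun u hu =>
      ?_).trans (Finset.sum_le_sum_of_subset_of_nonneg (Finset.filter_subset _ _)
        fun u _ _ => Finset.sum_nonneg fun p _ => g0 u p))
    · rcases min_choice (K.P ξ a) (K.P ξ b) with e | e <;> rw [e] at a2 <;> linarith
    · refine le_of_eq_of_le ?_ (Finset.single_le_sum (fun p _ => g0 u p)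
        (K.mem_lev.2 (K.ray_len ξ i)))
      rw [if_pos (K.fwd_gp ξ i (Finset.mem_filter.1 hu).2.1)]

end Ctx

end Vale.Agent.P198
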