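import Vale.Agent.P198.Height

/-! Joining vertices with close images; pulled back cutoff functions. -/

namespace Vale.Agent.P198

open Set Filter Topology Metric MeasureTheory
open scoped Classical

theorem jn_sum_le {ι κ : Type*} (S : Finset ι) (T V : Finset κ) (r : ι → κ → Prop) {f : κ → ℝ}
    (hf : ∀ v, 0 ≤ f v) (hT : ∀ v ∈ T, v ∈ V ∧ ∃ x ∈ S, r x v) :
    ∑ v ∈ T, f v ≤ ∑ x ∈ S, ∑ v ∈ V.filter (r x), f v := by
  have : ∑ x ∈ S, ∑ v ∈ V.filter (r x), f v = ∑ v ∈ V, ∑ x ∈ S, if r x v then f v else 0 := by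
    simp only [Finset.sum_filter]
    exact Finset.sum_comm
  rw [this]
  refine le_trans (Finset.sum_le_sum fun v hv => ?_) (Finset.sum_le_sum_of_subset_of_nonneg
    (fun v hv => (hT v hv).1) fun v _ _ => Finset.sum_nonneg fun x _ => by
      split_ifs
      exacts [hf v, le_rfl])
  obtain ⟨x, hx, hr⟩ := (hT v hv).2
  refine le_trans ?_ (Finset.single_le_sum (f := fun x => if r x v then f v else 0)
    (fun x _ => by
      split_ifs
      exacts [hf v, le_rfl]) hx)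
  simp [hr]

theorem jn_rmono {ι : Type*} {r r' : ι → ι → Prop} (h : ∀ x y, r x y → r' x y) {a b : ι}
    (hab : Relation.ReflTransGen r a b) : Relation.ReflTransGen r' a b := by
  induction hab with
  | refl => exact Relation.ReflTransGen.refl
  | tail _ h' ih => exact ih.tail (h _ _ h')

theorem jn_mf {ι : Type*} {p : ι → Prop} {inst : DecidablePred p} {s : Finset ι} {a : ι}
    (h : a ∈ @Finset.filter _ p inst s) : a ∈ s ∧ p a := Finset.mem_filter.1 h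

theorem jn_exit {ι : Type*} {r r' : ι → ι → Prop} {a b : ι} (h : Relation.ReflTransGen r a b)
    (hb : ¬ Relation.ReflTransGen r' a b) :
    ∃ x y, Relation.ReflTransGen r' a x ∧ r x y ∧ ¬ r' x y := by
  induction h with
  | refl => exact absurd Relation.ReflTransGen.refl hb
  | @tail x y _ hxy ih =>
    by_cases hx : Relation.ReflTransGen r' a x
    · exact ⟨x, y, hx, hxy, fun h => hb (hx.tail h)⟩
    · exact ih hx

variable {G : Type*} [Group G] {X : Type} [MetricSpace X] [MulAction G X]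

namespace Ctx
variable (K : Ctx G X)

theorem jn_card {n : ℕ} (hn : K.cov.n0 ≤ n) {u : G} (hu : u ∈ K.lev n) {S : Finset G}
    (hS : ∀ v ∈ S, v ∈ K.lev n ∧ K.adj u v) : (S.card : ℝ) ≤ (K.D : ℝ) ^ K.lam := by
  exact_mod_cast K.card_near u K.lam S fun v hv => K.adj_d hn hu (hS v hv).1 (hS v hv).2

theorem sum_hat {e : ℝ × ℝ → X} {n : ℕ} (hn : K.cov.n0 ≤ n) (E : K.Sol e n) {A A' : Finset G}
    (hA : A ⊆ K.fam e n) (hA' : ∀ u ∈ A, ∀ v ∈ K.fam e n, K.adj u v → v ∈ A') :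
    ∑ u ∈ A, E.hat u ^ 2 ≤ ((K.D : ℝ) ^ K.lam) ^ 2 * ∑ v ∈ A', E.σ v ^ 2 := by
  have hD : (0 : ℝ) ≤ (K.D : ℝ) ^ K.lam := by positivity
  have h1 : ∀ u ∈ A, E.hat u ^ 2 ≤ (K.D : ℝ) ^ K.lam *
      ∑ v ∈ A', if v ∈ K.fam e n ∧ K.adj u v then E.σ v ^ 2 else 0 := by
    intro u hu
    refine (sq_sum_le_card_mul_sum_sq).trans (mul_le_mul (K.jn_card hn (K.fam_subset n (hA hu))
      fun v hv => ⟨K.fam_subset n (Finset.mem_filter.1 hv).1, (Finset.mem_filter.1 hv).2⟩) ?_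
      (Finset.sum_nonneg fun _ _ => sq_nonneg _) hD)
    rw [← Finset.sum_filter]
    refine Finset.sum_le_sum_of_subset_of_nonneg (fun v hv => ?_) fun _ _ _ => sq_nonneg _
    have := Finset.mem_filter.1 hv
    exact Finset.mem_filter.2 ⟨hA' u hu v this.1 this.2, this⟩
  refine (Finset.sum_le_sum h1).trans ?_
  rw [← Finset.mul_sum, Finset.sum_comm, pow_two, mul_assoc]
  refine mul_le_mul_of_nonneg_left ?_ hD
  rw [Finset.mul_sum]
  refine Finset.sum_le_sum fun v _ => ?_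
  rw [← Finset.sum_filter, Finset.sum_const, nsmul_eq_mul]
  refine mul_le_mul_of_nonneg_right ?_ (sq_nonneg _)
  by_cases hv : v ∈ K.fam e n
  · exact K.jn_card hn (K.fam_subset n hv) fun u hu =>
      ⟨K.fam_subset n (hA (Finset.mem_filter.1 hu).1), K.adj_symm (Finset.mem_filter.1 hu).2.2⟩
  · simp [hv]

theorem jn_symm {c : Finset G} {a b : G} (h : K.AChain c a b) : K.AChain c b a := by
  induction h with
  | refl => exact Relation.ReflTransGen.refl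
  | tail _ h ih => exact Relation.ReflTransGen.head ⟨h.2.1, h.1, K.adj_symm h.2.2⟩ ih

theorem jn_mono {c c' : Finset G} (hc : c ⊆ c') {a b : G} (h : K.AChain c a b) :
    K.AChain c' a b :=
  jn_rmono (fun _ _ h => ⟨hc h.1, hc h.2.1, h.2.2⟩) h

variable {K} {e : ℝ × ℝ → X} {n : ℕ}

theorem jn_self (hn : K.cov.n0 ≤ n) {u : G} (hu : u ∈ K.fam e n) : K.adj u u :=
  K.adj_self (by rw [K.mem_lev.1 (K.fam_subset n hu)]; exact hn)

theorem jn_σ (hn : K.cov.n0 ≤ n) (E : K.Sol e n) {ω : ℝ} (hω : Small E ω) {u : G}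
    (hu : u ∈ K.fam e n) : E.σ u ≤ ω :=
  (σ_le_hat E hu (jn_self hn hu)).trans (hω.1 u hu)

/-- a chain leaving the band carries a lot of weight -/
theorem jn_bad (he : IsOpenEmbedding e) (E : K.Sol e n) {c : Finset G}
    (P : G → Prop) (hP : ∀ x, P x → x ∈ K.fam e n ∧ K.U x ⊆ e '' sq) {s0 h : ℝ} {u1 u2 : G}
    (h1c : u1 ∈ c) (h1P : P u1) (h1 : ∀ z, e z ∈ K.U u1 → |Hf E z - s0| ≤ 2 * h) {z1 : ℝ × ℝ}
    (hz1 : e z1 ∈ K.U u1) (hz1' : |Hf E z1 - s0| ≤ h)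
    (hch : Relation.ReflTransGen (fun x y => (x ∈ c ∧ P x) ∧ (y ∈ c ∧ P y) ∧ K.adj x y) u1 u2)
    (hbad : ¬ K.AChain (c.filter fun x => P x ∧ ∀ z, e z ∈ K.U x → |Hf E z - s0| ≤ 2 * h) u1 u2) :
    h ≤ ∑ x ∈ c.filter (fun x => P x ∧ ∃ z ∈ sq, e z ∈ K.U x ∧ |Hf E z - s0| ≤ 2 * h), E.hat x := by
  set Gd := c.filter fun x => P x ∧ ∀ z, e z ∈ K.U x → |Hf E z - s0| ≤ 2 * h with hGd
  obtain ⟨x, y, hx, ⟨-, ⟨hyc, hyP⟩, hxy⟩, hn'⟩ := jn_exit hch hbad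
  have hreach : ∀ w, K.AChain Gd u1 w → w ∈ Gd := by
    intro w hw
    induction hw with
    | refl => exact Finset.mem_filter.2 ⟨h1c, h1P, h1⟩
    | tail _ h _ => exact h.2.1
  have hxG := hreach x hx
  have hy : ∃ z, e z ∈ K.U y ∧ 2 * h < |Hf E z - s0| := by
    by_contra hh
    push Not at hh
    exact hn' ⟨hxG, Finset.mem_filter.2 ⟨hyc, hyP, hh⟩, hxy⟩
  obtain ⟨z, hz, hz'⟩ := hy
  set O : Set X := (⋃ w ∈ {w | K.AChain Gd u1 w}, K.U w) ∪ K.U y with hO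
  have hOc : IsPreconnected O := by
    obtain ⟨a, ha, ha'⟩ := hxy
    refine IsPreconnected.union a (mem_iUnion₂.2 ⟨x, hx, ha⟩) ha' ?_ (K.cov.U_conn y)
    exact union_conn (U := K.U) (r := fun x y => x ∈ Gd ∧ y ∈ Gd ∧ K.adj x y) K.cov.U_conn
      (fun _ _ h => h.2.2) u1
  have hOs : O ⊆ e '' sq := by
    rintro a (ha | ha)
    · obtain ⟨w, hw, ha⟩ := mem_iUnion₂.1 ha
      exact (hP w (Finset.mem_filter.1 (hreach w hw)).2.1).2 ha
    · exact (hP y hyP).2 ha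
  have hβ : e ⁻¹' O ⊆ sq := by
    intro w hw
    obtain ⟨w', hw', h⟩ := hOs hw
    rwa [← he.injective h]
  have hv := Hf_var E hβ (pre_conn he hOc (hOs.trans (image_subset_range _ _)))
    (z := z) (w := z1) (Or.inr hz) (Or.inl (mem_iUnion₂.2 ⟨u1, Relation.ReflTransGen.refl, hz1⟩))
  have h2 : h ≤ |Hf E z - Hf E z1| := by
    have := abs_sub_le (Hf E z) (Hf E z1) s0
    linarith
  refine h2.trans (hv.trans (jn_sum_le _ _ _ K.adj E.σ_nonneg fun v hv => ?_))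
  obtain ⟨hvf, a, hav, w, hw, rfl⟩ := Finset.mem_filter.1 hv
  refine ⟨hvf, ?_⟩
  rcases hw with hw | hw
  · obtain ⟨w', hw', ha⟩ := mem_iUnion₂.1 hw
    obtain ⟨k1, k2, k3⟩ := Finset.mem_filter.1 (hreach w' hw')
    exact ⟨w', Finset.mem_filter.2 ⟨k1, k2, w, hβ (Or.inl hw), ha, k3 w ha⟩, _, ha, hav⟩
  · obtain ⟨a, ha, ha'⟩ := hxy
    obtain ⟨a', ha's, rfl⟩ := (hP y hyP).2 ha'
    exact ⟨y, Finset.mem_filter.2 ⟨hyc, hyP, a', ha's, ha',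
      (Finset.mem_filter.1 hxG).2.2 a' ha⟩, _, hw, hav⟩

/-- the energy of the window -/
theorem jn_win (he : IsOpenEmbedding e) (hn : K.cov.n0 ≤ n) (E : K.Sol e n) {ω ε t0 s0 h : ℝ}
    (hω : Small E ω) (hω0 : 0 < ω) (hωε : ω ≤ ε) (hε : ε ≤ 1 / 64) (ht0 : 1 / 4 ≤ t0)
    (ht1 : t0 ≤ 3 / 4) (hh : 0 ≤ h) :
    ∑ x ∈ (K.fam e n).filter (fun x => |E.pot x - t0| ≤ 2 * ε ∧
      ∃ z ∈ sq, e z ∈ K.U x ∧ |Hf E z - s0| ≤ 2 * h), E.hat x ^ 2 ≤
      ((K.D : ℝ) ^ K.lam) ^ 2 * (7 * ε * (4 * h + 10 * ε)) := by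
  have h1 := msq E he hω0 (by linarith) hω (a := t0 - 3 * ε) (b := t0 + 3 * ε)
    (c := s0 - 2 * h - ε) (d := s0 + 2 * h + ε) (by linarith) (by linarith) (by linarith)
    (by linarith)
  refine (K.sum_hat hn E (Finset.filter_subset _ _) ?_).trans
    (mul_le_mul_of_nonneg_left (h1.trans ?_) (by positivity))
  · intro u hu v hv huv
    obtain ⟨huf, hp, z, hz, hzu, hzH⟩ := Finset.mem_filter.1 hu
    rw [abs_le] at hp hzH
    have k1 := E.pot_adj u huf v hv huv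
    have k2 := E.pot_adj v hv u huf (K.adj_symm huv)
    have k3 := jn_σ hn E hω huf
    have k4 := jn_σ hn E hω hv
    have hin := inside E he hω huf (by linarith) (by linarith)
    obtain ⟨a, ha, ha'⟩ := huv
    obtain ⟨w, hw, rfl⟩ := hin ha
    have k5 := (Hf_osc E he hin hzu ha).trans (hω.1 u huf)
    rw [abs_le] at k5
    exact Finset.mem_filter.2 ⟨hv, by linarith, by linarith, w, hw, ha', by linarith, by linarith⟩
  · exact mul_le_mul (by linarith) (by linarith) (by linarith) (by linarith)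

theorem jn_main (he : IsOpenEmbedding e) (hn : K.cov.n0 ≤ n) (E : K.Sol e n) {ω ε t0 s0 L0 : ℝ}
    (hL0 : 49 * ((K.D : ℝ) ^ K.lam) ^ 2 + 9 ≤ L0)
    (hω : Small E ω) (hω0 : 0 < ω) (hωε : ω ≤ ε) (hε : ε ≤ 1 / 64) (ht0 : 1 / 4 ≤ t0)
    (ht1 : t0 ≤ 3 / 4) (hs0 : (2 * L0 + 40) * ε ≤ s0) (hs1 : s0 + (2 * L0 + 40) * ε ≤ E.M)
    (hc : ∀ z ∈ sq, |Hf E z - s0| ≤ (2 * L0 + 40) * ε → ∃ u ∈ K.fam e n, e z ∈ K.U u)
    {u v : G} {s1 s2 : ℝ} (g1 : E.Good s1) (g2 : E.Good s2) (h12 : s1 ≤ s2) (hu : u ∈ E.lv s1)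
    (hv : v ∈ E.lv s2) (hup : |E.pot u - t0| ≤ ε) (hvp : |E.pot v - t0| ≤ ε)
    (huz : ∃ z ∈ sq, e z ∈ K.U u ∧ |Hf E z - s0| ≤ ε)
    (hvz : ∃ z ∈ sq, e z ∈ K.U v ∧ |Hf E z - s0| ≤ ε) :
    K.AChain ((K.fam e n).filter fun x => |E.pot x - t0| ≤ 3 * ε ∧ K.U x ⊆ e '' sq ∧
      ∀ z, e z ∈ K.U x → |Hf E z - s0| ≤ (2 * L0 + 40) * ε) u v := by
  have hN : (0 : ℝ) ≤ ((K.D : ℝ) ^ K.lam) ^ 2 := sq_nonneg _
  have hε0 : 0 < ε := by linarith
  have hL9 : 9 ≤ L0 := by linarith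
  have hLε : 9 * ε ≤ L0 * ε := by gcongr
  obtain ⟨huf, hu1, hu2⟩ := Finset.mem_filter.1 hu
  obtain ⟨hvf, hv1, hv2⟩ := Finset.mem_filter.1 hv
  rw [abs_le] at hup hvp
  have b1 : t0 - ε ≤ s1 := by linarith
  have b2 : s2 ≤ t0 + 2 * ε := by linarith [jn_σ hn E hω hvf]
  set P : G → Prop := fun x => s1 ≤ E.pot x + E.σ x ∧ E.pot x < s2 with hPdef
  have hPp : ∀ x ∈ K.fam e n, P x → |E.pot x - t0| ≤ 2 * ε := fun x hx h => by
    have := jn_σ hn E hω hx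
    rw [abs_le]
    constructor <;> linarith [h.1, h.2]
  have hPin : ∀ x ∈ K.fam e n, P x → K.U x ⊆ e '' sq := fun x hx h => by
    have := abs_le.1 (hPp x hx h)
    exact inside E he hω hx (by linarith [this.1]) (by linarith [this.2])
  have hband : ∀ s, E.Good s → s1 ≤ s → s ≤ s2 → ∀ x ∈ E.lv s, ∀ y ∈ E.lv s,
      (∃ z ∈ sq, e z ∈ K.U x ∧ |Hf E z - s0| ≤ 2 * (L0 * ε)) →
      (∃ z ∈ sq, e z ∈ K.U y ∧ |Hf E z - s0| ≤ 2 * (L0 * ε)) →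
      K.AChain ((K.fam e n).filter fun x => |E.pot x - t0| ≤ 3 * ε ∧ K.U x ⊆ e '' sq ∧
        ∀ z, e z ∈ K.U x → |Hf E z - s0| ≤ (2 * L0 + 40) * ε) x y := by
    rintro s g k1 k2 x hx y hy ⟨z, hz, hzx, hzH⟩ ⟨w, hw, hwy, hwH⟩
    rw [abs_le] at hzH hwH
    refine K.jn_mono ?_ (band_conn E he hω0 (by linarith) hω g (by linarith) (by linarith)
      (a := s0 - 2 * (L0 * ε)) (b := s0 + 2 * (L0 * ε)) (by linarith) (by linarith) (by linarith)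
      (fun z hz a b => hc z hz (abs_le.2 ⟨by linarith, by linarith⟩)) hx
      ⟨z, hz, hzx, by linarith, by linarith⟩ hy ⟨w, hw, hwy, by linarith, by linarith⟩)
    intro q hq
    obtain ⟨hq1, hq2⟩ := Finset.mem_filter.1 hq
    obtain ⟨hqf, q1, q2⟩ := Finset.mem_filter.1 hq1
    have hPq : P q := ⟨by linarith, by linarith⟩
    refine Finset.mem_filter.2 ⟨hqf, (hPp q hqf hPq).trans (by linarith), hPin q hqf hPq,
      fun z hz => abs_le.2 ⟨by linarith [(hq2 z hz).1], by linarith [(hq2 z hz).2]⟩⟩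
  set B := (E.lv s1).filter (fun u => ∃ z ∈ sq, e z ∈ K.U u ∧ s0 - L0 * ε ≤ Hf E z ∧
    Hf E z ≤ s0 + L0 * ε) with hB
  have hBl := band_lower E he hω0 (by linarith) hω g1 (by linarith) (by linarith)
    (a := s0 - L0 * ε) (b := s0 + L0 * ε) (by linarith) (by linarith) (by linarith)
  rw [← hB, ← E.fl_lv g1 (Finset.filter_subset _ _)] at hBl
  set W := (K.fam e n).filter (fun x => |E.pot x - t0| ≤ 2 * ε ∧
    ∃ z ∈ sq, e z ∈ K.U x ∧ |Hf E z - s0| ≤ 2 * (L0 * ε)) with hW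
  have hhat : ∀ x, 0 ≤ E.hat x := fun x => Finset.sum_nonneg fun y _ => E.σ_nonneg y
  by_contra hcon
  have hbad : ∀ c ∈ (K.fam e n).powerset.filter (fun c => ∃ u ∈ c, u ∈ B), E.fl c ≠ 0 →
      L0 * ε ≤ ∑ x ∈ c, if x ∈ W then E.hat x else 0 := by
    intro c hcF hfl
    obtain ⟨hcV, u1, hu1c, hu1B⟩ := Finset.mem_filter.1 hcF
    have hcV' := Finset.mem_powerset.1 hcV
    obtain ⟨hu1l, z1, -, hz1, k1, k2⟩ := Finset.mem_filter.1 hu1B
    obtain ⟨u2, ⟨hu2c, hu2l⟩, -⟩ := E.good_uniq g2 hfl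
    have hch := E.sub_chain g1 g2 h12 hfl hu1c hu1l hu2c hu2l
    obtain ⟨hu1f, m1, m2⟩ := Finset.mem_filter.1 hu1l
    have hP1 : P u1 := ⟨m2, by linarith⟩
    have hz1' : |Hf E z1 - s0| ≤ L0 * ε := abs_le.2 ⟨by linarith, by linarith⟩
    have hall : ∀ z, e z ∈ K.U u1 → |Hf E z - s0| ≤ 2 * (L0 * ε) := by
      intro z hz
      have := (Hf_osc E he (hPin u1 hu1f hP1) hz hz1).trans (hω.1 u1 hu1f)
      have := abs_sub_le (Hf E z) (Hf E z1) s0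
      linarith
    have := jn_bad he E (c := c) (fun x => x ∈ K.fam e n ∧ P x)
      (fun x hx => ⟨hx.1, hPin x hx.1 hx.2⟩) (u2 := u2) hu1c ⟨hu1f, hP1⟩ hall hz1 hz1'
      (jn_rmono (fun x y h => ⟨⟨h.1.1, hcV' h.1.1, h.1.2⟩, ⟨h.2.1.1, hcV' h.2.1.1, h.2.1.2⟩,
        h.2.2⟩) hch) (fun hgood => hcon ?_)
    · refine this.trans ?_
      rw [← Finset.sum_filter]
      refine Finset.sum_le_sum_of_subset_of_nonneg (fun x hx => ?_) fun x _ _ => hhat x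
      obtain ⟨a1, ⟨a2, a3⟩, a4⟩ := jn_mf hx
      exact Finset.mem_filter.2 ⟨a1, Finset.mem_filter.2 ⟨a2, hPp x a2 a3, a4⟩⟩
    · have hu2G : ∀ z, e z ∈ K.U u2 → |Hf E z - s0| ≤ 2 * (L0 * ε) := by
        rcases Relation.ReflTransGen.cases_tail hgood with rfl | ⟨_, _, h⟩
        · exact hall
        · exact (jn_mf h.2.1).2.2
      obtain ⟨hu2f, m3, m4⟩ := Finset.mem_filter.1 hu2l
      have hex : ∀ x ∈ K.fam e n, P x → (∀ z, e z ∈ K.U x → |Hf E z - s0| ≤ 2 * (L0 * ε)) →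
          ∃ z ∈ sq, e z ∈ K.U x ∧ |Hf E z - s0| ≤ 2 * (L0 * ε) := by
        intro x hx hPx h
        obtain ⟨a, ha, -⟩ := jn_self hn hx
        obtain ⟨z, hz, rfl⟩ := hPin x hx hPx ha
        exact ⟨z, hz, ha, h z ha⟩
      have c1 := hband s1 g1 le_rfl h12 u hu u1 hu1l
        (huz.imp fun z h => ⟨h.1, h.2.1, h.2.2.trans (by linarith)⟩) (hex u1 hu1f hP1 hall)
      have c2 := hband s2 g2 h12 le_rfl u2 hu2l v hv (hex u2 hu2f ⟨by linarith, m3⟩ hu2G)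
        (hvz.imp fun z h => ⟨h.1, h.2.1, h.2.2.trans (by linarith)⟩)
      refine (c1.trans (K.jn_mono ?_ hgood)).trans c2
      intro x hx
      obtain ⟨-, ⟨a2, a3⟩, a4⟩ := jn_mf hx
      exact Finset.mem_filter.2 ⟨a2, (hPp x a2 a3).trans (by linarith), hPin x a2 a3,
        fun z hz => (a4 z hz).trans (by linarith)⟩
  have h1 := E.fl_le (ρ := fun x => if x ∈ W then E.hat x else 0) (fun x => by
    split_ifs
    exacts [hhat x, le_rfl]) hbad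
  have h2 : ∑ x ∈ K.fam e n, (if x ∈ W then E.hat x else 0) * E.σ x ≤ ∑ x ∈ W, E.hat x ^ 2 := by
    rw [hW, Finset.sum_filter]
    refine Finset.sum_le_sum fun x hx => ?_
    simp only [Finset.mem_filter, hx, true_and]
    split_ifs
    · rw [pow_two]
      exact mul_le_mul_of_nonneg_left (σ_le_hat E hx (jn_self hn hx)) (hhat x)
    · simp
  have h3 := jn_win he hn E hω hω0 hωε hε ht0 ht1 (s0 := s0) (h := L0 * ε) (by linarith)
  have h4 : L0 * ε * ((2 * L0 - 16) * ε) ≤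
      ((K.D : ℝ) ^ K.lam) ^ 2 * (7 * ε * (4 * (L0 * ε) + 10 * ε)) :=
    le_trans (mul_le_mul_of_nonneg_left (le_trans (by linarith) hBl) (by linarith))
      (h1.trans (h2.trans h3))
  generalize ((K.D : ℝ) ^ K.lam) ^ 2 = N at *
  have h5 : L0 * (2 * L0 - 16) ≤ N * (7 * (4 * L0 + 10)) := by
    have : L0 * (2 * L0 - 16) * ε ^ 2 ≤ N * (7 * (4 * L0 + 10)) * ε ^ 2 := by linarith
    exact le_of_mul_le_mul_right this (by positivity)
  nlinarith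

variable (K)

theorem connect : ∃ L : ℝ, 1 ≤ L ∧ ∀ (e : ℝ × ℝ → X), IsOpenEmbedding e → ∀ n, K.cov.n0 ≤ n →
    ∀ (E : K.Sol e n) (ω ε t0 s0 : ℝ), Small E ω → 0 < ω → ω ≤ ε → ε ≤ 1 / 64 → 1 / 4 ≤ t0 →
      t0 ≤ 3 / 4 → L * ε ≤ s0 → s0 + L * ε ≤ E.M →
      (∀ z ∈ sq, |Hf E z - s0| ≤ L * ε → ∃ u ∈ K.fam e n, e z ∈ K.U u) →
      ∀ u ∈ K.fam e n, ∀ v ∈ K.fam e n, 0 < E.σ u → 0 < E.σ v → |E.pot u - t0| ≤ ε →
      |E.pot v - t0| ≤ ε → (∃ z ∈ sq, e z ∈ K.U u ∧ |Hf E z - s0| ≤ ε) →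
      (∃ z ∈ sq, e z ∈ K.U v ∧ |Hf E z - s0| ≤ ε) →
      K.AChain ((K.fam e n).filter fun x => |E.pot x - t0| ≤ 3 * ε ∧ K.U x ⊆ e '' sq ∧
        ∀ z, e z ∈ K.U x → |Hf E z - s0| ≤ L * ε) u v := by
  refine ⟨2 * (49 * ((K.D : ℝ) ^ K.lam) ^ 2 + 9) + 40, by nlinarith [sq_nonneg ((K.D : ℝ) ^ K.lam)],
    fun e he n hn E ω ε t0 s0 hω hω0 hωε hε ht0 ht1 hs0 hs1 hc u hu v hv hσu hσv hup hvp huz hvz
      => ?_⟩
  obtain ⟨s1, g1, h1⟩ := E.exists_good hu hσu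
  obtain ⟨s2, g2, h2⟩ := E.exists_good hv hσv
  rcases le_total s1 s2 with h | h
  · exact jn_main he hn E le_rfl hω hω0 hωε hε ht0 ht1 hs0 hs1 hc g1 g2 h h1 h2 hup hvp huz hvz
  · exact K.jn_symm
      (jn_main he hn E le_rfl hω hω0 hωε hε ht0 ht1 hs0 hs1 hc g2 g1 h h2 h1 hvp hup hvz huz)

end Ctx

end Vale.Agent.P198
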