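import Vale.Agent.P198.Est

/-! A net of short chains: lower bound for the energy of functions separating two paths. -/

namespace Vale.Agent.P198

open Set Filter Topology Metric MeasureTheory
open scoped Classical

theorem nt_last {ι : Type*} {r : ι → ι → Prop} {a b : ι} (h : Relation.ReflTransGen r a b) :
    b = a ∨ ∃ a', r a a' ∧ a' ≠ a ∧
      Relation.ReflTransGen (fun x y => r x y ∧ x ≠ a ∧ y ≠ a) a' b := by
  induction h with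
  | refl => exact Or.inl rfl
  | @tail x y _ hxy ih =>
    by_cases hy : y = a
    · exact Or.inl hy
    by_cases hx : x = a
    · exact Or.inr ⟨y, hx ▸ hxy, hy, Relation.ReflTransGen.refl⟩
    obtain ⟨a', h1, h2, h3⟩ := ih.resolve_left hx
    exact Or.inr ⟨a', h1, h2, h3.tail ⟨hxy, hx, hy⟩⟩

theorem nt_rmono {ι : Type*} {r r' : ι → ι → Prop} (h : ∀ x y, r x y → r' x y) {a b : ι}
    (hab : Relation.ReflTransGen r a b) : Relation.ReflTransGen r' a b := by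
  induction hab with
  | refl => exact Relation.ReflTransGen.refl
  | tail _ h' ih => exact ih.tail (h _ _ h')

theorem nt_var {ι Y : Type*} {U : ι → Set Y} {f : Y → ℝ} {τ : ι → ℝ} (hτ : ∀ u, 0 ≤ τ u)
    (c : Finset ι) : (∀ u ∈ c, ∀ x ∈ U u, ∀ y ∈ U u, |f x - f y| ≤ τ u) → ∀ a ∈ c, ∀ b,
    Relation.ReflTransGen (fun x y => x ∈ c ∧ y ∈ c ∧ (U x ∩ U y).Nonempty) a b →
    ∀ x ∈ U a, ∀ y ∈ U b, |f x - f y| ≤ ∑ u ∈ c, τ u := by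
  induction c using Finset.strongInduction with
  | H c ih =>
    intro hf a ha b hab x hx y hy
    rcases nt_last hab with rfl | ⟨a', ⟨-, ha', z, hz, hz'⟩, hne, h⟩
    · exact (hf b ha x hx y hy).trans (Finset.single_le_sum (fun u _ => hτ u) ha)
    · have h1 := ih (c.erase a) (Finset.erase_ssubset ha)
        (fun u hu => hf u (Finset.mem_of_mem_erase hu)) a' (Finset.mem_erase.2 ⟨hne, ha'⟩) b
        (nt_rmono (fun p q h => ⟨Finset.mem_erase.2 ⟨h.2.1, h.1.1⟩,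
          Finset.mem_erase.2 ⟨h.2.2, h.1.2.1⟩, h.1.2.2⟩) h) z hz' y hy
      rw [← Finset.add_sum_erase c τ ha]
      have := abs_sub_le (f x) (f z) (f y)
      linarith [hf a ha x hx z hz]

/-- the affine map onto a thin horizontal rectangle -/
noncomputable def ntAff {s : ℝ} (hs : 0 < s) (i : ℤ) : (ℝ × ℝ) ≃ₜ (ℝ × ℝ) where
  toFun p := (4 * p.1 - 2, s * (i + p.2))
  invFun p := ((p.1 + 2) / 4, p.2 / s - i)
  left_inv p := by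
    ext
    · simp
    · simp only
      field_simp
      ring
  right_inv p := by
    ext
    · simp only
      ring
    · simp only
      field_simp
      ring
  continuous_toFun := by fun_prop
  continuous_invFun := by fun_prop

theorem nt_cross {s : ℝ} (hs : 0 < s) (i : ℤ) {β : Set (ℝ × ℝ)} (hβ : IsCompact β)
    (hc : IsPreconnected β) (h1 : ∀ p ∈ β, |p.1| ≤ 2) (h2 : ∃ p ∈ β, p.2 ≤ s * i)
    (h3 : ∃ p ∈ β, s * (i + 1) ≤ p.2) : ∃ γ, Cross γ ∧ ntAff hs i '' γ ⊆ β := by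
  obtain ⟨β', hs', hk, hp, hb, ⟨a, ha, ha'⟩, b, hb', hb''⟩ :=
    slab hβ hc continuous_snd (a := s * i) (b := s * (i + 1)) (by nlinarith) h2 h3
  refine ⟨(ntAff hs i).symm '' β', ⟨?_, hk.image (ntAff hs i).symm.continuous,
    hp.image _ (ntAff hs i).symm.continuous.continuousOn, ⟨_, ⟨a, ha, rfl⟩, ?_⟩,
    ⟨_, ⟨b, hb', rfl⟩, ?_⟩⟩, ?_⟩
  · rintro _ ⟨p, hp, rfl⟩
    have k1 := abs_le.1 (h1 p (hs' hp))
    obtain ⟨k2, k3⟩ := hb p hp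
    refine ⟨⟨?_, ?_⟩, ?_, ?_⟩
    · show 0 ≤ (p.1 + 2) / 4
      linarith [k1.1]
    · show (p.1 + 2) / 4 ≤ 1
      linarith [k1.2]
    · show 0 ≤ p.2 / s - i
      rw [sub_nonneg, le_div_iff₀ hs]
      linarith
    · show p.2 / s - i ≤ 1
      rw [sub_le_iff_le_add, div_le_iff₀ hs]
      linarith
  · show a.2 / s - i = 0
    rw [ha']
    field_simp
    ring
  · show b.2 / s - i = 1
    rw [hb'']
    field_simp
    ring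
  · rintro _ ⟨_, ⟨p, hp, rfl⟩, rfl⟩
    rw [Homeomorph.apply_symm_apply]
    exact hs' hp

theorem nt_int {s a b : ℝ} (hs : 0 < s) (h : a + 3 * s ≤ b) :
    ∃ i : ℤ, a ≤ s * i ∧ s * (i + 1) ≤ b := by
  refine ⟨⌈a / s⌉, ?_, ?_⟩
  · have := Int.le_ceil (a / s)
    rwa [div_le_iff₀' hs] at this
  · have := Int.ceil_lt_add_one (a / s)
    have h2 : s * (⌈a / s⌉ : ℝ) ≤ s * (a / s + 1) := by gcongr
    have h3 : s * (a / s + 1) = a + s := by field_simp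
    linarith

variable {G : Type*} [Group G] {X : Type} [MetricSpace X] [MulAction G X]

theorem nt_fam (K : Ctx G X) {M : ℝ} (hM : ∀ m, K.ModLe m M) {e : ℝ × ℝ → X}
    (he : IsOpenEmbedding e) {s : ℝ} (hs : 0 < s) (i : ℤ) (hi : -2 ≤ s * i ∧ s * (i + 1) ≤ 2) :
    ∃ (C : ℝ) (n1 : ℕ), 0 < C ∧ ∀ n, n1 ≤ n → ∀ (f : X → ℝ) (τ : G → ℝ), (∀ u, 0 ≤ τ u) →
      (∀ u ∈ K.lev n, K.U u ⊆ e '' ball 0 10 → ∀ a ∈ K.U u, ∀ b ∈ K.U u, |f a - f b| ≤ τ u) →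
      ∃ O : Set X, O ⊆ e '' ball 0 10 ∧
        (∀ x ∈ O, ∀ y ∈ O, (f x - f y) ^ 2 ≤ C * ∑ u ∈ K.lev n, τ u ^ 2) ∧
        (∀ β : Set (ℝ × ℝ), IsCompact β → IsPreconnected β → (∀ p ∈ β, |p.1| ≤ 2) →
          (∃ p ∈ β, p.2 ≤ s * i) → (∃ p ∈ β, s * (i + 1) ≤ p.2) → ∃ p ∈ β, e p ∈ O) ∧
        ∃ β : Set (ℝ × ℝ), IsCompact β ∧ IsPreconnected β ∧ (∀ p ∈ β, e p ∈ O ∧ |p.2| ≤ 2) ∧
          (∃ p ∈ β, p.1 ≤ -2) ∧ ∃ p ∈ β, 2 ≤ p.1 := by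
  have he' : IsOpenEmbedding (e ∘ ntAff hs i) := he.comp (ntAff hs i).isOpenEmbedding
  obtain ⟨c0, C0, n1, hc0, hb⟩ := K.M_bounds he' hM
  obtain ⟨n2, hsol⟩ := K.exists_sol he'
  refine ⟨1 / c0, n1 + n2, by positivity, fun n hn f τ hτ hf => ?_⟩
  obtain ⟨E⟩ := hsol n (by omega)
  obtain ⟨c, hc, hcs⟩ := E.short_chain hτ
  obtain ⟨hcV, a, ha, hLa, ⟨b, hbc, hRb⟩, hreach⟩ := id hc
  have hstrip : ∀ u ∈ c, ∀ x ∈ K.U u, ∃ p : ℝ × ℝ, x = e p ∧ |p.1| < 6 ∧ |p.2| ≤ 2 := by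
    intro u hu x hx
    obtain ⟨q, ⟨⟨q1, q2⟩, q3, q4⟩, rfl⟩ := (Finset.mem_filter.1 (hcV hu)).2 hx
    refine ⟨ntAff hs i q, rfl, ?_, ?_⟩
    · show |4 * q.1 - 2| < 6
      rw [abs_lt]
      constructor <;> linarith
    · show |s * (i + q.2)| ≤ 2
      rw [abs_le]
      constructor <;> nlinarith [hi.1, hi.2]
  have hball : ∀ u ∈ c, K.U u ⊆ e '' ball 0 10 := by
    intro u hu x hx
    obtain ⟨p, rfl, h1, h2⟩ := hstrip u hu x hx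
    refine ⟨p, ?_, rfl⟩
    rw [mem_ball_zero_iff, Prod.norm_def, max_lt_iff, Real.norm_eq_abs, Real.norm_eq_abs]
    constructor <;> linarith
  have hsym : ∀ u ∈ c, K.AChain c u a := by
    intro u hu
    have := hreach u hu
    clear hu
    induction this with
    | refl => exact Relation.ReflTransGen.refl
    | tail _ h ih => exact Relation.ReflTransGen.head ⟨h.2.1, h.1, K.adj_symm h.2.2⟩ ih
  refine ⟨⋃ u ∈ c, K.U u, iUnion₂_subset hball, fun x hx y hy => ?_, fun β k1 k2 k3 k4 k5 => ?_,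
    ?_⟩
  · obtain ⟨u, hu, hxu⟩ := mem_iUnion₂.1 hx
    obtain ⟨v, hv, hyv⟩ := mem_iUnion₂.1 hy
    have h1 := nt_var hτ c (fun w hw => hf w (K.fam_subset n (hcV hw)) (hball w hw)) u hu v
      ((hsym u hu).trans (hreach v hv)) x hxu y hyv
    have h2 : (f x - f y) ^ 2 ≤ (∑ u ∈ c, τ u) ^ 2 := by
      rw [← sq_abs]
      exact pow_le_pow_left₀ (abs_nonneg _) h1 2
    have h3 : ∑ u ∈ K.fam (e ∘ ntAff hs i) n, τ u ^ 2 ≤ ∑ u ∈ K.lev n, τ u ^ 2 :=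
      Finset.sum_le_sum_of_subset_of_nonneg (K.fam_subset n) fun _ _ _ => sq_nonneg _
    rw [one_div, ← div_eq_inv_mul, le_div_iff₀ hc0]
    exact (mul_le_mul h2 (hb n (by omega) E).1 hc0.le (sq_nonneg _)).trans (hcs.trans h3)
  · obtain ⟨γ, ⟨g1, -, g3, g4, g5⟩, hγ⟩ := nt_cross hs i k1 k2 k3 k4 k5
    obtain ⟨u, hu, huf⟩ := K.path_block he' n g1 g3 g4 g5 c hc
    obtain ⟨-, _, hx, p, hp, rfl⟩ := Finset.mem_filter.1 huf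
    exact ⟨_, hγ ⟨p, hp, rfl⟩, mem_iUnion₂.2 ⟨u, hu, hx⟩⟩
  · have hO : IsPreconnected (⋃ u ∈ c, K.U u) := by
      have := union_conn (U := K.U) (r := fun x y => x ∈ c ∧ y ∈ c ∧ K.adj x y) K.cov.U_conn
        (fun _ _ h => h.2.2) a
      convert this using 3 with u
      ext
      constructor
      · simp only [mem_iUnion]
        rintro ⟨hu, h⟩
        exact ⟨hreach u hu, h⟩
      · simp only [mem_iUnion]
        rintro ⟨hu, h⟩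
        refine ⟨?_, h⟩
        rcases Relation.ReflTransGen.cases_tail hu with rfl | ⟨_, _, h⟩
        exacts [ha, h.2.1]
    have hP := Ctx.pre_conn he hO ((iUnion₂_subset hball).trans (image_subset_range _ _))
    have hop : IsOpen (e ⁻¹' ⋃ u ∈ c, K.U u) :=
      (isOpen_biUnion fun u _ => K.cov.U_open u).preimage he.continuous
    obtain ⟨p, hp, hpa⟩ := hLa
    obtain ⟨q, hq, hqb⟩ := hRb
    have hpO : ntAff hs i p ∈ e ⁻¹' ⋃ u ∈ c, K.U u := mem_iUnion₂.2 ⟨a, ha, hpa⟩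
    have hqO : ntAff hs i q ∈ e ⁻¹' ⋃ u ∈ c, K.U u := mem_iUnion₂.2 ⟨b, hbc, hqb⟩
    obtain ⟨π, hπ⟩ := (hop.isConnected_iff_isPathConnected.1 ⟨⟨_, hpO⟩, hP⟩).joinedIn _ hpO _ hqO
    refine ⟨range π, isCompact_range π.continuous, isPreconnected_range π.continuous, ?_,
      ⟨_, π.source_mem_range, ?_⟩, _, π.target_mem_range, ?_⟩
    · rintro _ ⟨t, rfl⟩
      refine ⟨hπ t, ?_⟩
      obtain ⟨u, hu, hx⟩ := mem_iUnion₂.1 (hπ t)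
      obtain ⟨p', hp', -, h2⟩ := hstrip u hu _ hx
      rwa [he.injective hp']
    · show 4 * p.1 - 2 ≤ -2
      linarith
    · show 2 ≤ 4 * q.1 - 2
      linarith

theorem nt_fam' (K : Ctx G X) {M : ℝ} (hM : ∀ m, K.ModLe m M) {e : ℝ × ℝ → X}
    (he : IsOpenEmbedding e) {s : ℝ} (hs : 0 < s) :
    ∃ (C : ℝ) (n1 : ℕ), 0 < C ∧ ∀ n, n1 ≤ n → ∀ (f : X → ℝ) (τ : G → ℝ), (∀ u, 0 ≤ τ u) →
      (∀ u ∈ K.lev n, K.U u ⊆ e '' ball 0 10 → ∀ a ∈ K.U u, ∀ b ∈ K.U u, |f a - f b| ≤ τ u) →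
      ∃ O : ℤ → Set X, ∀ i : ℤ, -2 ≤ s * i ∧ s * (i + 1) ≤ 2 → O i ⊆ e '' ball 0 10 ∧
        (∀ x ∈ O i, ∀ y ∈ O i, (f x - f y) ^ 2 ≤ C * ∑ u ∈ K.lev n, τ u ^ 2) ∧
        (∀ β : Set (ℝ × ℝ), IsCompact β → IsPreconnected β → (∀ p ∈ β, |p.1| ≤ 2) →
          (∃ p ∈ β, p.2 ≤ s * i) → (∃ p ∈ β, s * (i + 1) ≤ p.2) → ∃ p ∈ β, e p ∈ O i) ∧
        ∃ β : Set (ℝ × ℝ), IsCompact β ∧ IsPreconnected β ∧ (∀ p ∈ β, e p ∈ O i ∧ |p.2| ≤ 2) ∧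
          (∃ p ∈ β, p.1 ≤ -2) ∧ ∃ p ∈ β, 2 ≤ p.1 := by
  choose! C n1 hC h using nt_fam K hM he hs
  set I : Finset ℤ := (Finset.Icc (-⌈2 / s⌉) ⌈2 / s⌉).filter
    fun i => -2 ≤ s * i ∧ s * (i + 1) ≤ 2 with hI
  have hmem : ∀ i : ℤ, -2 ≤ s * i ∧ s * (i + 1) ≤ 2 → i ∈ I := by
    intro i hi
    have h1 := Int.le_ceil (2 / s)
    rw [div_le_iff₀' hs] at h1
    refine Finset.mem_filter.2 ⟨Finset.mem_Icc.2 ⟨?_, ?_⟩, hi⟩
    · have : ((-⌈2 / s⌉ : ℤ) : ℝ) ≤ i := by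
        push_cast
        exact le_of_mul_le_mul_left (by linarith [hi.1]) hs
      exact_mod_cast this
    · have : (i : ℝ) ≤ ((⌈2 / s⌉ : ℤ) : ℝ) := le_of_mul_le_mul_left (by linarith [hi.2]) hs
      exact_mod_cast this
  have hC0 : ∀ i ∈ I, 0 ≤ C i := fun i hi => (hC i (Finset.mem_filter.1 hi).2).le
  refine ⟨∑ i ∈ I, C i + 1, ∑ i ∈ I, n1 i, by linarith [Finset.sum_nonneg hC0],
    fun n hn f τ hτ hf => ?_⟩
  choose! O hO using fun i (hi : -2 ≤ s * (i : ℤ) ∧ s * (i + 1) ≤ 2) =>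
    h i hi n (le_trans (Finset.single_le_sum (fun _ _ => Nat.zero_le _) (hmem i hi)) hn) f τ hτ hf
  refine ⟨O, fun i hi => ⟨(hO i hi).1, fun x hx y hy => ((hO i hi).2.1 x hx y hy).trans ?_,
    (hO i hi).2.2⟩⟩
  refine mul_le_mul_of_nonneg_right ?_ (Finset.sum_nonneg fun _ _ => sq_nonneg _)
  linarith [Finset.single_le_sum hC0 (hmem i hi)]

theorem nt_span {s : ℝ} (hs : 0 < s) {β : Set (ℝ × ℝ)} {f : ℝ × ℝ → ℝ} (hβ : ∀ p ∈ β, |f p| ≤ 2)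
    {z w : ℝ × ℝ} (hz : z ∈ β) (hw : w ∈ β) (h : |f w - f z| = 3 * s) :
    ∃ i : ℤ, (-2 ≤ s * i ∧ s * (i + 1) ≤ 2) ∧ (∃ p ∈ β, f p ≤ s * i) ∧
      ∃ p ∈ β, s * (i + 1) ≤ f p := by
  have h1 := abs_le.1 (hβ z hz)
  have h2 := abs_le.1 (hβ w hw)
  rcases abs_cases (f w - f z) with ⟨k, -⟩ | ⟨k, -⟩
  · obtain ⟨i, a, b⟩ := nt_int hs (a := f z) (b := f w) (by linarith)
    exact ⟨i, ⟨by linarith [h1.1], by linarith [h2.2]⟩, ⟨z, hz, a⟩, w, hw, b⟩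
  · obtain ⟨i, a, b⟩ := nt_int hs (a := f w) (b := f z) (by linarith)
    exact ⟨i, ⟨by linarith [h2.1], by linarith [h1.2]⟩, ⟨w, hw, a⟩, z, hz, b⟩

theorem nt_three {a b c d T : ℝ} (h1 : (a - b) ^ 2 ≤ T) (h2 : (b - c) ^ 2 ≤ T)
    (h3 : (c - d) ^ 2 ≤ T) : (a - d) ^ 2 ≤ 9 * T := by
  nlinarith [sq_nonneg (a - b - (b - c)), sq_nonneg (a - b - (c - d)), sq_nonneg (b - c - (c - d))]

theorem Ctx.net (K : Ctx G X) {M : ℝ} (hM : ∀ m, K.ModLe m M) {e : ℝ × ℝ → X}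
    (he : IsOpenEmbedding e) {r : ℝ} (hr : 0 < r) : ∃ (C : ℝ) (n1 : ℕ), 0 < C ∧ ∀ n, n1 ≤ n →
      ∀ (f : X → ℝ) (τ : G → ℝ), (∀ u, 0 ≤ τ u) →
      (∀ u ∈ K.lev n, K.U u ⊆ e '' ball 0 10 → ∀ a ∈ K.U u, ∀ b ∈ K.U u, |f a - f b| ≤ τ u) →
      ∀ (A B : Set X) (z w : ℝ × ℝ) (a b : X), z ∈ closedBall (0 : ℝ × ℝ) 1 →
        w ∈ closedBall (0 : ℝ × ℝ) 1 → JoinedIn A (e z) a → JoinedIn B (e w) b →
        a ∉ e '' ball z r → b ∉ e '' ball w r →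
        ∃ x ∈ A ∩ e '' ball 0 10, ∃ y ∈ B ∩ e '' ball 0 10,
          (f x - f y) ^ 2 ≤ C * ∑ u ∈ K.lev n, τ u ^ 2 := by
  obtain ⟨s, hs, hsr, hs1⟩ : ∃ s : ℝ, 0 < s ∧ 3 * s ≤ r ∧ 3 * s ≤ 1 :=
    ⟨min r 1 / 3, by positivity, by linarith [min_le_left r 1], by linarith [min_le_right r 1]⟩
  have he' : IsOpenEmbedding (e ∘ Prod.swap) :=
    he.comp (Homeomorph.prodComm ℝ ℝ).isOpenEmbedding
  have hsw : (e ∘ Prod.swap) '' ball 0 10 = e '' ball 0 10 := by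
    rw [image_comp]
    congr 1
    ext p
    simp only [Set.image_swap_eq_preimage_swap, mem_preimage, mem_ball_zero_iff, Prod.norm_def,
      Prod.fst_swap, Prod.snd_swap, max_comm]
  obtain ⟨C1, n1, hC1, h1⟩ := nt_fam' K hM he hs
  obtain ⟨C2, n2, hC2, h2⟩ := nt_fam' K hM he' hs
  refine ⟨9 * (C1 + C2), n1 + n2, by positivity, fun n hn f τ hτ hf => ?_⟩
  obtain ⟨O1, hO1⟩ := h1 n (by omega) f τ hτ hf
  obtain ⟨O2, hO2⟩ := h2 n (by omega) f τ hτ (by rwa [hsw])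
  rw [hsw] at hO2
  set S := ∑ u ∈ K.lev n, τ u ^ 2 with hS
  have hS0 : 0 ≤ S := Finset.sum_nonneg fun _ _ => sq_nonneg _
  have v1 : ∀ i : ℤ, -2 ≤ s * i ∧ s * (i + 1) ≤ 2 → ∀ x ∈ O1 i, ∀ y ∈ O1 i,
      (f x - f y) ^ 2 ≤ (C1 + C2) * S := fun i hi x hx y hy =>
    ((hO1 i hi).2.1 x hx y hy).trans (by nlinarith)
  have v2 : ∀ i : ℤ, -2 ≤ s * i ∧ s * (i + 1) ≤ 2 → ∀ x ∈ O2 i, ∀ y ∈ O2 i,
      (f x - f y) ^ 2 ≤ (C1 + C2) * S := fun i hi x hx y hy =>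
    ((hO2 i hi).2.1 x hx y hy).trans (by nlinarith)
  have hswap : ∀ j : ℤ, -2 ≤ s * j ∧ s * (j + 1) ≤ 2 → ∀ β : Set (ℝ × ℝ), IsCompact β →
      IsPreconnected β → (∀ p ∈ β, |p.2| ≤ 2) → (∃ p ∈ β, p.1 ≤ s * j) →
      (∃ p ∈ β, s * (j + 1) ≤ p.1) → ∃ p ∈ β, e p ∈ O2 j := by
    rintro j hj β k1 k2 k3 ⟨p, hp, hp'⟩ ⟨q, hq, hq'⟩
    obtain ⟨_, ⟨x, hx, rfl⟩, hx'⟩ := (hO2 j hj).2.2.1 (Prod.swap '' β) (k1.image continuous_swap)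
      (k2.image _ continuous_swap.continuousOn) (by
        rintro _ ⟨x, hx, rfl⟩
        exact k3 x hx) ⟨_, ⟨p, hp, rfl⟩, hp'⟩ ⟨_, ⟨q, hq, rfl⟩, hq'⟩
    exact ⟨x, hx, hx'⟩
  have meet : ∀ i : ℤ, -2 ≤ s * i ∧ s * (i + 1) ≤ 2 → ∀ j : ℤ, -2 ≤ s * j ∧ s * (j + 1) ≤ 2 →
      ∃ x ∈ O1 i, x ∈ O2 j := by
    intro i hi j hj
    obtain ⟨β, k1, k2, k3, ⟨p, hp, hp'⟩, q, hq, hq'⟩ := (hO1 i hi).2.2.2
    obtain ⟨x, hx, hx'⟩ := hswap j hj β k1 k2 (fun p hp => (k3 p hp).2)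
      ⟨p, hp, by linarith [hj.1]⟩ ⟨q, hq, by linarith [hj.2]⟩
    exact ⟨_, (k3 x hx).1, hx'⟩
  have hit : ∀ (A : Set X) (z : ℝ × ℝ) (a : X), z ∈ closedBall (0 : ℝ × ℝ) 1 →
      JoinedIn A (e z) a → a ∉ e '' ball z r → ∃ x ∈ A, ∃ i : ℤ,
        (-2 ≤ s * i ∧ s * (i + 1) ≤ 2) ∧ (x ∈ O1 i ∨ x ∈ O2 i) := by
    intro A z a hz hj ha
    obtain ⟨β, hβ, k1, k2, hzβ, ⟨w, hw, hd⟩, hA⟩ := box_exit he (r := 3 * s) (by positivity) hj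
      fun h => ha (image_mono (ball_subset_ball hsr) h)
    have hb : ∀ p ∈ β, |p.1| ≤ 2 ∧ |p.2| ≤ 2 := by
      intro p hp
      have : ‖p‖ ≤ 2 := by
        have a1 := mem_closedBall_iff_norm.1 (hβ hp)
        have a2 := mem_closedBall_zero_iff.1 hz
        have a3 := norm_add_le (p - z) z
        rw [sub_add_cancel] at a3
        linarith
      rwa [Prod.norm_def, max_le_iff, Real.norm_eq_abs, Real.norm_eq_abs] at this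
    rw [Prod.dist_eq, Real.dist_eq, Real.dist_eq] at hd
    rcases max_choice |w.1 - z.1| |w.2 - z.2| with h | h <;> rw [h] at hd
    · obtain ⟨i, hi, a1, a2⟩ := nt_span hs (f := Prod.fst) (fun p hp => (hb p hp).1) hzβ hw hd
      obtain ⟨p, hp, hp'⟩ := hswap i hi β k1 k2 (fun p hp => (hb p hp).2) a1 a2
      exact ⟨_, hA ⟨p, hp, rfl⟩, i, hi, Or.inr hp'⟩
    · obtain ⟨i, hi, a1, a2⟩ := nt_span hs (f := Prod.snd) (fun p hp => (hb p hp).2) hzβ hw hd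
      obtain ⟨p, hp, hp'⟩ := (hO1 i hi).2.2.1 β k1 k2 (fun p hp => (hb p hp).1) a1 a2
      exact ⟨_, hA ⟨p, hp, rfl⟩, i, hi, Or.inl hp'⟩
  intro A B z w a b hz hw hA hB ha hb
  obtain ⟨x, hx, i, hi, hxi⟩ := hit A z a hz hA ha
  obtain ⟨y, hy, j, hj, hyj⟩ := hit B w b hw hB hb
  refine ⟨x, ⟨hx, hxi.elim (fun h => (hO1 i hi).1 h) fun h => (hO2 i hi).1 h⟩, y,
    ⟨hy, hyj.elim (fun h => (hO1 j hj).1 h) fun h => (hO2 j hj).1 h⟩, ?_⟩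
  rw [mul_assoc]
  rcases hxi with hxi | hxi <;> rcases hyj with hyj | hyj
  · obtain ⟨p, p1, p2⟩ := meet i hi i hi
    obtain ⟨q, q1, q2⟩ := meet j hj i hi
    exact nt_three (v1 i hi x hxi p p1) (v2 i hi p p2 q q2) (v1 j hj q q1 y hyj)
  · obtain ⟨p, p1, p2⟩ := meet i hi j hj
    exact nt_three (v1 i hi x hxi p p1) (v1 i hi p p1 p p1) (v2 j hj p p2 y hyj)
  · obtain ⟨p, p1, p2⟩ := meet j hj i hi
    exact nt_three (v2 i hi x hxi p p2) (v1 j hj p p1 p p1) (v1 j hj p p1 y hyj)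
  · obtain ⟨p, p1, p2⟩ := meet i hi i hi
    obtain ⟨q, q1, q2⟩ := meet i hi j hj
    exact nt_three (v2 i hi x hxi p p2) (v1 i hi p p1 q q1) (v2 j hj q q2 y hyj)

end Vale.Agent.P198
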