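import Vale.Agent.P198.Rect
import Vale.Agent.P198.Cover
import Vale.Agent.P198.Net
import Vale.Agent.P198.Join

/-! The modulus is controlled by finitely many rectangles. -/

namespace Vale.Agent.P198

open Set Filter Topology Metric MeasureTheory
open scoped Classical

variable {G : Type*} [Group G] {X : Type} [MetricSpace X] [MulAction G X]

theorem up_chart (B : BD G X) {d : ℝ} (hd : 0 < d) (ξ : X) : ∃ e : ℝ × ℝ → X, IsOpenEmbedding e ∧
    e 0 = ξ ∧ ∀ p ∈ ball (0 : ℝ × ℝ) 2, dist (e p) ξ < d := by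
  have : Nonempty X := ⟨ξ⟩
  have := B.nontrivial
  obtain ⟨ω, hω⟩ := exists_ne ξ
  obtain ⟨e, he, hr⟩ := B.sph ω
  obtain ⟨p, rfl⟩ : ξ ∈ range e := by
    rw [hr]
    exact hω.symm
  obtain ⟨r, hr0, h⟩ := Metric.continuousAt_iff.1 (he.continuous.continuousAt (x := p)) d hd
  have hr2 : r / 2 ≠ 0 := by positivity
  refine ⟨e ∘ ((Homeomorph.smulOfNeZero (r / 2) hr2).trans (Homeomorph.addRight p)),
    he.comp (Homeomorph.isOpenEmbedding _), by simp, fun q hq => h ?_⟩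
  show dist ((r / 2) • q + p) p < r
  rw [dist_eq_norm, add_sub_cancel_right, norm_smul, Real.norm_of_nonneg (by positivity)]
  have := mem_ball_zero_iff.1 hq
  nlinarith

theorem exists_charts (B : BD G X) [Nonempty X] {d0 : ℝ} (hd : 0 < d0) :
    ∃ (N : ℕ) (e : Fin N → ℝ × ℝ → X), (∀ i, IsOpenEmbedding (e i)) ∧
      ∀ (A : Set X) (a b : X), JoinedIn A a b → d0 ≤ dist a b →
        ∃ i γ, Cross γ ∧ e i '' γ ⊆ A := by
  choose e he h0 hb using up_chart B (half_pos hd)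
  obtain ⟨t, ht⟩ := B.cpt.elim_finite_subcover (fun ξ => e ξ '' ball 0 1)
    (fun ξ => (he ξ).isOpenMap _ isOpen_ball)
    fun ξ _ => mem_iUnion.2 ⟨ξ, 0, mem_ball_self one_pos, h0 ξ⟩
  have hs : (0 : ℝ) < 1 / 3 := by norm_num
  set ch : X × ℤ × Bool → ℝ × ℝ → X := fun x =>
    (if x.2.2 then e x.1 else e x.1 ∘ Prod.swap) ∘ ntAff hs x.2.1 with hch
  set T : Finset (X × ℤ × Bool) := t ×ˢ Finset.Icc (-6) 6 ×ˢ Finset.univ with hT
  refine ⟨T.card, fun i => ch (T.equivFin.symm i), fun i => ?_, fun A a b hj hab => ?_⟩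
  · refine IsOpenEmbedding.comp ?_ (Homeomorph.isOpenEmbedding _)
    split_ifs
    exacts [he _, (he _).comp (Homeomorph.prodComm ℝ ℝ).isOpenEmbedding]
  suffices h : ∃ x ∈ T, ∃ γ, Cross γ ∧ ch x '' γ ⊆ A by
    obtain ⟨x, hx, h⟩ := h
    refine ⟨T.equivFin ⟨x, hx⟩, ?_⟩
    simpa only [Equiv.symm_apply_apply] using h
  obtain ⟨ξ, hξ, z, hz, rfl⟩ := mem_iUnion₂.1 (ht (mem_univ a))
  have hsub : ball z 1 ⊆ ball 0 2 := ball_subset_ball' (by linarith [mem_ball.1 hz])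
  obtain ⟨β, hβ, k1, k2, hzβ, ⟨w, hw, hdw⟩, hA⟩ := box_exit (he ξ) one_pos hj (by
    rintro ⟨q, hq, rfl⟩
    have a1 := hb ξ q (hsub hq)
    have a2 := hb ξ z (hsub (mem_ball_self one_pos))
    linarith [dist_triangle_right (e ξ z) (e ξ q) ξ])
  have hbd : ∀ p ∈ β, |p.1| ≤ 2 ∧ |p.2| ≤ 2 := by
    intro p hp
    have : ‖p‖ ≤ 2 := by
      have a1 := mem_closedBall_iff_norm.1 (hβ hp)
      have a2 := mem_ball_zero_iff.1 hz
      have a3 := norm_add_le (p - z) z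
      rw [sub_add_cancel] at a3
      linarith
    rwa [Prod.norm_def, max_le_iff, Real.norm_eq_abs, Real.norm_eq_abs] at this
  have hmem : ∀ (i : ℤ) (c : Bool), (-2 : ℝ) ≤ 1 / 3 * i ∧ (1 / 3 : ℝ) * (i + 1) ≤ 2 →
      (ξ, i, c) ∈ T := by
    intro i c hi
    have a1 : ((-6 : ℤ) : ℝ) ≤ i := by push_cast; linarith [hi.1]
    have a2 : (i : ℝ) ≤ ((6 : ℤ) : ℝ) := by push_cast; linarith [hi.2]
    exact Finset.mem_product.2 ⟨hξ, Finset.mem_product.2 ⟨Finset.mem_Icc.2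
      ⟨by exact_mod_cast a1, by exact_mod_cast a2⟩, Finset.mem_univ _⟩⟩
  rw [Prod.dist_eq, Real.dist_eq, Real.dist_eq] at hdw
  rcases max_choice |w.1 - z.1| |w.2 - z.2| with h | h <;> rw [h] at hdw
  · obtain ⟨i, hi, ⟨p, hp, hp'⟩, q, hq, hq'⟩ := nt_span hs (f := Prod.fst)
      (fun p hp => (hbd p hp).1) hzβ hw (by rw [hdw]; norm_num)
    obtain ⟨γ, hγ, hs'⟩ := nt_cross hs i (β := Prod.swap '' β) (k1.image continuous_swap)
      (k2.image _ continuous_swap.continuousOn) (by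
        rintro _ ⟨x, hx, rfl⟩
        exact (hbd x hx).2) ⟨_, ⟨p, hp, rfl⟩, hp'⟩ ⟨_, ⟨q, hq, rfl⟩, hq'⟩
    refine ⟨(ξ, i, false), hmem i _ hi, γ, hγ, ?_⟩
    rintro _ ⟨x, hx, rfl⟩
    obtain ⟨y, hy, hy'⟩ := hs' ⟨x, hx, rfl⟩
    refine hA ⟨y, hy, ?_⟩
    show e ξ y = e ξ (Prod.swap (ntAff hs i x))
    rw [← hy', Prod.swap_swap]
  · obtain ⟨i, hi, a1, a2⟩ := nt_span hs (f := Prod.snd)
      (fun p hp => (hbd p hp).2) hzβ hw (by rw [hdw]; norm_num)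
    obtain ⟨γ, hγ, hs'⟩ := nt_cross hs i k1 k2 (fun p hp => (hbd p hp).1) a1 a2
    refine ⟨(ξ, i, true), hmem i _ hi, γ, hγ, ?_⟩
    rintro _ ⟨x, hx, rfl⟩
    exact hA ⟨_, hs' ⟨x, hx, rfl⟩, rfl⟩

theorem up_spread (B : BD G X) (S T : Finset G) (l : ℕ) (w : G → ℝ) :
    ∑ v ∈ S, (∑ u ∈ T.filter (fun u => B.d v u ≤ l), w u) ^ 2 ≤
      ((B.D : ℝ) ^ l) ^ 2 * ∑ u ∈ T, w u ^ 2 := by
  have hD : (0 : ℝ) ≤ (B.D : ℝ) ^ l := by positivity
  have h1 : ∀ v ∈ S, (∑ u ∈ T.filter (fun u => B.d v u ≤ l), w u) ^ 2 ≤ (B.D : ℝ) ^ l *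
      ∑ u ∈ T, if B.d v u ≤ l then w u ^ 2 else 0 := by
    intro v _
    rw [← Finset.sum_filter]
    refine (sq_sum_le_card_mul_sum_sq).trans (mul_le_mul_of_nonneg_right ?_
      (Finset.sum_nonneg fun _ _ => sq_nonneg _))
    exact_mod_cast B.card_near v l _ fun u hu => (Finset.mem_filter.1 hu).2
  refine (Finset.sum_le_sum h1).trans ?_
  rw [← Finset.mul_sum, Finset.sum_comm, pow_two, mul_assoc]
  refine mul_le_mul_of_nonneg_left ?_ hD
  rw [Finset.mul_sum]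
  refine Finset.sum_le_sum fun u _ => ?_
  rw [← Finset.sum_filter, Finset.sum_const, nsmul_eq_mul]
  refine mul_le_mul_of_nonneg_right ?_ (sq_nonneg _)
  exact_mod_cast B.card_near u l _ fun v hv => by
    rw [B.d_comm]
    exact (Finset.mem_filter.1 hv).2

theorem up_join (K : Ctx G X) [Nonempty X] : ∃ (d0 : ℝ) (l n1 : ℕ), 0 < d0 ∧ ∀ n, n1 ≤ n →
    ∀ c ⊆ K.shell n, ∀ a ∈ c, ∀ b, K.Chain c a b → K.gp a b ≤ K.lam + 2 * K.δ →
      ∃ (A : Set X) (ξ η : X), JoinedIn A ξ η ∧ d0 ≤ dist ξ η ∧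
        ∀ u ∈ K.lev n, (K.U u ∩ A).Nonempty → ∃ v ∈ c, K.d v u ≤ l := by
  obtain ⟨C⟩ := K.exists_cov (K.Cv + K.lam)
  obtain ⟨d0, hd0, hd⟩ := K.dist_near (K.lam + 5 * K.δ + 1)
  have := K.locPath
  refine ⟨d0, 2 * K.a3 + 2 * K.cov.A' + 2 * C.A' + 2 * K.δ,
    K.cov.n0 + C.n0 + K.lam + 5 * K.δ + 1 + K.Cv, hd0, fun n hn c hc a ha b hab hg => ?_⟩
  have hδ := K.δ_ge
  have hl0 : (0 : ℝ) ≤ K.lam := Nat.cast_nonneg _
  have hlen : ∀ v ∈ c, n ≤ K.len v ∧ K.len v ≤ n + 2 * K.a3 := fun v hv =>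
    ⟨(Finset.mem_filter.1 (hc hv)).2, (K.mem_ball _ _).1 (Finset.mem_filter.1 (hc hv)).1⟩
  have hreach : ∀ v, K.Chain c a v → v ∈ c := by
    intro v hv
    rcases Relation.ReflTransGen.cases_tail hv with rfl | ⟨_, _, h⟩
    exacts [ha, h.2.1]
  choose om hom using K.vis
  have hin : ∀ v ∈ c, om v ∈ C.U v := fun v hv =>
    C.U_in v _ (by have := hlen v hv; omega) (by have := hom v; linarith)
  have hconn : IsPreconnected (⋃ v ∈ {v | K.Chain c a v}, C.U v) := by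
    refine union_conn (U := C.U) (r := fun x y => x ∈ c ∧ y ∈ c ∧ K.d x y ≤ K.lam) C.U_conn ?_ a
    rintro x y ⟨hx, hy, hxy⟩
    refine ⟨om x, hin x hx, C.U_in y _ (by have := hlen y hy; omega) ?_⟩
    have h1 := (abs_le.1 (K.P_lip (om x) x y)).2
    have h2 := K.d_tri 1 x y
    rw [K.d_one, K.d_one] at h2
    have := hom x
    linarith
  have hξ : om a ∈ ⋃ v ∈ {v | K.Chain c a v}, C.U v :=
    mem_iUnion₂.2 ⟨a, Relation.ReflTransGen.refl, hin a ha⟩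
  have hη : om b ∈ ⋃ v ∈ {v | K.Chain c a v}, C.U v := mem_iUnion₂.2 ⟨b, hab, hin b (hreach b hab)⟩
  have hnl : ∀ v ∈ c, (K.lam : ℝ) + 5 * K.δ + 1 ≤ K.P (om v) v := by
    intro v hv
    have h1 : K.lam + 5 * K.δ + 1 + K.Cv ≤ K.len v := by have := hlen v hv; omega
    have h2 : (K.lam : ℝ) + 5 * K.δ + 1 + K.Cv ≤ K.len v := by exact_mod_cast h1
    linarith [hom v]
  refine ⟨_, om a, om b, ((isOpen_biUnion fun v _ => C.U_open v).isConnected_iff_isPathConnected.1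
    ⟨⟨_, hξ⟩, hconn⟩).joinedIn _ hξ _ hη, not_lt.1 fun h => ?_, ?_⟩
  · have h1 := (hd _ _ h).P_ge a
    rw [min_eq_left (hnl a ha)] at h1
    have h2 := K.P_H1 (om b) a b
    have : (K.lam : ℝ) + 3 * K.δ + 1 ≤ min (K.P (om b) a) (K.P (om b) b) :=
      le_min (by linarith) (by linarith [hnl b (hreach b hab)])
    linarith
  · rintro u hu ⟨ζ, hζu, hζ⟩
    obtain ⟨v, hv, hζv⟩ := mem_iUnion₂.1 hζ
    have hvc := hreach v hv
    refine ⟨v, hvc, ?_⟩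
    have hul := K.mem_lev.1 hu
    have h1 := K.cov.U_out u ζ (by omega) hζu
    have h2 := C.U_out v ζ (by have := hlen v hvc; omega) hζv
    have h3 := K.P_H1 ζ v u
    have h4 : (n : ℝ) ≤ K.len v := by exact_mod_cast (hlen v hvc).1
    have h5 : (K.len v : ℝ) ≤ n + 2 * K.a3 := by exact_mod_cast (hlen v hvc).2
    rw [hul] at h1
    have h6 : (0 : ℝ) ≤ K.cov.A' := Nat.cast_nonneg _
    have h7 : (0 : ℝ) ≤ C.A' := Nat.cast_nonneg _
    have : (n : ℝ) - K.cov.A' - C.A' ≤ min (K.P ζ v) (K.P ζ u) :=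
      le_min (by linarith) (by linarith)
    rw [K.d_eq, hul]
    push_cast
    linarith

theorem Ctx.mod_upper (K : Ctx G X) [Nonempty X] :
    ∃ (N : ℕ) (e : Fin N → ℝ × ℝ → X) (C0 : ℝ) (n1 : ℕ), (∀ i, IsOpenEmbedding (e i)) ∧ 0 < C0 ∧
      ∀ n, n1 ≤ n → ∀ (E : ∀ i, K.Sol (e i) n) (x : ℝ), 0 < x → (∀ i, x ≤ (E i).M) →
        K.ModLe n (C0 / x) := by
  obtain ⟨d0, l, n1, hd0, hj⟩ := up_join K
  obtain ⟨N, e, he, hch⟩ := exists_charts K.toBD hd0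
  refine ⟨N, e, ((K.D : ℝ) ^ l) ^ 2 * (N * N) + 1, n1, he, by positivity,
    fun n hn E x hx hxE => ?_⟩
  set w1 : Fin N → G → ℝ := fun i u => if u ∈ K.fam (e i) n then (E i).σ u / (E i).M else 0
    with hw1
  have hw10 : ∀ i u, 0 ≤ w1 i u := fun i u => by
    simp only [hw1]
    split_ifs
    exacts [div_nonneg ((E i).σ_nonneg u) (E i).M_pos.le, le_rfl]
  have hw0 : ∀ u, 0 ≤ ∑ i, w1 i u := fun u => Finset.sum_nonneg fun i _ => hw10 i u
  refine ⟨fun v => ∑ u ∈ (K.lev n).filter (fun u => K.d v u ≤ l), ∑ i, w1 i u,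
    ⟨fun v => Finset.sum_nonneg fun u _ => hw0 u, fun c hc a ha b _ hab hg => ?_⟩, ?_⟩
  · obtain ⟨A, ξ, η, hA, hd, hnear⟩ := hj n hn c hc a ha b hab hg
    obtain ⟨i, γ, ⟨g1, -, g3, g4, g5⟩, hγ⟩ := hch A ξ η hA hd
    have h1 := (E i).block_ge (K.path_block (he i) n g1 g3 g4 g5)
    rw [← one_mul (E i).M, ← le_div_iff₀ (E i).M_pos, Finset.sum_div] at h1
    refine h1.trans (le_trans (Finset.sum_le_sum fun u hu => ?_) (le_of_le_of_eq
      (jn_sum_le c (K.fat (K.fam (e i) n) (e i '' γ)) (K.lev n) (fun v u => K.d v u ≤ l) hw0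
        fun u hu => ?_) (by congr!)))
    · refine le_trans ?_ (Finset.single_le_sum (fun j _ => hw10 j u) (Finset.mem_univ i))
      simp only [hw1, (Finset.mem_filter.1 hu).1, if_true, le_refl]
    · obtain ⟨h2, ζ, h3, h4⟩ := Finset.mem_filter.1 hu
      exact ⟨K.fam_subset n h2, hnear u (K.fam_subset n h2) ⟨ζ, h3, hγ h4⟩⟩
  · refine (up_spread K.toBD _ _ l _).trans ?_
    have h1 : ∀ i, ∑ u ∈ K.lev n, w1 i u ^ 2 ≤ 1 / x := by
      intro i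
      have hM := (E i).M_pos
      have : ∑ u ∈ K.lev n, w1 i u ^ 2 = ∑ u ∈ K.fam (e i) n, (E i).σ u ^ 2 / (E i).M ^ 2 := by
        rw [← Finset.sum_subset (K.fam_subset n)]
        · exact Finset.sum_congr rfl fun u hu => by simp only [hw1, hu, if_true, div_pow]
        · intro u _ hu
          simp [hw1, hu]
      rw [this, ← Finset.sum_div, (E i).sum_sq, pow_two, div_mul_cancel_right₀ hM.ne', one_div]
      exact inv_anti₀ hx (hxE i)
    have h2 : ∑ u ∈ K.lev n, (∑ i, w1 i u) ^ 2 ≤ N * (N * (1 / x)) := by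
      refine (Finset.sum_le_sum fun u _ => sq_sum_le_card_mul_sum_sq).trans ?_
      rw [← Finset.mul_sum, Finset.sum_comm, Finset.card_univ, Fintype.card_fin]
      refine mul_le_mul_of_nonneg_left ((Finset.sum_le_sum fun i _ => h1 i).trans ?_)
        (Nat.cast_nonneg _)
      rw [Finset.sum_const, Finset.card_univ, Fintype.card_fin, nsmul_eq_mul]
    refine (mul_le_mul_of_nonneg_left h2 (sq_nonneg _)).trans ?_
    rw [add_div]
    have : (0 : ℝ) ≤ 1 / x := by positivity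
    have e1 : ((K.D : ℝ) ^ l) ^ 2 * (N * (N * (1 / x))) = ((K.D : ℝ) ^ l) ^ 2 * (N * N) / x := by
      ring
    linarith

end Vale.Agent.P198
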