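import Vale.Agent.P198.WC
import Vale.Agent.P198.Mod
import Vale.Agent.P198.Count
import Vale.Agent.P198.Upper

/-! The combinatorial modulus is bounded. -/

namespace Vale.Agent.P198

open Set Filter Topology Metric MeasureTheory
open scoped Classical

theorem bd_lower {α β : Type*} (T : Finset α) (Lv Sh : Finset β) (act : α → Finset β)
    (c : α → β → ℝ) (Q : α → β → β → Prop) (ρ : β → ℝ) (hc : ∀ S ∈ T, ∀ p, 0 ≤ c S p)
    (hact : ∀ S ∈ T, act S ⊆ Lv)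
    (h : ∀ S ∈ T, ∀ p ∈ act S, 1 ≤ ∑ v ∈ Sh.filter (Q S p), ρ v) :
    ∑ S ∈ T, ∑ p ∈ act S, c S p ≤
      ∑ v ∈ Sh, ρ v * ∑ p ∈ Lv, ∑ S ∈ T.filter (fun S => p ∈ act S ∧ Q S p v), c S p := by
  have e1 : ∑ v ∈ Sh, ρ v * ∑ p ∈ Lv, ∑ S ∈ T.filter (fun S => p ∈ act S ∧ Q S p v), c S p =
      ∑ S ∈ T, ∑ p ∈ Lv, ∑ v ∈ Sh, if p ∈ act S ∧ Q S p v then ρ v * c S p else 0 := by
    simp only [Finset.sum_filter, Finset.mul_sum, mul_ite, mul_zero]
    rw [Finset.sum_comm]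
    rw [Finset.sum_congr rfl fun p _ => Finset.sum_comm]
    rw [Finset.sum_comm]
  rw [e1]
  refine Finset.sum_le_sum fun S hS => ?_
  refine le_trans (Finset.sum_le_sum fun p hp => ?_)
    (Finset.sum_le_sum_of_subset_of_nonneg (hact S hS) fun p _ hp => ?_)
  · simp only [hp, true_and]
    rw [← Finset.sum_filter, ← Finset.sum_mul]
    exact le_mul_of_one_le_left (hc S hS p) (h S hS p hp)
  · simp [hp]

theorem bd_upper {α β : Type*} (Lv : Finset β) (A : β → Finset α) (π : α → ℝ) (r : α → β → ℕ)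
    (s : β → ℝ) (E : α → β → β → Prop) (N : ℕ) (hπ : ∀ S, 0 ≤ π S)
    (hs : ∀ p, ∑ S ∈ A p, π S ≤ s p)
    (hE : ∀ p ∈ Lv, ∀ p' ∈ Lv, ∀ S ∈ A p, ∀ S' ∈ A p', E S p p' ∨ E S' p' p)
    (hr : ∀ S p, (Lv.filter (E S p)).card ≤ r S p) (hN : ∀ S p, r S p ≤ 2 ^ N) :
    (∑ p ∈ Lv, ∑ S ∈ A p, π S * (1 / Real.sqrt (max (r S p) 1))) ^ 2 ≤
      8 * (N + 1) * ∑ p ∈ Lv.filter (fun p => (A p).Nonempty), s p ^ 2 := by
  set P := Lv.filter (fun p => (A p).Nonempty) with hP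
  have hmin : ∀ p ∈ P, ∃ S ∈ A p, ∀ S' ∈ A p, r S p ≤ r S' p := fun p hp =>
    (A p).exists_min_image (fun S => r S p) (Finset.mem_filter.1 hp).2
  rcases P.eq_empty_or_nonempty with h0 | ⟨p0, hp0⟩
  · have : ∑ p ∈ Lv, ∑ S ∈ A p, π S * (1 / Real.sqrt (max (r S p) 1)) = 0 := by
      refine Finset.sum_eq_zero fun p hp => Finset.sum_eq_zero fun S hS => ?_
      have : p ∈ P := Finset.mem_filter.2 ⟨hp, S, hS⟩
      rw [h0] at this
      simp at this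
    rw [this, h0]
    simp
  have : Nonempty α := ⟨(hmin p0 hp0).choose⟩
  choose! m hm hm' using hmin
  have h1 : ∑ p ∈ Lv, ∑ S ∈ A p, π S * (1 / Real.sqrt (max (r S p) 1)) ≤
      ∑ p ∈ P, (1 / Real.sqrt (max (r (m p) p) 1)) * s p := by
    rw [← Finset.sum_filter_of_ne (p := fun p => (A p).Nonempty)]
    · refine Finset.sum_le_sum fun p hp => ?_
      refine le_trans ?_ (mul_le_mul_of_nonneg_left (hs p) (by positivity))
      rw [Finset.mul_sum]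
      refine Finset.sum_le_sum fun S hS => ?_
      rw [mul_comm]
      refine mul_le_mul_of_nonneg_right ?_ (hπ S)
      refine one_div_le_one_div_of_le (Real.sqrt_pos.2 (lt_max_of_lt_right one_pos))
        (Real.sqrt_le_sqrt (max_le_max_right _ ?_))
      exact_mod_cast hm' p hp S hS
    · intro p _ hne
      exact Finset.nonempty_of_sum_ne_zero hne
  have h0 : 0 ≤ ∑ p ∈ Lv, ∑ S ∈ A p, π S * (1 / Real.sqrt (max (r S p) 1)) :=
    Finset.sum_nonneg fun p _ => Finset.sum_nonneg fun S _ => mul_nonneg (hπ S) (by positivity)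
  refine le_trans (pow_le_pow_left₀ h0 h1 2) ((Finset.sum_mul_sq_le_sq_mul_sq _ _ _).trans ?_)
  refine mul_le_mul_of_nonneg_right ?_ (Finset.sum_nonneg fun p _ => sq_nonneg _)
  have ht := tour P (fun p => r (m p) p) (fun p p' => E (m p) p p')
    (fun a ha b hb _ => hE a (Finset.mem_filter.1 ha).1 b (Finset.mem_filter.1 hb).1 _ (hm a ha) _
      (hm b hb))
    (fun a _ => le_trans (Finset.card_le_card fun b hb => Finset.mem_filter.2
      ⟨(Finset.mem_filter.1 (Finset.mem_filter.1 hb).1).1, (Finset.mem_filter.1 hb).2.2⟩)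
      (hr (m a) a)) N (fun a _ => hN _ _)
  refine le_trans (le_of_eq (Finset.sum_congr rfl fun p _ => ?_)) ht
  rw [div_pow, one_pow, Real.sq_sqrt (le_max_of_le_right zero_le_one)]
  push_cast
  rfl

variable {G : Type*} [Group G] {X : Type} [MetricSpace X] [MulAction G X]

namespace Ctx
variable (K : Ctx G X) {e : ℝ × ℝ → X}

theorem bd_sq {n j : ℕ} (E : K.Sol e n) (Sh : Finset G) (Q : G → G → Prop)
    (hQ : ∀ v p, Q v p → p * v ∈ K.fam e n ∧ (j : ℝ) - K.a3 ≤ K.gp (p * v) p) :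
    ∑ v ∈ Sh, ∑ p ∈ (K.lev j).filter (Q v), E.σ (p * v) ^ 2 ≤
      K.D ^ (2 * K.a3 + 2 * K.δ) * E.M := by
  have h1 : ∑ v ∈ Sh, ∑ p ∈ (K.lev j).filter (Q v), E.σ (p * v) ^ 2 =
      ∑ p ∈ K.lev j, ∑ v ∈ Sh.filter (fun v => Q v p), E.σ (p * v) ^ 2 := by
    simp only [Finset.sum_filter]
    exact Finset.sum_comm
  have h2 : ∀ p, ∑ v ∈ Sh.filter (fun v => Q v p), E.σ (p * v) ^ 2 ≤
      ∑ u ∈ K.fam e n, if (j : ℝ) - K.a3 ≤ K.gp u p then E.σ u ^ 2 else 0 := by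
    intro p
    rw [← Finset.sum_filter, ← Finset.sum_image (g := fun v => p * v) (f := fun u => E.σ u ^ 2)
      (fun a _ b _ h => mul_left_cancel h)]
    refine Finset.sum_le_sum_of_subset_of_nonneg ?_ fun _ _ _ => sq_nonneg _
    intro u hu
    obtain ⟨v, hv, rfl⟩ := Finset.mem_image.1 hu
    exact Finset.mem_filter.2 (hQ v p (Finset.mem_filter.1 hv).2)
  rw [h1]
  refine (Finset.sum_le_sum fun p _ => h2 p).trans ?_
  rw [Finset.sum_comm, ← E.sum_sq, Finset.mul_sum]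
  refine Finset.sum_le_sum fun u _ => ?_
  rw [← Finset.sum_filter, Finset.sum_const, nsmul_eq_mul]
  refine mul_le_mul_of_nonneg_right ?_ (sq_nonneg _)
  exact_mod_cast K.fwd_card j u

/-- each active vertex sees an admissible chain -/
theorem bd_fwd (he : IsOpenEmbedding e) : ∃ (B1 : ℝ) (j2 n2 : ℕ), ∀ n j, n2 ≤ n → j2 ≤ j →
    j + K.cov.A' ≤ n → ∀ ρ, K.Adm (n - j) ρ → ∀ γ, Cross γ → ∀ z ∈ γ, z.2 = 1 / 2 → ∀ B0, B1 ≤ B0 →
      ∀ p ∈ K.act (e '' γ) (e z) B0 j, 1 ≤ ∑ v ∈ (K.shell (n - j)).filter (fun v =>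
        p * v ∈ K.fat (K.fam e n) (e '' γ) ∧ (j : ℝ) - K.a3 ≤ K.gp (p * v) p), ρ v := by
  obtain ⟨Rl, nl, hl⟩ := K.lc he (η := 1 / 4) (by norm_num)
  obtain ⟨Rc, hc⟩ := K.cen he (C := sq) (isCompact_Icc.prod isCompact_Icc) (ε := 1 / 4)
    (by norm_num)
  obtain ⟨nc, hcov⟩ := K.covered he (η := 1 / 4) (by norm_num)
  obtain ⟨j2, hj2⟩ := exists_nat_ge (Rl + K.a2)
  refine ⟨Rc, j2, nl + nc + K.cov.n0, fun n j hn hj hjn ρ hρ γ hγ z hz hz2 B0 hB p hp => ?_⟩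
  obtain ⟨hpl, _, ⟨w, hw, rfl⟩, hN, rfl⟩ := Finset.mem_filter.1 hp
  obtain ⟨w', hw', hd⟩ := hc z (hγ.1 hz) _ (hN.mono hB)
  obtain rfl := he.injective hw'
  rw [Prod.dist_eq, max_lt_iff, Real.dist_eq, Real.dist_eq, abs_lt, abs_lt] at hd
  have hw1 : 1 / 4 ≤ w.2 := by linarith [hd.2.2]
  have hw2 : w.2 ≤ 1 - 1 / 4 := by linarith [hd.2.1]
  have hzone : w ∈ zone (1 / 4) := by
    obtain ⟨⟨h3, h4⟩, -⟩ := hγ.1 hw
    exact ⟨⟨by linarith, by linarith⟩, hw1, hw2⟩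
  obtain ⟨u, hu, hwu⟩ := (hcov n (by omega) w hzone).1
  have huf : u ∈ K.fat (K.fam e n) (e '' γ) := K.wc_mem_fat.2 ⟨hu, _, hwu, w, hw, rfl⟩
  obtain ⟨b, -, hch, hbP⟩ := hl n (by omega) γ hγ w hw hw1 hw2 u huf hwu
  have hsub : K.fat (K.fam e n) (e '' γ) ⊆ K.lev n :=
    (Finset.filter_subset _ _).trans (K.fam_subset n)
  have hn0 : K.cov.n0 ≤ n := by omega
  have hjn' : (j : ℝ) + K.cov.A' ≤ n := by exact_mod_cast hjn
  have hj' : (j2 : ℝ) ≤ j := by exact_mod_cast hj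
  have h1 := K.fwd (j := j) (by omega) hρ (e w) hsub (K.achain_chain hn0 hsub hch)
    (by linarith [K.wc_out hn0 (K.wc_len hu) hwu, (Nat.cast_nonneg _ : (0 : ℝ) ≤ K.lam)])
    (by linarith)
  refine h1.trans ?_
  rw [← Finset.sum_image (g := fun u => (K.ray (e w) j)⁻¹ * u) (f := ρ)
    (fun a _ b _ h => mul_left_cancel h)]
  refine Finset.sum_le_sum_of_subset_of_nonneg ?_ fun v _ _ => hρ.1 v
  intro v hv
  obtain ⟨x, hx, rfl⟩ := Finset.mem_image.1 hv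
  obtain ⟨hx1, hx2, -⟩ := Finset.mem_filter.1 hx
  have hg := K.fwd_gp (e w) j hx2
  refine Finset.mem_filter.2 ⟨K.fwd_shell (by omega) hpl (hsub hx1) hg, ?_⟩
  rw [mul_inv_cancel_left]
  exact ⟨hx1, hg⟩

theorem bd_cnt (R : ℝ) (Γ : Set X) (p : G) (j : ℕ) :
    ((K.lev j).filter fun q => K.Mac R Γ (p * q⁻¹)).card ≤ K.cnt R Γ p j := by
  refine Finset.card_le_card_of_injOn (fun q => q⁻¹) ?_ (fun a _ b _ h => inv_injective h)
  intro q hq
  obtain ⟨h1, h2⟩ := Finset.mem_filter.1 (Finset.mem_coe.1 hq)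
  refine Finset.mem_coe.2 (Finset.mem_filter.2 ⟨K.mem_lev.2 ?_, h2⟩)
  rw [K.len_inv]
  exact K.mem_lev.1 h1

theorem bd_cnt_le (R : ℝ) (Γ : Set X) (p : G) (j : ℕ) : K.cnt R Γ p j ≤ 2 ^ (K.D * j) := by
  refine (Finset.card_filter_le _ _).trans ((K.card_lev j).trans ?_)
  rw [pow_mul]
  exact Nat.pow_le_pow_left Nat.lt_two_pow_self.le j

theorem bd_vol {n : ℕ} (E : K.Sol e n) (J : Finset ℕ) (Jf lf : ℕ → ℕ) {κ C0 M : ℝ} (hκ : 0 < κ)
    (hE : E.M ≤ C0 / M) (h1 : 2 * κ * ∑ j ∈ J, (K.D : ℝ) ^ Jf j ≤ 1 / 4)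
    (h2 : (∑ j ∈ J, (K.D : ℝ) ^ (2 * j) * K.D ^ lf j) * (C0 / M) / κ ≤ 1 / 4) :
    volume (⋃ j ∈ J, (K.Edge E (Jf j) κ ∪ K.Heavy E j (lf j) κ)) ≤ ENNReal.ofReal (1 / 2) := by
  have hM := E.M_pos
  refine (measure_biUnion_finset_le J _).trans ?_
  refine le_trans (Finset.sum_le_sum (g := fun j => ENNReal.ofReal (2 * κ * K.D ^ Jf j +
    K.D ^ (2 * j) * K.D ^ lf j * E.M / κ)) fun j _ => ?_) ?_
  · refine (measure_union_le _ _).trans ?_
    rw [ENNReal.ofReal_add (by positivity) (by positivity)]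
    exact add_le_add (K.vol_edge E _ hκ.le) (K.vol_heavy E _ _ hκ)
  · rw [← ENNReal.ofReal_sum_of_nonneg fun j _ => by positivity]
    refine ENNReal.ofReal_le_ofReal ?_
    rw [Finset.sum_add_distrib, ← Finset.mul_sum, ← Finset.sum_div, ← Finset.sum_mul]
    have : (∑ j ∈ J, (K.D : ℝ) ^ (2 * j) * K.D ^ lf j) * E.M / κ ≤
        (∑ j ∈ J, (K.D : ℝ) ^ (2 * j) * K.D ^ lf j) * (C0 / M) / κ := by
      gcongr
    linarith

theorem bd_level {n j : ℕ} (E : K.Sol e n) (TT : Finset (Finset G)) (π : Finset G → ℝ)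
    (Γ : Finset G → Set X) (act : Finset G → Finset G) (R2 : ℝ) {M : ℝ} (hπ0 : ∀ S, 0 ≤ π S)
    (hπ2 : ∀ u, ∑ S ∈ (K.fam e n).powerset.filter (fun S => u ∈ S), π S ≤ E.σ u)
    (hTT : TT ⊆ (K.fam e n).powerset) (hact : ∀ S, act S ⊆ K.lev j) (hmod : K.ModLe (n - j) M)
    (hfw : ∀ ρ, K.Adm (n - j) ρ → ∀ S ∈ TT, ∀ p ∈ act S, 1 ≤ ∑ v ∈ (K.shell (n - j)).filter
      (fun v => p * v ∈ S ∧ (j : ℝ) - K.a3 ≤ K.gp (p * v) p), ρ v)
    (hwc : ∀ S ∈ TT, ∀ S' ∈ TT, ∀ p ∈ act S, ∀ p' ∈ act S', ∀ v, p * v ∈ S →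
      (j : ℝ) - K.a3 ≤ K.gp (p * v) p → p' * v ∈ S' → (j : ℝ) - K.a3 ≤ K.gp (p' * v) p' →
      K.Mac R2 (Γ S) (p * p'⁻¹) ∨ K.Mac R2 (Γ S') (p' * p⁻¹)) :
    (∑ S ∈ TT, ∑ p ∈ act S, π S * (1 / Real.sqrt (max (K.cnt R2 (Γ S) p j) 1))) ^ 2 ≤
      M * (8 * (((K.D * j : ℕ) : ℝ) + 1) * (K.D ^ (2 * K.a3 + 2 * K.δ) * E.M)) := by
  obtain ⟨ρ, hρ, hρM⟩ := hmod
  have hM0 : 0 ≤ M := le_trans (Finset.sum_nonneg fun _ _ => sq_nonneg _) hρM
  set Q : Finset G → G → G → Prop := fun S p v =>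
    p * v ∈ S ∧ (j : ℝ) - K.a3 ≤ K.gp (p * v) p with hQ
  have hw0 : ∀ S p, 0 ≤ π S * (1 / Real.sqrt (max (K.cnt R2 (Γ S) p j) 1)) :=
    fun S p => mul_nonneg (hπ0 S) (by positivity)
  have h1 := bd_lower TT (K.lev j) (K.shell (n - j)) act
    (fun S p => π S * (1 / Real.sqrt (max (K.cnt R2 (Γ S) p j) 1))) Q ρ (fun S _ p => hw0 S p)
    (fun S _ => hact S) (fun S hS p hp => by convert hfw ρ hρ S hS p hp)
  have h2 : ∀ v, (∑ p ∈ K.lev j, ∑ S ∈ TT.filter (fun S => p ∈ act S ∧ Q S p v),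
      π S * (1 / Real.sqrt (max (K.cnt R2 (Γ S) p j) 1))) ^ 2
      ≤ 8 * (((K.D * j : ℕ) : ℝ) + 1) * ∑ p ∈ (K.lev j).filter
        (fun p => (TT.filter (fun S => p ∈ act S ∧ Q S p v)).Nonempty), E.σ (p * v) ^ 2 := by
    intro v
    refine bd_upper (K.lev j) (fun p => TT.filter (fun S => p ∈ act S ∧ Q S p v)) π
      (fun S p => K.cnt R2 (Γ S) p j) (fun p => E.σ (p * v))
      (fun S p q => K.Mac R2 (Γ S) (p * q⁻¹)) (K.D * j) hπ0 (fun p => ?_) ?_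
      (fun S p => by convert K.bd_cnt R2 _ p j) (fun S p => K.bd_cnt_le R2 _ p j)
    · refine le_trans (Finset.sum_le_sum_of_subset_of_nonneg ?_ fun S _ _ => hπ0 S)
        (hπ2 (p * v))
      intro S hS
      obtain ⟨hS1, -, hS2, -⟩ := Finset.mem_filter.1 hS
      exact Finset.mem_filter.2 ⟨hTT hS1, hS2⟩
    · intro p _ p' _ S hS S' hS'
      obtain ⟨hS1, ha, hq1, hq2⟩ := Finset.mem_filter.1 hS
      obtain ⟨hS1', ha', hq1', hq2'⟩ := Finset.mem_filter.1 hS'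
      exact hwc S hS1 S' hS1' p ha p' ha' v hq1 hq2 hq1' hq2'
  have h3 := K.bd_sq (j := j) E (K.shell (n - j))
    (fun v p => (TT.filter (fun S => p ∈ act S ∧ Q S p v)).Nonempty) (by
      rintro v p ⟨S, hS⟩
      obtain ⟨hS1, -, hq1, hq2⟩ := Finset.mem_filter.1 hS
      exact ⟨Finset.mem_powerset.1 (hTT hS1) hq1, hq2⟩)
  have h0 : 0 ≤ ∑ S ∈ TT, ∑ p ∈ act S, π S * (1 / Real.sqrt (max (K.cnt R2 (Γ S) p j) 1)) :=
    Finset.sum_nonneg fun S _ => Finset.sum_nonneg fun p _ => hw0 S p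
  refine (pow_le_pow_left₀ h0 h1 2).trans ((Finset.sum_mul_sq_le_sq_mul_sq _ _ _).trans ?_)
  have h4 := (Finset.sum_le_sum fun v (_ : v ∈ K.shell (n - j)) => h2 v)
  rw [← Finset.mul_sum] at h4
  have h6 : (0 : ℝ) ≤ 8 * (((K.D * j : ℕ) : ℝ) + 1) := by positivity
  have h5 := h4.trans (mul_le_mul_of_nonneg_left (c := K.D ^ (2 * K.a3 + 2 * K.δ) * E.M)
    (le_of_eq_of_le (by congr!) h3) h6)
  exact mul_le_mul hρM (by convert h5) (Finset.sum_nonneg fun _ _ => sq_nonneg _) hM0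

theorem chart_bound (he : IsOpenEmbedding e) {C0 : ℝ} (hC : 0 < C0) : ∃ (M0 : ℝ) (n1 : ℕ),
    ∀ n, n1 ≤ n → ∀ (E : K.Sol e n) (M : ℝ), M0 ≤ M → (∀ m ≤ n, K.ModLe m M) →
      C0 / M < E.M := by
  obtain ⟨R2, B0', j1, hwc⟩ := K.wc he
  choose! Jf lf nf hwc using hwc
  obtain ⟨B1, j2, n2, hfw⟩ := K.bd_fwd he
  obtain ⟨R1, hc⟩ := K.cen he (C := sq) (isCompact_Icc.prod isCompact_Icc) (ε := 1 / 2)
    (by norm_num)
  obtain ⟨T, hT⟩ := K.count
  set Dc : ℝ := K.D ^ (2 * K.a3 + 2 * K.δ) with hDc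
  have hD : (2 : ℝ) ≤ K.D := by exact_mod_cast K.two_le_D
  have hDc0 : 0 < Dc := by positivity
  obtain ⟨j3, hj3⟩ := exists_nat_gt (64 * (T : ℝ) ^ 2 * C0 * Dc * K.D)
  obtain ⟨J, hJT, hJ, hcount⟩ := hT R1 R2 (max B0' B1) (j1 + j2 + j3 + 1)
  set s1 : ℝ := ∑ j ∈ J, (K.D : ℝ) ^ Jf j with hs1
  set s2 : ℝ := ∑ j ∈ J, (K.D : ℝ) ^ (2 * j) * K.D ^ lf j with hs2
  have hs10 : 0 ≤ s1 := by positivity
  have hs20 : 0 ≤ s2 := by positivity
  set κ : ℝ := 1 / (8 * (s1 + 1)) with hκ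
  have hκ0 : 0 < κ := by positivity
  refine ⟨4 * s2 * C0 / κ + 1, n2 + ∑ j ∈ J, (nf j + j + K.cov.A'), fun n hn E M hM hmod => ?_⟩
  by_contra hcon
  push Not at hcon
  have hM0 : 0 < M := lt_of_lt_of_le (by positivity) hM
  have hnj : ∀ j ∈ J, nf j + j + K.cov.A' ≤ n := fun j hj =>
    le_trans (Finset.single_le_sum (f := fun j => nf j + j + K.cov.A') (fun _ _ => Nat.zero_le _)
      hj) (by omega)
  have hvol := K.bd_vol E J Jf lf hκ0 hcon (by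
      rw [← hs1, hκ, mul_one_div, div_mul_eq_mul_div, div_le_div_iff₀ (by positivity) four_pos]
      linarith) (by
      rw [← hs2, div_le_div_iff₀ hκ0 four_pos, ← mul_div_assoc, div_mul_eq_mul_div,
        div_le_iff₀ hM0]
      have : 4 * s2 * C0 / κ ≤ M := by linarith
      rw [div_le_iff₀ hκ0] at this
      linarith)
  obtain ⟨π, hπ0, hπ1, hπ2, hπ3⟩ := E.weights hvol
  have hdata : ∀ S, π S ≠ 0 → ∃ (t : ℝ) (γ : Set (ℝ × ℝ)) (z : ℝ × ℝ), E.Good t ∧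
      (∀ j ∈ J, t ∉ K.Edge E (Jf j) κ ∧ t ∉ K.Heavy E j (lf j) κ) ∧ E.lv t = S ∧ Cross γ ∧
      K.fat (K.fam e n) (e '' γ) = S ∧ z ∈ γ ∧ z.2 = 1 / 2 := by
    intro S hS
    obtain ⟨t, htB, htG, rfl⟩ := hπ3 S hS
    obtain ⟨γ, hγ, hf⟩ := K.good_cross he E htG
    obtain ⟨-, -, hpc, ⟨a, ha, ha2⟩, b, hb, hb2⟩ := id hγ
    obtain ⟨z, hz, hz2⟩ := hpc.intermediate_value ha hb continuous_snd.continuousOn
      (show (1 / 2 : ℝ) ∈ Icc a.2 b.2 by rw [ha2, hb2]; constructor <;> norm_num)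
    refine ⟨t, γ, z, htG, fun j hj => ?_, rfl, hγ, hf, hz, hz2⟩
    exact not_or.1 fun h => htB (mem_iUnion₂.2 ⟨j, hj, h⟩)
  choose! t γ z hG hB hlv hγ hf hz hz2 using hdata
  set TT := (K.fam e n).powerset.filter (fun S => π S ≠ 0) with hTT
  have hTT' : ∀ S ∈ TT, π S ≠ 0 := fun S hS => (Finset.mem_filter.1 hS).2
  set act : ℕ → Finset G → Finset G := fun j S => K.act (e '' γ S) (e (z S)) (max B0' B1) j
    with hact
  set w : ℕ → Finset G → G → ℝ := fun j S p =>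
    π S * (1 / Real.sqrt (max (K.cnt R2 (e '' γ S) p j) 1)) with hw
  set mass : ℕ → ℝ := fun j => ∑ S ∈ TT, ∑ p ∈ act j S, w j S p with hmass
  have hup : ∀ j ∈ J, mass j ^ 2 ≤ C0 * (8 * (((K.D * j : ℕ) : ℝ) + 1) * Dc) := by
    intro j hj
    have hj' := hJ j hj
    have hnj' := hnj j hj
    refine (K.bd_level E TT π (fun S => e '' γ S) (act j) R2 hπ0 hπ2
      (Finset.filter_subset _ _) (fun S => Finset.filter_subset _ _)
      (hmod (n - j) (Nat.sub_le _ _)) (fun ρ hρ S hS p hp => ?_) ?_).trans ?_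
    · have := hfw n j (by omega) (by omega) (by omega) ρ hρ (γ S) (hγ S (hTT' S hS)) (z S)
        (hz S (hTT' S hS)) (hz2 S (hTT' S hS)) _ (le_max_right _ _) p hp
      rwa [hf S (hTT' S hS)] at this
    · intro S hS1 S' hS1' p ha p' ha' v hq1 hq2 hq1' hq2'
      obtain ⟨-, ξ, -, hN, rfl⟩ := Finset.mem_filter.1 ha
      obtain ⟨-, ξ', -, hN', rfl⟩ := Finset.mem_filter.1 ha'
      have k := hTT' S hS1
      have k' := hTT' S' hS1'
      exact hwc j (by omega) n (by omega) E κ (t S) (t S') (γ S) (γ S') (z S) (z S') ξ ξ' _ _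
        (hG S k) (hG S' k') (hB S k j hj).1 (hB S' k' j hj).2 (hγ S k) (hγ S' k')
        ((hf S k).trans (hlv S k).symm) ((hf S' k').trans (hlv S' k').symm) (hz S k) (hz2 S k)
        (hz S' k') (hz2 S' k') (hN.mono (le_max_left _ _)) (hN'.mono (le_max_left _ _))
        ((hlv S k).symm ▸ hq1) ((hlv S' k').symm ▸ hq1') hq2 hq2'
        (by rw [inv_mul_cancel_left, inv_mul_cancel_left])
    · rw [← hDc]
      have : M * E.M ≤ C0 := by rwa [le_div_iff₀' hM0] at hcon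
      calc M * (8 * (((K.D * j : ℕ) : ℝ) + 1) * (Dc * E.M))
          = (M * E.M) * (8 * (((K.D * j : ℕ) : ℝ) + 1) * Dc) := by ring
        _ ≤ _ := mul_le_mul_of_nonneg_right this (by positivity)
  have hlow : 1 / 2 ≤ ∑ j ∈ J, mass j / j := by
    have e1 : ∑ j ∈ J, mass j / j = ∑ S ∈ TT, π S * ∑ j ∈ J, (∑ p ∈ act j S,
        1 / Real.sqrt (max (K.cnt R2 (e '' γ S) p j) 1)) / j := by
      simp only [hmass, hw, Finset.sum_div, Finset.mul_sum, mul_div_assoc]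
      exact Finset.sum_comm
    rw [e1]
    refine hπ1.trans ?_
    rw [← Finset.sum_filter_ne_zero]
    refine Finset.sum_le_sum fun S hS => le_mul_of_one_le_right (hπ0 S) ?_
    have k := hTT' S hS
    obtain ⟨hsq, -, hpc, ⟨a, ha, ha2⟩, -⟩ := hγ S k
    obtain ⟨j, hj, hjs⟩ := hcount (e '' γ S) (e (z S)) (hpc.image _ he.continuous.continuousOn)
      ⟨_, hz S k, rfl⟩ ⟨e a, ⟨a, ha, rfl⟩, fun hN => by
        obtain ⟨w', hw', hd⟩ := hc _ (hsq (hz S k)) _ hN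
        obtain rfl := he.injective hw'
        rw [Prod.dist_eq, max_lt_iff, Real.dist_eq, Real.dist_eq, abs_lt, abs_lt, hz2 S k,
          ha2] at hd
        linarith [hd.2.2]⟩
    refine le_trans ?_ (Finset.single_le_sum (f := fun j => (∑ p ∈ act j S,
        1 / Real.sqrt (max (K.cnt R2 (e '' γ S) p j) 1)) / j) (fun _ _ => by positivity) hj)
    have hj0 : (0 : ℝ) < j := by have := hJ j hj; exact_mod_cast (by omega : 0 < j)
    exact (one_le_div hj0).2 hjs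
  have hT0 : (0 : ℝ) < T := by
    rcases J.eq_empty_or_nonempty with h | h
    · rw [h, Finset.sum_empty] at hlow
      linarith
    · exact_mod_cast lt_of_lt_of_le h.card_pos hJT
  have hsmall : ∀ j ∈ J, mass j / j < 1 / (2 * T) := by
    intro j hj
    have hj3' : (j3 : ℝ) + 1 ≤ j := by have := hJ j hj; exact_mod_cast (by omega : j3 + 1 ≤ j)
    have hj1 : (1 : ℝ) ≤ j := by linarith [(Nat.cast_nonneg j3 : (0 : ℝ) ≤ j3)]
    have h1 := hup j hj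
    push_cast at h1
    rw [div_lt_div_iff₀ (by linarith) (by positivity), one_mul]
    refine lt_of_pow_lt_pow_left₀ 2 (by linarith) ?_
    have h2 : (K.D : ℝ) * j + 1 ≤ 2 * (K.D * j) := by nlinarith
    have h3 : mass j ^ 2 ≤ C0 * (8 * (2 * (K.D * j)) * Dc) := h1.trans (by gcongr)
    calc (mass j * (2 * T)) ^ 2 = mass j ^ 2 * (4 * T ^ 2) := by ring
      _ ≤ C0 * (8 * (2 * (K.D * j)) * Dc) * (4 * T ^ 2) := by gcongr
      _ = (64 * (T : ℝ) ^ 2 * C0 * Dc * K.D) * j := by ring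
      _ < j * j := by gcongr; linarith
      _ = j ^ 2 := by ring
  have hne : J.Nonempty := by
    rcases J.eq_empty_or_nonempty with h | h
    · rw [h, Finset.sum_empty] at hlow
      linarith
    · exact h
  have h1 := Finset.sum_lt_sum_of_nonempty hne hsmall
  rw [Finset.sum_const, nsmul_eq_mul] at h1
  have h2 : (J.card : ℝ) * (1 / (2 * T)) ≤ T * (1 / (2 * T)) := by
    gcongr
  have h3 : (T : ℝ) * (1 / (2 * T)) = 1 / 2 := by field_simp
  linarith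

theorem mod_bounded [Nonempty X] : ∃ M : ℝ, ∀ m, K.ModLe m M := by
  obtain ⟨N, e, C0, n1, he, hC, hup⟩ := K.mod_upper
  choose M0 n2 hb using fun i => K.chart_bound (he i) (C0 := 2 * C0) (by positivity)
  choose n3 hs using fun i => K.exists_sol (he i)
  have hex : ∀ m, ∃ k : ℕ, K.ModLe m k := fun m => ⟨_, K.modLe_card m⟩
  set f : ℕ → ℕ := fun m => Nat.find (hex m) with hf
  have hf1 : ∀ m, K.ModLe m (f m) := fun m => Nat.find_spec (hex m)
  by_contra hcon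
  push Not at hcon
  have hunb : ∀ k : ℕ, ∃ m, k < f m := by
    intro k
    obtain ⟨m, hm⟩ := hcon k
    refine ⟨m, not_le.1 fun h => hm ((hf1 m).mono (by exact_mod_cast h))⟩
  set n4 := n1 + ∑ i, (n2 i + n3 i) with hn4
  set k := (Finset.range n4).sup f + ∑ i, ⌈M0 i⌉₊ + 1 with hk
  set n := Nat.find (hunb k) with hn
  have hkn : k < f n := Nat.find_spec (hunb k)
  have hrec : ∀ m ≤ n, f m ≤ f n := by
    intro m hm
    rcases hm.eq_or_lt with rfl | h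
    · exact le_rfl
    · exact (not_lt.1 (Nat.find_min (hunb k) h)).trans hkn.le
  have hn4n : n4 ≤ n := by
    by_contra h
    have := Finset.le_sup (f := f) (Finset.mem_range.2 (not_le.1 h))
    omega
  have hni : ∀ i, n2 i + n3 i ≤ n := fun i =>
    le_trans (Finset.single_le_sum (f := fun i => n2 i + n3 i) (fun _ _ => Nat.zero_le _)
      (Finset.mem_univ i)) (by omega)
  have E : ∀ i, K.Sol (e i) n := fun i => (hs i n (by have := hni i; omega)).some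
  have h2 : (2 : ℝ) ≤ f n := by exact_mod_cast (by omega : 2 ≤ f n)
  have hx := hup n (by omega) E (2 * C0 / f n) (by positivity) fun i => by
    refine (hb i n (by have := hni i; omega) (E i) (f n) ?_
      fun m hm => (hf1 m).mono (by exact_mod_cast hrec m hm)).le
    refine (Nat.le_ceil _).trans ?_
    have := Finset.single_le_sum (f := fun i => ⌈M0 i⌉₊) (fun _ _ => Nat.zero_le _)
      (Finset.mem_univ i)
    exact_mod_cast (by omega : ⌈M0 i⌉₊ ≤ f n)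
  refine Nat.find_min (hex n) (m := f n - 1) (by show f n - 1 < f n; omega) (hx.mono ?_)
  rw [Nat.cast_sub (by omega)]
  have : C0 / (2 * C0 / f n) = f n / 2 := by field_simp
  rw [this]
  push_cast
  linarith

end Ctx

end Vale.Agent.P198
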