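import Vale.Agent.P198.Light
import Vale.Agent.P198.Ulim

/-! The limit chart. -/

namespace Vale.Agent.P198

open Set Filter Topology Metric MeasureTheory
open scoped Classical

variable {G : Type*} [Group G] {X : Type} [MetricSpace X] [MulAction G X]

namespace Ctx

variable {K : Ctx G X} {e : ℝ × ℝ → X}

theorem chart_Df_mem {n : ℕ} (E : K.Sol e n) (z : ℝ × ℝ) : Df E z ∈ Icc (0 : ℝ) 1 := by
  unfold Df
  split_ifs with h
  · exact ⟨E.pot_nonneg _, E.pot_le _⟩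
  · exact ⟨le_rfl, zero_le_one⟩

theorem chart_σ_le {n : ℕ} (hn : K.cov.n0 ≤ n) (E : K.Sol e n) {ω : ℝ} (hω : Small E ω) {u : G}
    (hu : u ∈ K.fam e n) : E.σ u ≤ ω := by
  have hl : K.len u = n := K.mem_lev.1 (K.fam_subset n hu)
  exact (σ_le_hat E hu (K.adj_self (hl ▸ hn))).trans (hω.1 u hu)

theorem chart_Df_left {n : ℕ} (E : K.Sol e n) {z : ℝ × ℝ} (hz : z.1 < 0) : Df E z = 0 := by
  unfold Df
  split_ifs with h
  · exact E.pot_left _ h.choose_spec.1 ⟨z, hz, h.choose_spec.2⟩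
  · rfl

theorem chart_Df_right {n : ℕ} (hn : K.cov.n0 ≤ n) (E : K.Sol e n) {ω : ℝ} (hω : Small E ω)
    {z : ℝ × ℝ} (hz : 1 < z.1) (h : ∃ u ∈ K.fam e n, e z ∈ K.U u) : 1 - ω ≤ Df E z := by
  unfold Df
  rw [dif_pos h]
  have h1 := E.pot_right _ h.choose_spec.1 ⟨z, hz, h.choose_spec.2⟩
  have h2 := chart_σ_le hn E hω h.choose_spec.1
  linarith

/-- every point of the middle region is approximately a value of the approximate chart -/
theorem chart_approx (he : IsOpenEmbedding e) {n : ℕ} (hn : K.cov.n0 ≤ n) (E : K.Sol e n) {ω : ℝ}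
    (hω0 : 0 < ω) (hω1 : ω ≤ 1 / 16) (hω : Small E ω) {w : ℝ × ℝ} (h1 : 3 / 8 ≤ w.1)
    (h2 : w.1 ≤ 5 / 8) (h3 : 20 * ω ≤ w.2) (h4 : w.2 + 20 * ω ≤ E.M) :
    ∃ z ∈ sq, dist (phi E z) w ≤ 20 * ω := by
  obtain ⟨t, ht, hg⟩ := E.exists_good_near (a := w.1) (b := w.1 + ω) (by linarith) (by linarith)
    (by linarith)
  have hb := band_lower E he hω0 hω1 hω hg (by linarith [ht.1]) (by linarith [ht.2])
    (a := w.2 - 20 * ω) (b := w.2 + 20 * ω) (by linarith) (by linarith) h4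
  have hne : ((E.lv t).filter (fun u => ∃ z ∈ sq, e z ∈ K.U u ∧ w.2 - 20 * ω ≤ Hf E z ∧
      Hf E z ≤ w.2 + 20 * ω)).Nonempty := by
    by_contra hc
    rw [Finset.not_nonempty_iff_eq_empty] at hc
    rw [hc, Finset.sum_empty] at hb
    linarith
  obtain ⟨u, hu⟩ := hne
  obtain ⟨hu1, z, hz, hzu, ha, hb'⟩ := Finset.mem_filter.1 hu
  obtain ⟨huf, hp1, hp2⟩ := Finset.mem_filter.1 hu1
  have hσ := chart_σ_le hn E hω huf
  have hD := (Df_close E huf hzu).trans (hω.1 u huf)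
  refine ⟨z, hz, ?_⟩
  rw [abs_le] at hD
  rw [Prod.dist_eq, max_le_iff, Real.dist_eq, Real.dist_eq, abs_le, abs_le]
  simp only [phi]
  refine ⟨⟨?_, ?_⟩, ?_, ?_⟩ <;> linarith [ht.1, ht.2, hD.1, hD.2]

end Ctx

theorem chart_ev {p : ℕ → Prop} {n1 : ℕ} (h : ∀ n, n1 ≤ n → p n) (n3 : ℕ) :
    ∀ᶠ n in (hyperfilter ℕ : Filter ℕ), p (n + n3) :=
  Filter.Eventually.filter_mono Nat.hyperfilter_le_atTop
    ((eventually_ge_atTop n1).mono fun _ hn => h _ (hn.trans (Nat.le_add_right _ _)))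

theorem chart_lim {Y : Type*} [TopologicalSpace Y] {s : Set Y} (hs : IsCompact s) {a : ℕ → Y}
    (h : ∀ᶠ n in (hyperfilter ℕ : Filter ℕ), a n ∈ s) :
    ∃ y ∈ s, Tendsto a (hyperfilter ℕ : Filter ℕ) (𝓝 y) := by
  obtain ⟨y, hy, h'⟩ := hs.ultrafilter_le_nhds ((hyperfilter ℕ).map a) (by
    rw [Ultrafilter.coe_map, le_principal_iff]
    exact h)
  exact ⟨y, hy, h'⟩

theorem Ctx.exists_prechart (K : Ctx G X) [Nonempty X] {M : ℝ} (hM : ∀ m, K.ModLe m M) :
    Nonempty (PreChart K) := by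
  obtain ⟨e, he, -⟩ := K.sph (Classical.arbitrary X)
  obtain ⟨c, C, n1, hc, hMb⟩ := K.M_bounds he hM
  obtain ⟨η, n2, hη, hη4, hends⟩ := K.ends he hM (ε := c / 8) (by positivity)
  obtain ⟨n3, hsol⟩ := K.exists_sol he
  have E : ∀ n, K.Sol e (n + n3) := fun n => Classical.choice (hsol _ (Nat.le_add_left _ _))
  have evM : ∀ᶠ n in (hyperfilter ℕ : Filter ℕ), c ≤ (E n).M ∧ (E n).M ≤ C :=
    (chart_ev hMb n3).mono fun n hn => hn (E n)
  have evE : ∀ᶠ n in (hyperfilter ℕ : Filter ℕ), ∀ z ∈ sq, c / 8 < Ctx.Hf (E n) z →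
      Ctx.Hf (E n) z < (E n).M - c / 8 → η ≤ z.2 ∧ z.2 ≤ 1 - η :=
    (chart_ev hends n3).mono fun n hn => hn (E n)
  have evN : ∀ m : ℕ, ∀ᶠ n in (hyperfilter ℕ : Filter ℕ), m ≤ n + n3 := fun m =>
    chart_ev (p := fun n => m ≤ n) (n1 := m) (fun _ h => h) n3
  have evS : ∀ ω : ℝ, 0 < ω → ∀ᶠ n in (hyperfilter ℕ : Filter ℕ), Ctx.Small (E n) ω := by
    intro ω hω
    obtain ⟨m, hm⟩ := K.small_ev he hM hω
    exact (chart_ev hm n3).mono fun n hn => hn (E n)
  obtain ⟨Mi, hMi, tM⟩ := chart_lim (isCompact_Icc (a := c) (b := C)) (a := fun n => (E n).M) evM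
  have evMi : ∀ᶠ n in (hyperfilter ℕ : Filter ℕ), Mi - c / 16 < (E n).M :=
    tM.eventually (lt_mem_nhds (by linarith))
  have hlim : ∀ z : ℝ × ℝ, ∃ y, Tendsto (fun n => Ctx.phi (E n) z) (hyperfilter ℕ : Filter ℕ)
      (𝓝 y) := by
    intro z
    obtain ⟨y, -, hy⟩ := chart_lim ((isCompact_Icc (a := (0 : ℝ)) (b := 1)).prod
      (isCompact_Icc (a := (0 : ℝ)) (b := C))) (a := fun n => Ctx.phi (E n) z)
      (evM.mono fun n hn => ⟨Ctx.chart_Df_mem (E n) z, Ctx.Hf_nonneg (E n) z,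
        (Ctx.Hf_le (E n) z).trans hn.2⟩)
    exact ⟨y, hy⟩
  choose φ tφ using hlim
  set Z : Set (ℝ × ℝ) := Icc 0 1 ×ˢ Icc (η / 2) (1 - η / 2) with hZ
  have Zsq : Z ⊆ sq := fun z hz =>
    ⟨hz.1, by linarith [hz.2.1], by linarith [hz.2.2]⟩
  have Zzone : Z ⊆ zone (η / 2) := fun z hz =>
    ⟨⟨by linarith [hz.1.1], by linarith [hz.1.2]⟩, hz.2⟩
  have Zstrip : Z ⊆ strip := fun z hz =>
    ⟨⟨by linarith [hz.1.1], by linarith [hz.1.2]⟩, by linarith [hz.2.1], by linarith [hz.2.2]⟩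
  have Zc : IsCompact Z := isCompact_Icc.prod isCompact_Icc
  obtain ⟨φc, φu⟩ := ulim_unif (F := fun n z => Ctx.phi (E n) z) Zc (hyperfilter ℕ) (f := φ)
    (fun z _ => tφ z) (by
      intro ε hε
      obtain ⟨r1, m1, hr1, h1⟩ := K.Df_equi he hM (half_pos hη) hε
      obtain ⟨r2, m2, hr2, h2⟩ := K.Hf_equi he hM hε
      refine ⟨min r1 r2, lt_min hr1 hr2, ?_⟩
      filter_upwards [chart_ev h1 n3, chart_ev h2 n3] with n a1 a2 x hx y hy hxy
      rw [Prod.dist_eq, max_le_iff, Real.dist_eq, Real.dist_eq]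
      exact ⟨a1 (E n) x (Zzone hx) y (Zzone hy) (hxy.trans_le (min_le_left _ _)),
        a2 (E n) x (Zsq hx) y (Zsq hy) (hxy.trans_le (min_le_right _ _))⟩)
  rw [Metric.tendstoUniformlyOn_iff] at φu
  set w0 : ℝ × ℝ := (1 / 2, Mi / 2) with hw0
  set ρ : ℝ := min (1 / 16) (c / 8) with hρ
  have ρ0 : 0 < ρ := lt_min (by norm_num) (by positivity)
  have hball : ∀ w ∈ closedBall w0 ρ, 7 / 16 ≤ w.1 ∧ w.1 ≤ 9 / 16 ∧ 3 * c / 8 ≤ w.2 ∧
      w.2 ≤ Mi - 3 * c / 8 := by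
    intro w hw
    rw [mem_closedBall, Prod.dist_eq, max_le_iff, Real.dist_eq, Real.dist_eq, abs_le, abs_le] at hw
    have a1 : ρ ≤ 1 / 16 := min_le_left _ _
    have a2 : ρ ≤ c / 8 := min_le_right _ _
    have a3 := hMi.1
    simp only [hw0] at hw
    refine ⟨?_, ?_, ?_, ?_⟩ <;> linarith [hw.1.1, hw.1.2, hw.2.1, hw.2.2]
  have K1 : ∀ r : ℝ, 0 < r → ∃ ε : ℝ, 0 < ε ∧ ∀ x ∈ Z, ∀ y ∈ Z, φ x ∈ closedBall w0 ρ →
      dist (φ y) (φ x) < ε → dist x y ≤ r := by
    intro r hr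
    obtain ⟨ε, m, hε, h⟩ := K.inj_est he hM (c := c / 4) (by positivity) hr
    refine ⟨ε / 2, half_pos hε, fun x hx y hy hb hxy => ?_⟩
    obtain ⟨b1, b2, b3, b4⟩ := hball _ hb
    obtain ⟨n, a1, a2, a3⟩ := ((chart_ev h n3).and (evMi.and (φu (ε / 2) (half_pos hε)))).exists
    refine a1 (E n) (φ x) (by linarith) (by linarith) (by linarith) (by linarith) x (Zsq hx) y
      (Zsq hy) ?_ ?_
    · have := a3 x hx
      rw [dist_comm] at this
      linarith
    · have h1 := a3 y hy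
      have h2 := dist_triangle (Ctx.phi (E n) y) (φ y) (φ x)
      rw [dist_comm] at h1
      linarith
  have K2 : ∀ w ∈ closedBall w0 ρ, ∃ z ∈ Z, φ z = w := by
    intro w hw
    obtain ⟨b1, b2, b3, b4⟩ := hball _ hw
    have hcl : IsClosed (φ '' Z) := (Zc.image_of_continuousOn φc).isClosed
    change w ∈ φ '' Z
    rw [← hcl.closure_eq, Metric.mem_closure_iff]
    intro ε hε
    set ω : ℝ := min (min (1 / 16) (c / 200)) (ε / 50) with hω
    have ω0 : 0 < ω := lt_min (lt_min (by norm_num) (by positivity)) (by positivity)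
    have ω1 : ω ≤ 1 / 16 := (min_le_left _ _).trans (min_le_left _ _)
    have ω2 : ω ≤ c / 200 := (min_le_left _ _).trans (min_le_right _ _)
    have ω3 : ω ≤ ε / 50 := min_le_right _ _
    obtain ⟨n, a1, a2, a3, a4, a5⟩ := ((evN K.cov.n0).and (evMi.and ((φu (ε / 2) (half_pos hε)).and
      (evE.and (evS ω ω0))))).exists
    obtain ⟨z, hz, hd⟩ := Ctx.chart_approx he a1 (E n) ω0 ω1 a5 (w := w) (by linarith) (by linarith)
      (by linarith) (by linarith)
    have hd2 : dist (Ctx.Hf (E n) z) w.2 ≤ 20 * ω := (le_max_right _ _).trans hd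
    rw [Real.dist_eq, abs_le] at hd2
    obtain ⟨c1, c2⟩ := a4 z hz (by linarith [hd2.1]) (by linarith [hd2.2])
    have hzZ : z ∈ Z := ⟨hz.1, by linarith, by linarith⟩
    refine ⟨φ z, mem_image_of_mem _ hzZ, ?_⟩
    have h1 := a3 z hzZ
    have h2 := dist_triangle w (Ctx.phi (E n) z) (φ z)
    rw [dist_comm] at h1 hd
    linarith
  set g : ℝ × ℝ → ℝ × ℝ := Function.invFunOn φ Z with hg
  have gZ : ∀ w ∈ closedBall w0 ρ, g w ∈ Z := fun w hw => Function.invFunOn_mem (K2 w hw)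
  have gφ : ∀ w ∈ closedBall w0 ρ, φ (g w) = w := fun w hw => Function.invFunOn_eq (K2 w hw)
  have φg : ∀ z ∈ Z, φ z ∈ closedBall w0 ρ → g (φ z) = z := by
    intro z hz hb
    refine (eq_of_forall_dist_le fun r hr => ?_).symm
    obtain ⟨ε, hε, h⟩ := K1 r hr
    exact h z hz _ (gZ _ hb) hb (by rw [gφ _ hb, dist_self]; exact hε)
  have gc : ContinuousOn g (closedBall w0 ρ) := by
    rw [Metric.continuousOn_iff]
    intro w hw r hr
    obtain ⟨ε, hε, h⟩ := K1 (r / 2) (half_pos hr)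
    refine ⟨ε, hε, fun v hv hvw => ?_⟩
    have := h _ (gZ w hw) _ (gZ v hv) (by rw [gφ w hw]; exact hw)
      (by rw [gφ w hw, gφ v hv]; exact hvw)
    rw [dist_comm] at this
    linarith
  have einv : ∀ z, Function.invFun e (e z) = z := Function.leftInverse_invFun he.injective
  have hint : ∀ z ∈ Z, φ z ∈ closedBall w0 ρ → Z ∈ 𝓝 z := by
    intro z hz hb
    obtain ⟨b1, b2, b3, b4⟩ := hball _ hb
    obtain ⟨r, m, hr, hD⟩ := K.Df_equi he hM (half_pos hη) (ε := 1 / 16) (by norm_num)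
    obtain ⟨m', hcov⟩ := K.covered he (half_pos hη)
    set ε : ℝ := min (1 / 16) (c / 16) with hε
    have ε0 : 0 < ε := lt_min (by norm_num) (by positivity)
    have ε1 : ε ≤ 1 / 16 := min_le_left _ _
    have ε2 : ε ≤ c / 16 := min_le_right _ _
    obtain ⟨n, a1, a2, a3, a4, a5, a6, a7⟩ := ((evN K.cov.n0).and (evMi.and ((φu ε ε0).and
      (evE.and ((evS (1 / 16) (by norm_num)).and ((chart_ev hD n3).and
        (chart_ev hcov n3))))))).exists
    have hd := a3 z hz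
    have hd1 : dist (φ z).1 (Ctx.Df (E n) z) < ε := (le_max_left _ _).trans_lt hd
    have hd2 : dist (φ z).2 (Ctx.Hf (E n) z) < ε := (le_max_right _ _).trans_lt hd
    rw [Real.dist_eq, abs_lt] at hd1 hd2
    obtain ⟨c1, c2⟩ := a4 z (Zsq hz) (by linarith [hd2.1, hd2.2]) (by linarith [hd2.1, hd2.2])
    set s : ℝ := min (r / 2) (1 / 2) with hs
    have s0 : 0 < s := lt_min (half_pos hr) (by norm_num)
    have s1 : s ≤ r / 2 := min_le_left _ _
    have s2 : s ≤ 1 / 2 := min_le_right _ _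
    have c3 : 0 < z.1 := by
      by_contra hh
      have hz0 : z.1 = 0 := le_antisymm (not_lt.1 hh) hz.1.1
      have hz' : ((-s, z.2) : ℝ × ℝ) ∈ zone (η / 2) :=
        ⟨⟨by simp only; linarith, by simp only; linarith⟩, hz.2⟩
      have h1 := a6 (E n) z (Zzone hz) _ hz' (by
        rw [Prod.dist_eq, max_lt_iff, Real.dist_eq, Real.dist_eq, hz0]
        simp only [sub_self, abs_zero, zero_sub, neg_neg, abs_of_pos s0]
        exact ⟨by linarith, hr⟩)
      rw [Ctx.chart_Df_left (E n) (z := (-s, z.2)) (by simp only; linarith), abs_le] at h1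
      linarith [h1.2, hd1.2]
    have c4 : z.1 < 1 := by
      by_contra hh
      have hz0 : z.1 = 1 := le_antisymm hz.1.2 (not_lt.1 hh)
      have hz' : ((1 + s, z.2) : ℝ × ℝ) ∈ zone (η / 2) :=
        ⟨⟨by simp only; linarith, by simp only; linarith⟩, hz.2⟩
      have h1 := a6 (E n) z (Zzone hz) _ hz' (by
        rw [Prod.dist_eq, max_lt_iff, Real.dist_eq, Real.dist_eq, hz0]
        simp only [sub_self, abs_zero, sub_add_cancel_left, abs_neg, abs_of_pos s0]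
        exact ⟨by linarith, hr⟩)
      have h2 := Ctx.chart_Df_right a1 (E n) a5 (z := (1 + s, z.2)) (by simp only; linarith)
        (a7 _ hz').1
      rw [abs_le] at h1
      linarith [h1.1, hd1.1]
    exact prod_mem_nhds (Icc_mem_nhds c3 c4) (Icc_mem_nhds (by linarith) (by linarith))
  obtain ⟨Ca, -, hap⟩ := K.ap
  refine ⟨⟨fun ξ => φ (Function.invFun e ξ), fun w => e (g w), w0, ρ, Ca, 1 / 16, ρ0,
    by norm_num, he.continuous.comp_continuousOn gc, fun w hw => ?_, ?_, ?_, ?_⟩⟩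
  · simp only [einv, gφ w hw]
  · rw [← image_image e g]
    refine he.isOpenMap _ (isOpen_iff_mem_nhds.2 ?_)
    rintro _ ⟨w, hw, rfl⟩
    have hw' := ball_subset_closedBall hw
    have hZn := hint _ (gZ w hw') (by rw [gφ w hw']; exact hw')
    have h1 : φ ⁻¹' ball w0 ρ ∈ 𝓝 (g w) :=
      (φc.continuousAt hZn).preimage_mem_nhds (isOpen_ball.mem_nhds (by rw [gφ w hw']; exact hw))
    filter_upwards [hZn, h1] with z hz hb
    exact ⟨φ z, hb, φg z hz (ball_subset_closedBall hb)⟩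
  · rw [← image_image e g, he.isInducing.continuousOn_image_iff]
    refine (φc.mono ?_).congr fun z _ => ?_
    · rintro _ ⟨w, hw, rfl⟩
      exact gZ w hw
    · simp only [Function.comp, einv]
  · intro k hk r hr hkr w hw n0
    obtain ⟨b1, b2, -, -⟩ := hball _ hw
    obtain ⟨n, a1, a2, a3, a4⟩ := ((evN K.cov.n0).and ((evN n0).and ((φu (r / 2) (half_pos hr)).and
      (evS (r / 100) (by positivity))))).exists
    obtain ⟨f, τ, t1, t2, t3, t4, t5⟩ := hap e he _ a1 (E n) k r (r / 100) w hk hr hkr a4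
      (by positivity) le_rfl (by linarith) (by linarith)
    refine ⟨n + n3, a2, f, τ, t1, t2, fun u hu hU => t3 u ?_, fun v hv hvw => t4 _ ?_,
      fun v hv hvw => t5 _ ?_⟩
    · refine Finset.mem_filter.2 ⟨hu, hU.trans ?_⟩
      rintro _ ⟨v, hv, rfl⟩
      exact mem_image_of_mem e (Zstrip (gZ v (ball_subset_closedBall hv)))
    · have hv' := ball_subset_closedBall hv
      have h1 := a3 _ (gZ v hv')
      rw [gφ v hv', dist_comm] at h1
      have h2 := dist_triangle (Ctx.phi (E n) (g v)) v w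
      linarith
    · have hv' := ball_subset_closedBall hv
      have h1 := a3 _ (gZ v hv')
      rw [gφ v hv'] at h1
      have h2 := dist_triangle v (Ctx.phi (E n) (g v)) w
      have h3 : (1 : ℝ) ≤ 4 ^ k := one_le_pow₀ (by norm_num)
      have h4 : r ≤ 4 ^ k * r := le_mul_of_one_le_left hr.le h3
      linarith

end Vale.Agent.P198
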