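import Vale.Agent.P198.LDA

/-! Injective continuous maps have a constant orientation. -/

namespace Vale.Agent.P198

open Set Filter Topology Metric MeasureTheory
open scoped Classical

/-- the increment of a continuous logarithm of `f` over one period -/
def OrW (f : ℝ → ℂ) (c : ℂ) : Prop :=
  ∃ L : ℝ → ℂ, Continuous L ∧ (∀ θ, Complex.exp (L θ) = f θ) ∧ L (2 * Real.pi) - L 0 = c

theorem or_const {g : ℝ → ℂ} (hg : Continuous g) (h : ∀ x, Complex.exp (g x) = 1) (a b : ℝ) :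
    g a = g b :=
  Complex.isCoveringMap_exp.const_of_comp hg (fun x y => Subtype.ext ((h x).trans (h y).symm)) a b

theorem OrW.uniq {f : ℝ → ℂ} {c c' : ℂ} (h : OrW f c) (h' : OrW f c') : c = c' := by
  obtain ⟨L, h1, h2, rfl⟩ := h
  obtain ⟨L', h1', h2', rfl⟩ := h'
  have := or_const (g := fun x => L x - L' x) (h1.sub h1') (fun x => by
    rw [Complex.exp_sub, h2', ← h2, div_self (Complex.exp_ne_zero _)]) (2 * Real.pi) 0
  linear_combination this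

theorem OrW.close {f g : ℝ → ℂ} {c : ℂ} (h : OrW g c) (hf : Continuous f)
    (hp : f (2 * Real.pi) = f 0) (hp' : g (2 * Real.pi) = g 0) (hc : ∀ θ, ‖f θ - g θ‖ < ‖g θ‖) :
    OrW f c := by
  obtain ⟨L, h1, h2, rfl⟩ := h
  have hg : Continuous g := by
    rw [← funext h2]
    exact h1.cexp
  have g0 : ∀ θ, g θ ≠ 0 := fun θ => h2 θ ▸ Complex.exp_ne_zero _
  have hs : ∀ θ, f θ / g θ ∈ Complex.slitPlane := by
    intro θ
    have := Complex.mem_slitPlane_of_norm_lt_one (z := (f θ - g θ) / g θ) (by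
      rw [norm_div, div_lt_one (norm_pos_iff.2 (g0 θ))]
      exact hc θ)
    rwa [sub_div, div_self (g0 θ), add_sub_cancel] at this
  refine ⟨fun θ => L θ + Complex.log (f θ / g θ), h1.add ((hf.div hg g0).clog hs), fun θ => ?_, ?_⟩
  · rw [Complex.exp_add, h2, Complex.exp_log (Complex.slitPlane_ne_zero (hs θ)),
      mul_div_cancel₀ _ (g0 θ)]
  · simp only [hp, hp']
    ring

theorem or_htpy {H : ℝ × ℝ → ℂ} (hH : Continuous H) (h0 : ∀ p, H p ≠ 0)
    (hp : ∀ s, H (s, 2 * Real.pi) = H (s, 0)) :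
    ∃ c, OrW (fun θ => H (0, θ)) c ∧ OrW (fun θ => H (1, θ)) c := by
  obtain ⟨L, ⟨-, hL⟩, -⟩ := Complex.isCoveringMapOn_exp.existsUnique_continuousMap_lifts
    (⟨H, hH⟩ : C(ℝ × ℝ, ℂ)) (a₀ := 0) (Complex.exp_log (h0 0)) h0
  have h1 : ∀ p, Complex.exp (L p) = H p := fun p => congrFun hL p
  have h2 := or_const (g := fun s => L (s, 2 * Real.pi) - L (s, 0)) (by fun_prop) (fun s => by
    rw [Complex.exp_sub, h1, h1, hp, div_self (h0 _)]) 1 0
  exact ⟨_, ⟨fun θ => L (0, θ), by fun_prop, fun θ => h1 _, rfl⟩,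
    ⟨fun θ => L (1, θ), by fun_prop, fun θ => h1 _, h2⟩⟩

theorem or_pos {a : ℂ} (ha : a ≠ 0) :
    OrW (fun θ => a * Complex.exp (θ * Complex.I)) (2 * Real.pi * Complex.I) :=
  ⟨fun θ => Complex.log a + θ * Complex.I, by fun_prop,
    fun θ => by rw [Complex.exp_add, Complex.exp_log ha], by simp⟩

theorem or_neg {a : ℂ} (ha : a ≠ 0) :
    OrW (fun θ => a * (starRingEnd ℂ) (Complex.exp (θ * Complex.I)))
      (-(2 * Real.pi * Complex.I)) :=
  ⟨fun θ => Complex.log a - θ * Complex.I, by fun_prop,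
    fun θ => by
      beta_reduce
      rw [sub_eq_add_neg, Complex.exp_add, Complex.exp_log ha, ← Complex.exp_conj]
      simp, by simp⟩

theorem or_loc {ψ : ℂ → ℂ} {z : ℂ} {T : ℂ →L[ℝ] ℂ} (hT : HasFDerivAt ψ T z) {ε : ℝ}
    (hε : 0 < ε) : ∃ δ : ℝ, 0 < δ ∧ ∀ r : ℝ, 0 < r → r < δ → ∀ v : ℂ, ‖v‖ = 1 →
      ‖ψ (z + r * v) - ψ z - (r * pa T * v + r * pb T * (starRingEnd ℂ) v)‖ < r * ε := by
  obtain ⟨δ, hδ, h⟩ := Metric.eventually_nhds_iff.1
    ((hasFDerivAt_iff_isLittleO_nhds_zero.1 hT).def (half_pos hε))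
  refine ⟨δ, hδ, fun r hr hr' v hv => ?_⟩
  have n : ‖(r : ℂ) * v‖ = r := by
    rw [norm_mul, hv, mul_one, Complex.norm_real, Real.norm_of_nonneg hr.le]
  have := @h (r * v) (by rwa [dist_zero_right, n])
  rw [n, pab, map_mul, Complex.conj_ofReal] at this
  rw [show (r : ℂ) * pa T * v + r * pb T * (starRingEnd ℂ) v =
    pa T * (r * v) + pb T * (r * (starRingEnd ℂ) v) by ring]
  nlinarith

theorem or_per : Complex.exp ((2 * Real.pi : ℝ) * Complex.I) =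
    Complex.exp ((0 : ℝ) * Complex.I) := by
  simp

theorem or_dpos {ψ : ℂ → ℂ} {z : ℂ} {S : ℂ →L[ℝ] ℂ} (hS : HasFDerivAt ψ S z)
    (s1 : ‖pb S‖ < ‖pa S‖) : ∃ δ : ℝ, 0 < δ ∧ ∀ r : ℝ, 0 < r → r < δ →
      (Continuous fun θ : ℝ => ψ (z + r * Complex.exp (θ * Complex.I)) - ψ z) →
      OrW (fun θ : ℝ => ψ (z + r * Complex.exp (θ * Complex.I)) - ψ z)
        (2 * Real.pi * Complex.I) := by
  obtain ⟨δ, d, e⟩ := or_loc hS (sub_pos.2 s1)
  refine ⟨δ, d, fun r r0 r1 hc => ?_⟩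
  have rc : ‖(r : ℂ)‖ = r := by rw [Complex.norm_real, Real.norm_of_nonneg r0.le]
  have rz : (r : ℂ) ≠ 0 := Complex.ofReal_ne_zero.2 r0.ne'
  refine (or_pos (a := r * pa S) (mul_ne_zero rz
    (norm_pos_iff.1 ((norm_nonneg _).trans_lt s1)))).close hc (by rw [or_per]) (by rw [or_per])
    fun θ => ?_
  have en := Complex.norm_exp_ofReal_mul_I θ
  generalize Complex.exp (θ * Complex.I) = v at en
  have b1 := e r r0 r1 v en
  have b2 := norm_add_le (ψ (z + r * v) - ψ z - (r * pa S * v + r * pb S * (starRingEnd ℂ) v))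
    (r * pb S * (starRingEnd ℂ) v)
  rw [← sub_sub, sub_add_cancel, norm_mul, norm_mul, Complex.norm_conj, en, rc, sub_sub _ (_ * _)]
    at b2
  rw [norm_mul, norm_mul, en, rc]
  linarith

theorem or_dneg {ψ : ℂ → ℂ} {z : ℂ} {S : ℂ →L[ℝ] ℂ} (hS : HasFDerivAt ψ S z)
    (s1 : ‖pa S‖ < ‖pb S‖) : ∃ δ : ℝ, 0 < δ ∧ ∀ r : ℝ, 0 < r → r < δ →
      (Continuous fun θ : ℝ => ψ (z + r * Complex.exp (θ * Complex.I)) - ψ z) →
      OrW (fun θ : ℝ => ψ (z + r * Complex.exp (θ * Complex.I)) - ψ z)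
        (-(2 * Real.pi * Complex.I)) := by
  obtain ⟨δ, d, e⟩ := or_loc hS (sub_pos.2 s1)
  refine ⟨δ, d, fun r r0 r1 hc => ?_⟩
  have rc : ‖(r : ℂ)‖ = r := by rw [Complex.norm_real, Real.norm_of_nonneg r0.le]
  have rz : (r : ℂ) ≠ 0 := Complex.ofReal_ne_zero.2 r0.ne'
  refine (or_neg (a := r * pb S) (mul_ne_zero rz
    (norm_pos_iff.1 ((norm_nonneg _).trans_lt s1)))).close hc (by rw [or_per]) (by rw [or_per])
    fun θ => ?_
  have en := Complex.norm_exp_ofReal_mul_I θ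
  generalize Complex.exp (θ * Complex.I) = v at en
  have b1 := e r r0 r1 v en
  rw [add_comm (_ * _ * _)] at b1
  have b2 := norm_add_le (ψ (z + r * v) - ψ z - (r * pb S * (starRingEnd ℂ) v + r * pa S * v))
    (r * pa S * v)
  rw [← sub_sub, sub_add_cancel, norm_mul, norm_mul, en, rc, sub_sub _ (_ * _)] at b2
  rw [norm_mul, norm_mul, Complex.norm_conj, en, rc]
  linarith

theorem or_move {V : Set ℂ} (hV : IsOpen V) (hc : Convex ℝ V) {ψ : ℂ → ℂ} (hψ : ContinuousOn ψ V)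
    (hi : InjOn ψ V) {z w : ℂ} (hz : z ∈ V) (hw : w ∈ V) : ∃ δ : ℝ, 0 < δ ∧ ∀ r : ℝ, 0 < r →
      r < δ → (Continuous fun θ : ℝ => ψ (z + r * Complex.exp (θ * Complex.I)) - ψ z) ∧
      (Continuous fun θ : ℝ => ψ (w + r * Complex.exp (θ * Complex.I)) - ψ w) ∧
      ∃ c, OrW (fun θ : ℝ => ψ (z + r * Complex.exp (θ * Complex.I)) - ψ z) c ∧
        OrW (fun θ : ℝ => ψ (w + r * Complex.exp (θ * Complex.I)) - ψ w) c := by
  have hK : IsCompact ((fun s : ℝ => z + s • (w - z)) '' Icc 0 1) :=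
    isCompact_Icc.image (by fun_prop)
  have hKV : (fun s : ℝ => z + s • (w - z)) '' Icc 0 1 ⊆ V := by
    rintro _ ⟨s, hs, rfl⟩
    exact hc.add_smul_sub_mem hz hw hs
  obtain ⟨p, pc, pK, p0, p1⟩ : ∃ p : ℝ → ℂ, Continuous p ∧
      (∀ s, p s ∈ (fun s : ℝ => z + s • (w - z)) '' Icc 0 1) ∧ p 0 = z ∧ p 1 = w := by
    have := continuous_subtype_val.comp
      (continuous_projIcc (a := (0 : ℝ)) (b := 1) (h := zero_le_one))
    exact ⟨fun s => z + (projIcc (0 : ℝ) 1 zero_le_one s : ℝ) • (w - z),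
      continuous_const.add (this.smul continuous_const),
      fun s => ⟨_, (projIcc (0 : ℝ) 1 zero_le_one s).2, rfl⟩, by simp, by simp⟩
  obtain ⟨δ, d, e⟩ := hK.exists_thickening_subset_open hV hKV
  refine ⟨δ, d, fun r r0 r1 => ?_⟩
  have rn : ∀ θ : ℝ, ‖(r : ℂ) * Complex.exp (θ * Complex.I)‖ = r := fun θ => by
    rw [norm_mul, Complex.norm_exp_ofReal_mul_I, mul_one, Complex.norm_real,
      Real.norm_of_nonneg r0.le]
  have hm : ∀ s θ : ℝ, p s + r * Complex.exp (θ * Complex.I) ∈ V := fun s θ =>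
    e (mem_thickening_iff.2 ⟨p s, pK s, by rwa [dist_eq_norm, add_sub_cancel_left, rn]⟩)
  have hH : Continuous fun q : ℝ × ℝ =>
      ψ (p q.1 + r * Complex.exp (q.2 * Complex.I)) - ψ (p q.1) :=
    (hψ.comp_continuous (by fun_prop) fun q : ℝ × ℝ => hm q.1 q.2).sub
      (hψ.comp_continuous (by fun_prop) fun q : ℝ × ℝ => hKV (pK q.1))
  have hC : ∀ s, Continuous fun θ : ℝ => ψ (p s + r * Complex.exp (θ * Complex.I)) - ψ (p s) :=
    fun s => (hψ.comp_continuous (by fun_prop) fun θ => hm s θ).sub continuous_const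
  obtain ⟨c, c0, c1⟩ := or_htpy hH (fun q e => by
      have a1 := hi (hm q.1 q.2) (hKV (pK q.1)) (sub_eq_zero.1 e)
      have a2 := rn q.2
      rw [add_eq_left.1 a1, norm_zero] at a2
      exact r0.ne a2) (fun s => by simp only [or_per])
  simp only [p0, p1] at c0 c1
  exact ⟨p0 ▸ hC 0, p1 ▸ hC 1, c, c0, c1⟩

theorem orient {V : Set ℂ} (hV : IsOpen V) (hc : Convex ℝ V) {ψ : ℂ → ℂ} (hψ : ContinuousOn ψ V)
    (hi : InjOn ψ V) {z w : ℂ} (hz : z ∈ V) (hw : w ∈ V) {S T : ℂ →L[ℝ] ℂ}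
    (hS : HasFDerivAt ψ S z) (hT : HasFDerivAt ψ T w) (h1 : 0 < S.det) : 0 ≤ T.det := by
  by_contra h2
  rw [not_le, det_pab] at h2
  rw [det_pab] at h1
  obtain ⟨δ1, d1, e1⟩ := or_dpos hS (lt_of_pow_lt_pow_left₀ 2 (norm_nonneg _) (by linarith))
  obtain ⟨δ2, d2, e2⟩ := or_dneg hT (lt_of_pow_lt_pow_left₀ 2 (norm_nonneg _) (by linarith))
  obtain ⟨δ3, d3, e3⟩ := or_move hV hc hψ hi hz hw
  obtain ⟨r, r0, r1⟩ := exists_between (lt_min d1 (lt_min d2 d3))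
  simp only [lt_min_iff] at r1
  obtain ⟨a1, a2, c, c0, c1⟩ := e3 r r0 r1.2.2
  have a3 := ((e1 r r0 r1.1 a1).uniq c0).trans ((e2 r r0 r1.2.1 a2).uniq c1).symm
  exact Complex.two_pi_I_ne_zero (by linear_combination a3 / 2)

end Vale.Agent.P198
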