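import Vale.Agent.P198.LDA
import Vale.Agent.P198.OrientA

/-! Injective continuous maps have a constant orientation; conformal homeomorphisms of the sphere. -/

namespace Vale.Agent.P198

open Set Filter Topology Metric MeasureTheory
open scoped Classical

theorem orient_glue {f : ℂ → ℂ} {c : ℂ} (h1 : ∀ z, z ≠ c → DifferentiableAt ℂ f z)
    (h2 : ContinuousAt f c) : Differentiable ℂ f := by
  rw [← differentiableOn_univ,
    ← Complex.differentiableOn_compl_singleton_and_continuousAt_iff (c := c) univ_mem]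
  exact ⟨fun z hz => (h1 z hz.2).differentiableWithinAt, h2⟩

theorem orient_fac {k : ℂ → ℂ} (hk : Differentiable ℂ k) (h0 : ∀ z, z ≠ 0 → k z ≠ 0) :
    ∃ (n : ℕ) (f : ℂ → ℂ), Differentiable ℂ f ∧ (∀ z, f z ≠ 0) ∧ ∀ z, k z = z ^ n * f z := by
  obtain ⟨n, g, hg, hg0, he⟩ := (hk.analyticAt 0).exists_eventuallyEq_pow_smul_nonzero_iff.2
    fun h => by
      obtain ⟨z, hz, hz'⟩ := ((h.filter_mono (nhdsWithin_le_nhds (s := {0}ᶜ))).and
        self_mem_nhdsWithin).exists
      exact h0 z hz' hz
  refine ⟨n, fun z => if z = 0 then g 0 else k z / z ^ n, orient_glue (c := 0) (fun z hz => ?_) ?_,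
    fun z => ?_, fun z => ?_⟩
  · refine ((hk z).div (differentiableAt_id.pow n) (pow_ne_zero n hz)).congr_of_eventuallyEq ?_
    filter_upwards [isOpen_ne.mem_nhds hz] with w hw
    rw [if_neg hw]; rfl
  · refine hg.continuousAt.congr ?_
    filter_upwards [he] with w hw
    split_ifs with h
    · rw [h]
    · rw [hw, sub_zero, smul_eq_mul, mul_div_cancel_left₀ _ (pow_ne_zero n h)]
  · beta_reduce
    split_ifs with h
    · exact hg0
    · exact div_ne_zero (h0 z h) (pow_ne_zero n h)
  · beta_reduce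
    split_ifs with h
    · simpa [h] using he.self_of_nhds
    · rw [mul_div_cancel₀ _ (pow_ne_zero n h)]

theorem orient_const {f g : ℂ → ℂ} (hf : Differentiable ℂ f) (hg : ContinuousAt g 0)
    (h : ∀ z, z ≠ 0 → f z = g z⁻¹) (z : ℂ) : f z = g 0 := by
  refine hf.apply_eq_of_tendsto_cocompact z ?_
  rw [← cobounded_eq_cocompact]
  refine (hg.tendsto.comp tendsto_inv₀_cobounded).congr' ?_
  filter_upwards [(Bornology.isBounded_singleton (x := (0 : ℂ)))] with w hw
  exact (h w hw).symm

theorem entire_affine {k : ℂ → ℂ} (hk : Differentiable ℂ k) (hi : Function.Injective k)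
    (hp : Tendsto k (cocompact ℂ) (cocompact ℂ)) : ∃ a b : ℂ, a ≠ 0 ∧ ∀ z, k z = a * z + b := by
  have hne : ∀ z, z ≠ 0 → k z - k 0 ≠ 0 := fun z hz => sub_ne_zero.2 (hi.ne hz)
  obtain ⟨n, f, hf, hf0, e1⟩ := orient_fac (k := fun z => k z - k 0) (hk.sub_const _) hne
  obtain ⟨m, g, hg, hg0, e2⟩ := orient_fac (k := fun u => (k u⁻¹ - k 0)⁻¹)
    (orient_glue (c := 0) (fun z hz =>
      (((hk _).comp z (differentiableAt_inv hz)).sub_const _).inv (hne _ (inv_ne_zero hz))) (by
      rw [← continuousWithinAt_compl_self, ContinuousWithinAt, inv_zero, sub_self, inv_zero]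
      rw [← cobounded_eq_cocompact] at hp
      exact tendsto_inv₀_cobounded.comp ((tendsto_sub_const_cobounded _).comp
        (hp.comp tendsto_inv₀_nhdsNE_zero))))
    fun z hz => inv_ne_zero (hne _ (inv_ne_zero hz))
  have e3 : ∀ z, z ≠ 0 → z ^ n * f z * (z⁻¹ ^ m * g z⁻¹) = 1 := fun z hz => by
    rw [← e1, ← e2, inv_inv, mul_inv_cancel₀ (hne z hz)]
  obtain ⟨a, ha⟩ : ∃ a, ∀ z, f z = a := by
    rcases le_total n m with h | h
    · obtain ⟨j, rfl⟩ := Nat.exists_eq_add_of_le h
      refine ⟨_, fun z => inv_injective ((orient_const (g := fun u => u ^ j * g u) (hf.inv hf0)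
        (by have := hg.continuous; fun_prop) (fun w hw => ?_) z).trans (inv_inv _).symm)⟩
      refine (eq_inv_of_mul_eq_one_right ?_).symm
      rw [← e3 w hw, pow_add, inv_pow w n]
      field_simp
    · obtain ⟨j, rfl⟩ := Nat.exists_eq_add_of_le h
      refine ⟨_, orient_const (g := fun u => u ^ j * (g u)⁻¹) hf
        ((continuousAt_id.pow j).mul (hg.continuous.continuousAt.inv₀ (hg0 0))) fun w hw => ?_⟩
      have := e3 w hw
      have h1 := hg0 w⁻¹
      rw [pow_add, inv_pow] at this
      rw [inv_pow, ← mul_inv, ← one_div, eq_div_iff (mul_ne_zero (pow_ne_zero j hw) h1), ← this]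
      field_simp
  have ha0 : a ≠ 0 := ha 0 ▸ hf0 0
  have hn : n = 1 := by
    rcases Nat.eq_zero_or_pos n with rfl | hn
    · exact absurd (by simpa [ha] using (e1 0).symm) ha0
    · have h1 := Complex.isPrimitiveRoot_exp n hn.ne'
      have h2 : Complex.exp (2 * Real.pi * Complex.I / n) = 1 := hi (by
        rw [← sub_left_inj (a := k 0), e1, e1, h1.pow_eq_one, one_pow, ha, ha])
      rw [h2] at h1
      exact Nat.dvd_one.1 (h1.dvd_of_pow_eq_one 1 (one_pow 1))
  refine ⟨a, k 0, ha0, fun z => ?_⟩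
  have := e1 z
  rw [hn, ha, pow_one] at this
  linear_combination this

theorem orient_vc (z : ℂ) : vec (z : OnePoint ℂ) = ![z, 1] := rfl

theorem orient_vi : vec OnePoint.infty = ![1, 0] := rfl

theorem orient_holo (θ : OnePoint ℂ ≃ₜ OnePoint ℂ) {k : ℂ → ℂ}
    (hk : ∀ w : ℂ, θ w ≠ OnePoint.infty → θ w = (k w : ℂ))
    (hd : DifferentiableOn ℂ k {w : ℂ | θ w ≠ OnePoint.infty}) :
    ∃ M : Matrix (Fin 2) (Fin 2) ℂ, M.det ≠ 0 ∧
      ∀ x, ∃ c : ℂ, c ≠ 0 ∧ vec (θ x) = c • M.mulVec (vec x) := by
  have hc : Continuous fun w : ℂ => θ w := θ.continuous.comp OnePoint.continuous_coe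
  have ht : Tendsto (fun w : ℂ => θ w) (cocompact ℂ) (𝓝[≠] (θ OnePoint.infty)) := by
    refine tendsto_nhdsWithin_iff.2 ⟨?_, Eventually.of_forall fun w =>
      θ.injective.ne (OnePoint.coe_ne_infty w)⟩
    rw [← coclosedCompact_eq_cocompact]
    exact (θ.continuous.tendsto _).comp OnePoint.tendsto_coe_infty
  induction h1 : θ OnePoint.infty using OnePoint.rec with
  | infty =>
    have hne : ∀ w : ℂ, θ w ≠ OnePoint.infty := fun w =>
      h1 ▸ θ.injective.ne (OnePoint.coe_ne_infty w)
    obtain ⟨a, b, ha, e⟩ := entire_affine (k := k)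
      (differentiableOn_univ.1 (hd.mono fun w _ => hne w))
      (fun v w h => OnePoint.coe_injective (θ.injective (by rw [hk v (hne v), hk w (hne w), h])))
      (by
        rw [h1] at ht
        have := ht.mono_right nhdsWithin_le_nhds
        simp only [fun w => hk w (hne w)] at this
        rw [← coclosedCompact_eq_cocompact (X := ℂ)] at this ⊢
        rw [← OnePoint.comap_coe_nhds_infty] at this ⊢
        exact tendsto_comap_iff.2 this)
    refine ⟨!![a, b; 0, 1], by simpa [Matrix.det_fin_two] using ha, fun x => ?_⟩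
    induction x using OnePoint.rec with
    | infty =>
      refine ⟨a⁻¹, inv_ne_zero ha, ?_⟩
      rw [h1, orient_vi]
      ext i
      fin_cases i <;> simp [ha]
    | coe w =>
      refine ⟨1, one_ne_zero, ?_⟩
      rw [hk w (hne w), orient_vc, orient_vc, e]
      ext i
      fin_cases i <;> simp [mul_comm]
  | coe w1 =>
    obtain ⟨w0, h0⟩ : ∃ w0 : ℂ, θ w0 = OnePoint.infty := by
      obtain ⟨x, hx⟩ := θ.surjective OnePoint.infty
      induction x using OnePoint.rec with
      | infty => exact absurd (h1.symm.trans hx) (OnePoint.coe_ne_infty w1)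
      | coe w => exact ⟨w, hx⟩
    have hne : ∀ w : ℂ, w ≠ w0 → θ w ≠ OnePoint.infty := fun w hw =>
      h0 ▸ θ.injective.ne (OnePoint.coe_injective.ne hw)
    have hk1 : ∀ w : ℂ, w ≠ w0 → k w - w1 ≠ 0 := fun w hw => sub_ne_zero.2 fun e =>
      OnePoint.coe_ne_infty w (θ.injective (by rw [hk w (hne w hw), h1, e]))
    obtain ⟨J, J0, J1⟩ : ∃ J : OnePoint ℂ → ℂ, J OnePoint.infty = 0 ∧
        ∀ z : ℂ, J z = (z - w1)⁻¹ :=
      ⟨fun x => OnePoint.elim x 0 fun z => (z - w1)⁻¹, rfl, fun _ => rfl⟩
    have e1 : ∀ w : ℂ, w ≠ w0 → J (θ w) = (k w - w1)⁻¹ := fun w hw => by rw [hk w (hne w hw), J1]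
    obtain ⟨a, b, ha, e⟩ := entire_affine (k := fun w => J (θ w))
      (orient_glue (c := w0) (fun w hw => by
        refine (((hd.differentiableAt ((isOpen_ne.preimage hc).mem_nhds (hne w hw))).sub_const
          w1).inv (hk1 w hw)).congr_of_eventuallyEq ?_
        filter_upwards [isOpen_ne.mem_nhds hw] with v hv
        exact e1 v hv) (by
        refine ContinuousAt.comp (f := fun w : ℂ => θ w) ?_ hc.continuousAt
        rw [h0, OnePoint.continuousAt_infty', J0, coclosedCompact_eq_cocompact,
          ← cobounded_eq_cocompact]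
        exact (tendsto_inv₀_cobounded.comp (tendsto_sub_const_cobounded w1)).congr
          fun z => (J1 z).symm))
      (fun v w h => by
        by_cases hv : v = w0 <;> by_cases hw : w = w0
        · rw [hv, hw]
        · beta_reduce at h
          rw [hv, h0, J0, e1 w hw] at h
          exact absurd h.symm (inv_ne_zero (hk1 w hw))
        · beta_reduce at h
          rw [hw, h0, J0, e1 v hv] at h
          exact absurd h (inv_ne_zero (hk1 v hv))
        · beta_reduce at h
          rw [e1 v hv, e1 w hw, inv_inj, sub_left_inj] at h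
          exact OnePoint.coe_injective (θ.injective (by rw [hk v (hne v hv), hk w (hne w hw), h])))
      (by
        refine Tendsto.comp (f := fun w : ℂ => θ w) ?_ ht
        rw [h1, OnePoint.nhdsWithin_coe, tendsto_map'_iff, ← cobounded_eq_cocompact]
        refine (tendsto_inv₀_nhdsNE_zero.comp (f := fun z => z - w1) ?_).congr fun z => (J1 z).symm
        refine tendsto_nhdsWithin_iff.2 ⟨?_, ?_⟩
        · exact (by simpa using (continuous_sub_right w1).tendsto w1 :
            Tendsto (fun z => z - w1) (𝓝 w1) (𝓝 0)).mono_left nhdsWithin_le_nhds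
        · filter_upwards [self_mem_nhdsWithin] with z hz
          exact sub_ne_zero.2 fun e => hz (by rw [e]; rfl))
    refine ⟨!![w1 * a, w1 * b + 1; a, b], ?_, fun x => ?_⟩
    · rw [Matrix.det_fin_two_of]
      exact fun h => ha (by linear_combination -h)
    induction x using OnePoint.rec with
    | infty =>
      refine ⟨a⁻¹, inv_ne_zero ha, ?_⟩
      rw [h1, orient_vi, orient_vc]
      ext i
      fin_cases i <;> simp [ha]
      field_simp
    | coe w =>
      have e2 := e w
      by_cases hw : w = w0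
      · refine ⟨1, one_ne_zero, ?_⟩
        rw [hw, h0, J0] at e2
        rw [hw, h0, orient_vi, orient_vc]
        ext i
        fin_cases i <;> simp
        · linear_combination w1 * e2
        · linear_combination e2
      · have h2 := hk1 w hw
        rw [e1 w hw, inv_eq_iff_eq_inv, ← one_div, eq_div_iff
          (by rw [← e w, e1 w hw]; exact inv_ne_zero h2)] at e2
        refine ⟨k w - w1, h2, ?_⟩
        rw [hk w (hne w hw), orient_vc, orient_vc]
        ext i
        fin_cases i <;> simp
        · linear_combination -w1 * e2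
        · linear_combination -e2

theorem isMob_of_holo (θ : OnePoint ℂ ≃ₜ OnePoint ℂ) {k : ℂ → ℂ}
    (hk : ∀ w : ℂ, θ w ≠ OnePoint.infty → θ w = (k w : ℂ))
    (hd : DifferentiableOn ℂ k {w : ℂ | θ w ≠ OnePoint.infty} ∨
      DifferentiableOn ℂ (fun w => (starRingEnd ℂ) (k w)) {w : ℂ | θ w ≠ OnePoint.infty}) :
    IsMob θ := by
  rcases hd with hd | hd
  · obtain ⟨M, h1, h2⟩ := orient_holo θ hk hd
    exact ⟨M, h1, Or.inl h2⟩
  · have hc : ∀ x : OnePoint ℂ, OnePoint.map (starRingEnd ℂ) x ≠ OnePoint.infty ↔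
        x ≠ OnePoint.infty := fun x => by
      induction x using OnePoint.rec <;> simp
    have hv : ∀ x : OnePoint ℂ, vec x = star (vec (OnePoint.map (starRingEnd ℂ) x)) := fun x => by
      induction x using OnePoint.rec <;> ext i <;> fin_cases i <;> simp [orient_vc, orient_vi]
    obtain ⟨M, h1, h2⟩ := orient_holo (θ.trans Complex.conjCLE.toHomeomorph.onePointCongr)
      (k := fun w => (starRingEnd ℂ) (k w))
      (fun w hw => by
        show OnePoint.map (starRingEnd ℂ) (θ w) = _
        rw [hk w ((hc _).1 hw)]; rfl)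
      (hd.mono fun w hw => (hc _).1 hw)
    refine ⟨M.map (starRingEnd ℂ), ?_, Or.inr fun x => ?_⟩
    · rw [← RingHom.mapMatrix_apply, ← RingHom.map_det]
      exact (map_ne_zero _).2 h1
    · obtain ⟨c, hc0, e⟩ := h2 x
      refine ⟨star c, star_ne_zero.2 hc0, (hv _).trans ((congrArg star e).trans ?_)⟩
      ext i
      fin_cases i <;> simp

end Vale.Agent.P198
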