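import Vale.Agent.P198.LF
import Vale.Agent.P198.Orient

/-! Limits of asymptotically conformal maps are conformal. -/

namespace Vale.Agent.P198

open Set Filter Topology Metric MeasureTheory
open scoped Classical

/-- uniform limits pass to path integrals -/
theorem cf_path {l : Filter ℕ} {h : ℕ → ℂ → ℂ} {k : ℂ → ℂ} {V : Set ℂ}
    (hu : TendstoUniformlyOn h k l V) (hc : ∀ᶠ i in l, ContinuousOn (h i) V)
    (hk : ContinuousOn k V) {γ : ℝ → ℂ} (hγ : Continuous γ) {a b : ℝ}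
    (hV : ∀ x ∈ uIcc a b, γ x ∈ V) :
    Tendsto (fun i => ∫ x in a..b, h i (γ x)) l (𝓝 (∫ x in a..b, k (γ x))) := by
  refine Metric.tendsto_nhds.2 fun ε hε => ?_
  have hp : 0 < |b - a| + 1 := by positivity
  filter_upwards [hc, Metric.tendstoUniformlyOn_iff.1 hu (ε / (|b - a| + 1)) (by positivity)]
    with i h1 h2
  have i1 : IntervalIntegrable (fun x => h i (γ x)) volume a b :=
    (h1.comp hγ.continuousOn hV).intervalIntegrable
  have i2 : IntervalIntegrable (fun x => k (γ x)) volume a b :=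
    (hk.comp hγ.continuousOn hV).intervalIntegrable
  rw [dist_eq_norm, ← intervalIntegral.integral_sub i1 i2]
  refine (intervalIntegral.norm_integral_le_of_norm_le_const (C := ε / (|b - a| + 1))
    fun x hx => ?_).trans_lt ?_
  · rw [← dist_eq_norm, dist_comm]
    exact (h2 _ (hV x (uIoc_subset_uIcc hx))).le
  · rw [div_mul_eq_mul_div, div_lt_iff₀ hp]
    nlinarith

/-- the integral over the boundary of a rectangle -/
noncomputable def cfB (f : ℂ → ℂ) (a b c d : ℝ) : ℂ :=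
  (∫ x : ℝ in a..b, f (x + c * Complex.I)) - (∫ x : ℝ in a..b, f (x + d * Complex.I)) +
    Complex.I • (∫ y : ℝ in c..d, f (b + y * Complex.I)) -
    Complex.I • (∫ y : ℝ in c..d, f (a + y * Complex.I))

theorem cfB_swap1 (f : ℂ → ℂ) (a b c d : ℝ) : cfB f b a c d = - cfB f a b c d := by
  unfold cfB
  rw [intervalIntegral.integral_symm a b, intervalIntegral.integral_symm a b]
  abel

theorem cfB_swap2 (f : ℂ → ℂ) (a b c d : ℝ) : cfB f a b d c = - cfB f a b c d := by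
  unfold cfB
  rw [intervalIntegral.integral_symm c d, intervalIntegral.integral_symm c d, smul_neg, smul_neg]
  abel

theorem cf_mem {a b c d x y : ℝ} (hx : x ∈ Icc a b) (hy : y ∈ Icc c d) :
    (x : ℂ) + y * Complex.I ∈ Icc a b ×ℂ Icc c d :=
  Complex.mem_reProdIm.2 (by simpa using ⟨hx, hy⟩)

theorem cfB_tendsto {l : Filter ℕ} {h : ℕ → ℂ → ℂ} {k : ℂ → ℂ} {V : Set ℂ}
    (hu : TendstoUniformlyOn h k l V) (hc : ∀ᶠ i in l, ContinuousOn (h i) V)
    (hk : ContinuousOn k V) {a b c d : ℝ} (hab : a ≤ b) (hcd : c ≤ d)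
    (hV : Icc a b ×ℂ Icc c d ⊆ V) :
    Tendsto (fun i => cfB (h i) a b c d) l (𝓝 (cfB k a b c d)) := by
  have h1 : ∀ y ∈ Icc c d, Tendsto (fun i => ∫ x : ℝ in a..b, h i (x + y * Complex.I)) l
      (𝓝 (∫ x : ℝ in a..b, k (x + y * Complex.I))) := fun y hy =>
    cf_path hu hc hk (γ := fun x : ℝ => x + y * Complex.I) (by fun_prop) fun x hx =>
      hV (cf_mem (by rwa [uIcc_of_le hab] at hx) hy)
  have h2 : ∀ x ∈ Icc a b, Tendsto (fun i => ∫ y : ℝ in c..d, h i (x + y * Complex.I)) l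
      (𝓝 (∫ y : ℝ in c..d, k (x + y * Complex.I))) := fun x hx =>
    cf_path hu hc hk (γ := fun y : ℝ => x + y * Complex.I) (by fun_prop) fun y hy =>
      hV (cf_mem hx (by rwa [uIcc_of_le hcd] at hy))
  exact (((h1 c (left_mem_Icc.2 hcd)).sub (h1 d (right_mem_Icc.2 hcd))).add
    ((h2 b (right_mem_Icc.2 hab)).const_smul _)).sub ((h2 a (left_mem_Icc.2 hab)).const_smul _)

namespace LQS
variable {η : ℝ → ℝ} {ψ χ : ℂ → ℂ} {W W' : Set ℂ} {r : ℝ} (h : LQS η ψ χ W W' r)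
include h

/-- Green's formula -/
theorem cf_green (τ : ℂ →L[ℝ] ℂ) {a b c d : ℝ} (hab : a ≤ b) (hcd : c ≤ d)
    (hW : Icc a b ×ℂ Icc c d ⊆ W) :
    cfB (fun z => τ (ψ z)) a b c d = Complex.I * ∫ z in Icc a b ×ℂ Icc c d,
      (τ (fderiv ℝ ψ z 1) + Complex.I * τ (fderiv ℝ ψ z Complex.I)) := by
  have hI := h.integrableOn (isCompact_Icc.reProdIm isCompact_Icc) hW
  have i1 := Integrable.apply_continuousLinearMap hI 1
  have i2 := Integrable.apply_continuousLinearMap hI Complex.I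
  have p1 : ∀ y ∈ Icc c d, IntervalIntegrable (fun x : ℝ => ψ (x + y * Complex.I)) volume a b := by
    intro y hy
    refine ContinuousOn.intervalIntegrable ?_
    rw [uIcc_of_le hab]
    exact h.cont.comp (by fun_prop) fun x hx => hW (cf_mem hx hy)
  have p2 : ∀ x ∈ Icc a b, IntervalIntegrable (fun y : ℝ => ψ (x + y * Complex.I)) volume c d := by
    intro x hx
    refine ContinuousOn.intervalIntegrable ?_
    rw [uIcc_of_le hcd]
    exact h.cont.comp (by fun_prop) fun y hy => hW (cf_mem hx hy)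
  have q1 := p1 c (left_mem_Icc.2 hcd)
  have q2 := p1 d (right_mem_Icc.2 hcd)
  have q3 := p2 a (left_mem_Icc.2 hab)
  have q4 := p2 b (right_mem_Icc.2 hab)
  rw [integral_add (τ.integrable_comp i1) ((τ.integrable_comp i2).const_mul _), integral_const_mul,
    τ.integral_comp_comm i1, τ.integral_comp_comm i2, h.rect_re hab hcd hW, h.rect_im hab hcd hW,
    intervalIntegral.integral_sub q4 q3, intervalIntegral.integral_sub q2 q1]
  unfold cfB
  rw [τ.intervalIntegral_comp_comm q1, τ.intervalIntegral_comp_comm q2,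
    τ.intervalIntegral_comp_comm q3, τ.intervalIntegral_comp_comm q4, map_sub, map_sub,
    smul_eq_mul, smul_eq_mul]
  linear_combination (τ (∫ x : ℝ in a..b, ψ (x + c * Complex.I)) -
    τ (∫ x : ℝ in a..b, ψ (x + d * Complex.I))) * Complex.I_mul_I

/-- the integral estimate -/
theorem cf_bound {q : ℂ → ℂ} {e : ℂ → ℝ} (hm : Measurable e) (h0 : ∀ z, 0 ≤ e z) {R B : Set ℂ}
    (hR : MeasurableSet R) (hW : R ⊆ W) (hB : R ⊆ B) (hB' : MapsTo ψ R B)
    (hq : ∀ᵐ z ∂(volume : Measure ℂ), z ∈ R →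
      ‖q z‖ ^ 2 ≤ 4 * ((e z + e (ψ z)) * |(fderiv ℝ ψ z).det|)) {l : ℝ} (hl : 0 < l) :
    ‖∫ z in R, q z‖ₑ ≤ 2 * (ENNReal.ofReal l * volume B +
      ENNReal.ofReal l⁻¹ * ∫⁻ z in B, ENNReal.ofReal (e z)) := by
  set g : ℂ → ENNReal := fun w => ENNReal.ofReal l + ENNReal.ofReal l⁻¹ * ENNReal.ofReal (e w)
    with hg
  have hgm : Measurable g := measurable_const.add (hm.ennreal_ofReal.const_mul _)
  have hgB : ∫⁻ z in B, g z = ENNReal.ofReal l * volume B +
      ENNReal.ofReal l⁻¹ * ∫⁻ z in B, ENNReal.ofReal (e z) := by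
    rw [hg, lintegral_add_left measurable_const, lintegral_const_mul' _ _ ENNReal.ofReal_ne_top,
      setLIntegral_const]
  have hg' : ∀ w, g w = ENNReal.ofReal (l + l⁻¹ * e w) := fun w => by
    have := h0 w
    rw [ENNReal.ofReal_add hl.le (by positivity), ENNReal.ofReal_mul (by positivity)]
  have h1 : ∀ᵐ z ∂(volume.restrict R), ‖q z‖ₑ ≤
      g z + ENNReal.ofReal |(fderiv ℝ ψ z).det| * g (ψ z) := by
    rw [ae_restrict_iff' hR]
    filter_upwards [hq] with z hz hzR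
    have a1 := h0 z
    have a2 := h0 (ψ z)
    have a3 := hz hzR
    have a4 := abs_nonneg (fderiv ℝ ψ z).det
    generalize |(fderiv ℝ ψ z).det| = D at a3 a4
    rw [hg', hg', ← ENNReal.ofReal_mul a4, ← ENNReal.ofReal_add (by positivity) (by positivity),
      ← ofReal_norm]
    refine ENNReal.ofReal_le_ofReal (le_of_sq_le_sq (a3.trans ?_) (by positivity))
    have b1 : (l⁻¹ * e z) * (D * l) = e z * D := by field_simp
    have b2 : l * (D * (l⁻¹ * e (ψ z))) = e (ψ z) * D := by field_simp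
    have b3 : 0 ≤ l⁻¹ * e z := by positivity
    have b4 : 0 ≤ D * l := by positivity
    have b5 : 0 ≤ D * (l⁻¹ * e (ψ z)) := by positivity
    rw [mul_add D, add_mul, ← b1, ← b2]
    generalize l⁻¹ * e z = u at b3
    generalize D * l = v at b4
    generalize D * (l⁻¹ * e (ψ z)) = w at b5
    nlinarith [sq_nonneg (u - v), sq_nonneg (l - w), mul_nonneg (add_nonneg b3 b4)
      (add_nonneg hl.le b5)]
  refine (enorm_integral_le_lintegral_enorm _).trans ((lintegral_mono_ae h1).trans ?_)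
  rw [lintegral_add_left hgm, ← hgB, two_mul]
  exact add_le_add (lintegral_mono_set hB)
    ((h.lintegral_det_le hR hW hgm).trans (lintegral_mono_set hB'.image_subset))

end LQS

theorem cf_main {η : ℝ → ℝ} (U : Ultrafilter ℕ) {h : ℕ → ℂ → ℂ} {err : ℕ → ℂ → ℝ} {k : ℂ → ℂ}
    {c : ℂ} {s ρ : ℝ} (hm : ∀ i, Measurable (err i)) (h0 : ∀ i z, 0 ≤ err i z)
    (he : Tendsto (fun i => ∫⁻ z in ball (0 : ℂ) ρ, ENNReal.ofReal (err i z)) U (𝓝 0))
    (hb : ball c s ⊆ ball 0 ρ) (τ : ℂ →L[ℝ] ℂ)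
    (hq : ∀ᶠ i in (U : Filter ℕ), (∃ χ W W' r, LQS η (h i) χ W W' r ∧ ball c s ⊆ W) ∧
      MapsTo (h i) (ball c s) (ball 0 ρ) ∧
      ∀ᵐ z ∂(volume : Measure ℂ), z ∈ ball c s →
        ‖τ (fderiv ℝ (h i) z 1) + Complex.I * τ (fderiv ℝ (h i) z Complex.I)‖ ^ 2 ≤
          4 * ((err i z + err i (h i z)) * |(fderiv ℝ (h i) z).det|))
    (hu : TendstoUniformlyOn h k U (ball c s)) :
    DifferentiableOn ℂ (fun z => τ (k z)) (ball c s) := by
  have hc : ∀ᶠ i in (U : Filter ℕ), ContinuousOn (fun z => τ (h i z)) (ball c s) := by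
    filter_upwards [hq] with i ⟨⟨χ, W, W', r, h1, h2⟩, _⟩
    exact τ.continuous.comp_continuousOn (h1.cont.mono h2)
  have hu' : TendstoUniformlyOn (fun i z => τ (h i z)) (fun z => τ (k z)) U (ball c s) :=
    τ.uniformContinuous.comp_tendstoUniformlyOn hu
  have hk := hu'.continuousOn hc.frequently
  have key : ∀ a b c' d : ℝ, a ≤ b → c' ≤ d → Icc a b ×ℂ Icc c' d ⊆ ball c s →
      cfB (fun z => τ (k z)) a b c' d = 0 := by
    intro a b c' d hab hcd hR
    have h1 := (cfB_tendsto hu' hc hk hab hcd hR).enorm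
    have hV : volume (ball (0 : ℂ) ρ) ≠ ⊤ := measure_ball_lt_top.ne
    have h2 : ∀ l : ℝ, 0 < l → ‖cfB (fun z => τ (k z)) a b c' d‖ ≤
        2 * (l * (volume (ball (0 : ℂ) ρ)).toReal) := by
      intro l hl
      have a1 : Tendsto (fun i => 2 * (ENNReal.ofReal l * volume (ball (0 : ℂ) ρ) +
          ENNReal.ofReal l⁻¹ * ∫⁻ z in ball (0 : ℂ) ρ, ENNReal.ofReal (err i z))) U
          (𝓝 (2 * (ENNReal.ofReal l * volume (ball (0 : ℂ) ρ) + ENNReal.ofReal l⁻¹ * 0))) :=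
        ENNReal.Tendsto.const_mul (tendsto_const_nhds.add
          (ENNReal.Tendsto.const_mul he (Or.inr ENNReal.ofReal_ne_top)))
          (Or.inr ENNReal.ofNat_ne_top)
      have a2 := le_of_tendsto_of_tendsto h1 a1 (by
        filter_upwards [hq] with i ⟨⟨χ, W, W', r, b1, b2⟩, b3, b4⟩
        rw [b1.cf_green τ hab hcd (hR.trans b2), enorm_mul, ← ofReal_norm Complex.I,
          Complex.norm_I, ENNReal.ofReal_one, one_mul]
        refine b1.cf_bound (hm i) (h0 i)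
          (isCompact_Icc.reProdIm isCompact_Icc).measurableSet (hR.trans b2) (hR.trans hb)
          (b3.mono_left hR) ?_ hl
        filter_upwards [b4] with z hz hz'
        exact hz (hR hz'))
      rw [mul_zero, add_zero, ← ofReal_norm, ← ENNReal.ofReal_toReal hV,
        ← ENNReal.ofReal_mul hl.le, ← ENNReal.ofReal_ofNat, ← ENNReal.ofReal_mul (by norm_num),
        ENNReal.ofReal_le_ofReal_iff (by positivity)] at a2
      exact a2
    refine norm_le_zero_iff.1 (le_of_forall_pos_le_add fun ε hε => ?_)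
    have hv : 0 ≤ (volume (ball (0 : ℂ) ρ)).toReal := ENNReal.toReal_nonneg
    generalize (volume (ball (0 : ℂ) ρ)).toReal = v at h2 hv
    refine (h2 (ε / (2 * v + 1)) (by positivity)).trans ?_
    rw [zero_add, div_mul_eq_mul_div, ← mul_div_assoc, div_le_iff₀ (by positivity)]
    nlinarith
  refine (Complex.isConservativeOn_and_continuousOn_iff_isDifferentiableOn isOpen_ball).1
    ⟨fun z w hzw => ?_, hk⟩
  rw [← add_eq_zero_iff_eq_neg, Complex.wedgeIntegral_add_wedgeIntegral_eq]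
  change cfB (fun z => τ (k z)) z.re w.re z.im w.im = 0
  unfold Complex.Rectangle at hzw
  rcases le_total z.re w.re with h1 | h1 <;> rcases le_total z.im w.im with h2 | h2
  · rw [uIcc_of_le h1, uIcc_of_le h2] at hzw
    exact key _ _ _ _ h1 h2 hzw
  · rw [uIcc_of_le h1, uIcc_of_ge h2] at hzw
    rw [cfB_swap2, key _ _ _ _ h1 h2 hzw, neg_zero]
  · rw [uIcc_of_ge h1, uIcc_of_le h2] at hzw
    rw [cfB_swap1, key _ _ _ _ h1 h2 hzw, neg_zero]
  · rw [uIcc_of_ge h1, uIcc_of_ge h2] at hzw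
    rw [cfB_swap1, cfB_swap2, key _ _ _ _ h1 h2 hzw, neg_zero, neg_zero]

theorem conf {η : ℝ → ℝ} (U : Ultrafilter ℕ) {h : ℕ → ℂ → ℂ} {err : ℕ → ℂ → ℝ} {k : ℂ → ℂ}
    {c : ℂ} {s ρ : ℝ} (hm : ∀ i, Measurable (err i)) (h0 : ∀ i z, 0 ≤ err i z)
    (he : Tendsto (fun i => ∫⁻ z in ball (0 : ℂ) ρ, ENNReal.ofReal (err i z)) U (𝓝 0))
    (hb : ball c s ⊆ ball 0 ρ)
    (hq : ∀ᶠ i in (U : Filter ℕ), (∃ χ W W' r, LQS η (h i) χ W W' r ∧ ball c s ⊆ W) ∧
      MapsTo (h i) (ball c s) (ball 0 ρ) ∧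
      ∀ᵐ z ∂(volume : Measure ℂ), z ∈ ball c s → DifferentiableAt ℝ (h i) z ∧
        (fderiv ℝ (h i) z).det ≠ 0 ∧ ‖pa (fderiv ℝ (h i) z)‖ * ‖pb (fderiv ℝ (h i) z)‖ ≤
          (err i z + err i (h i z)) * |(fderiv ℝ (h i) z).det|)
    (hu : TendstoUniformlyOn h k U (ball c s)) :
    DifferentiableOn ℂ k (ball c s) ∨
      DifferentiableOn ℂ (fun z => (starRingEnd ℂ) (k z)) (ball c s) := by
  rcases U.em (fun i => ∃ z ∈ ball c s, DifferentiableAt ℝ (h i) z ∧ 0 < (fderiv ℝ (h i) z).det)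
    with hs | hs
  · refine Or.inl (cf_main (η := η) U hm h0 he hb (ContinuousLinearMap.id ℝ ℂ) ?_ hu)
    filter_upwards [hq, hs] with i ⟨⟨χ, W, W', r, h1, h2⟩, h3, h4⟩ ⟨w, w1, w2, w3⟩
    refine ⟨⟨χ, W, W', r, h1, h2⟩, h3, ?_⟩
    filter_upwards [h4] with z hz hz'
    obtain ⟨a1, -, a3⟩ := hz hz'
    have a4 := orient isOpen_ball (convex_ball c s) (h1.cont.mono h2) (h1.injOn.mono h2) w1 hz'
      w2.hasFDerivAt a1.hasFDerivAt w3
    generalize fderiv ℝ (h i) z = T at a3 a4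
    have e : (ContinuousLinearMap.id ℝ ℂ) (T 1) +
        Complex.I * (ContinuousLinearMap.id ℝ ℂ) (T Complex.I) = 2 * pb T := by
      simp only [ContinuousLinearMap.id_apply, pb]
      ring
    rw [det_pab] at a4
    have a5 : ‖pb T‖ ≤ ‖pa T‖ := le_of_sq_le_sq (by linarith) (norm_nonneg _)
    have a6 := mul_le_mul_of_nonneg_right a5 (norm_nonneg (pb T))
    rw [e, norm_mul, Complex.norm_two]
    nlinarith
  · refine Or.inr (cf_main (η := η) U hm h0 he hb (Complex.conjCLE : ℂ →L[ℝ] ℂ) ?_ hu)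
    filter_upwards [hq, hs] with i ⟨h1, h3, h4⟩ hw
    refine ⟨h1, h3, ?_⟩
    filter_upwards [h4] with z hz hz'
    obtain ⟨a1, -, a3⟩ := hz hz'
    have a4 : (fderiv ℝ (h i) z).det ≤ 0 := not_lt.1 fun a => hw ⟨z, hz', a1, a⟩
    generalize fderiv ℝ (h i) z = T at a3 a4
    have e : (Complex.conjCLE : ℂ →L[ℝ] ℂ) (T 1) +
        Complex.I * (Complex.conjCLE : ℂ →L[ℝ] ℂ) (T Complex.I) =
          (starRingEnd ℂ) (2 * pa T) := by
      have : 2 * pa T = T 1 - Complex.I * T Complex.I := by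
        unfold pa
        ring
      rw [this]
      simp
    rw [det_pab] at a4
    have a5 : ‖pa T‖ ≤ ‖pb T‖ := le_of_sq_le_sq (by linarith) (norm_nonneg _)
    have a6 := mul_le_mul_of_nonneg_left a5 (norm_nonneg (pa T))
    rw [e, Complex.norm_conj, norm_mul, Complex.norm_two]
    nlinarith

end Vale.Agent.P198
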