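import Vale.Agent.P198.Height
import Vale.Agent.P198.Mod

/-! Uniform estimates when the modulus is bounded. -/

namespace Vale.Agent.P198

open Set Filter Topology Metric MeasureTheory
open scoped Classical

variable {G : Type*} [Group G] {X : Type} [MetricSpace X] [MulAction G X]

namespace Ctx
variable (K : Ctx G X) {e : ℝ × ℝ → X} {M : ℝ}

theorem est_k (M C : ℝ) {ε : ℝ} (hε : 0 < ε) :
    ∃ k : ℕ, 1 ≤ k ∧ ∀ m, m ≤ C → Real.sqrt (M / k) * Real.sqrt m ≤ ε := by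
  refine ⟨⌈|M| * |C| / ε ^ 2⌉₊ + 1, Nat.le_add_left _ _, fun m hm => ?_⟩
  set k : ℕ := ⌈|M| * |C| / ε ^ 2⌉₊ + 1 with hk
  have k0 : (0 : ℝ) < k := by positivity
  have k1 : |M| * |C| / ε ^ 2 ≤ k := by
    rw [hk]
    push_cast
    linarith [Nat.le_ceil (|M| * |C| / ε ^ 2)]
  rw [div_le_iff₀ (by positivity)] at k1
  have h1 : Real.sqrt (M / k) ≤ Real.sqrt (|M| / k) :=
    Real.sqrt_le_sqrt (div_le_div_of_nonneg_right (le_abs_self M) k0.le)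
  have h2 : Real.sqrt m ≤ Real.sqrt |C| := Real.sqrt_le_sqrt (hm.trans (le_abs_self C))
  refine (mul_le_mul h1 h2 (Real.sqrt_nonneg _) (Real.sqrt_nonneg _)).trans ?_
  rw [← Real.sqrt_mul (by positivity), Real.sqrt_le_iff]
  refine ⟨hε.le, ?_⟩
  rw [div_mul_eq_mul_div, div_le_iff₀ k0]
  linarith

theorem est_pair {n : ℕ} (E : K.Sol e n) {ρ : G → ℝ} {A : ℝ} (h : ∑ u ∈ K.lev n, ρ u ^ 2 ≤ A) :
    ∑ u ∈ K.fam e n, ρ u * E.σ u ≤ Real.sqrt A * Real.sqrt E.M := by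
  refine (E.pair_le ρ).trans (mul_le_mul_of_nonneg_right (Real.sqrt_le_sqrt ?_) (Real.sqrt_nonneg _))
  exact (Finset.sum_le_sum_of_subset_of_nonneg (K.fam_subset n) fun _ _ _ => sq_nonneg _).trans h

theorem est_markov {n : ℕ} (E : K.Sol e n) {ρ : G → ℝ} (hρ : ∀ u, 0 ≤ ρ u) {a b : ℝ} (ha : 0 ≤ a)
    (hb : b ≤ 1) (h : ∀ t, E.Good t → a < t → t ≤ b → 1 ≤ ∑ u ∈ E.lv t, ρ u) :
    b - a ≤ ∑ u ∈ K.fam e n, ρ u * E.σ u := by
  have h1 := E.markov hρ one_pos (T := {t | E.Good t ∧ a < t ∧ t ≤ b})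
    fun t ht => ⟨ht.1.1, h t ht.1 ht.2.1 ht.2.2⟩
  have h2 : (volume : Measure ℝ) (Ioc a b) ≤ volume {t | E.Good t ∧ a < t ∧ t ≤ b} := by
    refine measure_mono_ae ?_
    filter_upwards [E.ae_good] with t ht hab
    exact ⟨ht ⟨ha.trans_lt hab.1, hab.2.trans hb⟩, hab.1, hab.2⟩
  have h0 : 0 ≤ ∑ u ∈ K.fam e n, ρ u * E.σ u :=
    Finset.sum_nonneg fun u _ => mul_nonneg (hρ u) (E.σ_nonneg u)
  rw [Real.volume_Ioc] at h2
  have h3 := h2.trans h1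
  rw [div_one] at h3
  exact (ENNReal.ofReal_le_ofReal_iff h0).1 h3

theorem est_out {n : ℕ} (hn : K.cov.n0 ≤ n) {u : G} (hu : u ∈ K.fam e n) {ξ : X}
    (h : ξ ∈ K.U u) : (n : ℝ) - K.cov.A' ≤ K.P ξ u := by
  have hl : K.len u = n := K.mem_lev.1 (K.fam_subset n hu)
  have := K.cov.U_out u ξ (hl ▸ hn) h
  rwa [hl] at this

theorem est_ceil {R : ℝ} {a n : ℕ} (h : ⌈R⌉₊ + a ≤ n) : R + a ≤ n := by
  have h1 : ((⌈R⌉₊ + a : ℕ) : ℝ) ≤ n := Nat.cast_le.2 h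
  push_cast at h1
  linarith [Nat.le_ceil R]

theorem M_bounds (he : IsOpenEmbedding e) (hM : ∀ m, K.ModLe m M) :
    ∃ (c C : ℝ) (n1 : ℕ), 0 < c ∧ ∀ n, n1 ≤ n → ∀ E : K.Sol e n, c ≤ E.M ∧ E.M ≤ C := by
  obtain ⟨R0, m0, hfar⟩ := K.lr_far he
  obtain ⟨Rl, m1, hlc⟩ := K.lc he (η := 1 / 4) (by norm_num)
  obtain ⟨m2, hcov⟩ := K.covered he (η := 1 / 4) (by norm_num)
  obtain ⟨C1, m3, -, hb1⟩ := K.big hM (R0 + K.δ)
  obtain ⟨C2, m4, hC2, hb2⟩ := K.big hM (Rl + K.δ)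
  refine ⟨1 / C2, C1, m0 + m1 + m2 + m3 + m4 + K.cov.n0 + (⌈R0⌉₊ + (K.δ + K.Cv + 1)) +
    (⌈Rl⌉₊ + (K.δ + K.cov.A')), by positivity, fun n hn E => ⟨?_, ?_⟩⟩
  · obtain ⟨ρ, r0, r1, r2⟩ := hb2 n (by omega)
    have hn0 : K.cov.n0 ≤ n := by omega
    have h1 := K.est_markov E r0 le_rfl le_rfl (by
      intro t ht _ _
      obtain ⟨γ, hγ, hf⟩ := K.good_cross he E ht
      obtain ⟨g1, -, g3, ⟨a, ha, ha0⟩, b, hb, hb1⟩ := id hγ
      obtain ⟨z, hz, hz2⟩ := g3.intermediate_value ha hb continuous_snd.continuousOn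
        (show (1 / 2 : ℝ) ∈ Icc a.2 b.2 by rw [ha0, hb1]; constructor <;> norm_num)
      have hz2' : z.2 = 1 / 2 := hz2
      obtain ⟨⟨u, hu, hzu⟩, -⟩ := hcov n (by omega) z ⟨⟨by linarith [(g1 hz).1.1],
        by linarith [(g1 hz).1.2]⟩, by linarith, by linarith⟩
      have huf : u ∈ K.fat (K.fam e n) (e '' γ) := hgt_mem_fat.2 ⟨hu, z, hz, hzu⟩
      obtain ⟨b', -, hch, hP⟩ := hlc n (by omega) γ hγ z hz (by linarith) (by linarith) u huf hzu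
      rw [hf] at hch huf
      have hsub : E.lv t ⊆ K.lev n := (E.lv_subset t).trans (K.fam_subset n)
      refine r2 _ hsub u huf b' (K.achain_chain hn0 hsub hch) ?_
      have q1 := K.P_H2 (e z) u b'
      have q2 := K.est_out hn0 hu hzu
      have q3 := est_ceil (R := Rl) (a := K.δ + K.cov.A') (n := n) (by omega)
      push_cast at q3
      rcases min_cases (K.P (e z) u) (K.gp u b') with h | h <;> linarith [h.1])
    have h2 := K.est_pair E r1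
    rw [← Real.sqrt_mul hC2.le] at h2
    have h3 : (1 : ℝ) ≤ C2 * E.M := Real.one_le_sqrt.1 (by linarith)
    rw [div_le_iff₀ hC2]
    linarith
  · obtain ⟨ρ, r0, r1, r2⟩ := hb1 n (by omega)
    have hn0 : K.cov.n0 ≤ n := by omega
    have h1 := E.fl_le (F := (K.fam e n).powerset) r0 (κ := 1) (by
      intro c _ hc
      have hLR := E.fl_supp c hc
      obtain ⟨hsub, a, ha, -⟩ := id hLR
      obtain ⟨ξ, hξ⟩ := K.vis a
      obtain ⟨b, -, hch, hP⟩ := hfar n (by omega) c hLR a ha ξ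
      have hsub' : c ⊆ K.lev n := hsub.trans (K.fam_subset n)
      refine r2 c hsub' a ha b (K.achain_chain hn0 hsub' hch) ?_
      have q1 := K.P_H2 ξ a b
      rw [K.mem_lev.1 (hsub' ha)] at hξ
      have q3 := est_ceil (R := R0) (a := K.δ + K.Cv + 1) (n := n) (by omega)
      push_cast at q3
      rcases min_cases (K.P ξ a) (K.gp a b) with h | h <;> linarith [h.1])
    rw [E.sum_fl, one_mul] at h1
    have h2 := h1.trans (K.est_pair E r1)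
    have h3 : 0 < Real.sqrt E.M := Real.sqrt_pos.2 E.M_pos
    have h4 : Real.sqrt E.M ≤ Real.sqrt C1 := by
      refine le_of_mul_le_mul_right ?_ h3
      rwa [Real.mul_self_sqrt E.M_pos.le]
    by_contra hc
    exact absurd (Real.sqrt_lt_sqrt (Real.sqrt_pos.1 (h3.trans_le h4)).le (not_le.1 hc))
      (not_lt.2 h4)

theorem fl_small (he : IsOpenEmbedding e) (hM : ∀ m, K.ModLe m M) {ε : ℝ} (hε : 0 < ε) :
    ∃ (R : ℝ) (n1 : ℕ), ∀ n, n1 ≤ n → ∀ (E : K.Sol e n) (ξ : X),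
      ∑ c ∈ (K.fam e n).powerset.filter (fun c => ∃ u ∈ c, R ≤ K.P ξ u), E.fl c ≤ ε := by
  obtain ⟨R0, m0, hfar⟩ := K.lr_far he
  obtain ⟨c0, C, m1, -, hMb⟩ := K.M_bounds he hM
  obtain ⟨k, hk, hkε⟩ := est_k M C hε
  refine ⟨((⌈R0⌉₊ + k * K.gap : ℕ) : ℝ), m0 + m1 + K.cov.n0 + (⌈R0⌉₊ + k * K.gap),
    fun n hn E ξ => ?_⟩
  obtain ⟨ρ, r0, r1, r2⟩ := K.cap hM hk ξ ⌈R0⌉₊ n (by omega)
  have h1 := E.fl_le (F := (K.fam e n).powerset.filter
      (fun c => ∃ u ∈ c, ((⌈R0⌉₊ + k * K.gap : ℕ) : ℝ) ≤ K.P ξ u)) r0 (κ := 1) (by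
    intro c hc hc0
    obtain ⟨-, u, hu, hP⟩ := Finset.mem_filter.1 hc
    have hLR := E.fl_supp c hc0
    obtain ⟨b, -, hch, hb⟩ := hfar n (by omega) c hLR u hu ξ
    have hsub' : c ⊆ K.lev n := hLR.1.trans (K.fam_subset n)
    exact r2 c hsub' u b (K.achain_chain (by omega) hsub' hch) hP (hb.trans (Nat.le_ceil _)))
  rw [one_mul] at h1
  exact (h1.trans (K.est_pair E r1)).trans (hkε _ (hMb n (by omega) E).2)

theorem Hf_equi (he : IsOpenEmbedding e) (hM : ∀ m, K.ModLe m M) {ε : ℝ} (hε : 0 < ε) :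
    ∃ (r : ℝ) (n1 : ℕ), 0 < r ∧ ∀ n, n1 ≤ n → ∀ E : K.Sol e n, ∀ z ∈ sq, ∀ w ∈ sq,
      dist z w < r → |Hf E z - Hf E w| ≤ ε := by
  obtain ⟨R, m0, hfl⟩ := K.fl_small he hM hε
  obtain ⟨r, hr, hnear⟩ := K.near_of_dist he P032.sq_compact (R + 2 * K.δ)
  refine ⟨r, m0 + K.cov.n0 + (⌈R⌉₊ + (2 * K.δ + K.cov.A')), hr, fun n hn E z hz w hw hzw => ?_⟩
  have hsq : Convex ℝ sq := (convex_Icc (0 : ℝ) 1).prod (convex_Icc (0 : ℝ) 1)
  refine (Hf_var_fl E (hsq.segment_subset hz hw) (convex_segment z w).isPreconnected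
    (left_mem_segment ℝ z w) (right_mem_segment ℝ z w)).trans (le_trans ?_ (hfl n (by omega) E (e z)))
  refine Finset.sum_le_sum_of_subset_of_nonneg (fun c hc => ?_) fun c _ _ => E.fl_nonneg c
  obtain ⟨hc1, u, hu, x, hx, hxu⟩ := Finset.mem_filter.1 hc
  refine Finset.mem_filter.2 ⟨hc1, u, hu, ?_⟩
  have hx' : x ∈ ball z r :=
    (convex_ball z r).segment_subset (mem_ball_self hr) (mem_ball'.2 hzw) hx
  have q1 := (hnear z hz x (mem_ball'.1 hx')).symm.P_ge u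
  have q2 := K.est_out (n := n) (by omega) (Finset.mem_powerset.1 hc1 hu) hxu
  have q3 := est_ceil (R := R) (a := 2 * K.δ + K.cov.A') (n := n) (by omega)
  push_cast at q3
  rcases min_cases (R + 2 * (K.δ : ℝ)) (K.P (e x) u) with h | h <;> linarith [h.1]

theorem small_ev (he : IsOpenEmbedding e) (hM : ∀ m, K.ModLe m M) {ω : ℝ} (hω : 0 < ω) :
    ∃ n1 : ℕ, ∀ n, n1 ≤ n → ∀ E : K.Sol e n, Small E ω := by
  have hD : (0 : ℝ) < (K.D : ℝ) ^ K.lam := by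
    have := K.two_le_D
    have : (0 : ℝ) < K.D := Nat.cast_pos.2 (by omega)
    positivity
  obtain ⟨R, m0, hfl⟩ := K.fl_small he hM (ε := ω / (K.D : ℝ) ^ K.lam) (div_pos hω hD)
  obtain ⟨r, m1, hr, hH⟩ := K.Hf_equi he hM hω
  refine ⟨m0 + m1 + K.cov.n0 + (⌈R⌉₊ + K.Cv), fun n hn E => ⟨fun u hu => ?_, fun z hz =>
    ⟨r, hr, fun w hw => hH n (by omega) E z hz w hw⟩⟩⟩
  have h1 : ∀ v ∈ (K.fam e n).filter (fun v => K.adj u v), E.σ v ≤ ω / (K.D : ℝ) ^ K.lam := by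
    intro v hv
    have hvf := (Finset.mem_filter.1 hv).1
    obtain ⟨ξ, hξ⟩ := K.vis v
    rw [K.mem_lev.1 (K.fam_subset n hvf)] at hξ
    have q3 := est_ceil (R := R) (a := K.Cv) (n := n) (by omega)
    rw [E.σ_eq]
    refine le_trans ?_ (hfl n (by omega) E ξ)
    refine Finset.sum_le_sum_of_subset_of_nonneg (fun c hc => ?_) fun c _ _ => E.fl_nonneg c
    obtain ⟨hc1, hc2⟩ := Finset.mem_filter.1 hc
    exact Finset.mem_filter.2 ⟨hc1, v, hc2, by linarith⟩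
  have h2 := Finset.sum_le_card_nsmul _ _ _ h1
  have h3 : ((K.fam e n).filter (fun v => K.adj u v)).card ≤ K.D ^ K.lam :=
    K.card_near u K.lam _ fun v hv => K.adj_d (n := n) (by omega) (K.fam_subset n hu)
      (K.fam_subset n (Finset.mem_filter.1 hv).1) (Finset.mem_filter.1 hv).2
  have h4 : (((K.fam e n).filter (fun v => K.adj u v)).card : ℝ) ≤ (K.D : ℝ) ^ K.lam := by
    exact_mod_cast h3
  refine h2.trans ?_
  rw [nsmul_eq_mul]
  calc _ ≤ (K.D : ℝ) ^ K.lam * (ω / (K.D : ℝ) ^ K.lam) :=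
        mul_le_mul_of_nonneg_right h4 (div_pos hω hD).le
    _ = ω := mul_div_cancel₀ _ hD.ne'

theorem ends (he : IsOpenEmbedding e) (hM : ∀ m, K.ModLe m M) {ε : ℝ} (hε : 0 < ε) :
    ∃ (η : ℝ) (n1 : ℕ), 0 < η ∧ η ≤ 1 / 4 ∧ ∀ n, n1 ≤ n → ∀ E : K.Sol e n, ∀ z ∈ sq,
      ε < Hf E z → Hf E z < E.M - ε → η ≤ z.2 ∧ z.2 ≤ 1 - η := by
  obtain ⟨r, m, hr, hH⟩ := K.Hf_equi he hM hε
  refine ⟨min (r / 2) (1 / 4), m, lt_min (half_pos hr) (by norm_num), min_le_right _ _,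
    fun n hn E z hz h1 h2 => ⟨?_, ?_⟩⟩
  · by_contra hc
    have h3 : z.2 < r / 2 := (not_le.1 hc).trans_le (min_le_left _ _)
    have hw : ((z.1, 0) : ℝ × ℝ) ∈ sq := ⟨hz.1, le_rfl, zero_le_one⟩
    have h4 := hH n hn E z hz _ hw (by
      rw [Prod.dist_eq, max_lt_iff, Real.dist_eq, Real.dist_eq]
      simp only [sub_self, abs_zero, sub_zero, abs_of_nonneg hz.2.1]
      exact ⟨hr, by linarith⟩)
    rw [Hf_bot E hw rfl he, abs_le] at h4
    linarith [h4.2]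
  · by_contra hc
    have h3 : 1 - z.2 < r / 2 := by linarith [not_le.1 hc, min_le_left (r / 2) (1 / 4)]
    have hw : ((z.1, 1) : ℝ × ℝ) ∈ sq := ⟨hz.1, zero_le_one, le_rfl⟩
    have h4 := hH n hn E z hz _ hw (by
      rw [Prod.dist_eq, max_lt_iff, Real.dist_eq, Real.dist_eq]
      simp only [sub_self, abs_zero, abs_of_nonpos (sub_nonpos.2 hz.2.2)]
      exact ⟨hr, by linarith⟩)
    rw [Hf_top E hw rfl he, abs_le] at h4
    linarith [h4.1]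

theorem Df_equi (he : IsOpenEmbedding e) (hM : ∀ m, K.ModLe m M) {η ε : ℝ} (hη : 0 < η)
    (hε : 0 < ε) : ∃ (r : ℝ) (n1 : ℕ), 0 < r ∧ ∀ n, n1 ≤ n → ∀ E : K.Sol e n, ∀ z ∈ zone η,
      ∀ w ∈ zone η, dist z w < r → |Df E z - Df E w| ≤ ε := by
  obtain ⟨c0, C, m1, -, hMb⟩ := K.M_bounds he hM
  obtain ⟨k, hk, hkε⟩ := est_k M C hε
  obtain ⟨Rl, m2, hlc⟩ := K.lc he (half_pos hη)
  obtain ⟨m3, hcov⟩ := K.covered he hη
  have hzc : IsCompact (zone η) := isCompact_Icc.prod isCompact_Icc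
  obtain ⟨Rc, hcen⟩ := K.cen he hzc (half_pos hη)
  set R0 : ℕ := ⌈Rl + 2 * K.δ⌉₊ with hR0
  obtain ⟨r, hr, hnear⟩ := K.near_of_dist he hzc (((R0 + k * K.gap : ℕ) : ℝ) + 2 * K.δ)
  refine ⟨r, m1 + m2 + m3 + K.cov.n0 + (R0 + k * K.gap + 2 * K.δ + K.cov.A') +
    (⌈Rc⌉₊ + K.cov.A'), hr, fun n hn E z hz w hw hzw => ?_⟩
  have hn0 : K.cov.n0 ≤ n := by omega
  have hzv : Convex ℝ (zone η) := (convex_Icc _ _).prod (convex_Icc _ _)
  have hβ : segment ℝ z w ⊆ zone η := hzv.segment_subset hz hw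
  obtain ⟨ρ, r0, r1, r2⟩ := K.cap hM hk (e z) R0 n (by omega)
  have key : ∀ u ∈ K.fat (K.fam e n) (e '' segment ℝ z w),
      ∀ v ∈ K.fat (K.fam e n) (e '' segment ℝ z w), E.pot v - E.pot u ≤ ε := by
    intro u hu v hv
    refine le_trans (K.est_markov E r0 (E.pot_nonneg u) (E.pot_le v) ?_)
      ((K.est_pair E r1).trans (hkε _ (hMb n (by omega) E).2))
    intro s hs h1 h2
    obtain ⟨x, hx, hxs⟩ := K.ivt E ((convex_segment z w).isPreconnected.image e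
      he.continuous.continuousOn) (by
        rintro _ ⟨y, hy, rfl⟩
        exact (hcov n (by omega) y (hβ hy)).1) hu hv h1 (by linarith [E.σ_nonneg v])
    obtain ⟨hxf, y, hy, hyx⟩ := hgt_mem_fat.1 hx
    obtain ⟨γ, hγ, hf⟩ := K.good_cross he E hs
    have hxγ := hxs
    rw [← hf] at hxγ
    obtain ⟨-, y', hy', hyx'⟩ := hgt_mem_fat.1 hxγ
    have p1 := K.est_out hn0 hxf hyx
    have p2 := K.est_out hn0 hxf hyx'
    have p3 : K.Near ((n : ℝ) - K.cov.A') (e y) (e y') := ⟨x, p1, p2⟩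
    have q3 := est_ceil (R := Rc) (a := K.cov.A') (n := n) (by omega)
    obtain ⟨y'', e1, e2⟩ := hcen y (hβ hy) (e y') (p3.mono (by linarith))
    rw [← he.injective e1] at e2
    have e3 : dist y.2 y'.2 < η / 2 := (le_max_right _ _).trans_lt e2
    rw [Real.dist_eq, abs_lt] at e3
    obtain ⟨b, -, hch, hP⟩ := hlc n (by omega) γ hγ y' hy' (by linarith [(hβ hy).2.1, e3.2])
      (by linarith [(hβ hy).2.2, e3.1]) x hxγ hyx'
    rw [hf] at hch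
    have hsub : E.lv s ⊆ K.lev n := (E.lv_subset s).trans (K.fam_subset n)
    have hy0 : y ∈ ball z r :=
      (convex_ball z r).segment_subset (mem_ball_self hr) (mem_ball'.2 hzw) hy
    have p4 := hnear z hz y (mem_ball'.1 hy0)
    have q4 : ((R0 + k * K.gap : ℕ) : ℝ) + 2 * K.δ ≤ (n : ℝ) - K.cov.A' := by
      have : ((R0 + k * K.gap + 2 * K.δ + K.cov.A' : ℕ) : ℝ) ≤ n := Nat.cast_le.2 (by omega)
      push_cast at this ⊢
      linarith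
    have p5 := p4.trans p3
    rw [min_eq_left q4, add_sub_cancel_right] at p5
    refine r2 _ hsub x b (K.achain_chain hn0 hsub hch) ?_ ?_
    · have := p4.symm.P_ge x
      rw [min_eq_left (q4.trans p1)] at this
      linarith
    · have h5 := p5.P_ge b
      have h6 : Rl + 2 * K.δ ≤ R0 := Nat.le_ceil _
      have h7 : (R0 : ℝ) ≤ ((R0 + k * K.gap : ℕ) : ℝ) := Nat.cast_le.2 (Nat.le_add_right _ _)
      rcases min_cases ((R0 + k * K.gap : ℕ) : ℝ) (K.P (e z) b) with h | h <;> linarith [h.1]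
  have h1 := (hcov n (by omega) z hz).1
  have h2 := (hcov n (by omega) w hw).1
  have f1 := hgt_mem_fat.2 ⟨h1.choose_spec.1, z, left_mem_segment ℝ z w, h1.choose_spec.2⟩
  have f2 := hgt_mem_fat.2 ⟨h2.choose_spec.1, w, right_mem_segment ℝ z w, h2.choose_spec.2⟩
  unfold Df
  rw [dif_pos h1, dif_pos h2, abs_le]
  exact ⟨by linarith [key _ f1 _ f2], key _ f2 _ f1⟩

end Ctx

end Vale.Agent.P198
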