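import Vale.Agent.P198.Defs

/-! Finite extremal length theory, combinatorial half. -/

namespace Vale.Agent.P198

open Set Filter Topology Metric MeasureTheory
open scoped Classical

variable {ι : Type*} {V : Finset ι} {adj : ι → ι → Prop} {L R : ι → Prop}

theorem extA_swap (V : Finset ι) (fl : Finset ι → ℝ) (ρ : ι → ℝ) :
    ∑ u ∈ V, ρ u * ∑ c ∈ V.powerset.filter (fun c => u ∈ c), fl c =
      ∑ c ∈ V.powerset, fl c * ∑ u ∈ c, ρ u := by
  simp only [Finset.sum_filter, Finset.mul_sum]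
  rw [Finset.sum_comm]
  refine Finset.sum_congr rfl fun c hc => ?_
  simp only [mul_ite, mul_zero, Finset.sum_ite_mem, mul_comm (fl c),
    Finset.inter_eq_right.2 (Finset.mem_powerset.1 hc)]

theorem extA_min (h : ∃ c, IsLR V adj L R c) : ∃ (l : Finset ι → ℝ) (s : ι → ℝ),
    (∀ c, 0 ≤ l c) ∧ (∀ c, l c ≠ 0 → IsLR V adj L R c) ∧ ∑ c ∈ V.powerset, l c = 1 ∧
    (∀ u, s u = ∑ c ∈ V.powerset.filter (fun c => u ∈ c), l c) ∧
    ∀ c, IsLR V adj L R c → ∑ u ∈ V, s u ^ 2 ≤ ∑ u ∈ c, s u := by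
  let S : Set (Finset ι → ℝ) := Icc 0 (fun c => if IsLR V adj L R c then 1 else 0) ∩
    {l | ∑ c ∈ V.powerset, l c = 1}
  have hv : ∀ c, IsLR V adj L R c → Pi.single c 1 ∈ S := fun c hc =>
    ⟨⟨Pi.single_nonneg.2 zero_le_one, fun c' => by
      by_cases e : c' = c
      · simp [e, hc]
      · simp only [Pi.single_eq_of_ne e]
        split_ifs <;> norm_num⟩, by simp [Finset.sum_pi_single', hc.1]⟩
  obtain ⟨l, ⟨⟨l0, l1⟩, hl⟩, hmin⟩ := (isCompact_Icc.inter_right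
    (isClosed_eq (by fun_prop) continuous_const) : IsCompact S).exists_isMinOn
    (f := fun l => ∑ u ∈ V, (∑ c ∈ V.powerset.filter (fun c => u ∈ c), l c) ^ 2)
    (h.elim fun c hc => ⟨_, hv c hc⟩) (by fun_prop)
  refine ⟨l, _, l0, fun c hc => by_contra fun h' => hc ((l0 c).antisymm' ((l1 c).trans_eq
    (if_neg h'))), hl, fun _ => rfl, fun c hc => ?_⟩
  generalize hs : (fun u => ∑ c ∈ V.powerset.filter (fun c => u ∈ c), l c) = s
  have hs' := congrFun hs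
  simp only [hs']
  have key : ∀ t : ℝ, 0 < t → t ≤ 1 → 0 ≤ 2 * (∑ u ∈ c, s u - ∑ u ∈ V, s u ^ 2) +
      t * ∑ u ∈ V, ((if u ∈ c then 1 else 0) - s u) ^ 2 := fun t t0 t1 => by
    obtain ⟨⟨v0, v1⟩, v2⟩ := hv c hc
    have h1 := hmin (a := fun c' => l c' + t * (Pi.single (M := fun _ => ℝ) c 1 c' - l c'))
      ⟨⟨fun c' => by nlinarith [l0 c', v0 c', Pi.zero_apply (M := fun _ => ℝ) c'],
        fun c' => by nlinarith [l1 c', v1 c']⟩, by
        rw [mem_ofPred_eq] at hl v2 ⊢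
        rw [Finset.sum_add_distrib, ← Finset.mul_sum, Finset.sum_sub_distrib, hl, v2]
        ring⟩
    simp only [mem_ofPred_eq, Finset.sum_add_distrib, ← Finset.mul_sum, Finset.sum_sub_distrib, hs',
      Finset.sum_pi_single', Finset.mem_filter, Finset.mem_powerset, hc.1, true_and] at h1
    have h2 : ∑ u ∈ c, s u = ∑ u ∈ V, (if u ∈ c then 1 else 0) * s u := by
      simp [Finset.inter_eq_right.2 hc.1]
    refine (mul_nonneg_iff_of_pos_left t0).1 ((sub_nonneg.2 h1).trans_eq ?_)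
    simp only [h2, Finset.mul_sum, ← Finset.sum_sub_distrib,
      ← Finset.sum_add_distrib]
    exact Finset.sum_congr rfl fun u _ => by ring
  have h3 : Tendsto (fun t : ℝ => 2 * (∑ u ∈ c, s u - ∑ u ∈ V, s u ^ 2) +
      t * ∑ u ∈ V, ((if u ∈ c then 1 else 0) - s u) ^ 2) (𝓝[>] 0) (𝓝 _) :=
    (Continuous.tendsto (by fun_prop) 0).mono_left nhdsWithin_le_nhds
  have h4 := ge_of_tendsto h3 (mem_of_superset (Ioc_mem_nhdsGT zero_lt_one)
    fun t ht => key t ht.1 ht.2)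
  linarith

theorem exists_ext (h : ∃ c, IsLR V adj L R c) : Nonempty (Ext V adj L R) := by
  obtain ⟨l, s, l0, l1, l2, hs, hc⟩ := extA_min h
  have s0 : ∀ u, 0 ≤ s u := fun u => hs u ▸ Finset.sum_nonneg fun c _ => l0 c
  have e0 : 0 < ∑ u ∈ V, s u ^ 2 := by
    refine (Finset.sum_nonneg fun u _ => sq_nonneg _).lt_of_ne' fun e => ?_
    have h1 := extA_swap V l fun _ => 1
    rw [Finset.sum_eq_zero fun u hu => by rw [← hs, pow_eq_zero_iff (two_ne_zero) |>.1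
      ((Finset.sum_eq_zero_iff_of_nonneg fun u _ => sq_nonneg _).1 e u hu), mul_zero]] at h1
    refine absurd (l2.symm.trans_le (le_of_le_of_eq (Finset.sum_le_sum fun c _ => ?_) h1.symm))
      (by norm_num)
    by_cases h' : l c = 0
    · simp [h']
    · obtain ⟨-, a, ha, -⟩ := l1 c h'
      refine le_mul_of_one_le_right (l0 c) ?_
      simpa using Finset.card_pos.2 ⟨a, ha⟩
  generalize he : ∑ u ∈ V, s u ^ 2 = e at hc e0
  have σ0 : ∀ u, 0 ≤ s u / e := fun u => div_nonneg (s0 u) e0.le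
  let T : ι → Finset (Finset ι) := fun u => V.powerset.filter fun c => u ∈ c ∧ ∃ a ∈ c, L a ∧
    ∀ x ∈ c, Relation.ReflTransGen (fun x y => x ∈ c ∧ y ∈ c ∧ adj x y) a x
  refine ⟨⟨fun c => l c / e, 1 / e, fun u => s u / e,
    fun u => (T u).fold min 1 fun c => ∑ x ∈ c.erase u, s x / e,
    fun c => div_nonneg (l0 c) e0.le, fun c h => l1 c fun h' => h (by simp [h']), by positivity,
    by rw [← Finset.sum_div, l2], fun u => by rw [hs, Finset.sum_div], ?_,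
    fun u => (Finset.le_fold_min _).2 ⟨zero_le_one, fun c _ => Finset.sum_nonneg fun x _ => σ0 x⟩,
    fun u => (Finset.fold_min_le _).2 (Or.inl le_rfl), fun u hu hL => le_antisymm
      ((Finset.fold_min_le _).2 (Or.inr ⟨{u}, ?_, by simp⟩)) ((Finset.le_fold_min _).2
        ⟨zero_le_one, fun c _ => Finset.sum_nonneg fun x _ => σ0 x⟩),
    fun u hu v hv huv => sub_le_iff_le_add.1 ((Finset.le_fold_min _).2 ⟨?_, fun c hc => ?_⟩),
    fun u hu hR => sub_le_iff_le_add.1 ((Finset.le_fold_min _).2 ⟨?_, fun c hc' => ?_⟩)⟩⟩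
  · simp only [div_pow, ← Finset.sum_div, he]
    field_simp
  · simp [T, hu, hL, Relation.ReflTransGen.refl]
  · exact (sub_le_self _ (σ0 u)).trans ((Finset.fold_min_le _).2 (Or.inl le_rfl))
  · obtain ⟨h1, h2, a, ha, hL, h3⟩ := Finset.mem_filter.1 hc
    have h4 : ∀ x ∈ c, Relation.ReflTransGen
        (fun x y => x ∈ insert v c ∧ y ∈ insert v c ∧ adj x y) a x := fun x hx =>
      Relation.ReflTransGen.mono (fun y z h => ⟨Finset.mem_insert_of_mem h.1,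
        Finset.mem_insert_of_mem h.2.1, h.2.2⟩) _ _ (h3 x hx)
    rw [sub_le_iff_le_add, Finset.sum_erase_add _ _ h2]
    refine (Finset.fold_min_le _).2 (Or.inr ⟨insert v c, Finset.mem_filter.2
      ⟨Finset.mem_powerset.2 (Finset.insert_subset hv (Finset.mem_powerset.1 h1)),
      Finset.mem_insert_self _ _, a, Finset.mem_insert_of_mem ha, hL, fun x hx => ?_⟩,
      Finset.sum_le_sum_of_subset_of_nonneg (Finset.erase_insert_subset _ _) fun x _ _ => σ0 x⟩)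
    rcases Finset.mem_insert.1 hx with rfl | hx
    · exact (h4 u h2).tail ⟨Finset.mem_insert_of_mem h2, hx, huv⟩
    · exact h4 x hx
  · exact sub_le_self _ (σ0 u)
  · obtain ⟨h1, h2, a, ha, hL, h3⟩ := Finset.mem_filter.1 hc'
    rw [sub_le_iff_le_add, Finset.sum_erase_add _ _ h2, ← Finset.sum_div, one_le_div e0]
    exact hc c ⟨Finset.mem_powerset.1 h1, a, ha, hL, ⟨u, h2, hR⟩, h3⟩

namespace Ext
variable (E : Ext V adj L R)

theorem σ_nonneg (u : ι) : 0 ≤ E.σ u :=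
  E.σ_eq u ▸ Finset.sum_nonneg fun c _ => E.fl_nonneg c

theorem extA_eq (ρ : ι → ℝ) :
    ∑ u ∈ V, ρ u * E.σ u = ∑ c ∈ V.powerset, E.fl c * ∑ u ∈ c, ρ u := by
  simp only [E.σ_eq, extA_swap]

theorem extA_card {T : Finset ι} (hT : T ⊆ V) :
    ∑ u ∈ T, E.σ u = ∑ c ∈ V.powerset, E.fl c * (c ∩ T).card := by
  simpa [Finset.inter_eq_right.2 hT] using E.extA_eq fun u => if u ∈ T then 1 else 0

theorem lv_subset (t : ℝ) : E.lv t ⊆ V := Finset.filter_subset _ _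

theorem lv_block {t : ℝ} (ht : t ∈ Ioc (0 : ℝ) 1) : Blocking V adj L R (E.lv t) := by
  rintro c ⟨hV, a, ha, hL, ⟨b, hb, hR⟩, h⟩
  by_contra hn
  have h1 : ∀ x ∈ c, E.pot x < t → E.pot x + E.σ x < t := fun x hx h =>
    not_le.1 fun h' => hn ⟨x, hx, Finset.mem_filter.2 ⟨hV hx, h, h'⟩⟩
  have h2 : ∀ x, Relation.ReflTransGen (fun x y => x ∈ c ∧ y ∈ c ∧ adj x y) a x →
      E.pot x < t := fun x hx => by
    induction hx with
    | refl => exact (E.pot_left a (hV ha) hL).trans_lt ht.1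
    | tail _ h ih => exact (E.pot_adj _ (hV h.1) _ (hV h.2.1) h.2.2).trans_lt (h1 _ h.1 ih)
  linarith [h1 b hb (h2 b (h b hb)), E.pot_right b (hV hb) hR, ht.2]

theorem fl_le {F : Finset (Finset ι)} {ρ : ι → ℝ} (hρ : ∀ u, 0 ≤ ρ u) {κ : ℝ}
    (h : ∀ c ∈ F, E.fl c ≠ 0 → κ ≤ ∑ u ∈ c, ρ u) :
    κ * ∑ c ∈ F, E.fl c ≤ ∑ u ∈ V, ρ u * E.σ u := by
  rw [E.extA_eq, ← Finset.sum_filter_ne_zero, Finset.mul_sum]
  refine (Finset.sum_le_sum fun c hc => ?_).trans (Finset.sum_le_sum_of_subset_of_nonneg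
    (fun c hc => Finset.mem_powerset.2 (E.fl_supp c (Finset.mem_filter.1 hc).2).1)
    fun c _ _ => mul_nonneg (E.fl_nonneg c) (Finset.sum_nonneg fun u _ => hρ u))
  rw [mul_comm]
  exact mul_le_mul_of_nonneg_left (h c (Finset.mem_filter.1 hc).1 (Finset.mem_filter.1 hc).2)
    (E.fl_nonneg c)

theorem fl_meet {F : Finset (Finset ι)} {T : Finset ι}
    (h : ∀ c ∈ F, E.fl c ≠ 0 → ∃ u ∈ c, u ∈ T) : ∑ c ∈ F, E.fl c ≤ ∑ u ∈ T, E.σ u := by
  have := E.fl_le (F := F) (ρ := fun u => if u ∈ T then 1 else 0) (κ := 1)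
    (fun u => by split_ifs <;> norm_num) fun c hc h' => by
      obtain ⟨u, hu, hu'⟩ := h c hc h'
      simpa using Finset.card_pos.2 ⟨u, Finset.mem_inter.2 ⟨hu, hu'⟩⟩
  simp only [one_mul, ite_mul, zero_mul, Finset.sum_ite_mem] at this
  exact this.trans (Finset.sum_le_sum_of_subset_of_nonneg Finset.inter_subset_right
    fun u _ _ => E.σ_nonneg u)

theorem block_ge {S : Finset ι} (hS : Blocking V adj L R S) : E.M ≤ ∑ u ∈ S, E.σ u :=
  E.sum_fl ▸ E.fl_meet fun c _ h => hS c (E.fl_supp c h)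

theorem good_min {t : ℝ} (ht : E.Good t) {S : Finset ι} (hS : S ⊆ E.lv t)
    (hb : Blocking V adj L R S) : S = E.lv t := by
  refine hS.antisymm fun u hu => by_contra fun h => (E.block_ge hb).not_gt (ht.2 ▸ ?_)
  have := (Finset.mem_filter.1 hu).2
  exact Finset.sum_lt_sum_of_subset hS hu h (by linarith) fun x _ _ => E.σ_nonneg x

theorem good_uniq {t : ℝ} (ht : E.Good t) {c : Finset ι} (hc : E.fl c ≠ 0) :
    ∃! u, u ∈ c ∧ u ∈ E.lv t := by
  have h1 : ∀ c ∈ V.powerset, E.fl c ≤ E.fl c * (c ∩ E.lv t).card := fun c _ => by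
    by_cases h : E.fl c = 0
    · simp [h]
    · obtain ⟨u, hu, hu'⟩ := E.lv_block ht.1 c (E.fl_supp c h)
      refine le_mul_of_one_le_right (E.fl_nonneg c) ?_
      exact_mod_cast Finset.card_pos.2 ⟨u, Finset.mem_inter.2 ⟨hu, hu'⟩⟩
  have h2 := (Finset.sum_eq_sum_iff_of_le h1).1 (E.sum_fl.trans (ht.2.symm.trans
    (E.extA_card (E.lv_subset t)))) c (Finset.mem_powerset.2 (E.fl_supp c hc).1)
  have h3 : (c ∩ E.lv t).card = 1 := by exact_mod_cast (left_eq_mul₀ hc).1 h2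
  simpa only [Finset.mem_inter] using Finset.card_eq_one_iff_existsUnique.1 h3

theorem fl_lv {t : ℝ} (ht : E.Good t) {T : Finset ι} (hT : T ⊆ E.lv t) :
    ∑ c ∈ V.powerset.filter (fun c => ∃ u ∈ c, u ∈ T), E.fl c = ∑ u ∈ T, E.σ u := by
  rw [E.extA_card (hT.trans (E.lv_subset t)), Finset.sum_filter]
  refine Finset.sum_congr rfl fun c _ => ?_
  by_cases h : E.fl c = 0
  · simp [h]
  split_ifs with h'
  · obtain ⟨u, hu, hu'⟩ := h'
    rw [Finset.card_eq_one.2 ⟨u, Finset.eq_singleton_iff_unique_mem.2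
      ⟨Finset.mem_inter.2 ⟨hu, hu'⟩, fun x hx => (E.good_uniq ht h).unique
        ⟨(Finset.mem_inter.1 hx).1, hT (Finset.mem_inter.1 hx).2⟩ ⟨hu, hT hu'⟩⟩⟩]
    simp
  · rw [Finset.eq_empty_of_forall_notMem (s := c ∩ T) fun x hx => h' ⟨x, Finset.mem_inter.1 hx⟩]
    simp

theorem pair_le (ρ : ι → ℝ) :
    ∑ u ∈ V, ρ u * E.σ u ≤ Real.sqrt (∑ u ∈ V, ρ u ^ 2) * Real.sqrt E.M :=
  E.sum_sq ▸ Real.sum_mul_le_sqrt_mul_sqrt V ρ E.σ

theorem short_chain {τ : ι → ℝ} (hτ : ∀ u, 0 ≤ τ u) :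
    ∃ c, IsLR V adj L R c ∧ (∑ u ∈ c, τ u) ^ 2 * E.M ≤ ∑ u ∈ V, τ u ^ 2 := by
  obtain ⟨c0, h0, h0'⟩ := Finset.exists_ne_zero_of_sum_ne_zero (E.sum_fl ▸ E.M_pos.ne')
  obtain ⟨c, hc, hm⟩ := Finset.exists_min_image (V.powerset.filter fun c => E.fl c ≠ 0)
    (fun c => ∑ u ∈ c, τ u) ⟨c0, Finset.mem_filter.2 ⟨h0, h0'⟩⟩
  refine ⟨c, E.fl_supp c (Finset.mem_filter.1 hc).2, ?_⟩
  have h1 := E.fl_le (F := V.powerset) hτ fun c' h h' => hm c' (Finset.mem_filter.2 ⟨h, h'⟩)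
  have h2 := (pow_le_pow_left₀ (mul_nonneg (Finset.sum_nonneg fun u _ => hτ u)
    (Finset.sum_nonneg fun c _ => E.fl_nonneg c)) h1 2).trans
    (Finset.sum_mul_sq_le_sq_mul_sq V τ E.σ)
  rw [E.sum_fl, E.sum_sq] at h2
  exact le_of_mul_le_mul_right (le_of_eq_of_le (by ring) h2) E.M_pos

theorem sub_chain {s t : ℝ} (hs : E.Good s) (ht : E.Good t) (hst : s ≤ t) {c : Finset ι}
    (hc : E.fl c ≠ 0) {u v : ι} (hu : u ∈ c) (hu' : u ∈ E.lv s) (hv : v ∈ c) (hv' : v ∈ E.lv t) :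
    Relation.ReflTransGen (fun x y => (x ∈ c ∧ s ≤ E.pot x + E.σ x ∧ E.pot x < t) ∧
      (y ∈ c ∧ s ≤ E.pot y + E.σ y ∧ E.pot y < t) ∧ adj x y) u v := by
  obtain ⟨hV, a, ha, hL, ⟨b, hb, hR⟩, h⟩ := E.fl_supp c hc
  by_contra hn
  set r := fun x y => (x ∈ c ∧ s ≤ E.pot x + E.σ x ∧ E.pot x < t) ∧
    (y ∈ c ∧ s ≤ E.pot y + E.σ y ∧ E.pot y < t) ∧ adj x y
  have u1 := (Finset.mem_filter.1 hu').2
  have h1 : ∀ x ∈ c, E.pot x < s → E.pot x + E.σ x < s ∨ Relation.ReflTransGen r u x :=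
    fun x hx h => (lt_or_ge _ _).imp id fun h' => by
      rw [(E.good_uniq hs hc).unique ⟨hx, Finset.mem_filter.2 ⟨hV hx, h, h'⟩⟩ ⟨hu, hu'⟩]
  have h2 : ∀ x, Relation.ReflTransGen r u x →
      (x ∈ c ∧ s ≤ E.pot x + E.σ x ∧ E.pot x < t) ∧ E.pot x + E.σ x < t := fun x hx => by
    have h3 : x ∈ c ∧ s ≤ E.pot x + E.σ x ∧ E.pot x < t := by
      induction hx with
      | refl => exact ⟨hu, u1.2, u1.1.trans_le hst⟩
      | tail _ h _ => exact h.2.1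
    exact ⟨h3, not_le.1 fun h' => hn ((E.good_uniq ht hc).unique
      ⟨h3.1, Finset.mem_filter.2 ⟨hV h3.1, h3.2.2, h'⟩⟩ ⟨hv, hv'⟩ ▸ hx)⟩
  have h3 : ∀ x, Relation.ReflTransGen (fun x y => x ∈ c ∧ y ∈ c ∧ adj x y) a x →
      E.pot x + E.σ x < s ∨ Relation.ReflTransGen r u x := fun x hx => by
    induction hx with
    | refl => exact h1 a ha ((E.pot_left a (hV ha) hL).trans_lt hs.1.1)
    | tail _ h ih =>
      have h4 := E.pot_adj _ (hV h.1) _ (hV h.2.1) h.2.2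
      rcases ih with ih | ih
      · exact h1 _ h.2.1 (h4.trans_lt ih)
      · exact (lt_or_ge _ _).imp id fun h' =>
          ih.tail ⟨(h2 _ ih).1, ⟨h.2.1, h', h4.trans_lt (h2 _ ih).2⟩, h.2.2⟩
  have h5 := E.pot_right b (hV hb) hR
  rcases h3 b (h b hb) with h6 | h6
  · linarith [hs.1.2]
  · linarith [ht.1.2, (h2 b h6).2]

end Ext

end Vale.Agent.P198
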