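import Vale.Agent.P198.Defs
import Vale.Agent.P198.ExtA

/-! Finite extremal length theory. -/

namespace Vale.Agent.P198

open Set Filter Topology Metric MeasureTheory
open scoped Classical

variable {ι : Type*} {V : Finset ι} {adj : ι → ι → Prop} {L R : ι → Prop}

namespace Ext
variable (E : Ext V adj L R)

theorem ex_mem {u : ι} {t : ℝ} :
    u ∈ E.lv t ↔ u ∈ V ∧ t ∈ Ioc (E.pot u) (E.pot u + E.σ u) := Finset.mem_filter

theorem ex_vol (u : ι) : volume (Ioc (E.pot u) (E.pot u + E.σ u)) = ENNReal.ofReal (E.σ u) := by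
  rw [Real.volume_Ioc, add_sub_cancel_left]

theorem ex_sum {w : ι → ℝ} (hw : ∀ u, 0 ≤ w u) :
    (fun t => ENNReal.ofReal (∑ u ∈ E.lv t, w u)) = fun t => ∑ u ∈ V,
      (Ioc (E.pot u) (E.pot u + E.σ u)).indicator (fun _ => ENNReal.ofReal (w u)) t := by
  funext t
  rw [ENNReal.ofReal_sum_of_nonneg fun u _ => hw u, lv, Finset.sum_filter]
  refine Finset.sum_congr rfl fun u _ => ?_
  by_cases h : t ∈ Ioc (E.pot u) (E.pot u + E.σ u)
  · rw [indicator_of_mem h, if_pos (mem_Ioc.1 h)]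
  · rw [indicator_of_notMem h, if_neg (mt mem_Ioc.2 h)]

theorem ex_meas {w : ι → ℝ} (hw : ∀ u, 0 ≤ w u) :
    Measurable fun t => ENNReal.ofReal (∑ u ∈ E.lv t, w u) := by
  rw [E.ex_sum hw]
  exact Finset.measurable_sum _ fun u _ => measurable_const.indicator measurableSet_Ioc

theorem ex_lint {w : ι → ℝ} (hw : ∀ u, 0 ≤ w u) (T : Set ℝ) :
    ∫⁻ t in T, ENNReal.ofReal (∑ u ∈ E.lv t, w u) =
      ∑ u ∈ V, ENNReal.ofReal (w u) * volume (Ioc (E.pot u) (E.pot u + E.σ u) ∩ T) := by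
  rw [E.ex_sum hw, lintegral_finsetSum _ fun u _ => measurable_const.indicator measurableSet_Ioc]
  refine Finset.sum_congr rfl fun u _ => ?_
  rw [lintegral_indicator_const measurableSet_Ioc, Measure.restrict_apply measurableSet_Ioc]

theorem ex_le (u : ι) (T : Set ℝ) :
    volume (Ioc (E.pot u) (E.pot u + E.σ u) ∩ T) ≤ ENNReal.ofReal (E.σ u) :=
  (measure_mono inter_subset_left).trans_eq (E.ex_vol u)

theorem ex_low : (fun _ => ENNReal.ofReal E.M) ≤ᵐ[volume.restrict (Ioc (0 : ℝ) 1)]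
    fun t => ENNReal.ofReal (∑ u ∈ E.lv t, E.σ u) := by
  filter_upwards [ae_restrict_mem measurableSet_Ioc] with t ht
  exact ENNReal.ofReal_le_ofReal (E.block_ge (E.lv_block ht))

theorem ae_good : ∀ᵐ t ∂(volume : Measure ℝ), t ∈ Ioc (0 : ℝ) 1 → E.Good t := by
  have h1 : ∫⁻ _t in Ioc (0 : ℝ) 1, ENNReal.ofReal E.M = ENNReal.ofReal E.M := by simp
  have h2 := ae_eq_of_ae_le_of_lintegral_le E.ex_low (by rw [h1]; exact ENNReal.ofReal_ne_top)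
    (E.ex_meas E.σ_nonneg).aemeasurable (by
      rw [h1, E.ex_lint E.σ_nonneg, ← E.sum_sq,
        ENNReal.ofReal_sum_of_nonneg fun u _ => sq_nonneg _]
      refine Finset.sum_le_sum fun u _ => ?_
      rw [pow_two, ENNReal.ofReal_mul (E.σ_nonneg u)]
      exact mul_le_mul_right (E.ex_le u _) _)
  filter_upwards [(ae_restrict_iff' measurableSet_Ioc).1 h2] with t ht ht'
  exact ⟨ht', ((ENNReal.ofReal_eq_ofReal_iff E.M_pos.le
    (Finset.sum_nonneg fun u _ => E.σ_nonneg u)).1 (ht ht')).symm⟩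

theorem ex_eq {u : ι} (hu : u ∈ V) :
    volume (Ioc (E.pot u) (E.pot u + E.σ u) ∩ Ioc 0 1) = ENNReal.ofReal (E.σ u) := by
  obtain ⟨m, hm0, hm⟩ : ∃ m : ι → ℝ, (∀ v, 0 ≤ m v) ∧
      ∀ v, volume (Ioc (E.pot v) (E.pot v + E.σ v) ∩ Ioc 0 1) = ENNReal.ofReal (m v) :=
    ⟨fun v => (volume (Ioc (E.pot v) (E.pot v + E.σ v) ∩ Ioc 0 1)).toReal,
      fun _ => ENNReal.toReal_nonneg, fun v => (ENNReal.ofReal_toReal
        (ne_top_of_le_ne_top ENNReal.ofReal_ne_top (E.ex_le v _))).symm⟩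
  have h1 : ∀ v, m v ≤ E.σ v := fun v =>
    (ENNReal.ofReal_le_ofReal_iff (E.σ_nonneg v)).1 (hm v ▸ E.ex_le v _)
  have h2 := lintegral_mono_ae E.ex_low
  rw [E.ex_lint E.σ_nonneg] at h2
  simp only [hm, ← ENNReal.ofReal_mul (E.σ_nonneg _)] at h2
  rw [← ENNReal.ofReal_sum_of_nonneg fun v _ => mul_nonneg (E.σ_nonneg v) (hm0 v),
    setLIntegral_const, Real.volume_Ioc, sub_zero, ENNReal.ofReal_one, mul_one,
    ENNReal.ofReal_le_ofReal_iff (Finset.sum_nonneg fun v _ => mul_nonneg (E.σ_nonneg v) (hm0 v)),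
    ← E.sum_sq] at h2
  have h3 : ∀ v ∈ V, E.σ v * m v ≤ E.σ v ^ 2 := fun v _ => by
    rw [pow_two]
    exact mul_le_mul_of_nonneg_left (h1 v) (E.σ_nonneg v)
  have h4 := (Finset.sum_eq_sum_iff_of_le h3).1 (le_antisymm (Finset.sum_le_sum h3) h2) u hu
  rw [hm]
  rcases (E.σ_nonneg u).eq_or_lt with h5 | h5
  · rw [le_antisymm (h1 u) (h5 ▸ hm0 u)]
  · rw [pow_two] at h4
    rw [mul_left_cancel₀ h5.ne' h4]

theorem vol_mem {u : ι} (hu : u ∈ V) :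
    volume {t : ℝ | t ∈ Ioc (0 : ℝ) 1 ∧ u ∈ E.lv t} = ENNReal.ofReal (E.σ u) := by
  rw [← E.ex_eq hu]
  refine congrArg volume (Set.ext fun t => ?_)
  rw [mem_ofPred_eq, E.ex_mem]
  exact ⟨fun h => ⟨h.2.2, h.1⟩, fun h => ⟨h.2, hu, h.1⟩⟩

theorem exists_good {u : ι} (hu : u ∈ V) (hσ : 0 < E.σ u) : ∃ t, E.Good t ∧ u ∈ E.lv t := by
  obtain ⟨t, h1, h2⟩ := Measure.exists_mem_of_measure_ne_zero_of_ae
    (by rw [E.vol_mem hu]; exact (ENNReal.ofReal_pos.2 hσ).ne') (ae_restrict_of_ae E.ae_good)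
  exact ⟨t, h2 h1.1, h1.2⟩

theorem exists_good_near {a b : ℝ} (h0 : 0 ≤ a) (hab : a < b) (h1 : b ≤ 1) :
    ∃ t ∈ Ioo a b, E.Good t := by
  obtain ⟨t, h2, h3⟩ := Measure.exists_mem_of_measure_ne_zero_of_ae (s := Ioo a b)
    (by rw [Real.volume_Ioo]; exact (ENNReal.ofReal_pos.2 (sub_pos.2 hab)).ne')
    (ae_restrict_of_ae E.ae_good)
  exact ⟨t, h2, h3 ⟨h0.trans_lt h2.1, h2.2.le.trans h1⟩⟩

theorem markov {w : ι → ℝ} (hw : ∀ u, 0 ≤ w u) {κ : ℝ} (hκ : 0 < κ) {T : Set ℝ}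
    (hT : ∀ t ∈ T, t ∈ Ioc (0 : ℝ) 1 ∧ κ ≤ ∑ u ∈ E.lv t, w u) :
    volume T ≤ ENNReal.ofReal ((∑ u ∈ V, w u * E.σ u) / κ) := by
  have h1 := meas_ge_le_lintegral_div (μ := volume) (E.ex_meas hw).aemeasurable
    (ENNReal.ofReal_pos.2 hκ).ne' ENNReal.ofReal_ne_top
  refine le_trans (measure_mono fun t ht => ENNReal.ofReal_le_ofReal (hT t ht).2) (h1.trans ?_)
  rw [ENNReal.ofReal_div_of_pos hκ, ← setLIntegral_univ, E.ex_lint hw,
    ENNReal.ofReal_sum_of_nonneg fun u _ => mul_nonneg (hw u) (E.σ_nonneg u)]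
  refine ENNReal.div_le_div_right (Finset.sum_le_sum fun u _ => ?_) _
  rw [ENNReal.ofReal_mul (hw u)]
  exact mul_le_mul_right (E.ex_le u _) _

theorem vol_sq {A : Finset ι} (hA : A ⊆ V) {a b Y : ℝ} (hab : a ≤ b) (hY : 0 ≤ Y)
    (h : ∀ u ∈ A, a ≤ E.pot u ∧ E.pot u + E.σ u ≤ b)
    (hb : ∀ t, E.Good t → a < t → t ≤ b → ∑ u ∈ A ∩ E.lv t, E.σ u ≤ Y) :
    ∑ u ∈ A, E.σ u ^ 2 ≤ (b - a) * Y := by
  have hw : ∀ u, 0 ≤ (if u ∈ A then E.σ u else 0) := fun u => by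
    split_ifs
    · exact E.σ_nonneg u
    · exact le_rfl
  have h1 := E.ex_lint hw (Ioc 0 1 ∩ Ioc a b)
  have h2 : ∫⁻ t in Ioc 0 1 ∩ Ioc a b,
      ENNReal.ofReal (∑ u ∈ E.lv t, if u ∈ A then E.σ u else 0) ≤
      ∫⁻ _t in Ioc 0 1 ∩ Ioc a b, ENNReal.ofReal Y := by
    refine lintegral_mono_ae ?_
    filter_upwards [ae_restrict_mem (measurableSet_Ioc.inter measurableSet_Ioc),
      ae_restrict_of_ae E.ae_good] with t t1 t2
    rw [Finset.sum_ite_mem, Finset.inter_comm]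
    exact ENNReal.ofReal_le_ofReal (hb t (t2 t1.1) t1.2.1 t1.2.2)
  rw [← ENNReal.ofReal_le_ofReal_iff (mul_nonneg (sub_nonneg.2 hab) hY), mul_comm,
    ENNReal.ofReal_mul hY, ENNReal.ofReal_sum_of_nonneg fun u _ => sq_nonneg _]
  rw [h1, setLIntegral_const] at h2
  refine le_trans ?_ (h2.trans (mul_le_mul_right ((measure_mono inter_subset_right).trans_eq
    Real.volume_Ioc) _))
  refine le_trans (Finset.sum_le_sum fun u hu => ?_) (Finset.sum_le_sum_of_subset hA)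
  rw [if_pos hu, pow_two, ENNReal.ofReal_mul (E.σ_nonneg u)]
  refine mul_le_mul_right ?_ _
  rw [← E.ex_eq (hA hu)]
  exact measure_mono fun t ht =>
    ⟨ht.1, ht.2, (h u hu).1.trans_lt ht.1.1, ht.1.2.trans (h u hu).2⟩

theorem ex_fib (S : Finset ι) : MeasurableSet {t : ℝ | E.lv t = S} := by
  have e : {t : ℝ | E.lv t = S} = {_t : ℝ | S ⊆ V} ∩
      ⋂ u ∈ V, {t : ℝ | t ∈ Ioc (E.pot u) (E.pot u + E.σ u) ↔ u ∈ S} := by
    ext t
    simp only [mem_ofPred_eq, mem_inter_iff, mem_iInter]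
    constructor
    · rintro rfl
      exact ⟨E.lv_subset t, fun u hu => ⟨fun h => E.ex_mem.2 ⟨hu, h⟩, fun h => (E.ex_mem.1 h).2⟩⟩
    · rintro ⟨h1, h2⟩
      ext u
      rw [E.ex_mem]
      exact ⟨fun h => (h2 u h.1).1 h.2, fun h => ⟨h1 h, (h2 u (h1 h)).2 h⟩⟩
  rw [e]
  refine (MeasurableSet.const _).inter (Finset.measurableSet_biInter _ fun u _ => ?_)
  by_cases h : u ∈ S
  · simp only [h, iff_true, ofPred_mem_eq]
    exact measurableSet_Ioc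
  · simp only [h, iff_false]
    exact measurableSet_Ioc.compl

theorem weights {Bad : Set ℝ} (hB : volume Bad ≤ ENNReal.ofReal (1 / 2)) :
    ∃ π : Finset ι → ℝ, (∀ S, 0 ≤ π S) ∧ 1 / 2 ≤ ∑ S ∈ V.powerset, π S ∧
      (∀ u, ∑ S ∈ V.powerset.filter (fun S => u ∈ S), π S ≤ E.σ u) ∧
      ∀ S, π S ≠ 0 → ∃ t, t ∉ Bad ∧ E.Good t ∧ E.lv t = S := by
  obtain ⟨N, hN, hN1, hN2⟩ : ∃ N : Set ℝ, MeasurableSet N ∧ volume N ≤ ENNReal.ofReal (1 / 2) ∧
      ∀ t ∈ Ioc (0 : ℝ) 1, t ∉ N → t ∉ Bad ∧ E.Good t := by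
    refine ⟨toMeasurable volume (Bad ∪ {t | ¬ (t ∈ Ioc (0 : ℝ) 1 → E.Good t)}),
      measurableSet_toMeasurable _ _, ?_, fun t ht hn => ?_⟩
    · rw [measure_toMeasurable]
      refine (measure_union_le _ _).trans ?_
      rw [ae_iff.1 E.ae_good, add_zero]
      exact hB
    · have := mt (fun h => subset_toMeasurable volume _ h) hn
      rw [mem_union, not_or, mem_ofPred_eq, not_not] at this
      exact ⟨this.1, this.2 ht⟩
  have hm : ∀ S, MeasurableSet ((Ioc (0 : ℝ) 1 \ N) ∩ {t : ℝ | E.lv t = S}) := fun S =>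
    (measurableSet_Ioc.diff hN).inter (E.ex_fib S)
  have hf : ∀ s : Set ℝ, s ⊆ Ioc (0 : ℝ) 1 → volume s ≠ ⊤ := fun s hs =>
    ne_top_of_le_ne_top measure_Ioc_lt_top.ne (measure_mono hs)
  have hs : ∀ F : Finset (Finset ι), ∑ S ∈ F,
      volume.real ((Ioc (0 : ℝ) 1 \ N) ∩ {t : ℝ | E.lv t = S}) =
      volume.real (⋃ S ∈ F, (Ioc (0 : ℝ) 1 \ N) ∩ {t : ℝ | E.lv t = S}) := fun F =>
    (measureReal_biUnion_finset (fun S _ S' _ hne => Set.disjoint_left.2 fun t h1 h2 =>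
      hne (h1.2.symm.trans h2.2)) (fun S _ => hm S) fun S _ => hf _ fun t ht => ht.1.1).symm
  refine ⟨fun S => volume.real ((Ioc (0 : ℝ) 1 \ N) ∩ {t : ℝ | E.lv t = S}),
    fun _ => measureReal_nonneg, ?_, fun u => ?_, fun S hS => ?_⟩
  · rw [hs]
    have a1 : volume.real N ≤ 1 / 2 := ENNReal.toReal_le_of_le_ofReal (by norm_num) hN1
    have a2 : volume.real (Ioc (0 : ℝ) 1) ≤ volume.real
        ((⋃ S ∈ V.powerset, (Ioc (0 : ℝ) 1 \ N) ∩ {t : ℝ | E.lv t = S}) ∪ N) := by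
      refine measureReal_mono (fun t ht => ?_) (measure_union_ne_top (hf _ ?_)
        (ne_top_of_le_ne_top ENNReal.ofReal_ne_top hN1))
      · by_cases h : t ∈ N
        · exact Or.inr h
        · exact Or.inl (mem_iUnion₂.2
            ⟨E.lv t, Finset.mem_powerset.2 (E.lv_subset t), ⟨ht, h⟩, rfl⟩)
      · exact iUnion₂_subset fun S _ t ht => ht.1.1
    have a3 := a2.trans (measureReal_union_le _ _)
    rw [Real.volume_real_Ioc_of_le zero_le_one] at a3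
    linarith
  · rw [hs]
    refine ENNReal.toReal_le_of_le_ofReal (E.σ_nonneg u) ?_
    rw [← E.ex_vol u]
    refine measure_mono (iUnion₂_subset fun S hS t ht => ?_)
    have a1 : E.lv t = S := ht.2
    exact (E.ex_mem.1 (a1 ▸ (Finset.mem_filter.1 hS).2)).2
  · obtain ⟨t, ht⟩ := nonempty_of_measureReal_ne_zero hS
    exact ⟨t, (hN2 t ht.1.1 ht.1.2).1, (hN2 t ht.1.1 ht.1.2).2, ht.2⟩

end Ext

end Vale.Agent.P198
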