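import Vale.Agent.P198.Rect

/-! The height function: variation. -/

namespace Vale.Agent.P198

open Set Filter Topology Metric MeasureTheory
open scoped Classical

variable {G : Type*} [Group G] {X : Type} [MetricSpace X] [MulAction G X]

namespace Ctx
variable {K : Ctx G X} {e : ℝ × ℝ → X} {n : ℕ} (E : K.Sol e n)

theorem Hf_nonneg (z : ℝ × ℝ) : 0 ≤ Hf E z := by
  exact Finset.sum_nonneg fun c _ => E.fl_nonneg c

theorem Hf_le (z : ℝ × ℝ) : Hf E z ≤ E.M := by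
  rw [← E.sum_fl]
  exact Finset.sum_le_sum_of_subset_of_nonneg (Finset.filter_subset _ _)
    fun c _ _ => E.fl_nonneg c

theorem Hf_bot {z : ℝ × ℝ} (hz : z ∈ sq) (h : z.2 = 0) (he : IsOpenEmbedding e) : Hf E z = 0 := by
  refine Finset.sum_eq_zero fun c hc => ?_
  obtain ⟨h1, h2⟩ := Finset.mem_filter.1 hc
  refine absurd ⟨{z}, singleton_subset_iff.2 hz, ?_, isPreconnected_singleton, rfl, z, rfl, h⟩ h2
  rintro w rfl u hu hw
  have h3 := (he.injective.mem_set_image).1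
    ((Finset.mem_filter.1 (Finset.mem_powerset.1 h1 hu)).2 hw)
  exact h3.2.1.ne' h

theorem Hf_top {z : ℝ × ℝ} (hz : z ∈ sq) (h : z.2 = 1) (he : IsOpenEmbedding e) :
    Hf E z = E.M := by
  rw [← E.sum_fl]
  refine Finset.sum_filter_of_ne fun c _ hc => ?_
  rintro ⟨β, h1, h2, h3, h4, h5⟩
  obtain ⟨u, hu, hu'⟩ := K.path_block he n h1 h3 h5 ⟨z, h4, h⟩ c (E.fl_supp c hc)
  obtain ⟨-, _, h6, w, hw, rfl⟩ := Finset.mem_filter.1 hu'
  exact h2 w hw u hu h6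

theorem heightA_le {β : Set (ℝ × ℝ)} (hβ : β ⊆ sq) (hc : IsPreconnected β) {z w : ℝ × ℝ}
    (hz : z ∈ β) (hw : w ∈ β) : Hf E z - Hf E w ≤
      ∑ c ∈ (K.fam e n).powerset.filter (fun c => ∃ u ∈ c, ∃ x ∈ β, e x ∈ K.U u), E.fl c := by
  simp only [Hf, Finset.sum_filter, ← Finset.sum_sub_distrib]
  refine Finset.sum_le_sum fun c _ => ?_
  have h0 := E.fl_nonneg c
  by_cases h1 : ∃ u ∈ c, ∃ x ∈ β, e x ∈ K.U u
  · rw [if_pos h1]
    split_ifs <;> linarith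
  · rw [if_neg h1]
    by_cases h2 : K.Below e c w
    · obtain ⟨β', h3, h4, h5, h6, y, h7, h8⟩ := h2
      rw [if_neg (not_not.2 ⟨β ∪ β', union_subset hβ h3, fun x hx u hu hx' =>
        hx.elim (fun hx => h1 ⟨u, hu, x, hx, hx'⟩) fun hx => h4 x hx u hu hx',
        hc.union w hw h6 h5, Or.inl hz, y, Or.inr h7, h8⟩)]
      split_ifs <;> linarith
    · rw [if_pos h2]
      split_ifs <;> linarith

theorem Hf_var_fl {β : Set (ℝ × ℝ)} (hβ : β ⊆ sq) (hc : IsPreconnected β) {z w : ℝ × ℝ}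
    (hz : z ∈ β) (hw : w ∈ β) : |Hf E z - Hf E w| ≤
      ∑ c ∈ (K.fam e n).powerset.filter (fun c => ∃ u ∈ c, ∃ x ∈ β, e x ∈ K.U u), E.fl c := by
  exact abs_sub_le_iff.2 ⟨heightA_le E hβ hc hz hw, heightA_le E hβ hc hw hz⟩

theorem Hf_var {β : Set (ℝ × ℝ)} (hβ : β ⊆ sq) (hc : IsPreconnected β) {z w : ℝ × ℝ}
    (hz : z ∈ β) (hw : w ∈ β) :
    |Hf E z - Hf E w| ≤ ∑ u ∈ K.fat (K.fam e n) (e '' β), E.σ u := by
  refine (Hf_var_fl E hβ hc hz hw).trans (E.fl_meet fun c hc _ => ?_)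
  obtain ⟨h1, u, hu, x, hx, hx'⟩ := Finset.mem_filter.1 hc
  exact ⟨u, hu, Finset.mem_filter.2 ⟨Finset.mem_powerset.1 h1 hu, _, hx', mem_image_of_mem _ hx⟩⟩

theorem σ_le_hat {u v : G} (hv : v ∈ K.fam e n) (h : K.adj u v) : E.σ v ≤ E.hat u := by
  exact Finset.single_le_sum (f := E.σ) (fun x _ => E.σ_nonneg x) (Finset.mem_filter.2 ⟨hv, h⟩)

theorem inside (he : IsOpenEmbedding e) {ω : ℝ} (hω : Small E ω) {u : G} (hu : u ∈ K.fam e n)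
    (h0 : 0 < E.pot u) (h1 : E.pot u < 1 - ω) : K.U u ⊆ e '' sq := by
  intro ξ hξ
  obtain ⟨z, hz, rfl⟩ := (Finset.mem_filter.1 hu).2 hξ
  refine mem_image_of_mem e ⟨⟨le_of_not_gt fun h => ?_, le_of_not_gt fun h => ?_⟩,
    hz.2.1.le, hz.2.2.le⟩
  · exact h0.ne' (E.pot_left u hu ⟨z, h, hξ⟩)
  · linarith [E.pot_right u hu ⟨z, h, hξ⟩, σ_le_hat E hu (u := u) ⟨_, hξ, hξ⟩, hω.1 u hu]

theorem Hf_osc (he : IsOpenEmbedding e) {u : G} (hu : K.U u ⊆ e '' sq) {z w : ℝ × ℝ}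
    (hz : e z ∈ K.U u) (hw : e w ∈ K.U u) : |Hf E z - Hf E w| ≤ E.hat u := by
  refine (Hf_var E (β := e ⁻¹' K.U u) (fun x hx => (he.injective.mem_set_image).1 (hu hx))
    (pre_conn he (K.cov.U_conn u) (hu.trans (image_subset_range _ _))) hz hw).trans
    (Finset.sum_le_sum_of_subset_of_nonneg (fun v hv => ?_) fun v _ _ => E.σ_nonneg v)
  obtain ⟨h1, _, h2, x, hx, rfl⟩ := Finset.mem_filter.1 hv
  exact Finset.mem_filter.2 ⟨h1, _, hx, h2⟩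

theorem Df_close {u : G} (hu : u ∈ K.fam e n) {z : ℝ × ℝ} (hz : e z ∈ K.U u) :
    |Df E z - E.pot u| ≤ E.hat u := by
  have h : ∃ u ∈ K.fam e n, e z ∈ K.U u := ⟨u, hu, hz⟩
  obtain ⟨h1, h2⟩ := h.choose_spec
  rw [Df, dif_pos h, abs_sub_le_iff]
  constructor
  · linarith [E.pot_adj u hu _ h1 ⟨_, hz, h2⟩, σ_le_hat E hu (u := u) ⟨_, hz, hz⟩]
  · linarith [E.pot_adj _ h1 u hu ⟨_, h2, hz⟩, σ_le_hat E h1 (u := u) ⟨_, hz, h2⟩]

end Ctx

end Vale.Agent.P198
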