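import Vale.Agent.P198.Rect
import Vale.Agent.P198.HeightA

/-! The height function: variation and band estimates. -/

namespace Vale.Agent.P198

open Set Filter Topology Metric MeasureTheory
open scoped Classical

variable {G : Type*} [Group G] {X : Type} [MetricSpace X] [MulAction G X]

namespace Ctx
variable {K : Ctx G X} {e : ℝ × ℝ → X} {n : ℕ} (E : K.Sol e n)

theorem hgt_sum_union {ι : Type*} {f : ι → ℝ} (hf : ∀ i, 0 ≤ f i) {S A B : Finset ι}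
    (h : ∀ i ∈ S, i ∈ A ∨ i ∈ B) : ∑ i ∈ S, f i ≤ ∑ i ∈ A, f i + ∑ i ∈ B, f i := by
  have h1 : ∑ i ∈ S, f i ≤ ∑ i ∈ A ∪ B, f i :=
    Finset.sum_le_sum_of_subset_of_nonneg (fun i hi => Finset.mem_union.2 (h i hi))
      fun i _ _ => hf i
  have h2 := Finset.sum_union_inter (s₁ := A) (s₂ := B) (f := f)
  have h3 : 0 ≤ ∑ i ∈ A ∩ B, f i := Finset.sum_nonneg fun i _ => hf i
  linarith

theorem hgt_sum_disj {ι : Type*} {f : ι → ℝ} (hf : ∀ i, 0 ≤ f i) {S A B : Finset ι}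
    (hA : A ⊆ S) (hB : B ⊆ S) (h : Disjoint A B) :
    ∑ i ∈ A, f i + ∑ i ∈ B, f i ≤ ∑ i ∈ S, f i := by
  rw [← Finset.sum_union h]
  exact Finset.sum_le_sum_of_subset_of_nonneg (Finset.union_subset hA hB) fun i _ _ => hf i

theorem hgt_σ_le {ω : ℝ} (hω : Small E ω) {u : G} (hu : u ∈ K.fam e n) {ξ : X} (h : ξ ∈ K.U u) :
    E.σ u ≤ ω :=
  (σ_le_hat E hu ⟨ξ, h, h⟩).trans (hω.1 u hu)

theorem hgt_osc (he : IsOpenEmbedding e) {ω : ℝ} (hω1 : ω ≤ 1 / 16)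
    (hω : Small E ω) {s : ℝ} (hs0 : 1 / 8 ≤ s) (hs1 : s ≤ 7 / 8) {u : G} (hu : u ∈ E.lv s)
    {z w : ℝ × ℝ} (hz : e z ∈ K.U u) (hw : e w ∈ K.U u) : |Hf E z - Hf E w| ≤ ω := by
  obtain ⟨huf, h1, h2⟩ := Finset.mem_filter.1 hu
  have h3 := hgt_σ_le E hω huf hz
  exact (Hf_osc E he (inside E he hω huf (by linarith) (by linarith)) hz hw).trans (hω.1 u huf)

theorem hgt_mem_fat {V : Finset G} {C : Set (ℝ × ℝ)} {u : G} :
    u ∈ K.fat V (e '' C) ↔ u ∈ V ∧ ∃ z ∈ C, e z ∈ K.U u := by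
  unfold fat
  rw [Finset.mem_filter]
  refine and_congr_right fun _ => ⟨?_, ?_⟩
  · rintro ⟨_, h, z, hz, rfl⟩
    exact ⟨z, hz, h⟩
  · rintro ⟨z, hz, h⟩
    exact ⟨_, h, z, hz, rfl⟩

theorem hgt_fat_sub {γ C : Set (ℝ × ℝ)} {s : ℝ} (hγ : K.fat (K.fam e n) (e '' γ) = E.lv s)
    (hC : C ⊆ γ) {u : G} (hu : u ∈ K.fat (K.fam e n) (e '' C)) : u ∈ E.lv s := by
  obtain ⟨h1, z, hz, h2⟩ := hgt_mem_fat.1 hu
  rw [← hγ]
  exact hgt_mem_fat.2 ⟨h1, z, hC hz, h2⟩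

theorem hgt_loc {ω : ℝ} (hω : Small E ω) {γ : Set (ℝ × ℝ)} (hγ : γ ⊆ sq) :
    ∀ z ∈ γ, ∃ r : ℝ, 0 < r ∧ ∀ w ∈ γ, dist z w < r → |Hf E z - Hf E w| ≤ ω := by
  intro z hz
  obtain ⟨r, hr, h⟩ := hω.2 z (hγ hz)
  exact ⟨r, hr, fun w hw => h w (hγ hw)⟩

theorem hgt_lo (he : IsOpenEmbedding e) {ω : ℝ} (hω0 : 0 < ω) (hω1 : ω ≤ 1 / 16)
    (hω : Small E ω) {s : ℝ} (hs : E.Good s) (hs0 : 1 / 8 ≤ s) (hs1 : s ≤ 7 / 8) {a : ℝ}
    (ha : a ≤ E.M) :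
    a - 4 * ω ≤ ∑ u ∈ (E.lv s).filter (fun u => ∀ z, e z ∈ K.U u → Hf E z < a), E.σ u := by
  by_cases h : a - 2 * ω < 0
  · have : 0 ≤ ∑ u ∈ (E.lv s).filter (fun u => ∀ z, e z ∈ K.U u → Hf E z < a), E.σ u :=
      Finset.sum_nonneg fun u _ => E.σ_nonneg u
    linarith
  obtain ⟨γ, ⟨g1, g2, g3, ⟨z0, hz0, hb⟩, z1, hz1, ht⟩, hγ⟩ := K.good_cross he E hs
  have b0 := Hf_bot E (g1 hz0) hb he
  have b1 := Hf_top E (g1 hz1) ht he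
  obtain ⟨C, hC, c1, c2, c3, w, hw, c4⟩ := bump_lev g2 g3 (hgt_loc E hω g1) (a := -1 - 3 * ω)
    (b := a - 2 * ω) hz0 (by linarith) (by linarith) ⟨z1, hz1, Or.inr (by linarith)⟩
  have h0 := Hf_nonneg E w
  have h1 := Hf_var E (hC.trans g1) c1 hw c2
  have h2 : ∑ u ∈ K.fat (K.fam e n) (e '' C), E.σ u ≤
      ∑ u ∈ (E.lv s).filter (fun u => ∀ z, e z ∈ K.U u → Hf E z < a), E.σ u := by
    refine Finset.sum_le_sum_of_subset_of_nonneg (fun u hu => ?_) fun u _ _ => E.σ_nonneg u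
    have hl := hgt_fat_sub E hγ hC hu
    obtain ⟨-, x, hx, hxu⟩ := hgt_mem_fat.1 hu
    refine Finset.mem_filter.2 ⟨hl, fun z hz => ?_⟩
    have := (abs_le.1 (hgt_osc E he hω1 hω hs0 hs1 hl hz hxu)).2
    linarith [(c3 x hx).2]
  have h3 := le_abs_self (Hf E w - Hf E z0)
  rcases c4 with c4 | c4 <;> linarith

theorem hgt_hi (he : IsOpenEmbedding e) {ω : ℝ} (hω0 : 0 < ω) (hω1 : ω ≤ 1 / 16)
    (hω : Small E ω) {s : ℝ} (hs : E.Good s) (hs0 : 1 / 8 ≤ s) (hs1 : s ≤ 7 / 8) {b : ℝ}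
    (hb0 : 0 ≤ b) :
    E.M - b - 4 * ω ≤ ∑ u ∈ (E.lv s).filter (fun u => ∀ z, e z ∈ K.U u → b < Hf E z), E.σ u := by
  by_cases h : E.M < b + 2 * ω
  · have : 0 ≤ ∑ u ∈ (E.lv s).filter (fun u => ∀ z, e z ∈ K.U u → b < Hf E z), E.σ u :=
      Finset.sum_nonneg fun u _ => E.σ_nonneg u
    linarith
  obtain ⟨γ, ⟨g1, g2, g3, ⟨z0, hz0, hb⟩, z1, hz1, ht⟩, hγ⟩ := K.good_cross he E hs
  have b0 := Hf_bot E (g1 hz0) hb he
  have b1 := Hf_top E (g1 hz1) ht he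
  obtain ⟨C, hC, c1, c2, c3, w, hw, c4⟩ := bump_lev g2 g3 (hgt_loc E hω g1) (a := b + 2 * ω)
    (b := E.M + 1 + 3 * ω) hz1 (by linarith) (by linarith) ⟨z0, hz0, Or.inl (by linarith)⟩
  have h0 := Hf_le E w
  have h1 := Hf_var E (hC.trans g1) c1 c2 hw
  have h2 : ∑ u ∈ K.fat (K.fam e n) (e '' C), E.σ u ≤
      ∑ u ∈ (E.lv s).filter (fun u => ∀ z, e z ∈ K.U u → b < Hf E z), E.σ u := by
    refine Finset.sum_le_sum_of_subset_of_nonneg (fun u hu => ?_) fun u _ _ => E.σ_nonneg u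
    have hl := hgt_fat_sub E hγ hC hu
    obtain ⟨-, x, hx, hxu⟩ := hgt_mem_fat.1 hu
    refine Finset.mem_filter.2 ⟨hl, fun z hz => ?_⟩
    have := (abs_le.1 (hgt_osc E he hω1 hω hs0 hs1 hl hz hxu)).1
    linarith [(c3 x hx).1]
  have h3 := le_abs_self (Hf E z1 - Hf E w)
  rcases c4 with c4 | c4 <;> linarith

theorem band_upper (he : IsOpenEmbedding e) {ω : ℝ} (hω0 : 0 < ω) (hω1 : ω ≤ 1 / 16)
    (hω : Small E ω) {s : ℝ} (hs : E.Good s) (hs0 : 1 / 8 ≤ s) (hs1 : s ≤ 7 / 8) {a b : ℝ}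
    (hab : a ≤ b) :
    ∑ u ∈ (E.lv s).filter (fun u => ∃ z ∈ sq, e z ∈ K.U u ∧ a ≤ Hf E z ∧ Hf E z ≤ b), E.σ u ≤
      b - a + 8 * ω := by
  set T := (E.lv s).filter (fun u => ∃ z ∈ sq, e z ∈ K.U u ∧ a ≤ Hf E z ∧ Hf E z ≤ b) with hT
  rcases T.eq_empty_or_nonempty with h | ⟨u0, hu0⟩
  · rw [h, Finset.sum_empty]
    linarith
  obtain ⟨-, z0, -, -, h1, h2⟩ := Finset.mem_filter.1 hu0
  have l1 := hgt_lo E he hω0 hω1 hω hs hs0 hs1 (h1.trans (Hf_le E z0))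
  have l2 := hgt_hi E he hω0 hω1 hω hs hs0 hs1 ((Hf_nonneg E z0).trans h2)
  obtain ⟨γ, -, hγ⟩ := K.good_cross he E hs
  set A := (E.lv s).filter (fun u => ∀ z, e z ∈ K.U u → Hf E z < a) with hA
  set B := (E.lv s).filter (fun u => ∀ z, e z ∈ K.U u → b < Hf E z) with hB
  have d1 : Disjoint A B := by
    rw [Finset.disjoint_left]
    intro u hu hu'
    obtain ⟨hl, p1⟩ := Finset.mem_filter.1 hu
    obtain ⟨-, p2⟩ := Finset.mem_filter.1 hu'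
    rw [← hγ] at hl
    obtain ⟨-, z, -, hz⟩ := hgt_mem_fat.1 hl
    linarith [p1 z hz, p2 z hz]
  have d2 : Disjoint T (A ∪ B) := by
    rw [Finset.disjoint_left]
    intro u hu hu'
    obtain ⟨-, z, -, hz, q1, q2⟩ := Finset.mem_filter.1 hu
    rcases Finset.mem_union.1 hu' with h | h
    · linarith [(Finset.mem_filter.1 h).2 z hz]
    · linarith [(Finset.mem_filter.1 h).2 z hz]
  have l3 := hgt_sum_disj E.σ_nonneg (S := E.lv s) (Finset.filter_subset _ _)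
    (Finset.union_subset (Finset.filter_subset _ _) (Finset.filter_subset _ _)) d2
  rw [Finset.sum_union d1, hs.2] at l3
  linarith

theorem band_lower (he : IsOpenEmbedding e) {ω : ℝ} (hω0 : 0 < ω) (hω1 : ω ≤ 1 / 16)
    (hω : Small E ω) {s : ℝ} (hs : E.Good s) (hs0 : 1 / 8 ≤ s) (hs1 : s ≤ 7 / 8) {a b : ℝ}
    (ha : 0 ≤ a) (hab : a ≤ b) (hb : b ≤ E.M) : b - a - 16 * ω ≤
    ∑ u ∈ (E.lv s).filter (fun u => ∃ z ∈ sq, e z ∈ K.U u ∧ a ≤ Hf E z ∧ Hf E z ≤ b), E.σ u := by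
  have u1 := band_upper E he hω0 hω1 hω hs hs0 hs1 ha
  have u2 := band_upper E he hω0 hω1 hω hs hs0 hs1 hb
  obtain ⟨γ, ⟨g1, -⟩, hγ⟩ := K.good_cross he E hs
  set T := (E.lv s).filter (fun u => ∃ z ∈ sq, e z ∈ K.U u ∧ a ≤ Hf E z ∧ Hf E z ≤ b) with hT
  set A := (E.lv s).filter (fun u => ∃ z ∈ sq, e z ∈ K.U u ∧ 0 ≤ Hf E z ∧ Hf E z ≤ a) with hA
  set B := (E.lv s).filter (fun u => ∃ z ∈ sq, e z ∈ K.U u ∧ b ≤ Hf E z ∧ Hf E z ≤ E.M) with hB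
  have l1 := hgt_sum_union E.σ_nonneg (S := E.lv s) (A := T) (B := A ∪ B) (by
    intro u hu
    have hl := hu
    rw [← hγ] at hl
    obtain ⟨-, z, hz, hzu⟩ := hgt_mem_fat.1 hl
    rcases le_total (Hf E z) a with h | h
    · exact Or.inr (Finset.mem_union_left _
        (Finset.mem_filter.2 ⟨hu, z, g1 hz, hzu, Hf_nonneg E z, h⟩))
    rcases le_total (Hf E z) b with h' | h'
    · exact Or.inl (Finset.mem_filter.2 ⟨hu, z, g1 hz, hzu, h, h'⟩)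
    · exact Or.inr (Finset.mem_union_right _
        (Finset.mem_filter.2 ⟨hu, z, g1 hz, hzu, h', Hf_le E z⟩)))
  have l2 := hgt_sum_union E.σ_nonneg (S := A ∪ B) (A := A) (B := B)
    fun u hu => Finset.mem_union.1 hu
  rw [hs.2] at l1
  linarith

theorem band_conn (he : IsOpenEmbedding e) {ω : ℝ} (hω0 : 0 < ω) (hω1 : ω ≤ 1 / 16)
    (hω : Small E ω) {s : ℝ} (hs : E.Good s) (hs0 : 1 / 8 ≤ s) (hs1 : s ≤ 7 / 8) {a b : ℝ}
    (ha : 40 * ω ≤ a) (hab : a ≤ b) (hb : b + 40 * ω ≤ E.M)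
    (hc : ∀ z ∈ sq, a - 40 * ω ≤ Hf E z → Hf E z ≤ b + 40 * ω → ∃ u ∈ K.fam e n, e z ∈ K.U u)
    {u v : G} (hu : u ∈ E.lv s) (hu' : ∃ z ∈ sq, e z ∈ K.U u ∧ a ≤ Hf E z ∧ Hf E z ≤ b)
    (hv : v ∈ E.lv s) (hv' : ∃ z ∈ sq, e z ∈ K.U v ∧ a ≤ Hf E z ∧ Hf E z ≤ b) :
    K.AChain ((E.lv s).filter fun x => ∀ z, e z ∈ K.U x →
      a - 40 * ω ≤ Hf E z ∧ Hf E z ≤ b + 40 * ω) u v := by
  obtain ⟨γ, ⟨g1, g2, g3, ⟨z0, hz0, hb0⟩, z1, hz1, ht⟩, hγ⟩ := K.good_cross he E hs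
  have b0 := Hf_bot E (g1 hz0) hb0 he
  have b1 := Hf_top E (g1 hz1) ht he
  have conn : ∀ C ⊆ γ, IsPreconnected C → (∀ w ∈ C, a - 30 * ω ≤ Hf E w ∧ Hf E w ≤ b + 31 * ω) →
      ∀ x ∈ K.fat (K.fam e n) (e '' C), ∀ y ∈ K.fat (K.fam e n) (e '' C),
      K.AChain ((E.lv s).filter fun x => ∀ z, e z ∈ K.U x →
        a - 40 * ω ≤ Hf E z ∧ Hf E z ≤ b + 40 * ω) x y := by
    intro C hC c1 c2 x hx y hy
    have hsub : ∀ p ∈ K.fat (K.fam e n) (e '' C), p ∈ ((E.lv s).filter fun x => ∀ z,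
        e z ∈ K.U x → a - 40 * ω ≤ Hf E z ∧ Hf E z ≤ b + 40 * ω) := by
      intro p hp
      have hl := hgt_fat_sub E hγ hC hp
      obtain ⟨-, q, hq, hqp⟩ := hgt_mem_fat.1 hp
      refine Finset.mem_filter.2 ⟨hl, fun z hz => ?_⟩
      have := abs_le.1 (hgt_osc E he hω1 hω hs0 hs1 hl hz hqp)
      constructor <;> linarith [(c2 q hq).1, (c2 q hq).2, this.1, this.2]
    have h := cover_chain (c1.image e he.continuous.continuousOn) (V := K.fam e n) (U := K.U)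
      K.cov.U_open (by
        rintro _ ⟨w, hw, rfl⟩
        exact hc w (g1 (hC hw)) (by linarith [(c2 w hw).1]) (by linarith [(c2 w hw).2]))
      (Finset.mem_filter.1 hx).1 (Finset.mem_filter.1 hx).2
      (Finset.mem_filter.1 hy).1 (Finset.mem_filter.1 hy).2
    refine Relation.ReflTransGen.mono ?_ _ _ h
    intro p q hpq
    exact ⟨hsub p hpq.1, hsub q hpq.2.1, hpq.2.2⟩
  obtain ⟨C, hC, c1, c2, c3, ζ, hζ, c4⟩ := bump_lev g2 g3 (hgt_loc E hω g1) (a := -1 - 3 * ω)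
    (b := b + 30 * ω) hz0 (by linarith) (by linarith) ⟨z1, hz1, Or.inr (by linarith)⟩
  have c5 : b + 28 * ω ≤ Hf E ζ := by
    have := Hf_nonneg E ζ
    rcases c4 with c4 | c4 <;> linarith
  have hcl : closure C ⊆ γ := closure_minimal hC g2.isClosed
  have c6 : ∀ w ∈ closure C, Hf E w ≤ b + 31 * ω := by
    intro w hw
    obtain ⟨r, hr, h⟩ := hω.2 w (g1 (hcl hw))
    obtain ⟨y, hy, hwy⟩ := Metric.mem_closure_iff.1 hw r hr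
    have := (abs_le.1 (h y (g1 (hC hy)) hwy)).2
    linarith [(c3 y hy).2]
  obtain ⟨S, hS, s1, s2, s3, ζ', hζ', s4⟩ := bump_lev (g2.of_isClosed_subset isClosed_closure hcl)
    c1.closure (hgt_loc E hω (hcl.trans g1)) (a := a - 30 * ω) (b := b + 40 * ω)
    (subset_closure hζ) (by linarith) (by linarith [(c3 ζ hζ).2])
    ⟨z0, subset_closure c2, Or.inl (by linarith)⟩
  have s5 : ∀ w ∈ S, a - 30 * ω ≤ Hf E w ∧ Hf E w ≤ b + 31 * ω :=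
    fun w hw => ⟨(s3 w hw).1, c6 w (hS hw)⟩
  have s6 : b - a + 56 * ω ≤ ∑ u ∈ K.fat (K.fam e n) (e '' S), E.σ u := by
    have h1 := Hf_var E ((hS.trans hcl).trans g1) s1 s2 hζ'
    have h2 := le_abs_self (Hf E ζ - Hf E ζ')
    have h3 := (s5 ζ' hζ').2
    rcases s4 with s4 | s4 <;> linarith
  have hup := band_upper E he hω0 hω1 hω hs hs0 hs1 (a := a - 30 * ω) (b := b + 31 * ω)
    (by linarith)
  have hin : ∀ C ⊆ γ, (∀ w ∈ C, a - 30 * ω ≤ Hf E w ∧ Hf E w ≤ b + 31 * ω) →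
      K.fat (K.fam e n) (e '' C) ⊆ (E.lv s).filter (fun u => ∃ z ∈ sq, e z ∈ K.U u ∧
        a - 30 * ω ≤ Hf E z ∧ Hf E z ≤ b + 31 * ω) := by
    intro C hC hh p hp
    obtain ⟨-, q, hq, hqp⟩ := hgt_mem_fat.1 hp
    exact Finset.mem_filter.2 ⟨hgt_fat_sub E hγ hC hp, q, g1 (hC hq), hqp, hh q hq⟩
  have side : ∀ u ∈ E.lv s, (∃ z ∈ sq, e z ∈ K.U u ∧ a ≤ Hf E z ∧ Hf E z ≤ b) →
      ∃ C ⊆ γ, IsPreconnected C ∧ (∀ w ∈ C, a - 30 * ω ≤ Hf E w ∧ Hf E w ≤ b + 31 * ω) ∧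
        u ∈ K.fat (K.fam e n) (e '' C) ∧
        ∃ x ∈ K.fat (K.fam e n) (e '' C), x ∈ K.fat (K.fam e n) (e '' S) := by
    rintro u hu ⟨z, -, hzu, q1, q2⟩
    have hl := hu
    rw [← hγ] at hl
    obtain ⟨huf, y, hy, hyu⟩ := hgt_mem_fat.1 hl
    have o1 := abs_le.1 (hgt_osc E he hω1 hω hs0 hs1 hu hyu hzu)
    obtain ⟨T, hT, t1, t2, t3, w, hw, t4⟩ := bump_lev g2 g3 (hgt_loc E hω g1) (a := a - 30 * ω)
      (b := b + 30 * ω) hy (by linarith [o1.1]) (by linarith [o1.2])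
      ⟨z0, hz0, Or.inl (by linarith)⟩
    have t5 : ∀ w ∈ T, a - 30 * ω ≤ Hf E w ∧ Hf E w ≤ b + 31 * ω :=
      fun w hw => ⟨(t3 w hw).1, by linarith [(t3 w hw).2]⟩
    refine ⟨T, hT, t1, t5, hgt_mem_fat.2 ⟨huf, y, t2, hyu⟩, ?_⟩
    have t6 : 27 * ω ≤ ∑ u ∈ K.fat (K.fam e n) (e '' T), E.σ u := by
      have h1 := Hf_var E (hT.trans g1) t1 t2 hw
      have h2 := le_abs_self (Hf E y - Hf E w)
      have h3 := neg_abs_le (Hf E y - Hf E w)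
      rcases t4 with t4 | t4 <;> linarith [o1.1, o1.2]
    by_contra hcon
    have hd : Disjoint (K.fat (K.fam e n) (e '' T)) (K.fat (K.fam e n) (e '' S)) := by
      rw [Finset.disjoint_left]
      intro x hx hx'
      exact hcon ⟨x, hx, hx'⟩
    have := hgt_sum_disj E.σ_nonneg (hin T hT t5) (hin S (hS.trans hcl) s5) hd
    linarith
  obtain ⟨T1, k1, k2, k3, k4, x1, k5, k6⟩ := side u hu hu'
  obtain ⟨T2, m1, m2, m3, m4, x2, m5, m6⟩ := side v hv hv'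
  exact ((conn T1 k1 k2 k3 u k4 x1 k5).trans (conn S (hS.trans hcl) s1 s5 x1 k6 x2 m6)).trans
    (conn T2 m1 m2 m3 x2 m5 v m4)

theorem msq (he : IsOpenEmbedding e) {ω : ℝ} (hω0 : 0 < ω) (hω1 : ω ≤ 1 / 16) (hω : Small E ω)
    {a b c d : ℝ} (ha : 1 / 8 ≤ a) (hab : a ≤ b) (hb : b + ω ≤ 7 / 8) (hcd : c ≤ d) :
    ∑ u ∈ (K.fam e n).filter (fun u => a ≤ E.pot u ∧ E.pot u ≤ b ∧
      ∃ z ∈ sq, e z ∈ K.U u ∧ c ≤ Hf E z ∧ Hf E z ≤ d), E.σ u ^ 2 ≤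
      (b - a + ω) * (d - c + 8 * ω) := by
  have h := E.vol_sq (A := (K.fam e n).filter (fun u => a ≤ E.pot u ∧ E.pot u ≤ b ∧
      ∃ z ∈ sq, e z ∈ K.U u ∧ c ≤ Hf E z ∧ Hf E z ≤ d)) (Finset.filter_subset _ _)
    (a := a) (b := b + ω) (Y := d - c + 8 * ω) (by linarith) (by linarith) (by
      intro u hu
      obtain ⟨huf, h1, h2, z, -, hz, -⟩ := Finset.mem_filter.1 hu
      exact ⟨h1, by linarith [hgt_σ_le E hω huf hz]⟩) (by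
      intro t ht h1 h2
      refine le_trans ?_ (band_upper E he hω0 hω1 hω ht (by linarith) (by linarith) hcd)
      refine Finset.sum_le_sum_of_subset_of_nonneg (fun u hu => ?_) fun u _ _ => E.σ_nonneg u
      obtain ⟨q1, q2⟩ := Finset.mem_inter.1 hu
      exact Finset.mem_filter.2 ⟨q2, (Finset.mem_filter.1 q1).2.2.2⟩)
  calc _ ≤ _ := h
    _ = _ := by ring

end Ctx

end Vale.Agent.P198
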