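import Vale.Agent.P198.Basic

/-! Consequences of weak quasisymmetry; the group acts by locally quasisymmetric maps. -/

namespace Vale.Agent.P198

open Set Filter Topology Metric MeasureTheory
open scoped Classical

variable {G : Type*} [Group G] {X : Type} [MetricSpace X] [MulAction G X]

/-- pigeonhole in the unit interval -/
theorem qsb_pigeon (t : ℕ → ℝ) (ht : ∀ l, t l ∈ Icc (0 : ℝ) 1) {N : ℕ} (hN : 0 < N) :
    ∃ l l' : ℕ, l < l' ∧ l' < N + 2 ∧ |t l - t l'| ≤ 1 / N := by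
  have hN' : (0 : ℝ) < N := by exact_mod_cast hN
  obtain ⟨l, hl, l', hl', hne, heq⟩ := Finset.exists_ne_map_eq_of_card_lt_of_maps_to
    (s := Finset.range (N + 2)) (t := Finset.range (N + 1)) (by simp)
    (f := fun l => ⌊N * t l⌋₊) fun l _ => by
      have h1 : N * t l ≤ N := mul_le_of_le_one_right hN'.le (ht l).2
      have h2 := Nat.floor_le_floor h1
      rw [Nat.floor_natCast] at h2
      exact Finset.mem_coe.2 (Finset.mem_range.2 (Nat.lt_succ_of_le h2))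
  have key : ∀ i j, ⌊N * t i⌋₊ = ⌊N * t j⌋₊ → t i - t j ≤ 1 / N := fun i j h => by
    have h1 := Nat.lt_floor_add_one (N * t i)
    have h2 := Nat.floor_le (mul_nonneg hN'.le (ht j).1)
    rw [h] at h1
    rw [le_div_iff₀ hN']
    linarith
  have habs : |t l - t l'| ≤ 1 / N := abs_sub_le_iff.2 ⟨key _ _ heq, key _ _ heq.symm⟩
  rcases lt_or_gt_of_ne hne with h | h
  · exact ⟨l, l', h, Finset.mem_range.1 hl', habs⟩
  · exact ⟨l', l, h, Finset.mem_range.1 hl, by rwa [abs_sub_comm]⟩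

namespace QSC
variable {B : BD G X} (Q : QSC B)

theorem ι_inj : InjOn Q.ι (closedBall 0 1) := by
  intro x hx y hy h
  rw [← Q.linv x hx, ← Q.linv y hy, h]

theorem near_of_close (R : ℝ) : ∃ r : ℝ, 0 < r ∧ ∀ x ∈ closedBall (0 : ℂ) 1,
    ∀ a ∈ closedBall (0 : ℂ) 1, ‖a - x‖ ≤ r → B.Near R (Q.ι x) (Q.ι a) := by
  obtain ⟨ε, hε, h1⟩ := B.dist_near R
  obtain ⟨c, hc, h2⟩ := Metric.uniformContinuousOn_iff.1
    ((isCompact_closedBall (0 : ℂ) 1).uniformContinuousOn_of_continuous Q.ι_cont) ε hε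
  refine ⟨c / 2, half_pos hc, fun x hx a ha h => h1 _ _ (h2 x hx a ha ?_)⟩
  rw [dist_comm, dist_eq_norm]
  linarith

theorem close_of_near {x : ℂ} (hx : x ∈ ball (0 : ℂ) 1) {r : ℝ} (hr : 0 < r) :
    ∃ R : ℝ, ∀ ξ, B.Near R (Q.ι x) ξ → ∃ a ∈ ball (0 : ℂ) 1, ξ = Q.ι a ∧ ‖a - x‖ < r := by
  have ho := (Q.φ_cont.mono (image_mono ball_subset_closedBall)).isOpen_inter_preimage Q.isOpen
    (isOpen_ball (x := x) (ε := r))
  obtain ⟨ε, hε, h1⟩ := Metric.isOpen_iff.1 ho (Q.ι x) ⟨mem_image_of_mem _ hx, by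
    rw [mem_preimage, Q.linv x (ball_subset_closedBall hx)]
    exact mem_ball_self hr⟩
  obtain ⟨R, hR⟩ := B.near_dist hε
  refine ⟨R, fun ξ h => ?_⟩
  obtain ⟨⟨a, ha, rfl⟩, h2⟩ := h1 (mem_ball'.2 (hR _ _ h))
  rw [mem_preimage, Q.linv a (ball_subset_closedBall ha), mem_ball, dist_eq_norm] at h2
  exact ⟨a, ha, rfl, h2⟩

theorem mid {x b : ℂ} (hx : x ∈ ball (0 : ℂ) 1) (hb : b ∈ ball (0 : ℂ) 1) {R : ℝ}
    (h : ¬ B.Near R (Q.ι x) (Q.ι b)) : ∃ a ∈ segment ℝ x b,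
      ¬ B.Near R (Q.ι x) (Q.ι a) ∧ B.Near (R - 2 * B.δ) (Q.ι x) (Q.ι a) := by
  have hs : segment ℝ x b ⊆ closedBall (0 : ℂ) 1 :=
    ((convex_ball (0 : ℂ) 1).segment_subset hx hb).trans ball_subset_closedBall
  obtain ⟨_, ⟨a, ha, rfl⟩, h1⟩ := B.mid
    ((convex_segment x b).isPreconnected.image Q.ι (Q.ι_cont.mono hs))
    (mem_image_of_mem _ (left_mem_segment ℝ x b)) (mem_image_of_mem _ (right_mem_segment ℝ x b)) h
  exact ⟨a, ha, h1⟩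

theorem qsb_qs1 (k : ℝ) : ∃ L : ℝ, 1 ≤ L ∧ ∀ x ∈ ball (0 : ℂ) 1, ∀ a ∈ ball (0 : ℂ) 1,
    ∀ b ∈ ball (0 : ℂ) 1, ∀ R : ℝ, ¬ B.Near R (Q.ι x) (Q.ι b) → B.Near (R - k) (Q.ι x) (Q.ι a) →
      ‖a - x‖ ≤ L * ‖b - x‖ := by
  obtain ⟨L, hL⟩ := Q.qs1 k
  exact ⟨max L 1, le_max_right _ _, fun x hx a ha b hb R h1 h2 =>
    (hL x hx a ha b hb R h1 h2).trans
      (mul_le_mul_of_nonneg_right (le_max_left _ _) (norm_nonneg _))⟩

theorem qs2 {ε : ℝ} (hε : 0 < ε) : ∃ k : ℝ, 0 ≤ k ∧ ∀ x ∈ ball (0 : ℂ) 1, ∀ a ∈ ball (0 : ℂ) 1,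
    ∀ b ∈ ball (0 : ℂ) 1, ∀ R : ℝ, ¬ B.Near R (Q.ι x) (Q.ι b) → B.Near (R + k) (Q.ι x) (Q.ι a) →
      ‖a - x‖ ≤ ε * ‖b - x‖ := by
  have hδ := B.δ_ge
  obtain ⟨L, hL1, hL⟩ := Q.qsb_qs1 0
  obtain ⟨N, hN⟩ := exists_nat_gt (L * L / ε)
  have hN0 : (0 : ℝ) < N := lt_trans (by positivity) hN
  refine ⟨4 * B.δ * (N + 2), by positivity, fun x hx a ha b hb R hxb hxa => ?_⟩
  have h1 : ∀ l : ℕ, ∃ t ∈ Icc (0 : ℝ) 1, x + t • (b - x) ∈ ball (0 : ℂ) 1 ∧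
      ¬ B.Near (R + 4 * B.δ * l) (Q.ι x) (Q.ι (x + t • (b - x))) ∧
      B.Near (R + 4 * B.δ * l - 2 * B.δ) (Q.ι x) (Q.ι (x + t • (b - x))) := fun l => by
    obtain ⟨y, hy, h2⟩ := Q.mid hx hb (R := R + 4 * B.δ * l) fun h =>
      hxb (h.mono (le_add_of_nonneg_right (by positivity)))
    have hy' := (convex_ball (0 : ℂ) 1).segment_subset hx hb hy
    rw [segment_eq_image'] at hy
    obtain ⟨t, ht, rfl⟩ := hy
    exact ⟨t, ht, hy', h2⟩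
  choose t ht hm hn hn' using h1
  obtain ⟨l, l', hl, hl', hd⟩ := qsb_pigeon t ht (N := N) (by exact_mod_cast hN0)
  have e1 : (l : ℝ) + 1 ≤ l' := by exact_mod_cast hl
  have e2 : (l' : ℝ) ≤ N + 2 := by exact_mod_cast hl'.le
  have e3 : R + 4 * B.δ * l + 2 * B.δ ≤ R + 4 * B.δ * l' - 2 * B.δ := by nlinarith
  have h2 := hL _ (hm l') x hx _ (hm l) (R + 4 * B.δ * l + 2 * B.δ) (fun h => hn l
    (((hn' l').trans h).mono (by rw [min_eq_right e3]; linarith)))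
    ((hn' l').symm.mono (by linarith))
  have h3 := hL x hx a ha _ (hm l') _ (hn l') (hxa.mono (by nlinarith))
  have h4 : ‖x + t l • (b - x) - (x + t l' • (b - x))‖ ≤ 1 / N * ‖b - x‖ := by
    rw [add_sub_add_left_eq_sub, ← sub_smul, norm_smul]
    exact mul_le_mul_of_nonneg_right hd (norm_nonneg _)
  rw [norm_sub_rev] at h2
  have h5 : L * L * (1 / N) ≤ ε := by
    rw [mul_one_div, div_le_iff₀ hN0]
    rw [div_lt_iff₀ hε] at hN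
    linarith
  calc ‖a - x‖ ≤ L * (L * (1 / N * ‖b - x‖)) :=
        h3.trans (mul_le_mul_of_nonneg_left
          (h2.trans (mul_le_mul_of_nonneg_left h4 (by linarith))) (by linarith))
    _ = L * L * (1 / N) * ‖b - x‖ := by ring
    _ ≤ _ := mul_le_mul_of_nonneg_right h5 (norm_nonneg _)

theorem qsb_ψ {h : G} {z : ℂ} (hz : z ∈ Q.W h) :
    Q.ψ h z ∈ ball (0 : ℂ) 1 ∧ Q.ι (Q.ψ h z) = h • Q.ι z := by
  obtain ⟨-, w, hw, h1⟩ := hz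
  have h2 : Q.ψ h z = w := by
    rw [ψ, ← h1, Q.linv w (ball_subset_closedBall hw)]
  rw [h2]
  exact ⟨hw, h1⟩

theorem ψ_mul {g h : G} {z : ℂ} (hz : z ∈ Q.W h) : Q.ψ (g * h) z = Q.ψ g (Q.ψ h z) := by
  have h1 := (Q.qsb_ψ hz).2
  change Q.φ ((g * h) • Q.ι z) = Q.φ (g • Q.ι (Q.ψ h z))
  rw [h1, mul_smul]

theorem mem_W_mul {g h : G} {z : ℂ} (hz : z ∈ Q.W h) : z ∈ Q.W (g * h) ↔ Q.ψ h z ∈ Q.W g := by
  obtain ⟨h1, h2⟩ := Q.qsb_ψ hz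
  change (z ∈ ball (0 : ℂ) 1 ∧ (g * h) • Q.ι z ∈ Q.ι '' ball 0 1) ↔
    (Q.ψ h z ∈ ball (0 : ℂ) 1 ∧ g • Q.ι (Q.ψ h z) ∈ Q.ι '' ball 0 1)
  rw [h2, mul_smul]
  exact ⟨fun h => ⟨h1, h.2⟩, fun h => ⟨hz.1, h.2⟩⟩

theorem ψ_one {z : ℂ} (hz : z ∈ ball (0 : ℂ) 1) : z ∈ Q.W 1 ∧ Q.ψ 1 z = z := by
  refine ⟨⟨hz, by rw [one_smul]; exact mem_image_of_mem _ hz⟩, ?_⟩
  rw [ψ, one_smul, Q.linv z (ball_subset_closedBall hz)]

theorem qsb_open (g : G) : IsOpen (Q.W g) :=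
  ((B.cont g).comp_continuousOn (Q.ι_cont.mono ball_subset_closedBall)).isOpen_inter_preimage
    isOpen_ball Q.isOpen

theorem qsb_maps {g h : G} (hgh : h * g = 1) : MapsTo (Q.ψ g) (Q.W g) (Q.W h) := fun z hz =>
  (Q.mem_W_mul hz).1 (by rw [hgh]; exact (Q.ψ_one hz.1).1)

theorem qsb_inv {g h : G} (hgh : h * g = 1) {z : ℂ} (hz : z ∈ Q.W g) : Q.ψ h (Q.ψ g z) = z := by
  rw [← Q.ψ_mul hz, hgh, (Q.ψ_one hz.1).2]

theorem qsb_cont (g : G) : ContinuousOn (Q.ψ g) (Q.W g) :=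
  Q.φ_cont.comp ((B.cont g).comp_continuousOn (Q.ι_cont.mono fun _ hz =>
    ball_subset_closedBall hz.1)) fun _ hz => image_mono ball_subset_closedBall hz.2

/-- the scale of a pair and its image -/
theorem qsb_scale (g : G) {z b : ℂ} (hz : z ∈ ball (0 : ℂ) 1) (hb : b ∈ ball (0 : ℂ) 1)
    (hne : b ≠ z) (h : B.Near (2 * B.len g + 3 * B.δ) (Q.ι z) (Q.ι b)) :
    ∃ R : ℝ, 2 * B.len g + 3 * B.δ ≤ R ∧ B.Near (R - 1) (Q.ι z) (Q.ι b) ∧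
      ¬ B.Near (R + B.h (Q.ι z) g⁻¹ + 6 * B.δ) (g • Q.ι z) (g • Q.ι b) := by
  have hδ := B.δ_ge
  have hex : ∃ n : ℕ, ¬ B.Near n (Q.ι z) (Q.ι b) := by
    obtain ⟨R, hR⟩ := B.not_near fun h => hne.symm
      (Q.ι_inj (ball_subset_closedBall hz) (ball_subset_closedBall hb) h)
    obtain ⟨n, hn⟩ := exists_nat_ge R
    exact ⟨n, fun h => hR (h.mono hn)⟩
  have h1 := Nat.find_spec hex
  have h2 : 2 * B.len g + 3 * B.δ ≤ (Nat.find hex : ℝ) :=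
    not_lt.1 fun hh => h1 (h.mono hh.le)
  refine ⟨Nat.find hex, h2, ?_, fun h3 => h1 ?_⟩
  · rcases Nat.eq_zero_or_pos (Nat.find hex) with h0 | h0
    · exact (B.near_zero _ _).mono (by rw [h0]; norm_num)
    · have h4 := not_not.1 (Nat.find_min hex (Nat.sub_one_lt h0.ne'))
      rwa [Nat.cast_sub h0, Nat.cast_one] at h4
  · have h5 := B.h_eq (Q.ι z) g⁻¹
    have h6 := B.P_le (Q.ι z) g⁻¹
    have h7 := B.P_le (g • Q.ι z) g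
    rw [B.len_inv] at h5 h6
    have h4 := h3.coc g⁻¹ (by rw [inv_inv]; linarith)
    rw [inv_smul_smul, inv_smul_smul, inv_inv] at h4
    exact h4.mono (by linarith [(abs_le.1 (B.h_coc g (Q.ι z))).1])

theorem qsb_push (g : G) {z a : X} {R : ℝ} (h : B.Near R z a)
    (h' : B.Near (2 * B.len g + 3 * B.δ) z a) :
    B.Near (R + B.h z g⁻¹ - 5 * B.δ) (g • z) (g • a) := by
  have h6 := B.P_le z g⁻¹
  rw [B.len_inv] at h6
  have h0 : (0 : ℝ) ≤ B.len g := Nat.cast_nonneg _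
  rcases le_total R (2 * B.len g + 3 * B.δ) with h1 | h1
  · exact (h'.coc g (by linarith)).mono (by linarith)
  · exact h.coc g (by linarith)

theorem lqs : ∃ η, Gauge η ∧ ∀ g, ∃ r, LQS η (Q.ψ g) (Q.ψ g⁻¹) (Q.W g) (Q.W g⁻¹) r := by
  choose r hr hr' using fun g : G => Q.near_of_close (2 * B.len g + 3 * B.δ)
  obtain ⟨S, hS⟩ : ∃ S : ℝ → Set ℝ, ∀ t H, H ∈ S t ↔ 0 ≤ H ∧ ∀ g, ∀ z ∈ Q.W g, ∀ a ∈ Q.W g,
      ∀ b ∈ Q.W g, ‖a - z‖ ≤ r g → ‖b - z‖ ≤ r g → ‖a - z‖ ≤ t * ‖b - z‖ →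
        ‖Q.ψ g a - Q.ψ g z‖ ≤ H * ‖Q.ψ g b - Q.ψ g z‖ := ⟨fun t => {H | _}, fun _ _ => Iff.rfl⟩
  have hmem : ∀ t H, 0 ≤ H → (∀ g, ∀ z ∈ Q.W g, ∀ a ∈ Q.W g, ∀ b ∈ Q.W g, 0 < ‖b - z‖ →
      ‖a - z‖ ≤ t * ‖b - z‖ → B.Near (2 * B.len g + 3 * B.δ) (Q.ι z) (Q.ι a) → ∀ R : ℝ,
      B.Near (R - 1) (Q.ι z) (Q.ι b) →
      ¬ B.Near (R + B.h (Q.ι z) g⁻¹ + 6 * B.δ) (Q.ι (Q.ψ g z)) (Q.ι (Q.ψ g b)) →
        ‖Q.ψ g a - Q.ψ g z‖ ≤ H * ‖Q.ψ g b - Q.ψ g z‖) → H ∈ S t := fun t H hH h => by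
    refine (hS t H).2 ⟨hH, fun g z hz a ha b hb h1 h2 h3 => ?_⟩
    by_cases hbz : b = z
    · rw [hbz, sub_self, norm_zero, mul_zero, norm_le_zero_iff, sub_eq_zero] at h3
      rw [h3, sub_self, norm_zero]
      positivity
    · obtain ⟨R, -, h4, h5⟩ := Q.qsb_scale g hz.1 hb.1 hbz
        (hr' g z (ball_subset_closedBall hz.1) b (ball_subset_closedBall hb.1) h2)
      rw [← (Q.qsb_ψ hz).2, ← (Q.qsb_ψ hb).2] at h5
      exact h g z hz a ha b hb (norm_pos_iff.2 (sub_ne_zero.2 hbz)) h3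
        (hr' g z (ball_subset_closedBall hz.1) a (ball_subset_closedBall ha.1) h1) R h4 h5
  have hbdd : ∀ t, BddBelow (S t) := fun t => ⟨0, fun H hH => ((hS t H).1 hH).1⟩
  have hne : ∀ t, 0 < t → (S t).Nonempty := fun t ht => by
    obtain ⟨k, -, hk⟩ := Q.qs2 (ε := 1 / (2 * t)) (by positivity)
    obtain ⟨L, hL1, hL⟩ := Q.qsb_qs1 (k + 1 + 11 * B.δ)
    refine ⟨L, hmem t L (by linarith) fun g z hz a ha b hb h0 h1 h2 R h3 h4 => ?_⟩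
    have h5 : B.Near (R - 1 - k) (Q.ι z) (Q.ι a) := by
      by_contra h
      have h6 := hk z hz.1 b hb.1 a ha.1 _ h (h3.mono (by linarith))
      have h7 := h6.trans (mul_le_mul_of_nonneg_left h1 (by positivity))
      have h8 : 1 / (2 * t) * (t * ‖b - z‖) = ‖b - z‖ / 2 := by field_simp
      linarith
    have h6 := qsb_push g h5 h2
    rw [← (Q.qsb_ψ hz).2, ← (Q.qsb_ψ ha).2] at h6
    exact hL _ (Q.qsb_ψ hz).1 _ (Q.qsb_ψ ha).1 _ (Q.qsb_ψ hb).1 _ h4 (h6.mono (by linarith))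
  refine ⟨fun t => sInf (S t), ⟨fun t => Real.sInf_nonneg fun H hH => ((hS t H).1 hH).1,
    fun ε hε => ?_⟩, fun g => ⟨r g, Q.qsb_open g, Q.qsb_open g⁻¹, hr g,
      Q.qsb_maps (inv_mul_cancel g), Q.qsb_maps (mul_inv_cancel g),
      fun z hz => Q.qsb_inv (inv_mul_cancel g) hz, fun z hz => Q.qsb_inv (mul_inv_cancel g) hz,
      Q.qsb_cont g, Q.qsb_cont g⁻¹, fun t ht z hz a ha b hb h1 h2 h3 => ?_⟩⟩
  · obtain ⟨k, -, hk⟩ := Q.qs2 hε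
    obtain ⟨L, hL1, hL⟩ := Q.qsb_qs1 (k + 11 * B.δ + 1)
    refine ⟨1 / (2 * L), by positivity, csInf_le (hbdd _) (hmem _ ε hε.le
      fun g z hz a ha b hb h0 h1 h2 R h3 h4 => ?_)⟩
    have h5 : B.Near (R + k + 11 * B.δ) (Q.ι z) (Q.ι a) := by
      by_contra h
      have h6 := hL z hz.1 b hb.1 a ha.1 _ h (h3.mono (by linarith))
      have h7 := h6.trans (mul_le_mul_of_nonneg_left h1 (by linarith))
      have h8 : L * (1 / (2 * L) * ‖b - z‖) = ‖b - z‖ / 2 := by field_simp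
      linarith
    have h6 := qsb_push g h5 h2
    rw [← (Q.qsb_ψ hz).2, ← (Q.qsb_ψ ha).2] at h6
    exact hk _ (Q.qsb_ψ hz).1 _ (Q.qsb_ψ ha).1 _ (Q.qsb_ψ hb).1 _ h4 (h6.mono (by linarith))
  · have h4 : ∀ H ∈ S t, ‖Q.ψ g a - Q.ψ g z‖ ≤ H * ‖Q.ψ g b - Q.ψ g z‖ := fun H hH =>
      ((hS t H).1 hH).2 g z hz a ha b hb h1 h2 h3
    rcases (norm_nonneg (Q.ψ g b - Q.ψ g z)).eq_or_lt with h0 | h0
    · obtain ⟨H, hH⟩ := hne t ht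
      have := h4 H hH
      rw [← h0, mul_zero] at this ⊢
      exact this
    · exact (div_le_iff₀ h0).1 (le_csInf (hne t ht) fun H hH => (div_le_iff₀ h0).2 (h4 H hH))

end QSC

theorem up_dn (A : ℂ ≃L[ℝ] ℂ) (z0 : ℂ) {s : ℝ} (hs : 0 < s) (w : ℂ) :
    up A z0 s (dn A z0 s w) = w := by
  rw [up, dn, add_sub_cancel_left, map_smul, A.apply_symm_apply, inv_smul_smul₀ hs.ne']

theorem dn_up (A : ℂ ≃L[ℝ] ℂ) (z0 : ℂ) {s : ℝ} (hs : 0 < s) (z : ℂ) :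
    dn A z0 s (up A z0 s z) = z := by
  rw [up, dn, map_smul, A.symm_apply_apply, smul_inv_smul₀ hs.ne', add_sub_cancel]

theorem qsb_up_cont (A : ℂ ≃L[ℝ] ℂ) (z0 : ℂ) (s : ℝ) : Continuous (up A z0 s) := by
  unfold up
  fun_prop

theorem qsb_dn_cont (A : ℂ ≃L[ℝ] ℂ) (z0 : ℂ) (s : ℝ) : Continuous (dn A z0 s) := by
  unfold dn
  fun_prop

theorem qsb_up_sub (A : ℂ ≃L[ℝ] ℂ) (z0 : ℂ) {s : ℝ} (hs : 0 < s) (u v : ℂ) :
    ‖up A z0 s u - up A z0 s v‖ = s⁻¹ * ‖A (u - v)‖ := by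
  rw [up, up, ← smul_sub, ← map_sub, sub_sub_sub_cancel_right, norm_smul,
    Real.norm_of_nonneg (inv_pos.2 hs).le]

theorem qsb_dn_sub (A : ℂ ≃L[ℝ] ℂ) (z0 : ℂ) {s : ℝ} (hs : 0 < s) (u v : ℂ) :
    ‖dn A z0 s u - dn A z0 s v‖ = s * ‖A.symm (u - v)‖ := by
  rw [dn, dn, add_sub_add_left_eq_sub, ← smul_sub, ← map_sub, norm_smul,
    Real.norm_of_nonneg hs.le]

theorem qsb_bilip (A : ℂ ≃L[ℝ] ℂ) : ∃ c : ℝ, 0 < c ∧ (∀ v, ‖A v‖ ≤ c * ‖v‖) ∧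
    ∀ v, ‖A.symm v‖ ≤ c * ‖v‖ := by
  refine ⟨‖(A : ℂ →L[ℝ] ℂ)‖ + ‖(A.symm : ℂ →L[ℝ] ℂ)‖ + 1, by positivity, fun v => ?_, fun v => ?_⟩
  · refine ((A : ℂ →L[ℝ] ℂ).le_opNorm v).trans (mul_le_mul_of_nonneg_right ?_ (norm_nonneg _))
    linarith [norm_nonneg (A.symm : ℂ →L[ℝ] ℂ)]
  · refine ((A.symm : ℂ →L[ℝ] ℂ).le_opNorm v).trans
      (mul_le_mul_of_nonneg_right ?_ (norm_nonneg _))
    linarith [norm_nonneg (A : ℂ →L[ℝ] ℂ)]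

theorem qsb_ratio {A : ℂ ≃L[ℝ] ℂ} {c : ℝ} (hc : 0 < c) (h1 : ∀ v, ‖A v‖ ≤ c * ‖v‖)
    (h2 : ∀ v, ‖A.symm v‖ ≤ c * ‖v‖) {u v : ℂ} {t : ℝ} (ht : 0 ≤ t) (h : ‖u‖ ≤ t * ‖v‖) :
    ‖A u‖ ≤ c * c * t * ‖A v‖ := by
  have h3 := h2 (A v)
  rw [A.symm_apply_apply] at h3
  calc ‖A u‖ ≤ c * (t * (c * ‖A v‖)) := (h1 u).trans (mul_le_mul_of_nonneg_left
        (h.trans (mul_le_mul_of_nonneg_left h3 ht)) hc.le)
    _ = _ := by ring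

theorem lqs_up {η : ℝ → ℝ} (hη : Gauge η) (A : ℂ ≃L[ℝ] ℂ) : ∃ η', Gauge η' ∧
    ∀ (ψ χ : ℂ → ℂ) (W W' : Set ℂ) (r : ℝ) (z0 : ℂ) (s : ℝ), 0 < s → LQS η ψ χ W W' r →
      ∃ r', LQS η' (fun w => up A z0 s (ψ (dn A z0 s w))) (fun w => up A z0 s (χ (dn A z0 s w)))
        (dn A z0 s ⁻¹' W) (dn A z0 s ⁻¹' W') r' := by
  obtain ⟨c, hc, h1, h2⟩ := qsb_bilip A
  refine ⟨fun t => c * c * η (c * c * t), ⟨fun t => mul_nonneg (by positivity) (hη.1 _),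
    fun ε hε => ?_⟩, fun ψ χ W W' r z0 s hs H => ⟨r / (s * c), H.W_open.preimage
      (qsb_dn_cont A z0 s), H.W'_open.preimage (qsb_dn_cont A z0 s),
      div_pos H.r_pos (by positivity), fun w hw => ?_, fun w hw => ?_, fun w hw => ?_,
      fun w hw => ?_, ?_, ?_, fun t ht z hz a ha b hb h3 h4 h5 => ?_⟩⟩
  · obtain ⟨t, ht, h3⟩ := hη.2 (ε / (c * c)) (by positivity)
    refine ⟨t / (c * c), by positivity, ?_⟩
    have e : c * c * (t / (c * c)) = t := by field_simp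
    rw [le_div_iff₀ (by positivity)] at h3
    simp only [e]
    linarith
  · rw [mem_preimage, dn_up A z0 hs]
    exact H.maps hw
  · rw [mem_preimage, dn_up A z0 hs]
    exact H.maps' hw
  · simp only [dn_up A z0 hs, H.linv _ hw, up_dn A z0 hs]
  · simp only [dn_up A z0 hs, H.rinv _ hw, up_dn A z0 hs]
  · exact (qsb_up_cont A z0 s).comp_continuousOn
      (H.cont.comp (qsb_dn_cont A z0 s).continuousOn fun _ h => h)
  · exact (qsb_up_cont A z0 s).comp_continuousOn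
      (H.cont'.comp (qsb_dn_cont A z0 s).continuousOn fun _ h => h)
  · have h6 : ∀ v, ‖v - z‖ ≤ r / (s * c) → ‖dn A z0 s v - dn A z0 s z‖ ≤ r := fun v hv => by
      rw [qsb_dn_sub A z0 hs]
      rw [le_div_iff₀ (by positivity)] at hv
      exact (mul_le_mul_of_nonneg_left (h2 _) hs.le).trans (by linarith)
    have h7 := H.qs (c * c * t) (by positivity) _ hz _ ha _ hb (h6 a h3) (h6 b h4) (by
      rw [qsb_dn_sub A z0 hs, qsb_dn_sub A z0 hs, mul_left_comm]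
      exact mul_le_mul_of_nonneg_left (qsb_ratio (A := A.symm) hc h2 h1 ht.le h5) hs.le)
    simp only [qsb_up_sub A z0 hs]
    rw [mul_left_comm]
    exact mul_le_mul_of_nonneg_left (qsb_ratio hc h1 h2 (hη.1 _) h7) (inv_pos.2 hs).le

end Vale.Agent.P198
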