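import Vale.Agent.P198.LN
import Vale.Agent.P198.QSB

/-! An invariant field of ellipses and a point where it is approximately continuous. -/

namespace Vale.Agent.P198

open Set Filter Topology Metric MeasureTheory
open scoped Classical ComplexConjugate

theorem inv_int {E : Type} [NormedAddCommGroup E] {s : Set ℂ} (hs : s ⊆ closedBall 0 1)
    {f : ℂ → E} (hf : Continuous f) : IntegrableOn f s :=
  (hf.continuousOn.integrableOn_compact (isCompact_closedBall 0 1)).mono_set hs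

theorem inv_sq {s : Set ℂ} (hs : s ⊆ closedBall 0 1) {F : ℂ → ℂ} (hF : Continuous F) (a b : ℂ) :
    ∫ v in s, (a * F v + b * conj (F v)) ^ 2 = a ^ 2 * (∫ v in s, F v ^ 2) +
      2 * a * b * ((∫ v in s, ‖F v‖ ^ 2 : ℝ) : ℂ) + b ^ 2 * conj (∫ v in s, F v ^ 2) := by
  have e : ∀ v, (a * F v + b * conj (F v)) ^ 2 = a ^ 2 * F v ^ 2 +
      2 * a * b * ((‖F v‖ ^ 2 : ℝ) : ℂ) + b ^ 2 * conj (F v ^ 2) := by
    intro v
    rw [Complex.ofReal_pow, ← Complex.mul_conj', map_pow]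
    ring
  simp_rw [e]
  rw [integral_add, integral_add, integral_const_mul, integral_const_mul, integral_const_mul,
    integral_conj, integral_complex_ofReal]
  · exact inv_int hs (by fun_prop)
  · exact inv_int hs (by fun_prop)
  · exact inv_int hs (by fun_prop)
  · exact inv_int hs (by fun_prop)

theorem inv_ipos {s : Set ℂ} (hs : s ⊆ closedBall 0 1) {ρ : ℝ}
    (hρ : ball 0 ρ ⊆ s) {f : ℂ → ℝ} (hf : Continuous f) (h0 : ∀ v, 0 ≤ f v) {v : ℂ}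
    (hv : v ∈ ball (0 : ℂ) ρ) (hfv : f v ≠ 0) :
    0 < ∫ w in ball (0 : ℂ) ρ, f w ∧ ∫ w in ball (0 : ℂ) ρ, f w ≤ ∫ w in s, f w := by
  refine ⟨?_, setIntegral_mono_set (inv_int hs hf) (Eventually.of_forall h0) hρ.eventuallyLE⟩
  rw [setIntegral_pos_iff_support_of_nonneg_ae (Eventually.of_forall h0)
    (inv_int (hρ.trans hs) hf)]
  exact (hf.isOpen_support.inter isOpen_ball).measure_pos _ ⟨v, hfv, hv⟩

theorem inv_lt {s : Set ℂ} (hs : s ⊆ closedBall 0 1) {ρ : ℝ} (h0 : 0 < ρ)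
    (hρ : ball 0 ρ ⊆ s) : ‖∫ v in s, v ^ 2‖ < ∫ v in s, ‖v‖ ^ 2 := by
  obtain ⟨w, hw, e⟩ := Complex.exists_norm_eq_mul_self (∫ v in s, v ^ 2)
  have hf : Continuous fun v : ℂ => ‖v‖ ^ 2 - (w * v ^ 2).re := by fun_prop
  have hn : ∀ v : ℂ, 0 ≤ ‖v‖ ^ 2 - (w * v ^ 2).re := fun v => by
    have := Complex.re_le_norm (w * v ^ 2)
    rw [norm_mul, hw, norm_pow] at this
    linarith
  obtain ⟨v, hv, hfv⟩ : ∃ v ∈ ball (0 : ℂ) ρ, ‖v‖ ^ 2 - (w * v ^ 2).re ≠ 0 := by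
    have h1 : ‖((ρ / 2 : ℝ) : ℂ)‖ = ρ / 2 := by rw [Complex.norm_real, Real.norm_of_nonneg]; linarith
    by_cases h : ‖((ρ / 2 : ℝ) : ℂ)‖ ^ 2 - (w * ((ρ / 2 : ℝ) : ℂ) ^ 2).re = 0
    · refine ⟨Complex.I * ((ρ / 2 : ℝ) : ℂ), ?_, ?_⟩
      · rw [mem_ball_zero_iff, norm_mul, Complex.norm_I, h1]; linarith
      · rw [norm_mul, Complex.norm_I, one_mul, mul_pow, Complex.I_sq, neg_one_mul, mul_neg,
          Complex.neg_re]
        rw [h1] at h ⊢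
        nlinarith
    · exact ⟨_, by rw [mem_ball_zero_iff, h1]; linarith, h⟩
  have hp := inv_ipos hs hρ hf hn hv hfv
  have e2 : ∫ v in s, (‖v‖ ^ 2 - (w * v ^ 2).re) = (∫ v in s, ‖v‖ ^ 2) - ‖∫ v in s, v ^ 2‖ := by
    rw [integral_sub (inv_int hs (by fun_prop)) (inv_int hs (by fun_prop))]
    congr 1
    have h3 := integral_re (μ := volume.restrict s) (f := fun v : ℂ => w * v ^ 2)
      (inv_int hs (by fun_prop))
    simp only [RCLike.re_to_complex] at h3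
    rw [h3, integral_const_mul, ← e, Complex.ofReal_re]
  linarith [hp.1, hp.2]

theorem inv_k {μ : ℂ} {m : ℝ} (h : ‖μ‖ < m) :
    ∃ k : ℂ, ‖k‖ < 1 ∧ μ + 2 * k * m + k ^ 2 * conj μ = 0 := by
  have h0 := norm_nonneg μ
  have hd : 0 ≤ m ^ 2 - ‖μ‖ ^ 2 := by nlinarith
  set s : ℝ := m + √(m ^ 2 - ‖μ‖ ^ 2) with hs
  have hq := Real.sq_sqrt hd
  have hs1 : ‖μ‖ < s := by have := Real.sqrt_nonneg (m ^ 2 - ‖μ‖ ^ 2); linarith
  have hs0 : 0 < s := by linarith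
  have he : s ^ 2 - 2 * m * s + ‖μ‖ ^ 2 = 0 := by rw [hs]; nlinarith
  refine ⟨-(μ / s), ?_, ?_⟩
  · rw [norm_neg, norm_div, Complex.norm_real, Real.norm_of_nonneg hs0.le, div_lt_one hs0]
    exact hs1
  · have he' : (s : ℂ) ^ 2 - 2 * m * s + μ * conj μ = 0 := by
      rw [Complex.mul_conj']; exact_mod_cast he
    have : (s : ℂ) ≠ 0 := by exact_mod_cast hs0.ne'
    field_simp
    linear_combination μ * he'

theorem inv_A {k : ℂ} (hk : ‖k‖ < 1) : ∃ A : ℂ ≃L[ℝ] ℂ, ∀ v, A v = 1 * v + k * conj v := by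
  let L : ℂ →ₗ[ℝ] ℂ := LinearMap.id + k • Complex.conjAe.toLinearMap
  have hL : ∀ v, L v = 1 * v + k * conj v := fun v => by simp [L]
  have hi : Function.Injective L := by
    rw [injective_iff_map_eq_zero]
    intro v hv
    rw [hL, one_mul, add_eq_zero_iff_eq_neg] at hv
    have := congrArg norm hv
    rw [norm_neg, norm_mul, Complex.norm_conj] at this
    have h2 := norm_nonneg v
    exact norm_eq_zero.1 (by nlinarith)
  exact ⟨(LinearEquiv.ofInjectiveEndo L hi).toContinuousLinearEquiv, hL⟩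

theorem inv_det_comp (S T : ℂ →L[ℝ] ℂ) : (S.comp T).det = S.det * T.det :=
  LinearMap.det_comp (S : ℂ →ₗ[ℝ] ℂ) (T : ℂ →ₗ[ℝ] ℂ)

theorem inv_det_smul (c : ℝ) (T : ℂ →L[ℝ] ℂ) : (c • T).det = c ^ 2 * T.det := by
  have := LinearMap.det_smul c (T : ℂ →ₗ[ℝ] ℂ)
  rw [Complex.finrank_real_complex] at this
  exact this

theorem inv_bij {T : ℂ →L[ℝ] ℂ} (h : T.det ≠ 0) : Function.Bijective T :=
  (T.toContinuousLinearEquivOfDetNeZero h).bijective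

variable {G : Type*} [Group G] {X : Type} [MetricSpace X] [MulAction G X]

namespace QSC
variable {B : BD G X} (Q : QSC B)

/-- the invariant field of convex bodies -/
def invB (z : ℂ) : Set ℂ := {v | ‖v‖ ≤ 1 ∧ ∀ g, z ∈ Q.W g →
  ‖fderiv ℝ (Q.ψ g) z v‖ ^ 2 ≤ |(fderiv ℝ (Q.ψ g) z).det|}

theorem invB_sub (z : ℂ) : Q.invB z ⊆ closedBall 0 1 := fun _ hv => mem_closedBall_zero_iff.2 hv.1

theorem inv_W_open (g : G) : IsOpen (Q.W g) := by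
  obtain ⟨η, -, h⟩ := Q.lqs
  exact (h g).choose_spec.W_open

theorem invB_meas : MeasurableSet {p : ℂ × ℂ | p.2 ∈ Q.invB p.1} := by
  have := B.countable
  have e : {p : ℂ × ℂ | p.2 ∈ Q.invB p.1} = {p : ℂ × ℂ | ‖p.2‖ ≤ 1} ∩ ⋂ g, (Prod.fst ⁻¹' Q.W g)ᶜ ∪
      {p : ℂ × ℂ | ‖fderiv ℝ (Q.ψ g) p.1 p.2‖ ^ 2 ≤ |(fderiv ℝ (Q.ψ g) p.1).det|} := by
    ext p
    simp only [invB, mem_ofPred_eq, mem_inter_iff, mem_iInter, mem_union, mem_compl_iff,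
      mem_preimage, imp_iff_not_or]
  rw [e]
  refine (measurableSet_le (by fun_prop) measurable_const).inter (MeasurableSet.iInter fun g =>
    (measurable_fst (Q.inv_W_open g).measurableSet).compl.union (measurableSet_le ?_ ?_))
  · exact (ContinuousLinearMap.measurable_apply₂.comp
      (((measurable_fderiv ℝ _).comp measurable_fst).prodMk measurable_snd)).norm.pow_const 2
  · exact (ContinuousLinearMap.continuous_det.measurable.comp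
      ((measurable_fderiv ℝ _).comp measurable_fst)).abs

theorem invB_meas' (z : ℂ) : MeasurableSet (Q.invB z) := measurable_prodMk_left Q.invB_meas

theorem inv_meas_int {E : Type} [NormedAddCommGroup E] [NormedSpace ℝ E] {f : ℂ → E}
    (hf : Continuous f) : StronglyMeasurable fun z => ∫ v in Q.invB z, f v := by
  have h : StronglyMeasurable (indicator {p : ℂ × ℂ | p.2 ∈ Q.invB p.1} fun p => f p.2) :=
    (hf.comp continuous_snd).stronglyMeasurable.indicator Q.invB_meas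
  convert h.integral_prod_right' (ν := volume) using 2 with z
  rw [← integral_indicator (Q.invB_meas' z)]
  rfl

theorem inv_ball {η : ℝ → ℝ} (h : ∀ g, ∃ r, LQS η (Q.ψ g) (Q.ψ g⁻¹) (Q.W g) (Q.W g⁻¹) r) {g : G}
    {z : ℂ} (hz : z ∈ Q.W g) :
    ‖fderiv ℝ (Q.ψ g) z‖ ^ 2 ≤ max (η 1) 1 * |(fderiv ℝ (Q.ψ g) z).det| := by
  by_cases hd : DifferentiableAt ℝ (Q.ψ g) z
  · exact ((h g).choose_spec.norm_sq_le hz hd).trans
      (mul_le_mul_of_nonneg_right (le_max_left _ _) (abs_nonneg _))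
  · rw [fderiv_zero_of_not_differentiableAt hd, norm_zero, zero_pow two_ne_zero]
    positivity

theorem inv_ball_sub {η : ℝ → ℝ} (h : ∀ g, ∃ r, LQS η (Q.ψ g) (Q.ψ g⁻¹) (Q.W g) (Q.W g⁻¹) r)
    (z : ℂ) : ball 0 (max (η 1) 1)⁻¹ ⊆ Q.invB z := by
  intro v hv
  rw [mem_ball_zero_iff] at hv
  set K := max (η 1) 1 with hK
  have h1 : 1 ≤ K := le_max_right _ _
  have h2 : K⁻¹ ≤ 1 := inv_le_one_of_one_le₀ h1
  refine ⟨by linarith, fun g hz => ?_⟩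
  have h3 := Q.inv_ball h hz
  have h4 : K * ‖v‖ ^ 2 ≤ 1 := by
    have h5 : K * ‖v‖ ≤ 1 := by
      have := mul_le_mul_of_nonneg_left hv.le (by linarith : 0 ≤ K)
      rwa [mul_inv_cancel₀ (by linarith)] at this
    nlinarith [norm_nonneg v]
  calc ‖fderiv ℝ (Q.ψ g) z v‖ ^ 2 ≤ (‖fderiv ℝ (Q.ψ g) z‖ * ‖v‖) ^ 2 := by
        gcongr; exact ContinuousLinearMap.le_opNorm _ _
    _ ≤ K * |(fderiv ℝ (Q.ψ g) z).det| * ‖v‖ ^ 2 := by rw [mul_pow]; gcongr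
    _ = (K * ‖v‖ ^ 2) * |(fderiv ℝ (Q.ψ g) z).det| := by ring
    _ ≤ 1 * |(fderiv ℝ (Q.ψ g) z).det| := by gcongr
    _ = _ := one_mul _

theorem mem_invB {z : ℂ} (hz : z ∈ ball (0 : ℂ) 1) {v : ℂ} : v ∈ Q.invB z ↔ ∀ g, z ∈ Q.W g →
    ‖fderiv ℝ (Q.ψ g) z v‖ ^ 2 ≤ |(fderiv ℝ (Q.ψ g) z).det| := by
  refine ⟨fun h => h.2, fun h => ⟨?_, h⟩⟩
  have h1 := h 1 (Q.ψ_one hz).1
  have e : Q.ψ 1 =ᶠ[𝓝 z] id :=
    Filter.mem_of_superset (isOpen_ball.mem_nhds hz) fun w hw => (Q.ψ_one hw).2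
  rw [e.fderiv_eq, fderiv_id] at h1
  have e2 : (ContinuousLinearMap.id ℝ ℂ).det = 1 := LinearMap.det_id
  rw [e2, abs_one, ContinuousLinearMap.id_apply] at h1
  nlinarith [norm_nonneg v]

/-- good points -/
def invE (z : ℂ) : Prop := ∀ g, z ∈ Q.W g → DifferentiableAt ℝ (Q.ψ g) z ∧
  DifferentiableAt ℝ (Q.ψ g⁻¹) (Q.ψ g z) ∧ (fderiv ℝ (Q.ψ g) z).det ≠ 0

theorem inv_ae : ∀ᵐ z ∂(volume : Measure ℂ), Q.invE z := by
  have := B.countable
  obtain ⟨η, hη, h⟩ := Q.lqs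
  refine ae_all_iff.2 fun g => ?_
  obtain ⟨r, hr⟩ := h g
  obtain ⟨r', hr'⟩ := h g⁻¹
  rw [inv_inv] at hr'
  exact hr.ae_both hη hr'

variable {Q}

theorem inv_chain {z : ℂ} (hE : Q.invE z) {g0 g : G} (hz : z ∈ Q.W g0) (hg : z ∈ Q.W (g * g0)) :
    fderiv ℝ (Q.ψ (g * g0)) z = (fderiv ℝ (Q.ψ g) (Q.ψ g0 z)).comp (fderiv ℝ (Q.ψ g0) z) := by
  obtain ⟨η, -, h⟩ := Q.lqs
  obtain ⟨r, hr⟩ := h g0
  have h1 : Q.ψ g =ᶠ[𝓝 (Q.ψ g0 z)] Q.ψ (g * g0) ∘ Q.ψ g0⁻¹ :=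
    Filter.mem_of_superset (hr.W'_open.mem_nhds (hr.maps hz)) fun w hw => by
      have := Q.ψ_mul (g := g * g0) hw
      rw [mul_inv_cancel_right] at this
      exact this
  have h2 : DifferentiableAt ℝ (Q.ψ g) (Q.ψ g0 z) := by
    refine DifferentiableAt.congr_of_eventuallyEq ?_ h1
    refine DifferentiableAt.comp _ ?_ (hE g0 hz).2.1
    rw [hr.linv z hz]
    exact (hE _ hg).1
  have h3 : Q.ψ (g * g0) =ᶠ[𝓝 z] Q.ψ g ∘ Q.ψ g0 :=
    Filter.mem_of_superset (hr.W_open.mem_nhds hz) fun w hw => Q.ψ_mul hw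
  rw [h3.fderiv_eq, fderiv_comp z h2 (hE g0 hz).1]

theorem inv_image {z : ℂ} (hE : Q.invE z) {g0 : G} (hz : z ∈ Q.W g0) :
    Q.invB (Q.ψ g0 z) =
      ((√|(fderiv ℝ (Q.ψ g0) z).det|)⁻¹ • fderiv ℝ (Q.ψ g0) z) '' Q.invB z := by
  obtain ⟨η, -, h⟩ := Q.lqs
  obtain ⟨r, hr⟩ := h g0
  set T := fderiv ℝ (Q.ψ g0) z with hT
  have hd : 0 < |T.det| := abs_pos.2 (hE g0 hz).2.2
  have hq := Real.sq_sqrt hd.le
  have hq0 := Real.sqrt_pos.2 hd
  have key : ∀ v, ((√|T.det|)⁻¹ • T) v ∈ Q.invB (Q.ψ g0 z) ↔ v ∈ Q.invB z := by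
    intro v
    rw [Q.mem_invB (hr.maps hz).1, Q.mem_invB hz.1]
    have k2 : ∀ g, z ∈ Q.W (g * g0) → (‖fderiv ℝ (Q.ψ g) (Q.ψ g0 z) (((√|T.det|)⁻¹ • T) v)‖ ^ 2 ≤
        |(fderiv ℝ (Q.ψ g) (Q.ψ g0 z)).det| ↔
        ‖fderiv ℝ (Q.ψ (g * g0)) z v‖ ^ 2 ≤ |(fderiv ℝ (Q.ψ (g * g0)) z).det|) := by
      intro g hg
      rw [inv_chain hE hz hg, inv_det_comp, abs_mul, ← hT, ContinuousLinearMap.comp_apply,
        smul_apply, map_smul, norm_smul, norm_inv, Real.norm_of_nonneg hq0.le,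
        mul_pow, inv_pow, hq, inv_mul_le_iff₀ hd, mul_comm]
    constructor
    · intro H g hg
      have hg' : z ∈ Q.W (g * g0⁻¹ * g0) := by rwa [inv_mul_cancel_right]
      have := (k2 _ hg').1 (H _ ((Q.mem_W_mul hz).1 hg'))
      rwa [inv_mul_cancel_right] at this
    · intro H g hg
      have hg' := (Q.mem_W_mul hz).2 hg
      exact (k2 _ hg').2 (H _ hg')
  have hb : Function.Bijective ((√|T.det|)⁻¹ • T) := inv_bij (by
    rw [inv_det_smul]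
    exact mul_ne_zero (pow_ne_zero _ (inv_ne_zero hq0.ne')) (hE g0 hz).2.2)
  ext w
  obtain ⟨v, rfl⟩ := hb.2 w
  rw [key, hb.1.mem_set_image]

theorem inv_change {z : ℂ} (hE : Q.invE z) {g0 : G} (hz : z ∈ Q.W g0) (A : ℂ ≃L[ℝ] ℂ) :
    (|(fderiv ℝ (Q.ψ g0) z).det| : ℝ) * ∫ v in Q.invB (Q.ψ g0 z), A v ^ 2 =
      pa (cj A (fderiv ℝ (Q.ψ g0) z)) ^ 2 * (∫ v in Q.invB z, A v ^ 2) +
      2 * pa (cj A (fderiv ℝ (Q.ψ g0) z)) * pb (cj A (fderiv ℝ (Q.ψ g0) z)) *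
        ((∫ v in Q.invB z, ‖A v‖ ^ 2 : ℝ) : ℂ) +
      pb (cj A (fderiv ℝ (Q.ψ g0) z)) ^ 2 * conj (∫ v in Q.invB z, A v ^ 2) := by
  rw [inv_image hE hz, ← inv_sq (Q.invB_sub z) A.continuous]
  set T := fderiv ℝ (Q.ψ g0) z with hT
  have hd : 0 < |T.det| := abs_pos.2 (hE g0 hz).2.2
  have hq := Real.sq_sqrt hd.le
  have hq0 := Real.sqrt_pos.2 hd
  have h1 : |((√|T.det|)⁻¹ • T).det| = 1 := by
    rw [inv_det_smul, abs_mul, inv_pow, hq, abs_of_pos (inv_pos.2 hd), inv_mul_cancel₀ hd.ne']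
  have hb : Function.Bijective ((√|T.det|)⁻¹ • T) := inv_bij (by
    intro h0; rw [h0, abs_zero] at h1; exact zero_ne_one h1)
  rw [integral_image_eq_integral_abs_det_fderiv_smul volume (Q.invB_meas' z)
    (fun x _ => ((√|T.det|)⁻¹ • T).hasFDerivAt.hasFDerivWithinAt) hb.1.injOn, ← integral_const_mul]
  refine integral_congr_ae (Eventually.of_forall fun v => ?_)
  have h2 : pa (cj A T) * A v + pb (cj A T) * conj (A v) = A (T v) := by
    rw [← pab]; simp [cj]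
  have h3 : ((√|T.det| : ℝ) : ℂ) ^ 2 = (|T.det| : ℝ) := by exact_mod_cast hq
  have h4 : ((√|T.det| : ℝ) : ℂ) ≠ 0 := by exact_mod_cast hq0.ne'
  simp only [h1, one_smul, h2, smul_apply, map_smul]
  rw [← h3, Complex.real_smul]
  push_cast
  field_simp

end QSC

theorem QSC.inv {B : BD G X} (Q : QSC B) : ∃ z0 ∈ ball (0 : ℂ) 1, ∃ (A : ℂ ≃L[ℝ] ℂ)
    (err : ℂ → ℝ), Measurable err ∧ (∀ z, 0 ≤ err z) ∧
    Tendsto (fun s : ℝ => (∫⁻ z in closedBall z0 s, ENNReal.ofReal (err z)) /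
      volume (closedBall z0 s)) (𝓝[>] 0) (𝓝 0) ∧
    ∀ g : G, ∀ᵐ z ∂(volume : Measure ℂ), z ∈ Q.W g → DifferentiableAt ℝ (Q.ψ g) z ∧
      (fderiv ℝ (Q.ψ g) z).det ≠ 0 ∧
      ‖pa (cj A (fderiv ℝ (Q.ψ g) z))‖ * ‖pb (cj A (fderiv ℝ (Q.ψ g) z))‖ ≤
        (err z + err (Q.ψ g z)) * |(fderiv ℝ (Q.ψ g) z).det| := by
  obtain ⟨η, -, h⟩ := Q.lqs
  set K := max (η 1) 1 with hK
  have hK1 : 1 ≤ K := le_max_right _ _
  have hρ : 0 < K⁻¹ := inv_pos.2 (by linarith)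
  let m : ℂ → ℂ × ℝ := fun z => (∫ v in Q.invB z, v ^ 2, ∫ v in Q.invB z, ‖v‖ ^ 2)
  have hm : StronglyMeasurable m :=
    (Q.inv_meas_int (by fun_prop)).prodMk (Q.inv_meas_int (by fun_prop))
  have hb : ∀ z, ‖m z‖ ≤ ∫ v in closedBall (0 : ℂ) 1, ‖v‖ ^ 2 := fun z => by
    have h1 : ∫ v in Q.invB z, ‖v‖ ^ 2 ≤ ∫ v in closedBall (0 : ℂ) 1, ‖v‖ ^ 2 :=
      setIntegral_mono_set (inv_int subset_rfl (by fun_prop))
        (Eventually.of_forall fun v => by positivity) (Q.invB_sub z).eventuallyLE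
    have h2 := inv_lt (Q.invB_sub z) hρ (Q.inv_ball_sub h z)
    refine max_le (h2.le.trans h1) ?_
    rw [Real.norm_of_nonneg ((norm_nonneg _).trans h2.le)]
    exact h1
  have hloc : LocallyIntegrable m volume :=
    (memLp_top_of_bound hm.aestronglyMeasurable _ (Eventually.of_forall hb)).locallyIntegrable
      le_top
  obtain ⟨z0, hz0, hL⟩ : ∃ z0 ∈ ball (0 : ℂ) 1, Tendsto (fun a => (∫⁻ y in a, ‖m y - m z0‖ₑ) /
      volume a) ((Besicovitch.vitaliFamily volume).filterAt z0) (𝓝 0) :=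
    Measure.exists_mem_of_measure_ne_zero_of_ae (measure_ball_pos volume _ one_pos).ne'
      (ae_restrict_of_ae ((Besicovitch.vitaliFamily volume).ae_tendsto_lintegral_enorm_sub_div hloc))
  obtain ⟨k, hk, hk0⟩ := inv_k (inv_lt (Q.invB_sub z0) hρ (Q.inv_ball_sub h z0))
  obtain ⟨A, hA⟩ := inv_A hk
  have hA2 : ∀ z, ‖∫ v in Q.invB z, A v ^ 2‖ ≤ 4 * ‖m z - m z0‖ := fun z => by
    have e := inv_sq (Q.invB_sub z) continuous_id 1 k
    simp only [id, ← hA] at e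
    have e2 : ∫ v in Q.invB z, A v ^ 2 = (m z - m z0).1 + 2 * k * ((m z - m z0).2 : ℝ) +
        k ^ 2 * conj (m z - m z0).1 := by
      rw [e]
      simp only [m, Prod.fst_sub, Prod.snd_sub, map_sub, Complex.ofReal_sub]
      linear_combination hk0
    rw [e2]
    have h1 := norm_fst_le (m z - m z0)
    have h2 := norm_snd_le (m z - m z0)
    refine (norm_add₃_le).trans ?_
    rw [norm_mul, norm_mul, norm_mul, norm_pow, Complex.norm_conj, Complex.norm_real,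
      Complex.norm_two]
    have h3 := norm_nonneg k
    have h4 : ‖k‖ * ‖(m z - m z0).2‖ ≤ 1 * ‖m z - m z0‖ := by gcongr
    have h5 : ‖k‖ ^ 2 * ‖(m z - m z0).1‖ ≤ 1 * ‖m z - m z0‖ := by gcongr; nlinarith
    nlinarith
  have hv : ((K⁻¹ / 2 : ℝ) : ℂ) ∈ ball (0 : ℂ) K⁻¹ := by
    rw [mem_ball_zero_iff, Complex.norm_real, Real.norm_of_nonneg] <;> linarith
  have hc := fun z => inv_ipos (Q.invB_sub z) (Q.inv_ball_sub h z)
    (f := fun v => ‖A v‖ ^ 2) (by fun_prop) (fun v => by positivity) hv (by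
      have : ((K⁻¹ / 2 : ℝ) : ℂ) ≠ 0 := by exact_mod_cast (half_pos hρ).ne'
      simpa using this)
  set c := ∫ w in ball (0 : ℂ) K⁻¹, ‖A w‖ ^ 2 with hcd
  have hc0 : 0 < c := (hc 0).1
  set L := (‖(A : ℂ →L[ℝ] ℂ)‖ * ‖(A.symm : ℂ →L[ℝ] ℂ)‖) ^ 2 * K with hLd
  have hL0 : 0 ≤ L := by positivity
  set C := 2 * (1 + L) / c with hC
  have hC0 : 0 ≤ C := by positivity
  refine ⟨z0, hz0, A, fun z => C * ‖m z - m z0‖,
    (hm.measurable.sub_const _).norm.const_mul _, fun z => by positivity, ?_, fun g => ?_⟩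
  · have h1 := ENNReal.Tendsto.const_mul (a := ENNReal.ofReal C)
      (hL.comp (Besicovitch.tendsto_filterAt volume z0)) (Or.inr ENNReal.ofReal_ne_top)
    rw [mul_zero] at h1
    refine h1.congr fun s => ?_
    simp only [Function.comp, ENNReal.ofReal_mul hC0, ofReal_norm]
    rw [lintegral_const_mul' _ _ ENNReal.ofReal_ne_top, mul_div_assoc]
  · filter_upwards [Q.inv_ae] with z hE hz
    refine ⟨(hE g hz).1, (hE g hz).2.2, ?_⟩
    have e := QSC.inv_change hE hz A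
    have h3 := Q.inv_ball h hz
    set T := fderiv ℝ (Q.ψ g) z with hT
    set a := pa (cj A T) with ha
    set b := pb (cj A T) with hb
    have hab : ‖a‖ ^ 2 + ‖b‖ ^ 2 ≤ L * |T.det| := by
      have h1 : ‖a‖ + ‖b‖ ≤ ‖(A : ℂ →L[ℝ] ℂ)‖ * (‖T‖ * ‖(A.symm : ℂ →L[ℝ] ℂ)‖) := by
        rw [← norm_pab]
        refine (ContinuousLinearMap.opNorm_comp_le _ _).trans ?_
        gcongr
        exact ContinuousLinearMap.opNorm_comp_le _ _
      calc ‖a‖ ^ 2 + ‖b‖ ^ 2 ≤ (‖a‖ + ‖b‖) ^ 2 := by nlinarith [norm_nonneg a, norm_nonneg b]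
        _ ≤ (‖(A : ℂ →L[ℝ] ℂ)‖ * (‖T‖ * ‖(A.symm : ℂ →L[ℝ] ℂ)‖)) ^ 2 := by gcongr
        _ = (‖(A : ℂ →L[ℝ] ℂ)‖ * ‖(A.symm : ℂ →L[ℝ] ℂ)‖) ^ 2 * ‖T‖ ^ 2 := by ring
        _ ≤ (‖(A : ℂ →L[ℝ] ℂ)‖ * ‖(A.symm : ℂ →L[ℝ] ℂ)‖) ^ 2 * (K * |T.det|) := by gcongr
        _ = _ := by rw [hLd]; ring
    set M := ∫ v in Q.invB z, A v ^ 2 with hM
    set M' := ∫ v in Q.invB (Q.ψ g z), A v ^ 2 with hM'
    have h0 := (hc z).2
    set M0 := ∫ v in Q.invB z, ‖A v‖ ^ 2 with hM0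
    have e2 : 2 * a * b * (M0 : ℂ) = (|T.det| : ℝ) * M' - a ^ 2 * M - b ^ 2 * conj M := by
      linear_combination -e
    have h4 : 2 * ‖a‖ * ‖b‖ * M0 ≤ |T.det| * ‖M'‖ + (‖a‖ ^ 2 + ‖b‖ ^ 2) * ‖M‖ := by
      have h5 := congrArg norm e2
      rw [norm_mul, norm_mul, norm_mul, Complex.norm_two, Complex.norm_real,
        Real.norm_of_nonneg (hc0.le.trans h0)] at h5
      rw [h5]
      refine ((norm_sub_le _ _).trans (add_le_add_left (norm_sub_le _ _) _)).trans ?_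
      rw [norm_mul, norm_mul, norm_mul, norm_pow, norm_pow, Complex.norm_conj, Complex.norm_real,
        Real.norm_of_nonneg (abs_nonneg _)]
      linarith
    have h6 := hA2 z
    have h7 := hA2 (Q.ψ g z)
    rw [← hM] at h6
    rw [← hM'] at h7
    set x := ‖m z - m z0‖ with hx
    set y := ‖m (Q.ψ g z) - m z0‖ with hy
    have hx0 : 0 ≤ x := norm_nonneg _
    have hy0 : 0 ≤ y := norm_nonneg _
    have hd := abs_nonneg T.det
    have h8 : 2 * (‖a‖ * ‖b‖) * c ≤ |T.det| * (4 * y) + L * |T.det| * (4 * x) := by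
      calc 2 * (‖a‖ * ‖b‖) * c ≤ 2 * (‖a‖ * ‖b‖) * M0 := by gcongr
        _ ≤ |T.det| * ‖M'‖ + (‖a‖ ^ 2 + ‖b‖ ^ 2) * ‖M‖ := by linarith
        _ ≤ _ := by gcongr
    have e3 : (C * x + C * y) * |T.det| = (2 * (1 + L) * (x + y) * |T.det|) / c := by
      rw [hC]; ring
    rw [e3, le_div_iff₀ hc0]
    nlinarith [mul_nonneg hd hx0, mul_nonneg hL0 (mul_nonneg hd hy0)]

end Vale.Agent.P198
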