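import Vale.Agent.P198.Blow
import Vale.Agent.P198.Inv
import Vale.Agent.P198.Conf

/-! The group acts by Moebius and anti-Moebius maps. -/

namespace Vale.Agent.P198

open Set Filter Topology Metric MeasureTheory
open scoped Classical ComplexConjugate

theorem holo_det (A : ℂ ≃L[ℝ] ℂ) (T : ℂ →L[ℝ] ℂ) : (cj A T).det = T.det :=
  LinearMap.det_conj (T : ℂ →ₗ[ℝ] ℂ) A.toLinearEquiv

theorem holo_fderiv (A : ℂ ≃L[ℝ] ℂ) (z0 : ℂ) {s : ℝ} (hs : 0 < s) {ψ : ℂ → ℂ} {w : ℂ}
    (h : DifferentiableAt ℝ ψ (dn A z0 s w)) :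
    HasFDerivAt (fun w => up A z0 s (ψ (dn A z0 s w))) (cj A (fderiv ℝ ψ (dn A z0 s w))) w := by
  have h1 : HasFDerivAt (dn A z0 s) (s • (A.symm : ℂ →L[ℝ] ℂ)) w :=
    ((A.symm : ℂ →L[ℝ] ℂ).hasFDerivAt.const_smul s).const_add z0
  have h2 : ∀ z, HasFDerivAt (up A z0 s) (s⁻¹ • (A : ℂ →L[ℝ] ℂ)) z := fun z => by
    have := (((A : ℂ →L[ℝ] ℂ).hasFDerivAt (x := z - z0)).comp z
      ((hasFDerivAt_id z).sub_const z0)).const_smul s⁻¹
    rw [ContinuousLinearMap.comp_id] at this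
    exact this
  have h3 := (h2 _).comp w (h.hasFDerivAt.comp w h1)
  refine h3.congr_fderiv (ContinuousLinearMap.ext fun v => ?_)
  simp only [cj, ContinuousLinearMap.comp_apply, smul_apply, map_smul, smul_smul,
    mul_inv_cancel₀ hs.ne', one_smul]

theorem holo_map (A : ℂ ≃L[ℝ] ℂ) (z0 : ℂ) {s : ℝ} (hs : 0 < s) :
    Measurable (dn A z0 s) ∧ ∃ κ : ENNReal, Measure.map (dn A z0 s) volume = κ • volume := by
  have hc : Continuous (dn A z0 s) := by unfold dn; fun_prop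
  refine ⟨hc.measurable, ?_⟩
  let L : ℂ →L[ℝ] ℂ := s • (A.symm : ℂ →L[ℝ] ℂ)
  have hL : LinearMap.det (L : ℂ →ₗ[ℝ] ℂ) ≠ 0 := by
    refine (inv_det_smul s (A.symm : ℂ →L[ℝ] ℂ)).trans_ne (mul_ne_zero (pow_ne_zero _ hs.ne') ?_)
    exact (LinearEquiv.isUnit_det' A.symm.toLinearEquiv).ne_zero
  have h1 := Measure.map_linearMap_addHaar_eq_smul_addHaar (volume : Measure ℂ) hL
  refine ⟨ENNReal.ofReal |(LinearMap.det (L : ℂ →ₗ[ℝ] ℂ))⁻¹|, ?_⟩
  have e : dn A z0 s = (fun z => z0 + z) ∘ (L : ℂ →ₗ[ℝ] ℂ) := rfl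
  have hL' : Measurable (L : ℂ →ₗ[ℝ] ℂ) := L.continuous.measurable
  rw [e, ← Measure.map_map (measurable_const_add z0) hL', h1, Measure.map_smul,
    map_add_left_eq_self]

theorem holo_err (A : ℂ ≃L[ℝ] ℂ) (z0 : ℂ) {err : ℂ → ℝ} (hm : Measurable err)
    (he : Tendsto (fun s : ℝ => (∫⁻ z in closedBall z0 s, ENNReal.ofReal (err z)) /
      volume (closedBall z0 s)) (𝓝[>] 0) (𝓝 0)) {s : ℕ → ℝ} (hs : ∀ i, 0 < s i)
    (hl : Tendsto s atTop (𝓝 0)) (ρ : ℝ) :
    Tendsto (fun i => ∫⁻ z in ball (0 : ℂ) ρ, ENNReal.ofReal (err (dn A z0 (s i) z))) atTop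
      (𝓝 0) := by
  obtain ⟨R, hR, hb⟩ := ((isCompact_closedBall (0 : ℂ) ρ).image
    A.symm.continuous).isBounded.subset_closedBall_lt 0 0
  have hfin : volume (A.symm ⁻¹' closedBall (0 : ℂ) R) ≠ ⊤ := by
    rw [← A.image_eq_preimage_symm]
    exact ((isCompact_closedBall _ _).image A.continuous).measure_lt_top.ne
  have h1 : Tendsto (fun i => s i * R) atTop (𝓝[>] 0) :=
    tendsto_nhdsWithin_iff.2 ⟨by simpa using hl.mul_const R,
      Eventually.of_forall fun i => mul_pos (hs i) hR⟩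
  have h2 := ENNReal.Tendsto.const_mul (he.comp h1) (Or.inr hfin)
  rw [mul_zero] at h2
  refine tendsto_of_tendsto_of_tendsto_of_le_of_le tendsto_const_nhds h2 (fun i => zero_le)
    fun i => ?_
  obtain ⟨hd, κ, hκ⟩ := holo_map A z0 (hs i)
  have e : dn A z0 (s i) ⁻¹' closedBall z0 (s i * R) = A.symm ⁻¹' closedBall 0 R := by
    ext w
    simp only [mem_preimage, dn, mem_closedBall_iff_norm, add_sub_cancel_left, norm_smul,
      Real.norm_of_nonneg (hs i).le, sub_zero, mul_le_mul_iff_right₀ (hs i)]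
  have e2 : volume (A.symm ⁻¹' closedBall (0 : ℂ) R) = κ * volume (closedBall z0 (s i * R)) := by
    rw [← e, ← Measure.map_apply hd measurableSet_closedBall, hκ, Measure.smul_apply, smul_eq_mul]
  calc ∫⁻ z in ball (0 : ℂ) ρ, ENNReal.ofReal (err (dn A z0 (s i) z))
      ≤ ∫⁻ z in dn A z0 (s i) ⁻¹' closedBall z0 (s i * R),
          ENNReal.ofReal (err (dn A z0 (s i) z)) := by
        refine lintegral_mono_set fun w hw => ?_
        rw [e]
        exact hb ⟨w, ball_subset_closedBall hw, rfl⟩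
    _ = κ * ∫⁻ z in closedBall z0 (s i * R), ENNReal.ofReal (err z) := by
        rw [← setLIntegral_map measurableSet_closedBall hm.ennreal_ofReal hd, hκ,
          Measure.restrict_smul, lintegral_smul_measure, smul_eq_mul]
    _ = _ := by
        rw [e2, Function.comp, mul_assoc, ENNReal.mul_div_cancel
          (measure_closedBall_pos _ _ (mul_pos (hs i) hR)).ne' measure_closedBall_lt_top.ne]

theorem holo_both {k : ℂ → ℂ} {u : ℂ} (h1 : DifferentiableAt ℂ k u)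
    (h2 : DifferentiableAt ℂ (fun z => conj (k z)) u) : deriv k u = 0 := by
  have a1 := (Complex.conjCLE : ℂ →L[ℝ] ℂ).hasFDerivAt.comp u
    (h1.hasDerivAt.hasFDerivAt.restrictScalars ℝ)
  have a2 := h2.hasDerivAt.hasFDerivAt.restrictScalars ℝ
  have e := a1.unique a2
  have e1 := congrArg (fun T : ℂ →L[ℝ] ℂ => T 1) e
  have e2 := congrArg (fun T : ℂ →L[ℝ] ℂ => T Complex.I) e
  simp at e1 e2
  rw [← e1] at e2
  have : conj (deriv k u) = 0 := by
    have h3 : Complex.I * conj (deriv k u) = 0 := by linear_combination (-1 / 2) * e2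
    exact (mul_eq_zero.1 h3).resolve_left Complex.I_ne_zero
  simpa using this

theorem holo_global {k : ℂ → ℂ} {Ω : Set ℂ} (ho : IsOpen Ω) (hc : IsPreconnected Ω)
    (hi : InjOn k Ω) (h : ∀ w ∈ Ω, ∃ ε, 0 < ε ∧ (DifferentiableOn ℂ k (ball w ε) ∨
      DifferentiableOn ℂ (fun z => conj (k z)) (ball w ε))) :
    DifferentiableOn ℂ k Ω ∨ DifferentiableOn ℂ (fun z => conj (k z)) Ω := by
  have hd : Disjoint (Ω ∩ {w | ∀ᶠ u in 𝓝 w, DifferentiableAt ℂ k u})
      (Ω ∩ {w | ∀ᶠ u in 𝓝 w, DifferentiableAt ℂ (fun z => conj (k z)) u}) := by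
    rw [Set.disjoint_left]
    rintro w ⟨hw, h1⟩ ⟨-, h2⟩
    obtain ⟨ε, hε, hb⟩ := Metric.eventually_nhds_iff_ball.1 ((h1.and h2).and (ho.mem_nhds hw))
    have hm : w + ((ε / 2 : ℝ) : ℂ) ∈ ball w ε := by
      rw [mem_ball_iff_norm, add_sub_cancel_left, Complex.norm_real, Real.norm_of_nonneg] <;>
        linarith
    have h3 := isOpen_ball.is_const_of_deriv_eq_zero (convex_ball w ε).isPreconnected
      (fun u hu => (hb u hu).1.1.differentiableWithinAt)
      (fun u hu => holo_both (hb u hu).1.1 (hb u hu).1.2) hm (mem_ball_self hε)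
    have h4 := hi (hb _ hm).2 hw h3
    rw [add_eq_left] at h4
    have h5 : (ε / 2 : ℝ) = 0 := by exact_mod_cast h4
    linarith
  rcases hc.subset_or_subset (ho.inter isOpen_setOfPred_eventually_nhds)
    (ho.inter isOpen_setOfPred_eventually_nhds) hd (fun w hw => by
      obtain ⟨ε, hε, h1 | h1⟩ := h w hw
      · exact Or.inl ⟨hw, h1.eventually_differentiableAt (ball_mem_nhds w hε)⟩
      · exact Or.inr ⟨hw, h1.eventually_differentiableAt (ball_mem_nhds w hε)⟩) with h1 | h1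
  · exact Or.inl fun w hw => (h1 hw).2.self_of_nhds.differentiableWithinAt
  · exact Or.inr fun w hw => (h1 hw).2.self_of_nhds.differentiableWithinAt

variable {G : Type*} [Group G] {X : Type} [MetricSpace X] [MulAction G X]

theorem QSC.holo {B : BD G X} (Q : QSC B) :
    ∃ F : X ≃ₜ OnePoint ℂ, ∀ g : G, IsMob fun x => F (g • F.symm x) := by
  obtain ⟨z0, hz0, A, err, hm, h0, he, hae⟩ := Q.inv
  obtain ⟨F, s, p, hs, hl, hF⟩ := Q.blow hz0 A
  obtain ⟨η, hη, hq⟩ := Q.lqs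
  obtain ⟨η', -, hq'⟩ := lqs_up hη A
  refine ⟨F, fun g => ?_⟩
  let τ : X ≃ₜ X := ⟨MulAction.toPerm g, B.cont g, B.cont g⁻¹⟩
  let θ : OnePoint ℂ ≃ₜ OnePoint ℂ := (F.symm.trans τ).trans F
  have hθ : ∀ x, θ x = F (g • F.symm x) := fun x => rfl
  let k : ℂ → ℂ := fun w => (θ w).elim 0 id
  have hk : ∀ w : ℂ, θ w ≠ OnePoint.infty → θ w = (k w : ℂ) := fun w hw => by
    obtain ⟨u, hu⟩ := OnePoint.ne_infty_iff_exists.1 hw
    simp only [k, ← hu, OnePoint.elim_some, id]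
  have ho : IsOpen {w : ℂ | θ w ≠ OnePoint.infty} :=
    OnePoint.isClosed_infty.isOpen_compl.preimage (θ.continuous.comp OnePoint.continuous_coe)
  refine isMob_of_holo θ hk (holo_global ho ?_ (fun w hw w' hw' e => ?_) fun w hw => ?_)
  · have h1 : ({w : ℂ | θ w = OnePoint.infty}).Subsingleton := fun w hw w' hw' =>
      OnePoint.coe_injective (θ.injective (hw.trans hw'.symm))
    exact (h1.countable.isPathConnected_compl_of_one_lt_rank
      (Complex.rank_real_complex ▸ Nat.one_lt_ofNat)).isConnected.isPreconnected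
  · exact OnePoint.coe_injective (θ.injective (by rw [hk w hw, hk w' hw', e]))
  obtain ⟨ε, hε, hC⟩ := Metric.nhds_basis_closedBall.mem_iff.1 (ho.mem_nhds hw)
  obtain ⟨h1, k', hc, hk', hu⟩ := hF g (closedBall w ε) (isCompact_closedBall _ _) hC
  have hkk : ∀ u ∈ ball w ε, k u = k' u := fun u hu =>
    OnePoint.coe_injective ((hk u (hC (ball_subset_closedBall hu))).symm.trans
      (hk' u (ball_subset_closedBall hu)))
  obtain ⟨ρ, hρ⟩ := (((isCompact_closedBall w ε).union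
    ((isCompact_closedBall w ε).image_of_continuousOn hc)).isBounded.subset_ball 0)
  have key := conf (η := η') (hyperfilter ℕ)
    (h := fun i w => up A z0 (s i) (Q.ψ (p i * g * (p i)⁻¹) (dn A z0 (s i) w)))
    (err := fun i z => err (dn A z0 (s i) z)) (k := k') (c := w) (s := ε) (ρ := ρ + 1)
    (fun i => hm.comp (holo_map A z0 (hs i)).1) (fun i z => h0 _)
    ((holo_err A z0 hm he hs hl _).mono_left Nat.hyperfilter_le_atTop)
    (fun u hu => ball_subset_ball (by linarith) (hρ (Or.inl (ball_subset_closedBall hu)))) ?_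
    (hu.mono ball_subset_closedBall)
  · refine ⟨ε, hε, key.imp (fun h => h.congr hkk) fun h => h.congr fun u hu => ?_⟩
    rw [hkk u hu]
  filter_upwards [h1, Metric.tendstoUniformlyOn_iff.1 hu 1 one_pos] with i hi hi2
  obtain ⟨r, hr⟩ := hq (p i * g * (p i)⁻¹)
  obtain ⟨r', hr'⟩ := hq' _ _ _ _ _ z0 (s i) (hs i) hr
  refine ⟨⟨_, _, _, r', hr', fun u hu => hi u (ball_subset_closedBall hu)⟩, fun u hu => ?_, ?_⟩
  · have h2 := hi2 u (ball_subset_closedBall hu)
    have h3 := hρ (Or.inr ⟨u, ball_subset_closedBall hu, rfl⟩)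
    rw [mem_ball] at h3 ⊢
    linarith [dist_triangle_left (up A z0 (s i) (Q.ψ (p i * g * (p i)⁻¹) (dn A z0 (s i) u))) 0
      (k' u)]
  · obtain ⟨hd, κ, hκ⟩ := holo_map A z0 (hs i)
    have hqm : Measure.QuasiMeasurePreserving (dn A z0 (s i)) volume volume :=
      ⟨hd, hκ ▸ Measure.smul_absolutelyContinuous⟩
    filter_upwards [hqm.ae (hae (p i * g * (p i)⁻¹))] with u hu hub
    obtain ⟨a1, a2, a3⟩ := hu (hi u (ball_subset_closedBall hub))
    have h2 := holo_fderiv A z0 (hs i) a1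
    rw [h2.fderiv, holo_det, dn_up A z0 (hs i)]
    exact ⟨h2.differentiableAt, a2, a3⟩

end Vale.Agent.P198
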