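import Vale.Agent.P198.Stmt
import Vale.Agent.P198.Defs

/-! Extension of Moebius maps to isometries of hyperbolic space. -/

namespace Vale.Agent.P198

open Set Filter Topology Metric MeasureTheory
open scoped Classical

/-- the Hermitian form of a point of upper half space -/
noncomputable def qf (p : H3) (v : Fin 2 → ℂ) : ℝ :=
  (‖v 0 - p.1.1 * v 1‖ ^ 2 + p.1.2 ^ 2 * ‖v 1‖ ^ 2) / p.1.2

/-- squared visual distance seen from `p` -/
noncomputable def chord (p : H3) (x y : OnePoint ℂ) : ℝ :=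
  ‖vec x 0 * vec y 1 - vec x 1 * vec y 0‖ ^ 2 / (qf p (vec x) * qf p (vec y))

theorem hypE_qf_pos (p : H3) {v : Fin 2 → ℂ} (hv : v ≠ 0) : 0 < qf p v := by
  have ht := p.2
  refine div_pos ?_ ht
  by_cases h1 : v 1 = 0
  · have h0 : v 0 ≠ 0 := fun h0 => hv (by ext i; fin_cases i <;> simp [h0, h1])
    have : 0 < ‖v 0‖ := norm_pos_iff.2 h0
    rw [h1]; simp; positivity
  · have : 0 < ‖v 1‖ := norm_pos_iff.2 h1
    positivity

theorem hypE_vec_ne (x : OnePoint ℂ) : vec x ≠ 0 := by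
  induction x using OnePoint.rec with
  | infty => intro h; exact one_ne_zero (congrFun h 0)
  | coe z => intro h; exact one_ne_zero (congrFun h 1)

theorem qf_vec_pos (p : H3) (x : OnePoint ℂ) : 0 < qf p (vec x) :=
  hypE_qf_pos p (hypE_vec_ne x)

theorem hypE_nsq (z : ℂ) : ((‖z‖ : ℂ)) ^ 2 = z * (starRingEnd ℂ) z := by
  rw [Complex.mul_conj, Complex.normSq_eq_norm_sq]; push_cast; rfl

/-- first coefficient -/
noncomputable def hypA (p : H3) : ℂ := 1 / p.1.2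
/-- second coefficient -/
noncomputable def hypB (p : H3) : ℂ := - (starRingEnd ℂ) p.1.1 / p.1.2
/-- third coefficient -/
noncomputable def hypC (p : H3) : ℂ := (p.1.1 * (starRingEnd ℂ) p.1.1 + p.1.2 ^ 2) / p.1.2

theorem hypE_qf_eq (p : H3) (v : Fin 2 → ℂ) : (qf p v : ℂ) =
    hypA p * v 0 * (starRingEnd ℂ) (v 0) + hypB p * v 0 * (starRingEnd ℂ) (v 1) +
      (starRingEnd ℂ) (hypB p) * v 1 * (starRingEnd ℂ) (v 0) +
        hypC p * v 1 * (starRingEnd ℂ) (v 1) := by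
  have ht : (p.1.2 : ℂ) ≠ 0 := by exact_mod_cast p.2.ne'
  simp only [qf, hypA, hypB, hypC]
  push_cast
  simp only [hypE_nsq, map_sub, map_mul, map_div₀, map_neg, Complex.conj_conj, Complex.conj_ofReal]
  field_simp
  ring

theorem hypE_arg (p q : H3) :
    ((1 + (‖p.1.1 - q.1.1‖ ^ 2 + (p.1.2 - q.1.2) ^ 2) / (2 * p.1.2 * q.1.2) : ℝ) : ℂ) =
      (hypA p * hypC q + hypA q * hypC p - hypB p * (starRingEnd ℂ) (hypB q) -
        (starRingEnd ℂ) (hypB p) * hypB q) / 2 := by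
  have ht : (p.1.2 : ℂ) ≠ 0 := by exact_mod_cast p.2.ne'
  have ht' : (q.1.2 : ℂ) ≠ 0 := by exact_mod_cast q.2.ne'
  simp only [hypA, hypB, hypC]
  push_cast
  simp only [hypE_nsq, map_sub, map_div₀, map_neg, Complex.conj_conj, Complex.conj_ofReal]
  field_simp
  ring

theorem hypE_pt {A : ℝ} {B C : ℂ} (hA : 0 < A) (h : A * C - B * (starRingEnd ℂ) B = 1) :
    ∃ p : H3, hypA p = A ∧ hypB p = B ∧ hypC p = C := by
  have hA' : (A : ℂ) ≠ 0 := by exact_mod_cast hA.ne'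
  refine ⟨⟨(- (starRingEnd ℂ) B / A, 1 / A), by positivity⟩, ?_, ?_, ?_⟩
  · simp [hypA]
  · simp only [hypB, map_div₀, map_neg, Complex.conj_conj, Complex.conj_ofReal]
    push_cast
    field_simp
  · simp only [hypC, map_div₀, map_neg, Complex.conj_conj, Complex.conj_ofReal]
    push_cast
    field_simp
    linear_combination -h

theorem hypE_pull (N : Matrix (Fin 2) (Fin 2) ℂ) (hN : N.det ≠ 0) : ∃ Φ : H3 → H3,
    (∀ p q, hdist (Φ p) (Φ q) = hdist p q) ∧ ∀ p w, qf (Φ p) w = qf p (N.mulVec w) / ‖N.det‖ := by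
  obtain ⟨s, hs⟩ : ∃ s : ℝ, s = ‖N.det‖ := ⟨_, rfl⟩
  have hs0 : 0 < s := hs ▸ norm_pos_iff.2 hN
  have hs1 : (s : ℂ) ≠ 0 := by exact_mod_cast hs0.ne'
  have hs2 : (s : ℂ) ^ 2 = (N 0 0 * N 1 1 - N 0 1 * N 1 0) *
      ((starRingEnd ℂ) (N 0 0) * (starRingEnd ℂ) (N 1 1) -
        (starRingEnd ℂ) (N 0 1) * (starRingEnd ℂ) (N 1 0)) := by
    rw [hs, hypE_nsq, Matrix.det_fin_two, map_sub, map_mul, map_mul]
  have hA : ∀ p, (starRingEnd ℂ) (hypA p) = hypA p := fun p => by simp [hypA]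
  have hC : ∀ p, (starRingEnd ℂ) (hypC p) = hypC p := fun p => by simp [hypC, mul_comm]
  have hD : ∀ p, hypA p * hypC p - hypB p * (starRingEnd ℂ) (hypB p) = 1 := fun p => by
    have := hypE_arg p p
    simp only [sub_self, norm_zero, ne_eq, OfNat.ofNat_ne_zero, not_false_eq_true, zero_pow,
      add_zero, zero_div, Complex.ofReal_one] at this
    linear_combination -this
  have key : ∀ p : H3, ∃ q : H3,
      hypA q = (hypA p * N 0 0 * (starRingEnd ℂ) (N 0 0) + hypB p * N 0 0 * (starRingEnd ℂ) (N 1 0) +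
        (starRingEnd ℂ) (hypB p) * N 1 0 * (starRingEnd ℂ) (N 0 0) +
          hypC p * N 1 0 * (starRingEnd ℂ) (N 1 0)) / s ∧
      hypB q = (hypA p * N 0 0 * (starRingEnd ℂ) (N 0 1) + hypB p * N 0 0 * (starRingEnd ℂ) (N 1 1) +
        (starRingEnd ℂ) (hypB p) * N 1 0 * (starRingEnd ℂ) (N 0 1) +
          hypC p * N 1 0 * (starRingEnd ℂ) (N 1 1)) / s ∧
      hypC q = (hypA p * N 0 1 * (starRingEnd ℂ) (N 0 1) + hypB p * N 0 1 * (starRingEnd ℂ) (N 1 1) +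
        (starRingEnd ℂ) (hypB p) * N 1 1 * (starRingEnd ℂ) (N 0 1) +
          hypC p * N 1 1 * (starRingEnd ℂ) (N 1 1)) / s := by
    intro p
    have hv : (fun i => N i 0) ≠ 0 := fun h => hN (by
      have h0 : N 0 0 = 0 := congrFun h 0
      have h1 : N 1 0 = 0 := congrFun h 1
      rw [Matrix.det_fin_two, h0, h1]; ring)
    have e := hypE_qf_eq p fun i => N i 0
    rw [← e, ← Complex.ofReal_div]
    refine hypE_pt (div_pos (hypE_qf_pos p hv) hs0) ?_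
    rw [Complex.ofReal_div, e]
    simp only [map_div₀, map_add, map_mul, Complex.conj_conj, Complex.conj_ofReal, hA, hC]
    field_simp
    rw [hs2]
    linear_combination ((N 0 0 * N 1 1 - N 0 1 * N 1 0) *
      ((starRingEnd ℂ) (N 0 0) * (starRingEnd ℂ) (N 1 1) -
        (starRingEnd ℂ) (N 0 1) * (starRingEnd ℂ) (N 1 0))) * hD p
  choose Φ h1 h2 h3 using key
  refine ⟨Φ, fun p q => ?_, fun p w => ?_⟩
  · unfold hdist
    congr 1
    apply Complex.ofReal_injective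
    rw [hypE_arg, hypE_arg, h1, h1, h2, h2, h3, h3]
    simp only [map_div₀, map_add, map_mul, Complex.conj_conj, Complex.conj_ofReal, hA, hC]
    field_simp
    rw [hs2]
    ring
  · apply Complex.ofReal_injective
    rw [← hs, Complex.ofReal_div, hypE_qf_eq, hypE_qf_eq, h1, h2, h3]
    simp only [map_div₀, map_add, map_mul, Complex.conj_conj, Complex.conj_ofReal, hA, hC,
      Matrix.mulVec, dotProduct, Fin.sum_univ_two]
    field_simp
    ring

theorem hypE_qf_smul (p : H3) (c : ℂ) (v : Fin 2 → ℂ) : qf p (c • v) = ‖c‖ ^ 2 * qf p v := by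
  simp only [qf, Pi.smul_apply, smul_eq_mul]
  rw [show c * v 0 - p.1.1 * (c * v 1) = c * (v 0 - p.1.1 * v 1) by ring, norm_mul, norm_mul]
  ring

theorem hypE_lin (M : Matrix (Fin 2) (Fin 2) ℂ) (hM : M.det ≠ 0) : ∃ Φ : H3 → H3,
    (∀ p q, hdist (Φ p) (Φ q) = hdist p q) ∧ ∀ p (c d : ℂ) (v w : Fin 2 → ℂ), c ≠ 0 → d ≠ 0 →
      ‖(c • M.mulVec v) 0 * (d • M.mulVec w) 1 - (c • M.mulVec v) 1 * (d • M.mulVec w) 0‖ ^ 2 /
        (qf (Φ p) (c • M.mulVec v) * qf (Φ p) (d • M.mulVec w)) =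
      ‖v 0 * w 1 - v 1 * w 0‖ ^ 2 / (qf p v * qf p w) := by
  have hd : M.adjugate.det = M.det := by rw [Matrix.det_adjugate]; simp
  obtain ⟨Φ, h1, h2⟩ := hypE_pull M.adjugate (hd ▸ hM)
  refine ⟨Φ, h1, fun p c d v w hc hd' => ?_⟩
  have h3 : ∀ v, qf (Φ p) (M.mulVec v) = ‖M.det‖ * qf p v := fun v => by
    have : ‖M.det‖ ≠ 0 := norm_ne_zero_iff.2 hM
    rw [h2, Matrix.mulVec_mulVec, Matrix.adjugate_mul, Matrix.smul_mulVec, Matrix.one_mulVec,
      hypE_qf_smul, hd]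
    field_simp
  have h4 : (c • M.mulVec v) 0 * (d • M.mulVec w) 1 - (c • M.mulVec v) 1 * (d • M.mulVec w) 0 =
      c * d * M.det * (v 0 * w 1 - v 1 * w 0) := by
    simp only [Pi.smul_apply, smul_eq_mul, Matrix.mulVec, dotProduct, Fin.sum_univ_two,
      Matrix.det_fin_two]
    ring
  have k1 : ‖c‖ ≠ 0 := norm_ne_zero_iff.2 hc
  have k2 : ‖d‖ ≠ 0 := norm_ne_zero_iff.2 hd'
  have k3 : ‖M.det‖ ≠ 0 := norm_ne_zero_iff.2 hM
  rw [h4, hypE_qf_smul, hypE_qf_smul, h3, h3, norm_mul, norm_mul, norm_mul]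
  have e : ‖c‖ ^ 2 * (‖M.det‖ * qf p v) * (‖d‖ ^ 2 * (‖M.det‖ * qf p w)) =
      (‖c‖ * ‖d‖ * ‖M.det‖) ^ 2 * (qf p v * qf p w) := by ring
  rw [e, mul_pow, mul_div_mul_left _ _ (by positivity)]

theorem ext_exists {θ : OnePoint ℂ → OnePoint ℂ} (h : IsMob θ) : ∃ Φ : H3 → H3,
    (∀ p q, hdist (Φ p) (Φ q) = hdist p q) ∧ ∀ p x y, chord (Φ p) (θ x) (θ y) = chord p x y := by
  obtain ⟨M, hM, h⟩ := h
  obtain ⟨Φ, h1, h2⟩ := hypE_lin M hM
  rcases h with h | h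
  · refine ⟨Φ, h1, fun p x y => ?_⟩
    obtain ⟨c, hc, ex⟩ := h x
    obtain ⟨d, hd, ey⟩ := h y
    rw [chord, ex, ey, h2 p c d _ _ hc hd, chord]
  · let σ : H3 → H3 := fun p => ⟨((starRingEnd ℂ) p.1.1, p.1.2), p.2⟩
    have hσ : ∀ p v, qf (σ p) (star v) = qf p v := fun p v => by
      simp only [qf, σ, Pi.star_apply, Complex.star_def, ← map_mul, ← map_sub, Complex.norm_conj]
    refine ⟨fun p => Φ (σ p), fun p q => ?_, fun p x y => ?_⟩
    · rw [h1]
      simp only [hdist, σ, ← map_sub, Complex.norm_conj]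
    · obtain ⟨c, hc, ex⟩ := h x
      obtain ⟨d, hd, ey⟩ := h y
      rw [chord, ex, ey, h2 (σ p) c d _ _ hc hd, chord, hσ, hσ]
      simp only [Pi.star_apply, Complex.star_def, ← map_mul, ← map_sub, Complex.norm_conj]

theorem hypE_chord_inf (p : H3) (z : ℂ) :
    chord p z OnePoint.infty = p.1.2 ^ 2 / (‖z - p.1.1‖ ^ 2 + p.1.2 ^ 2) := by
  have ht := p.2
  have e1 : vec (z : OnePoint ℂ) = ![z, 1] := rfl
  have e2 : vec OnePoint.infty = ![1, 0] := rfl
  simp only [chord, qf, e1, e2]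
  simp
  field_simp

theorem ext_unique {p q : H3} (h : ∀ x y, chord p x y = chord q x y) : p = q := by
  have hp := p.2
  have hq := q.2
  have h1 := h p.1.1 OnePoint.infty
  rw [hypE_chord_inf, hypE_chord_inf, sub_self, norm_zero] at h1
  have h2 : ‖p.1.1 - q.1.1‖ ^ 2 = 0 := by
    field_simp at h1
    have : p.1.2 ^ 2 * ‖p.1.1 - q.1.1‖ ^ 2 = 0 := by linarith
    exact (mul_eq_zero.1 this).resolve_left (by positivity)
  have h3 : p.1.1 = q.1.1 := sub_eq_zero.1 (norm_eq_zero.1 (pow_eq_zero_iff two_ne_zero |>.1 h2))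
  have h4 := h ((p.1.1 + 1 : ℂ)) OnePoint.infty
  rw [hypE_chord_inf, hypE_chord_inf, ← h3, add_sub_cancel_left, norm_one] at h4
  field_simp at h4
  have h5 : p.1.2 = q.1.2 := by
    have : p.1.2 ^ 2 = q.1.2 ^ 2 := by linarith
    exact (pow_left_inj₀ hp.le hq.le two_ne_zero).1 this
  exact Subtype.ext (Prod.ext h3 h5)

end Vale.Agent.P198
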