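import Vale.Agent.P198.Stmt
import Vale.Agent.P198.Defs
import Vale.Agent.P198.HypE

/-! Extension of Moebius maps to isometries of hyperbolic space. -/

namespace Vale.Agent.P198

open Set Filter Topology Metric MeasureTheory
open scoped Classical

theorem hypA_vc (z : ℂ) : vec (z : OnePoint ℂ) = ![z, 1] := rfl

theorem hypA_vi : vec OnePoint.infty = ![1, 0] := rfl

theorem hypA_symm (p : H3) (x y : OnePoint ℂ) : chord p x y = chord p y x := by
  rw [chord, chord, norm_sub_rev, mul_comm (qf p (vec x)), mul_comm (vec x 1), mul_comm (vec x 0)]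

theorem hypA_fin (p : H3) (x y : ℂ) : chord p x y =
    p.1.2 ^ 2 * ‖x - y‖ ^ 2 / ((‖x - p.1.1‖ ^ 2 + p.1.2 ^ 2) * (‖y - p.1.1‖ ^ 2 + p.1.2 ^ 2)) := by
  have ht := p.2
  simp only [chord, qf, hypA_vc]
  simp
  field_simp

theorem hypA_ii (p : H3) : chord p OnePoint.infty OnePoint.infty = 0 := by
  simp [chord, hypA_vi]

/-- first normalised coordinate function -/
noncomputable def hypF (p : H3) (x : OnePoint ℂ) : ℝ := ‖vec x 1‖ ^ 2 / qf p (vec x)

/-- second normalised coordinate function -/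
noncomputable def hypG (p : H3) (x : OnePoint ℂ) : ℂ :=
  (vec x 0 - p.1.1 * vec x 1) * (starRingEnd ℂ) (vec x 1) / qf p (vec x)

theorem hypF_coe (p : H3) (z : ℂ) : hypF p z = p.1.2 / (‖z - p.1.1‖ ^ 2 + p.1.2 ^ 2) := by
  simp [hypF, qf, hypA_vc]

theorem hypG_coe (p : H3) (z : ℂ) : hypG p z = (z - p.1.1) * (hypF p z : ℝ) := by
  simp [hypG, hypF, hypA_vc, div_eq_mul_inv]

theorem hypF_lim (p : H3) : Tendsto (fun z : ℂ => hypF p z) (cocompact ℂ) (𝓝 0) := by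
  simp only [hypF_coe]
  refine Tendsto.div_atTop tendsto_const_nhds (tendsto_atTop_add_const_right _ _ ?_)
  have := tendsto_dist_right_cocompact_atTop p.1.1
  simp only [dist_eq_norm] at this
  exact (tendsto_pow_atTop two_ne_zero).comp this

theorem hypF_cont' (p : H3) : Continuous fun z : ℂ => hypF p z := by
  have ht := p.2
  simp only [hypF_coe]
  exact continuous_const.div (by fun_prop) fun z => by positivity

theorem hypF_cont (p : H3) : Continuous (hypF p) := by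
  rw [OnePoint.continuous_iff, coclosedCompact_eq_cocompact]
  refine ⟨?_, hypF_cont' p⟩
  have : hypF p OnePoint.infty = 0 := by simp [hypF, hypA_vi]
  rw [this]
  exact hypF_lim p

theorem hypG_cont (p : H3) : Continuous (hypG p) := by
  have ht := p.2
  rw [OnePoint.continuous_iff, coclosedCompact_eq_cocompact]
  have : hypG p OnePoint.infty = 0 := by simp [hypG, hypA_vi]
  rw [this]
  refine ⟨?_, ?_⟩
  · rw [tendsto_zero_iff_norm_tendsto_zero]
    have h1 := ((hypF_lim p).const_mul p.1.2).sqrt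
    rw [mul_zero, Real.sqrt_zero] at h1
    refine squeeze_zero (fun _ => norm_nonneg _) (fun z => Real.le_sqrt_of_sq_le ?_) h1
    rw [hypG_coe, norm_mul, Complex.norm_real, Real.norm_eq_abs, mul_pow, sq_abs, hypF_coe]
    have : 0 < ‖z - p.1.1‖ ^ 2 + p.1.2 ^ 2 := by positivity
    rw [div_pow, ← mul_div_assoc, ← mul_div_assoc, div_le_div_iff₀ (by positivity) this]
    nlinarith [mul_pos (pow_pos ht 4) this, mul_nonneg (sq_nonneg p.1.2) this.le]
  · simp only [hypG_coe]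
    exact (by fun_prop : Continuous fun z : ℂ => z - p.1.1).mul
      (Complex.continuous_ofReal.comp (hypF_cont' p))

theorem hypA_eq (p : H3) (x y : OnePoint ℂ) : chord p x y =
    (p.1.2 - p.1.2 ^ 2 * hypF p x) * hypF p y + hypF p x * (p.1.2 - p.1.2 ^ 2 * hypF p y) -
      2 * (hypG p x * (starRingEnd ℂ) (hypG p y)).re := by
  have ht : (p.1.2 : ℂ) ≠ 0 := by exact_mod_cast p.2.ne'
  have hx : (qf p (vec x) : ℂ) ≠ 0 := by exact_mod_cast (qf_vec_pos p x).ne'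
  have hy : (qf p (vec y) : ℂ) ≠ 0 := by exact_mod_cast (qf_vec_pos p y).ne'
  have e : ∀ v : Fin 2 → ℂ, (p.1.2 : ℂ) * qf p v =
      (v 0 - p.1.1 * v 1) * (starRingEnd ℂ) (v 0 - p.1.1 * v 1) +
        p.1.2 ^ 2 * (v 1 * (starRingEnd ℂ) (v 1)) := fun v => by
    simp only [qf]
    push_cast
    rw [hypE_nsq, hypE_nsq]
    field_simp
  have e1 := e (vec x)
  have e2 := e (vec y)
  apply Complex.ofReal_injective
  simp only [chord, hypF, hypG]
  push_cast
  rw [Complex.re_eq_add_conj]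
  simp only [hypE_nsq, map_sub, map_mul, map_div₀, Complex.conj_conj, Complex.conj_ofReal] at e1 e2 ⊢
  field_simp
  linear_combination (-(vec y 1 * (starRingEnd ℂ) (vec y 1))) * e1 -
    (vec x 1 * (starRingEnd ℂ) (vec x 1)) * e2

theorem chord_cont (p : H3) : Continuous fun a : OnePoint ℂ × OnePoint ℂ => chord p a.1 a.2 := by
  have h1 := hypF_cont p
  have h2 := hypG_cont p
  simp only [hypA_eq]
  fun_prop

theorem chord_eq_zero (p : H3) (x y : OnePoint ℂ) : chord p x y = 0 ↔ x = y := by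
  have hx := qf_vec_pos p x
  have hy := qf_vec_pos p y
  rw [chord, div_eq_zero_iff, or_iff_left (by positivity), pow_eq_zero_iff two_ne_zero,
    norm_eq_zero]
  induction x using OnePoint.rec <;> induction y using OnePoint.rec <;>
    simp [hypA_vc, hypA_vi, sub_eq_zero]

theorem hypA_c1 : Continuous fun p : H3 => p.1.1 :=
  continuous_fst.comp continuous_induced_dom

theorem hypA_c2 : Continuous fun p : H3 => p.1.2 :=
  continuous_snd.comp continuous_induced_dom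

theorem hypA_ratio (p q : H3) (v : Fin 2 → ℂ) : qf q v ≤
    p.1.2 / q.1.2 * (2 + (2 * ‖p.1.1 - q.1.1‖ ^ 2 + q.1.2 ^ 2) / p.1.2 ^ 2) * qf p v := by
  have hp := p.2
  have hq := q.2
  have h1 : ‖v 0 - q.1.1 * v 1‖ ≤ ‖v 0 - p.1.1 * v 1‖ + ‖p.1.1 - q.1.1‖ * ‖v 1‖ := by
    rw [← norm_mul, show v 0 - q.1.1 * v 1 = (v 0 - p.1.1 * v 1) + (p.1.1 - q.1.1) * v 1 by ring]
    exact norm_add_le _ _
  have h2 := pow_le_pow_left₀ (norm_nonneg _) h1 2
  simp only [qf]
  generalize ‖v 0 - q.1.1 * v 1‖ = a at *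
  generalize ‖v 0 - p.1.1 * v 1‖ = b at *
  generalize ‖p.1.1 - q.1.1‖ = d at *
  generalize ‖v 1‖ = n at *
  generalize p.1.2 = t at *
  generalize q.1.2 = s at *
  have e : t / s * (2 + (2 * d ^ 2 + s ^ 2) / t ^ 2) * ((b ^ 2 + t ^ 2 * n ^ 2) / t) =
      (2 * b ^ 2 + (2 * d ^ 2 + s ^ 2) * n ^ 2 +
        (2 * t ^ 2 * n ^ 2 + (2 * d ^ 2 + s ^ 2) * b ^ 2 / t ^ 2)) / s := by
    field_simp
    ring
  rw [e]
  refine div_le_div_of_nonneg_right ?_ hq.le
  have : 0 ≤ 2 * t ^ 2 * n ^ 2 + (2 * d ^ 2 + s ^ 2) * b ^ 2 / t ^ 2 := by positivity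
  nlinarith [sq_nonneg (b - d * n)]

theorem chord_comp {K : Set H3} (hK : IsCompact K) :
    ∃ c : ℝ, 0 < c ∧ ∀ p ∈ K, ∀ q ∈ K, ∀ x y, c * chord p x y ≤ chord q x y := by
  have h1 := hypA_c1
  have h2 := hypA_c2
  have hc : Continuous fun a : H3 × H3 => a.1.1.2 / a.2.1.2 *
      (2 + (2 * ‖a.1.1.1 - a.2.1.1‖ ^ 2 + a.2.1.2 ^ 2) / a.1.1.2 ^ 2) := by
    have k1 : Continuous fun a : H3 × H3 => a.1.1.1 := h1.comp continuous_fst
    have k2 : Continuous fun a : H3 × H3 => a.2.1.1 := h1.comp continuous_snd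
    have k3 : Continuous fun a : H3 × H3 => a.1.1.2 := h2.comp continuous_fst
    have k4 : Continuous fun a : H3 × H3 => a.2.1.2 := h2.comp continuous_snd
    exact (k3.div k4 fun a => a.2.2.ne').mul (continuous_const.add
      ((by fun_prop : Continuous fun a : H3 × H3 =>
        2 * ‖a.1.1.1 - a.2.1.1‖ ^ 2 + a.2.1.2 ^ 2).div (k3.pow 2) fun a => pow_ne_zero _ a.1.2.ne'))
  obtain ⟨L, hL⟩ := (hK.prod hK).bddAbove_image hc.continuousOn
  refine ⟨1 / (max L 1) ^ 2, by positivity, fun p hp q hq x y => ?_⟩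
  have hb : ∀ x, qf q (vec x) ≤ max L 1 * qf p (vec x) := fun x =>
    (hypA_ratio p q _).trans (mul_le_mul_of_nonneg_right
      ((hL ⟨(p, q), ⟨hp, hq⟩, rfl⟩).trans (le_max_left _ _)) (qf_vec_pos p x).le)
  have a1 := qf_vec_pos p x
  have a2 := qf_vec_pos p y
  have a3 := qf_vec_pos q x
  have a4 := qf_vec_pos q y
  rw [chord, chord, div_mul_div_comm, one_mul]
  refine div_le_div_of_nonneg_left (by positivity) (by positivity) ?_
  calc _ ≤ (max L 1 * qf p (vec x)) * (max L 1 * qf p (vec y)) :=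
        mul_le_mul (hb x) (hb y) a4.le (by positivity)
    _ = _ := by ring

theorem chord_triple (p : H3) : ∃ x y z : OnePoint ℂ,
    1 / 2 ≤ chord p x y ∧ 1 / 2 ≤ chord p y z ∧ 1 / 2 ≤ chord p x z := by
  have ht := p.2
  refine ⟨(p.1.1 + p.1.2 : ℂ), (p.1.1 - p.1.2 : ℂ), (p.1.1 + Complex.I * p.1.2 : ℂ), ?_, ?_, ?_⟩ <;>
    rw [hypA_fin, le_div_iff₀ (by positivity)] <;>
    simp only [Complex.sq_norm, Complex.normSq_apply] <;> simp <;> nlinarith [pow_pos ht 4]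

theorem hypA_le (q : H3) (x y : OnePoint ℂ) :
    chord q x y ≤ 2 * chord q x OnePoint.infty + 2 * chord q y OnePoint.infty := by
  have ht := q.2
  have hn : ∀ x y, 0 ≤ chord q x y := fun x y =>
    div_nonneg (by positivity) (mul_pos (qf_vec_pos q x) (qf_vec_pos q y)).le
  induction x using OnePoint.rec with
  | infty => rw [hypA_symm q _ y]; linarith [hn y OnePoint.infty, hn OnePoint.infty OnePoint.infty]
  | coe x =>
    induction y using OnePoint.rec with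
    | infty => linarith [hn x OnePoint.infty, hn OnePoint.infty OnePoint.infty]
    | coe y =>
      rw [hypA_fin, hypE_chord_inf, hypE_chord_inf]
      have h1 : ‖x - y‖ ≤ ‖x - q.1.1‖ + ‖y - q.1.1‖ := by
        rw [show x - y = (x - q.1.1) - (y - q.1.1) by ring]
        exact norm_sub_le _ _
      have h2 := pow_le_pow_left₀ (norm_nonneg _) h1 2
      generalize ‖x - y‖ = a at *
      generalize ‖x - q.1.1‖ = b at *
      generalize ‖y - q.1.1‖ = d at *
      generalize q.1.2 = t at *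
      rw [div_le_iff₀ (by positivity)]
      have e : (2 * (t ^ 2 / (b ^ 2 + t ^ 2)) + 2 * (t ^ 2 / (d ^ 2 + t ^ 2))) *
          ((b ^ 2 + t ^ 2) * (d ^ 2 + t ^ 2)) = t ^ 2 * (2 * b ^ 2 + 2 * d ^ 2 + 4 * t ^ 2) := by
        field_simp
        ring
      rw [e]
      refine mul_le_mul_of_nonneg_left ?_ (by positivity)
      nlinarith [sq_nonneg (b - d), sq_nonneg t]

theorem hypA_good {q : H3} {c : ℝ} (hc : 0 < c) {x : OnePoint ℂ}
    (h : c / 4 ≤ chord q x OnePoint.infty) :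
    ∃ z : ℂ, x = z ∧ c * ‖z - q.1.1‖ ^ 2 ≤ 4 * q.1.2 ^ 2 := by
  have ht := q.2
  induction x using OnePoint.rec with
  | infty => rw [hypA_ii] at h; linarith
  | coe x =>
    refine ⟨x, rfl, ?_⟩
    rw [hypE_chord_inf, le_div_iff₀ (by positivity)] at h
    nlinarith [mul_pos hc (pow_pos ht 2)]

theorem hypA_two {q : H3} {c : ℝ} {x y z : OnePoint ℂ} (h1 : c ≤ chord q x y)
    (h2 : c ≤ chord q y z) (h3 : c ≤ chord q x z) :
    (c / 4 ≤ chord q x OnePoint.infty ∧ c / 4 ≤ chord q y OnePoint.infty) ∨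
    (c / 4 ≤ chord q y OnePoint.infty ∧ c / 4 ≤ chord q z OnePoint.infty) ∨
    (c / 4 ≤ chord q x OnePoint.infty ∧ c / 4 ≤ chord q z OnePoint.infty) := by
  have a := hypA_le q x y
  have b := hypA_le q y z
  have d := hypA_le q x z
  by_contra h
  simp only [not_or, not_and_or, not_le] at h
  obtain ⟨h4 | h4, h5 | h5, h6 | h6⟩ := h <;> linarith

theorem hypA_sep {p q : H3} {c : ℝ} (hc : 0 < c) {x y : OnePoint ℂ}
    (h1 : c / 4 ≤ chord q x OnePoint.infty) (h2 : c / 4 ≤ chord q y OnePoint.infty)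
    (h : c ≤ chord p x y) : c * p.1.2 ≤ 4 * q.1.2 := by
  have hp := p.2
  have hq := q.2
  obtain ⟨x, rfl, hx⟩ := hypA_good hc h1
  obtain ⟨y, rfl, hy⟩ := hypA_good hc h2
  rw [hypA_fin, le_div_iff₀ (by positivity)] at h
  have h1 : ‖x - y‖ ≤ ‖x - q.1.1‖ + ‖y - q.1.1‖ := by
    rw [show x - y = (x - q.1.1) - (y - q.1.1) by ring]
    exact norm_sub_le _ _
  have h2 := pow_le_pow_left₀ (norm_nonneg _) h1 2
  have h3 : p.1.2 ^ 2 * p.1.2 ^ 2 ≤
      (‖x - p.1.1‖ ^ 2 + p.1.2 ^ 2) * (‖y - p.1.1‖ ^ 2 + p.1.2 ^ 2) :=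
    mul_le_mul (by nlinarith [sq_nonneg ‖x - p.1.1‖]) (by nlinarith [sq_nonneg ‖y - p.1.1‖])
      (by positivity) (by positivity)
  have h4 : p.1.2 ^ 2 * (c * p.1.2 ^ 2) ≤ p.1.2 ^ 2 * ‖x - y‖ ^ 2 := by nlinarith
  have h5 := le_of_mul_le_mul_left h4 (by positivity)
  have h6 : c * ‖x - y‖ ^ 2 ≤ 16 * q.1.2 ^ 2 := by
    nlinarith [mul_le_mul_of_nonneg_left h2 hc.le,
      mul_nonneg hc.le (sq_nonneg (‖x - q.1.1‖ - ‖y - q.1.1‖))]
  refine (pow_le_pow_iff_left₀ (by positivity) (by positivity) two_ne_zero).1 ?_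
  nlinarith [mul_le_mul_of_nonneg_left h5 hc.le]

theorem hypA_both {p q : H3} {c : ℝ} (hc : 0 < c) {x : OnePoint ℂ}
    (h1 : c / 4 ≤ chord q x OnePoint.infty) (h2 : c / 4 ≤ chord p x OnePoint.infty) :
    c * ‖q.1.1 - p.1.1‖ ^ 2 ≤ 8 * q.1.2 ^ 2 + 8 * p.1.2 ^ 2 := by
  obtain ⟨x, rfl, hx⟩ := hypA_good hc h1
  obtain ⟨y, e, hy⟩ := hypA_good hc h2
  rw [← OnePoint.coe_eq_coe.1 e] at hy
  have h1 : ‖q.1.1 - p.1.1‖ ≤ ‖x - p.1.1‖ + ‖x - q.1.1‖ := by
    rw [show q.1.1 - p.1.1 = (x - p.1.1) - (x - q.1.1) by ring]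
    exact norm_sub_le _ _
  have h2 := pow_le_pow_left₀ (norm_nonneg _) h1 2
  nlinarith [mul_le_mul_of_nonneg_left h2 hc.le,
    mul_nonneg hc.le (sq_nonneg (‖x - p.1.1‖ - ‖x - q.1.1‖))]

theorem chord_cpt (p : H3) {c : ℝ} (hc : 0 < c) : ∃ K : Set H3, IsCompact K ∧ ∀ q : H3,
    ∀ x y z : OnePoint ℂ, c ≤ chord p x y → c ≤ chord p y z → c ≤ chord p x z →
      c ≤ chord q x y → c ≤ chord q y z → c ≤ chord q x z → q ∈ K := by
  have hp := p.2
  refine ⟨(fun a : H3 => a.1) ⁻¹' (closedBall p.1.1 √((8 * (4 * p.1.2 / c) ^ 2 + 8 * p.1.2 ^ 2) / c) ×ˢ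
    Icc (c * p.1.2 / 4) (4 * p.1.2 / c)), ?_, fun q x y z a1 a2 a3 b1 b2 b3 => ?_⟩
  · have hi : IsInducing (fun a : H3 => a.1) := ⟨rfl⟩
    rw [hi.isCompact_iff, image_preimage_eq_of_subset]
    · exact (isCompact_closedBall _ _).prod isCompact_Icc
    · exact fun a ha => ⟨⟨a, lt_of_lt_of_le (by positivity) ha.2.1⟩, rfl⟩
  · have hq := q.2
    have k1 : c * p.1.2 ≤ 4 * q.1.2 := by
      rcases hypA_two b1 b2 b3 with h | h | h
      exacts [hypA_sep hc h.1 h.2 a1, hypA_sep hc h.1 h.2 a2, hypA_sep hc h.1 h.2 a3]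
    have k2 : c * q.1.2 ≤ 4 * p.1.2 := by
      rcases hypA_two a1 a2 a3 with h | h | h
      exacts [hypA_sep hc h.1 h.2 b1, hypA_sep hc h.1 h.2 b2, hypA_sep hc h.1 h.2 b3]
    have k3 : c * ‖q.1.1 - p.1.1‖ ^ 2 ≤ 8 * q.1.2 ^ 2 + 8 * p.1.2 ^ 2 := by
      rcases hypA_two a1 a2 a3 with h | h | h <;> rcases hypA_two b1 b2 b3 with h' | h' | h'
      exacts [hypA_both hc h'.1 h.1, hypA_both hc h'.1 h.2, hypA_both hc h'.1 h.1,
        hypA_both hc h'.2 h.1, hypA_both hc h'.1 h.1, hypA_both hc h'.2 h.2,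
        hypA_both hc h'.1 h.1, hypA_both hc h'.2 h.2, hypA_both hc h'.1 h.1]
    have k4 : q.1.2 ≤ 4 * p.1.2 / c := by rw [le_div_iff₀ hc]; linarith
    refine ⟨?_, by linarith, k4⟩
    rw [mem_closedBall, dist_eq_norm]
    refine Real.le_sqrt_of_sq_le ?_
    rw [le_div_iff₀ hc]
    have := pow_le_pow_left₀ hq.le k4 2
    linarith

end Vale.Agent.P198
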