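import Vale.Agent.P198.HypA
import Vale.Agent.P198.Cover

/-! The geometric action. -/

namespace Vale.Agent.P198

open Set Filter Topology Metric MeasureTheory
open scoped Classical

variable {G : Type*} [Group G] {X : Type} [MetricSpace X] [MulAction G X]

theorem hypB_cmp {Y : Type} [TopologicalSpace Y] [CompactSpace Y] {f g : Y → ℝ} (hf : Continuous f)
    (hg : Continuous g) (h : ∀ y, 0 < f y → 0 < g y) {c : ℝ} (hc : 0 < c) :
    ∃ ε, 0 < ε ∧ ∀ y, g y < ε → f y < c := by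
  obtain ⟨ε, h1, h2⟩ := (isClosed_le (continuous_const (y := c)) hf).isCompact.exists_forall_le'
    hg.continuousOn (a := 0) fun y hy => h y (hc.trans_le hy)
  exact ⟨ε, h1, fun y hy => not_le.1 fun h3 => absurd (h2 y h3) (not_le.2 hy)⟩

theorem hypB_cont (F : X ≃ₜ OnePoint ℂ) (p : H3) :
    Continuous fun a : X × X => chord p (F a.1) (F a.2) :=
  (chord_cont p).comp (f := fun a : X × X => (F a.1, F a.2))
    ((F.continuous.comp continuous_fst).prodMk (F.continuous.comp continuous_snd))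

theorem hypB_A (B : BD G X) (F : X ≃ₜ OnePoint ℂ) (p : H3) {c : ℝ} (hc : 0 < c) :
    ∃ R, ∀ a b, c ≤ chord p (F a) (F b) → ¬ B.Near R a b := by
  have : CompactSpace X := ⟨B.cpt⟩
  obtain ⟨ε, h3, h4⟩ := hypB_cmp (g := fun a : X × X => dist a.1 a.2) (hypB_cont F p)
    continuous_dist (fun y hy => dist_pos.2 fun e => by
      rw [e, (chord_eq_zero _ _ _).2 rfl] at hy; exact lt_irrefl _ hy) hc
  obtain ⟨R, hR⟩ := B.near_dist h3
  exact ⟨R, fun a b h h' => absurd (h4 (a, b) (hR a b h')) (not_lt.2 h)⟩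

theorem hypB_B (B : BD G X) (F : X ≃ₜ OnePoint ℂ) (p : H3) (R : ℝ) :
    ∃ c, 0 < c ∧ ∀ a b, ¬ B.Near R a b → c ≤ chord p (F a) (F b) := by
  have : CompactSpace X := ⟨B.cpt⟩
  have hn : ∀ x y, 0 ≤ chord p x y := fun x y =>
    div_nonneg (by positivity) (mul_pos (qf_vec_pos p x) (qf_vec_pos p y)).le
  obtain ⟨ε, h3, h4⟩ := B.dist_near R
  obtain ⟨c, h5, h6⟩ := hypB_cmp (f := fun a : X × X => dist a.1 a.2) continuous_dist
    (hypB_cont F p) (fun y hy => (hn _ _).lt_of_ne' fun e =>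
      dist_pos.1 hy (F.injective ((chord_eq_zero _ _ _).1 e))) h3
  exact ⟨c, h5, fun a b h => not_lt.1 fun h' => h (h4 a b (h6 (a, b) h'))⟩

theorem hypB_prop (B : BD G X) (F : X ≃ₜ OnePoint ℂ) (Φ : G → H3 → H3)
    (key : ∀ (g : G) p a b, chord (Φ g p) (F (g • a)) (F (g • b)) = chord p (F a) (F b))
    {K : Set H3} (hK : IsCompact K) : {g : G | ((Φ g '' K) ∩ K).Nonempty}.Finite := by
  obtain ⟨p0⟩ : Nonempty H3 := ⟨⟨(0, 1), one_pos⟩⟩
  obtain ⟨c, hc, h3⟩ := chord_comp (hK.insert p0)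
  obtain ⟨x, y, z, t1, t2, t3⟩ := chord_triple p0
  obtain ⟨x, rfl⟩ := F.surjective x
  obtain ⟨y, rfl⟩ := F.surjective y
  obtain ⟨z, rfl⟩ := F.surjective z
  obtain ⟨R, hR⟩ := hypB_A B F p0 (c := min (1 / 2) (c * (c * (1 / 2)))) (by positivity)
  obtain ⟨C, hC⟩ := B.triple_proper R
  refine (B.ball C).finite_toSet.subset ?_
  rintro g ⟨_, ⟨p, hp, rfl⟩, hq⟩
  have k1 : ∀ x y, 1 / 2 ≤ chord p0 (F x) (F y) → ¬ B.Near R x y := fun x y h =>
    hR _ _ ((min_le_left _ _).trans h)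
  have k2 : ∀ x y, 1 / 2 ≤ chord p0 (F x) (F y) → ¬ B.Near R (g • x) (g • y) := by
    intro x y h
    refine hR _ _ ((min_le_right _ _).trans ?_)
    refine le_trans ?_ (h3 _ (mem_insert_of_mem _ hq) _ (mem_insert _ _) _ _)
    rw [key]
    refine mul_le_mul_of_nonneg_left ?_ hc.le
    exact (mul_le_mul_of_nonneg_left h hc.le).trans
      (h3 _ (mem_insert _ _) _ (mem_insert_of_mem _ hp) _ _)
  exact (B.mem_ball C g).2 (hC g _ _ _ (k1 _ _ t1) (k1 _ _ t2) (k1 _ _ t3) (k2 _ _ t1)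
    (k2 _ _ t2) (k2 _ _ t3))

theorem hypB_coc (B : BD G X) (F : X ≃ₜ OnePoint ℂ) (Φ : G → H3 → H3)
    (key : ∀ (g : G) p a b, chord (Φ g p) (F (g • a)) (F (g • b)) = chord p (F a) (F b)) :
    ∃ K : Set H3, IsCompact K ∧ ∀ q, ∃ g, Φ g q ∈ K := by
  obtain ⟨p0⟩ : Nonempty H3 := ⟨⟨(0, 1), one_pos⟩⟩
  obtain ⟨R, hR⟩ := B.triple_cocompact
  obtain ⟨c, hc, h3⟩ := hypB_B B F p0 R
  obtain ⟨K, hK, h4⟩ := chord_cpt p0 (c := min c (1 / 2)) (by positivity)
  refine ⟨K, hK, fun q => ?_⟩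
  obtain ⟨x, y, z, t1, t2, t3⟩ := chord_triple q
  obtain ⟨x, rfl⟩ := F.surjective x
  obtain ⟨y, rfl⟩ := F.surjective y
  obtain ⟨z, rfl⟩ := F.surjective z
  have ne : ∀ x y, 1 / 2 ≤ chord q (F x) (F y) → x ≠ y := fun x y h e => by
    rw [e, (chord_eq_zero _ _ _).2 rfl] at h; linarith
  obtain ⟨g, g1, g2, g3⟩ := hR _ _ _ (ne _ _ t1) (ne _ _ t2) (ne _ _ t3)
  exact ⟨g, h4 _ _ _ _ ((min_le_left _ _).trans (h3 _ _ g1))
    ((min_le_left _ _).trans (h3 _ _ g2)) ((min_le_left _ _).trans (h3 _ _ g3))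
    ((min_le_right _ _).trans (t1.trans_eq (key g q x y).symm))
    ((min_le_right _ _).trans (t2.trans_eq (key g q y z).symm))
    ((min_le_right _ _).trans (t3.trans_eq (key g q x z).symm))⟩

theorem geometric (B : BD G X) (F : X ≃ₜ OnePoint ℂ)
    (hF : ∀ g : G, IsMob fun x => F (g • F.symm x)) :
    ∃ ρ : G →* Equiv.Perm H3, Geometric ρ := by
  choose Φ h1 h2 using fun g => ext_exists (hF g)
  have key : ∀ (g : G) p a b, chord (Φ g p) (F (g • a)) (F (g • b)) = chord p (F a) (F b) := by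
    intro g p a b
    have := h2 g p (F a) (F b)
    rwa [F.symm_apply_apply, F.symm_apply_apply] at this
  clear h2
  have hone : ∀ p, Φ 1 p = p := fun p => ext_unique fun x y => by
    obtain ⟨x, rfl⟩ := F.surjective x
    obtain ⟨y, rfl⟩ := F.surjective y
    have := key 1 p x y
    rwa [one_smul, one_smul] at this
  have hmul : ∀ g h p, Φ (g * h) p = Φ g (Φ h p) := fun g h p => ext_unique fun x y => by
    obtain ⟨x, rfl⟩ := F.surjective x
    obtain ⟨y, rfl⟩ := F.surjective y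
    obtain ⟨x, rfl⟩ := MulAction.surjective (g * h) x
    obtain ⟨y, rfl⟩ := MulAction.surjective (g * h) y
    beta_reduce
    rw [key, mul_smul, mul_smul, key, key]
  obtain ⟨ρ, hρ⟩ : ∃ ρ : G →* Equiv.Perm H3, ∀ g, (ρ g : H3 → H3) = Φ g :=
    ⟨MonoidHom.toHomPerm (⟨⟨Φ, funext hone⟩, fun g h => funext (hmul g h)⟩ :
      G →* Function.End H3), fun _ => rfl⟩
  refine ⟨ρ, fun g p q => by rw [hρ, h1], fun K hK => ?_, ?_, ?_⟩
  · simp only [hρ]
    exact hypB_prop B F Φ key hK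
  · obtain ⟨K, hK, h⟩ := hypB_coc B F Φ key
    refine ⟨K, hK, eq_univ_of_forall fun q => ?_⟩
    obtain ⟨g, hg⟩ := h q
    exact mem_iUnion.2 ⟨g⁻¹, Φ g q, hg, by rw [hρ, ← hmul, inv_mul_cancel, hone]⟩
  · obtain ⟨p0⟩ : Nonempty H3 := ⟨⟨(0, 1), one_pos⟩⟩
    refine (hypB_prop B F Φ key (isCompact_singleton (x := p0))).subset fun g hg => ?_
    exact ⟨p0, ⟨p0, rfl, by rw [← hρ, MonoidHom.mem_ker.1 hg]; rfl⟩, rfl⟩

end Vale.Agent.P198
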