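import Vale.Agent.P198.Defs

/-! Locally quasisymmetric maps: elementary facts. -/

namespace Vale.Agent.P198

open Set Filter Topology Metric MeasureTheory
open scoped Classical

theorem pab (T : ℂ →L[ℝ] ℂ) (v : ℂ) : T v = pa T * v + pb T * (starRingEnd ℂ) v := by
  have hv : v = v.re • (1 : ℂ) + v.im • Complex.I := by
    apply Complex.ext <;> simp
  have h1 : T v = v.re • T 1 + v.im • T Complex.I := by
    conv_lhs => rw [hv]
    rw [map_add, map_smul, map_smul]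
  rw [h1]
  unfold pa pb
  apply Complex.ext <;> simp <;> ring

theorem det_pab (T : ℂ →L[ℝ] ℂ) : T.det = ‖pa T‖ ^ 2 - ‖pb T‖ ^ 2 := by
  have h1 : T.det = (T 1).re * (T Complex.I).im - (T Complex.I).re * (T 1).im := by
    unfold ContinuousLinearMap.det
    rw [← LinearMap.det_toMatrix Complex.basisOneI, Matrix.det_fin_two]
    simp [LinearMap.toMatrix_apply]
  rw [h1, Complex.sq_norm, Complex.sq_norm, Complex.normSq_apply, Complex.normSq_apply]
  unfold pa pb
  simp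
  ring

theorem lda_align (T : ℂ →L[ℝ] ℂ) : ∃ v : ℂ, ‖v‖ = 1 ∧ ‖T v‖ = ‖pa T‖ + ‖pb T‖ ∧
    ‖T (Complex.I * v)‖ = |‖pa T‖ - ‖pb T‖| := by
  set α : ℝ := Complex.arg (pa T) with hα
  set β : ℝ := Complex.arg (pb T) with hβ
  set v : ℂ := Complex.exp (((β - α) / 2 : ℝ) * Complex.I) with hv
  set e : ℂ := Complex.exp (((β + α) / 2 : ℝ) * Complex.I) with he
  have he1 : ‖e‖ = 1 := Complex.norm_exp_ofReal_mul_I _
  have hv1 : ‖v‖ = 1 := Complex.norm_exp_ofReal_mul_I _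
  have ha : pa T * v = (‖pa T‖ : ℂ) * e := by
    conv_lhs => rw [← Complex.norm_mul_exp_arg_mul_I (pa T)]
    rw [mul_assoc, hv, he, ← Complex.exp_add, ← hα]
    congr 2
    push_cast
    ring
  have hb : pb T * (starRingEnd ℂ) v = (‖pb T‖ : ℂ) * e := by
    conv_lhs => rw [← Complex.norm_mul_exp_arg_mul_I (pb T)]
    rw [mul_assoc, hv, he, ← Complex.exp_conj, ← Complex.exp_add, ← hβ]
    congr 2
    rw [map_mul, Complex.conj_ofReal, Complex.conj_I]
    push_cast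
    ring
  refine ⟨v, hv1, ?_, ?_⟩
  · rw [pab, ha, hb, ← add_mul, norm_mul, he1, mul_one, ← Complex.ofReal_add, Complex.norm_real,
      Real.norm_of_nonneg (by positivity)]
  · have : T (Complex.I * v) = Complex.I * (((‖pa T‖ - ‖pb T‖ : ℝ) : ℂ) * e) := by
      rw [pab, map_mul, Complex.conj_I]
      push_cast
      linear_combination Complex.I * ha - Complex.I * hb
    rw [this, norm_mul, norm_mul, he1, Complex.norm_I, Complex.norm_real, Real.norm_eq_abs]
    ring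

theorem norm_pab (T : ℂ →L[ℝ] ℂ) : ‖T‖ = ‖pa T‖ + ‖pb T‖ := by
  apply le_antisymm
  · refine ContinuousLinearMap.opNorm_le_bound _ (by positivity) fun v => ?_
    rw [pab T v]
    refine (norm_add_le _ _).trans ?_
    rw [norm_mul, norm_mul, Complex.norm_conj]
    linarith
  · obtain ⟨v, hv, h1, -⟩ := lda_align T
    have := T.le_opNorm v
    rw [hv, h1] at this
    linarith

namespace LQS
variable {η : ℝ → ℝ} {ψ χ : ℂ → ℂ} {W W' : Set ℂ} {r : ℝ} (h : LQS η ψ χ W W' r)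
include h

theorem injOn : InjOn ψ W := by
  intro a ha b hb hab
  rw [← h.linv a ha, ← h.linv b hb, hab]

theorem isOpen_image {U : Set ℂ} (hU : IsOpen U) (hW : U ⊆ W) : IsOpen (ψ '' U) := by
  have : ψ '' U = W' ∩ χ ⁻¹' U := by
    ext w
    constructor
    · rintro ⟨z, hz, rfl⟩
      exact ⟨h.maps (hW hz), by simpa [h.linv z (hW hz)] using hz⟩
    · rintro ⟨hw, hU'⟩
      exact ⟨χ w, hU', h.rinv w hw⟩
  rw [this]
  exact h.cont'.isOpen_inter_preimage h.W'_open hU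

theorem ball_sub {z v : ℂ} (hv : v ≠ 0) (hr : ‖v‖ ≤ r) (hW : closedBall z ‖v‖ ⊆ W) :
    1 ≤ η 1 ∧ ball (ψ z) (‖ψ (z + v) - ψ z‖ / η 1) ⊆ ψ '' ball z ‖v‖ := by
  have hvp : 0 < ‖v‖ := norm_pos_iff.2 hv
  have hz : z ∈ W := hW (mem_closedBall_self hvp.le)
  have hzv : z + v ∈ W := hW (by simp [mem_closedBall, dist_eq_norm])
  have hpos : 0 < ‖ψ (z + v) - ψ z‖ := by
    rw [norm_pos_iff, sub_ne_zero]
    intro he
    have := h.injOn hzv hz he
    exact hv (by simpa using this)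
  have h1 : 1 ≤ η 1 := by
    have := h.qs 1 one_pos z hz (z + v) hzv (z + v) hzv (by simpa using hr) (by simpa using hr)
      (by simp)
    nlinarith
  refine ⟨h1, ?_⟩
  have hη : 0 < η 1 := by linarith
  have hU : IsOpen (ψ '' ball z ‖v‖) :=
    h.isOpen_image isOpen_ball (ball_subset_closedBall.trans hW)
  have hK : IsCompact (ψ '' closedBall z ‖v‖) :=
    (isCompact_closedBall z ‖v‖).image_of_continuousOn (h.cont.mono hW)
  refine IsPreconnected.subset_left_of_subset_union hU hK.isClosed.isOpen_compl ?_ ?_ ?_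
    (convex_ball _ _).isPreconnected
  · exact disjoint_compl_right_iff_subset.2 (image_mono ball_subset_closedBall)
  · intro w hw
    by_cases hwK : w ∈ ψ '' closedBall z ‖v‖
    · left
      obtain ⟨b, hb, rfl⟩ := hwK
      refine ⟨b, ?_, rfl⟩
      rw [mem_closedBall, dist_eq_norm] at hb
      rw [mem_ball, dist_eq_norm]
      refine lt_of_le_of_ne hb fun he => ?_
      have hbW : b ∈ W := hW (by rw [mem_closedBall, dist_eq_norm]; exact hb)
      have := h.qs 1 one_pos z hz (z + v) hzv b hbW (by simpa using hr) (he ▸ hr)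
        (by simp [he])
      rw [mem_ball, dist_eq_norm, lt_div_iff₀ hη] at hw
      nlinarith
    · exact Or.inr hwK
  · exact ⟨ψ z, mem_ball_self (div_pos hpos hη), z, mem_ball_self hvp, rfl⟩

theorem lda_stretch {z : ℂ} (hz : z ∈ W) (hd : DifferentiableAt ℝ ψ z) {u v : ℂ}
    (hu : ‖u‖ = 1) (hv : ‖v‖ = 1) : ‖fderiv ℝ ψ z u‖ ≤ η 1 * ‖fderiv ℝ ψ z v‖ := by
  have t1 := ((hd.hasFDerivAt.hasLineDerivAt u).tendsto_slope_zero_right).norm
  have t2 := (((hd.hasFDerivAt.hasLineDerivAt v).tendsto_slope_zero_right).norm).const_mul (η 1)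
  refine le_of_tendsto_of_tendsto t1 t2 ?_
  obtain ⟨ε, hε, hεW⟩ := Metric.isOpen_iff.1 h.W_open z hz
  have hm : Ioo (0 : ℝ) (min ε r) ∈ 𝓝[>] (0 : ℝ) := Ioo_mem_nhdsGT (lt_min hε h.r_pos)
  filter_upwards [hm] with t ht
  have ht0 : 0 < t := ht.1
  have hn : ∀ w : ℂ, ‖w‖ = 1 → ‖z + t • w - z‖ = t := fun w hw => by
    rw [add_sub_cancel_left, norm_smul, hw, Real.norm_of_nonneg ht0.le, mul_one]
  have hW : ∀ w : ℂ, ‖w‖ = 1 → z + t • w ∈ W := fun w hw =>
    hεW (by rw [mem_ball, dist_eq_norm, hn w hw]; exact ht.2.trans_le (min_le_left _ _))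
  have hr : t ≤ r := (ht.2.trans_le (min_le_right _ _)).le
  have := h.qs 1 one_pos z hz _ (hW u hu) _ (hW v hv) (by rw [hn u hu]; exact hr)
    (by rw [hn v hv]; exact hr) (by rw [hn u hu, hn v hv, one_mul])
  rw [norm_smul, norm_smul, Real.norm_of_nonneg (inv_nonneg.2 ht0.le), mul_left_comm]
  exact mul_le_mul_of_nonneg_left this (inv_nonneg.2 ht0.le)

theorem norm_sq_le {z : ℂ} (hz : z ∈ W) (hd : DifferentiableAt ℝ ψ z) :
    ‖fderiv ℝ ψ z‖ ^ 2 ≤ η 1 * |(fderiv ℝ ψ z).det| := by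
  obtain ⟨v, hv, h1, h2⟩ := lda_align (fderiv ℝ ψ z)
  have h3 := h.lda_stretch hz hd (u := v) (v := Complex.I * v) hv (by simp [hv])
  rw [h1, h2] at h3
  rw [norm_pab, det_pab]
  have h4 : |‖pa (fderiv ℝ ψ z)‖ ^ 2 - ‖pb (fderiv ℝ ψ z)‖ ^ 2| =
      |‖pa (fderiv ℝ ψ z)‖ - ‖pb (fderiv ℝ ψ z)‖| *
        (‖pa (fderiv ℝ ψ z)‖ + ‖pb (fderiv ℝ ψ z)‖) := by
    rw [sq_sub_sq, abs_mul, abs_of_nonneg (by positivity), mul_comm]
  rw [h4, ← mul_assoc, pow_two]
  exact mul_le_mul_of_nonneg_right h3 (by positivity)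

theorem lintegral_det_le {s : Set ℂ} (hs : MeasurableSet s) (hW : s ⊆ W) {g : ℂ → ENNReal}
    (hg : Measurable g) :
    ∫⁻ z in s, ENNReal.ofReal |(fderiv ℝ ψ z).det| * g (ψ z) ≤ ∫⁻ w in ψ '' s, g w := by
  set D : Set ℂ := {z | DifferentiableAt ℝ ψ z} with hD
  have hDm : MeasurableSet D := measurableSet_of_differentiableAt ℝ ψ
  have e1 : ∫⁻ z in s, ENNReal.ofReal |(fderiv ℝ ψ z).det| * g (ψ z) =
      ∫⁻ z in s ∩ D, ENNReal.ofReal |(fderiv ℝ ψ z).det| * g (ψ z) := by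
    rw [← lintegral_inter_add_sdiff _ s hDm]
    have : ∫⁻ z in s \ D, ENNReal.ofReal |(fderiv ℝ ψ z).det| * g (ψ z) = 0 := by
      rw [setLIntegral_congr_fun (hs.diff hDm) (g := fun _ => 0), lintegral_zero]
      intro z hz
      have hz' : ¬ DifferentiableAt ℝ ψ z := hz.2
      simp [fderiv_zero_of_not_differentiableAt hz', ContinuousLinearMap.det]
    rw [this, add_zero]
  rw [e1, ← lintegral_image_eq_lintegral_abs_det_fderiv_mul volume (hs.inter hDm)
    (fun x hx => (show DifferentiableAt ℝ ψ x from hx.2).hasFDerivAt.hasFDerivWithinAt)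
    (h.injOn.mono (inter_subset_left.trans hW)) g]
  exact lintegral_mono_set (image_mono inter_subset_left)

end LQS

end Vale.Agent.P198
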