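import Vale.Agent.P198.Defs
import Vale.Agent.P198.LDA

/-! Locally quasisymmetric maps are differentiable almost everywhere. -/

namespace Vale.Agent.P198

open Set Filter Topology Metric MeasureTheory
open scoped Classical

theorem ld_near {S : Set ℂ} {x : ℂ}
    (hx : Tendsto (fun R => volume (S ∩ closedBall x R) / volume (closedBall x R)) (𝓝[>] 0) (𝓝 1))
    {ε : ℝ} (hε : 0 < ε) :
    ∃ δ : ℝ, 0 < δ ∧ ∀ y : ℂ, y ≠ x → ‖y - x‖ < δ → ∃ y' ∈ S, ‖y' - y‖ ≤ ε * ‖y - x‖ := by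
  set κ : ℝ := ε ^ 2 / (1 + ε) ^ 2 with hκ
  have hκ0 : 0 < κ := by positivity
  have hlt : ENNReal.ofReal (1 - κ) < 1 := ENNReal.ofReal_lt_one.2 (by linarith)
  have hev := hx.eventually (lt_mem_nhds hlt)
  obtain ⟨δ, hδ, hδs⟩ := (nhdsGT_basis (0 : ℝ)).eventually_iff.1 hev
  refine ⟨δ / (1 + ε), by positivity, fun y hy hyd => ?_⟩
  by_contra hcon
  push Not at hcon
  set ρ : ℝ := ‖y - x‖ with hρ
  have hρ0 : 0 < ρ := norm_pos_iff.2 (sub_ne_zero.2 hy)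
  have hR : (1 + ε) * ρ ∈ Ioo 0 δ := by
    refine ⟨by positivity, ?_⟩
    rw [lt_div_iff₀ (by positivity)] at hyd
    linarith
  have h1 := hδs hR
  have hsub : closedBall y (ε * ρ) ⊆ closedBall x ((1 + ε) * ρ) := by
    apply closedBall_subset_closedBall'
    rw [dist_eq_norm, ← hρ]
    linarith
  have h2 : S ∩ closedBall x ((1 + ε) * ρ) ⊆
      closedBall x ((1 + ε) * ρ) \ closedBall y (ε * ρ) := by
    rintro w ⟨hwS, hw⟩
    refine ⟨hw, fun hw' => ?_⟩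
    rw [mem_closedBall, dist_eq_norm] at hw'
    exact absurd hw' (not_le.2 (hcon w hwS))
  have hv : ∀ (a : ℂ) (t : ℝ), 0 ≤ t → volume (closedBall a t) = ENNReal.ofReal (t ^ 2 * Real.pi) := by
    intro a t ht
    rw [Complex.volume_closedBall, ENNReal.ofReal_mul (by positivity), ENNReal.ofReal_pow ht]
    congr 1
    rw [← NNReal.coe_real_pi, ENNReal.ofReal_coe_nnreal]
  have h3 : volume (S ∩ closedBall x ((1 + ε) * ρ)) ≤
      ENNReal.ofReal (1 - κ) * volume (closedBall x ((1 + ε) * ρ)) := by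
    refine (measure_mono h2).trans ?_
    rw [measure_sdiff hsub measurableSet_closedBall.nullMeasurableSet measure_closedBall_lt_top.ne,
      hv _ _ (by positivity), hv _ _ (by positivity), ← ENNReal.ofReal_sub _ (by positivity),
      ← ENNReal.ofReal_mul' (by positivity)]
    apply le_of_eq
    congr 1
    rw [hκ]
    field_simp
  exact absurd (ENNReal.div_le_of_le_mul h3) (not_le.2 h1)

theorem ld_upgrade {f : ℂ → ℂ} {S : Set ℂ} {x : ℂ} {k τ : ℝ} (hk : 0 ≤ k) (hτ : 0 < τ)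
    (hS : ∀ a ∈ S, ∀ y, ‖y - a‖ < τ → ‖f y - f a‖ ≤ k * ‖y - a‖)
    (hx : Tendsto (fun R => volume (S ∩ closedBall x R) / volume (closedBall x R)) (𝓝[>] 0) (𝓝 1))
    (hd : DifferentiableWithinAt ℝ f S x) : DifferentiableAt ℝ f x := by
  obtain ⟨L, hL⟩ := hd
  refine ⟨L, ?_⟩
  rw [hasFDerivAt_iff_isLittleO_nhds_zero, Asymptotics.isLittleO_iff]
  intro c hc
  set ε : ℝ := min 1 (c / (k + ‖L‖ + 2)) with hε
  have hε0 : 0 < ε := lt_min one_pos (by positivity)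
  have hε1 : ε ≤ 1 := min_le_left _ _
  have hε2 : ε * (k + ‖L‖ + 2) ≤ c := by
    have : ε ≤ c / (k + ‖L‖ + 2) := min_le_right _ _
    rwa [le_div_iff₀ (by positivity)] at this
  obtain ⟨δ, hδ, hδs⟩ := ld_near hx hε0
  have h1 := (hasFDerivWithinAt_iff_isLittleO.1 hL).def hε0
  rw [eventually_nhdsWithin_iff, Metric.eventually_nhds_iff] at h1
  obtain ⟨δ', hδ', h1⟩ := h1
  have hm : ball (0 : ℂ) (min δ (min τ (δ' / 2))) ∈ 𝓝 (0 : ℂ) :=
    ball_mem_nhds _ (lt_min hδ (lt_min hτ (by positivity)))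
  filter_upwards [hm] with v hv
  rw [mem_ball_zero_iff, lt_min_iff, lt_min_iff] at hv
  obtain ⟨hv1, hv2, hv3⟩ := hv
  by_cases hv0 : v = 0
  · simp [hv0]
  obtain ⟨y', hy'S, hy'⟩ := hδs (x + v) (by simpa using hv0) (by simpa using hv1)
  rw [add_sub_cancel_left] at hy'
  have hvn : 0 ≤ ‖v‖ := norm_nonneg v
  have e1 : ‖y' - x‖ ≤ 2 * ‖v‖ := by
    have : y' - x = (y' - (x + v)) + v := by ring
    rw [this]
    refine (norm_add_le _ _).trans ?_
    nlinarith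
  have e2 : ‖f y' - f x - L (y' - x)‖ ≤ ε * ‖y' - x‖ :=
    h1 (by rw [dist_eq_norm]; linarith) hy'S
  have e3 : ‖f (x + v) - f y'‖ ≤ k * ‖x + v - y'‖ :=
    hS y' hy'S _ (by rw [norm_sub_rev]; nlinarith)
  have e4 : ‖L (y' - (x + v))‖ ≤ ‖L‖ * ‖y' - (x + v)‖ := L.le_opNorm _
  rw [norm_sub_rev (x + v) y'] at e3
  have e5 : f (x + v) - f x - L v =
      (f (x + v) - f y') + (f y' - f x - L (y' - x)) + L (y' - (x + v)) := by
    simp only [map_sub, map_add]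
    ring
  rw [e5]
  refine (norm_add₃_le).trans ?_
  have e6 : k * ‖y' - (x + v)‖ ≤ k * (ε * ‖v‖) := mul_le_mul_of_nonneg_left hy' hk
  have e7 : ‖L‖ * ‖y' - (x + v)‖ ≤ ‖L‖ * (ε * ‖v‖) :=
    mul_le_mul_of_nonneg_left hy' (norm_nonneg _)
  have e8 : ε * ‖y' - x‖ ≤ ε * (2 * ‖v‖) := mul_le_mul_of_nonneg_left e1 hε0.le
  have e9 : ε * (k + ‖L‖ + 2) * ‖v‖ ≤ c * ‖v‖ := mul_le_mul_of_nonneg_right hε2 hvn
  nlinarith

theorem ld_stepanov (f : ℂ → ℂ) : ∀ᵐ x ∂(volume : Measure ℂ),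
    (∃ C δ : ℝ, 0 < δ ∧ ∀ y, ‖y - x‖ < δ → ‖f y - f x‖ ≤ C * ‖y - x‖) →
      DifferentiableAt ℝ f x := by
  obtain ⟨Q, hQc, hQd⟩ := TopologicalSpace.exists_countable_dense ℂ
  set S : ℕ → ℂ → Set ℂ := fun k q =>
    {a | ∀ y, ‖y - a‖ < 1 / ((k : ℝ) + 1) → ‖f y - f a‖ ≤ k * ‖y - a‖} ∩
      ball q (1 / ((k : ℝ) + 1) / 2) with hS
  have key : ∀ (k : ℕ) (q : ℂ), ∀ᵐ x ∂(volume : Measure ℂ), x ∈ S k q → DifferentiableAt ℝ f x := by
    intro k q
    have hlip : LipschitzOnWith (k : NNReal) f (S k q) := by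
      refine LipschitzOnWith.of_dist_le_mul fun a ha b hb => ?_
      rw [dist_eq_norm, dist_eq_norm]
      refine hb.1 a ?_
      have h1 := dist_triangle_right a b q
      have h2 : dist a q < _ := ha.2
      have h3 : dist b q < _ := hb.2
      rw [dist_eq_norm] at h1
      linarith
    filter_upwards [hlip.ae_differentiableWithinAt_of_mem (μ := volume),
      ae_imp_of_ae_restrict (Besicovitch.ae_tendsto_measure_inter_div volume (S k q))]
      with x h1 h2 hx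
    exact ld_upgrade (k := k) (τ := 1 / ((k : ℝ) + 1)) (Nat.cast_nonneg k) (by positivity)
      (fun a ha => ha.1) (h2 hx) (h1 hx)
  have key2 : ∀ᵐ x ∂(volume : Measure ℂ), ∀ k : ℕ, ∀ q ∈ Q, x ∈ S k q → DifferentiableAt ℝ f x :=
    ae_all_iff.2 fun k => (ae_ball_iff hQc).2 fun q _ => key k q
  filter_upwards [key2] with x hx
  rintro ⟨C, δ, hδ, hC⟩
  obtain ⟨k, hk⟩ := exists_nat_ge (max C (1 / δ))
  have hk1 : C ≤ k := (le_max_left _ _).trans hk
  have hk2 : 1 / ((k : ℝ) + 1) ≤ δ := by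
    have : 1 / δ ≤ k := (le_max_right _ _).trans hk
    rw [div_le_iff₀ hδ] at this
    rw [div_le_iff₀ (by positivity)]
    nlinarith
  obtain ⟨q, hqQ, hq⟩ := hQd.exists_dist_lt x (ε := 1 / ((k : ℝ) + 1) / 2) (by positivity)
  refine hx k q hqQ ⟨fun y hy => ?_, hq⟩
  exact (hC y (hy.trans_le hk2)).trans (mul_le_mul_of_nonneg_right hk1 (norm_nonneg _))

namespace LQS
variable {η : ℝ → ℝ} {ψ χ : ℂ → ℂ} {W W' : Set ℂ} {r : ℝ} (h : LQS η ψ χ W W' r)
include h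

theorem ld_local {x0 : ℂ} {ε : ℝ} (hεW : closedBall x0 ε ⊆ W) :
    ∀ᵐ x ∂(volume : Measure ℂ), x ∈ ball x0 ε →
      ∃ C δ : ℝ, 0 < δ ∧ ∀ y, ‖y - x‖ < δ → ‖ψ y - ψ x‖ ≤ C * ‖y - x‖ := by
  have hBW : ball x0 ε ⊆ W := ball_subset_closedBall.trans hεW
  have hU : IsOpen (ψ '' ball x0 ε) := h.isOpen_image isOpen_ball hBW
  have hUW : ψ '' ball x0 ε ⊆ W' := by
    rintro _ ⟨z, hz, rfl⟩
    exact h.maps (hBW hz)
  have hχ : AEMeasurable χ (volume.restrict (ψ '' ball x0 ε)) :=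
    (h.cont'.mono hUW).aemeasurable hU.measurableSet
  have hfin : volume (ψ '' ball x0 ε) < ⊤ :=
    (measure_mono (image_mono ball_subset_closedBall)).trans_lt
      ((isCompact_closedBall x0 ε).image_of_continuousOn (h.cont.mono hεW)).measure_lt_top
  have : IsFiniteMeasure (volume.restrict (ψ '' ball x0 ε)) := isFiniteMeasure_restrict.2 hfin.ne
  set ν : Measure ℂ := Measure.map χ (volume.restrict (ψ '' ball x0 ε)) with hν
  filter_upwards [Besicovitch.ae_tendsto_rnDeriv ν volume, Measure.rnDeriv_lt_top ν volume]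
    with x h1 h2 hx
  obtain ⟨n, hn⟩ := ENNReal.exists_nat_gt h2.ne
  have hev := h1.eventually (gt_mem_nhds hn)
  obtain ⟨δ, hδ, hδs⟩ := (nhdsGT_basis (0 : ℝ)).eventually_iff.1 hev
  obtain ⟨δ', hδ', hδ's⟩ := nhds_basis_closedBall.mem_iff.1 (isOpen_ball.mem_nhds hx)
  refine ⟨η 1 * (n + 1), min δ (min δ' r), lt_min hδ (lt_min hδ' h.r_pos), fun y hy => ?_⟩
  rw [lt_min_iff, lt_min_iff] at hy
  obtain ⟨hy1, hy2, hy3⟩ := hy
  by_cases hyx : y = x
  · simp [hyx]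
  have hv : y - x ≠ 0 := sub_ne_zero.2 hyx
  have hρ : 0 < ‖y - x‖ := norm_pos_iff.2 hv
  have hsub : closedBall x ‖y - x‖ ⊆ ball x0 ε := (closedBall_subset_closedBall hy2.le).trans hδ's
  obtain ⟨hη, hb⟩ := h.ball_sub hv hy3.le (hsub.trans hBW)
  rw [add_sub_cancel] at hb
  have hη0 : 0 < η 1 := by linarith
  have e1 : volume (ball (ψ x) (‖ψ y - ψ x‖ / η 1)) ≤ ν (closedBall x ‖y - x‖) := by
    refine le_trans ?_ (Measure.le_map_apply hχ _)
    rw [Measure.restrict_apply' hU.measurableSet]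
    refine measure_mono (hb.trans ?_)
    rintro _ ⟨z, hz, rfl⟩
    have hz' := hsub (ball_subset_closedBall hz)
    exact ⟨by simpa [h.linv z (hBW hz')] using ball_subset_closedBall hz, z, hz', rfl⟩
  have e2 : ν (closedBall x ‖y - x‖) ≤ n * volume (closedBall x ‖y - x‖) := by
    have := (hδs ⟨hρ, hy1⟩).le
    rwa [ENNReal.div_le_iff (measure_closedBall_pos _ _ hρ).ne' measure_closedBall_lt_top.ne]
      at this
  have e3 := e1.trans e2
  rw [Complex.volume_ball, Complex.volume_closedBall, ← mul_assoc,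
    ENNReal.mul_le_mul_iff_left (by simp [NNReal.pi_ne_zero]) (by simp),
    ← ENNReal.ofReal_pow (by positivity), ← ENNReal.ofReal_pow hρ.le, ← ENNReal.ofReal_natCast,
    ← ENNReal.ofReal_mul (Nat.cast_nonneg n), ENNReal.ofReal_le_ofReal_iff (by positivity)] at e3
  have e4 : ‖ψ y - ψ x‖ / η 1 ≤ (n + 1) * ‖y - x‖ := by
    refine abs_le_of_sq_le_sq' (e3.trans ?_) (by positivity) |>.2
    have : (0 : ℝ) ≤ n := Nat.cast_nonneg n
    rw [mul_pow]
    exact mul_le_mul_of_nonneg_right (by nlinarith) (by positivity)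
  rw [div_le_iff₀ hη0] at e4
  linarith

theorem ae_diff : ∀ᵐ z ∂(volume : Measure ℂ), z ∈ W → DifferentiableAt ℝ ψ z := by
  have hN : volume {x : ℂ | x ∈ W ∧
      ¬ ∃ C δ : ℝ, 0 < δ ∧ ∀ y, ‖y - x‖ < δ → ‖ψ y - ψ x‖ ≤ C * ‖y - x‖} = 0 := by
    refine measure_null_of_locally_null _ fun x0 hx0 => ?_
    obtain ⟨ε, hε, hεW⟩ := nhds_basis_closedBall.mem_iff.1 (h.W_open.mem_nhds hx0.1)
    refine ⟨_, inter_mem_nhdsWithin _ (ball_mem_nhds x0 hε), ?_⟩
    refine measure_mono_null ?_ (ae_iff.1 (h.ld_local hεW))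
    rintro x ⟨hx1, hx2⟩ hx3
    exact hx1.2 (hx3 hx2)
  filter_upwards [ld_stepanov ψ, measure_eq_zero_iff_ae_notMem.1 hN] with x h1 h2 hx
  refine h1 ?_
  by_contra hc
  exact h2 ⟨hx, hc⟩

end LQS

end Vale.Agent.P198
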