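import Vale.Agent.P198.LD

/-! The fundamental theorem of calculus on rectangles for locally quasisymmetric maps. -/

namespace Vale.Agent.P198

open Set Filter Topology Metric MeasureTheory
open scoped Classical

theorem lf_vitali {ι α : Type*} [MeasurableSpace α] {μ : Measure α} [IsFiniteMeasure μ]
    {l : Filter ι} [l.IsCountablyGenerated] {D : ι → α → ENNReal} {M : ENNReal} (hM : M ≠ ⊤)
    (hm : ∀ᶠ i in l, AEMeasurable (D i) μ) (hb : ∀ᶠ i in l, ∫⁻ x, D i x ^ 2 ∂μ ≤ M)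
    (h0 : ∀ᵐ x ∂μ, Tendsto (fun i => D i x) l (𝓝 0)) :
    Tendsto (fun i => ∫⁻ x, D i x ∂μ) l (𝓝 0) := by
  rw [ENNReal.tendsto_nhds_zero]
  intro ε hε
  have hε2 : ε / 2 ≠ 0 := (ENNReal.half_pos hε.ne').ne'
  set K : ENNReal := M / (ε / 2) + 1 with hK
  have hK0 : K ≠ 0 := by simp [hK]
  have hKt : K ≠ ⊤ := ENNReal.add_ne_top.2 ⟨ENNReal.div_ne_top hM hε2, ENNReal.one_ne_top⟩
  have hMK : M * K⁻¹ ≤ ε / 2 := by
    rw [← div_eq_mul_inv]
    refine ENNReal.div_le_of_le_mul' ?_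
    by_cases ht : ε / 2 = ⊤
    · rw [ht, ENNReal.mul_top hK0]
      exact le_top
    · calc M = M / (ε / 2) * (ε / 2) := (ENNReal.div_mul_cancel hε2 ht).symm
        _ ≤ K * (ε / 2) := by
          gcongr
          exact le_self_add
  have h1 : Tendsto (fun i => ∫⁻ x, min (D i x) K ∂μ) l (𝓝 (∫⁻ _, 0 ∂μ)) := by
    refine tendsto_lintegral_filter_of_dominated_convergence' (fun _ => K) ?_ ?_ ?_ ?_
    · filter_upwards [hm] with i hi using hi.min aemeasurable_const
    · exact Eventually.of_forall fun i => Eventually.of_forall fun x => min_le_right _ _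
    · rw [lintegral_const]
      exact ENNReal.mul_ne_top hKt (measure_ne_top _ _)
    · filter_upwards [h0] with x hx
      simpa using hx.min (tendsto_const_nhds (x := K))
  rw [lintegral_zero, ENNReal.tendsto_nhds_zero] at h1
  filter_upwards [h1 (ε / 2) (pos_iff_ne_zero.2 hε2), hm, hb] with i hi1 hi2 hi3
  have h2 : ∀ x, D i x ≤ min (D i x) K + D i x ^ 2 * K⁻¹ := by
    intro x
    rcases le_total (D i x) K with hx | hx
    · rw [min_eq_left hx]
      exact le_self_add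
    · refine le_trans ?_ le_add_self
      rw [← div_eq_mul_inv, ENNReal.le_div_iff_mul_le (Or.inl hK0) (Or.inl hKt), pow_two]
      gcongr
  calc ∫⁻ x, D i x ∂μ ≤ ∫⁻ x, (min (D i x) K + D i x ^ 2 * K⁻¹) ∂μ := lintegral_mono h2
    _ = ∫⁻ x, min (D i x) K ∂μ + (∫⁻ x, D i x ^ 2 ∂μ) * K⁻¹ := by
      rw [lintegral_add_left' (hi2.min aemeasurable_const),
        lintegral_mul_const' _ _ (ENNReal.inv_ne_top.2 hK0)]
    _ ≤ ε / 2 + ε / 2 := add_le_add hi1 (le_trans (by gcongr) hMK)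
    _ = ε := ENNReal.add_halves ε

theorem lf_enorm_sub (x y : ℂ) : ‖x - y‖ₑ ^ 2 ≤ 2 * ‖x‖ₑ ^ 2 + 2 * ‖y‖ₑ ^ 2 := by
  have h : ‖x - y‖₊ ^ 2 ≤ 2 * ‖x‖₊ ^ 2 + 2 * ‖y‖₊ ^ 2 := by
    rw [← NNReal.coe_le_coe]
    push_cast
    have h1 := norm_sub_le x y
    have h2 := norm_nonneg (x - y)
    nlinarith [sq_nonneg (‖x‖ - ‖y‖)]
  simp only [enorm_eq_nnnorm]
  exact_mod_cast h

theorem lf_tonelli (ν : Measure ℂ) [IsFiniteMeasure ν] {ρ : ℝ} (hρ : 0 ≤ ρ) :
    ∫⁻ z, ν (ball z ρ) = ENNReal.ofReal (ρ ^ 2 * Real.pi) * ν univ := by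
  have hm : MeasurableSet {p : ℂ × ℂ | dist p.2 p.1 < ρ} :=
    (isOpen_lt (continuous_snd.dist continuous_fst) continuous_const).measurableSet
  have h1 := Measure.prod_apply (μ := (volume : Measure ℂ)) (ν := ν) hm
  have h2 := Measure.prod_apply_symm (μ := (volume : Measure ℂ)) (ν := ν) hm
  have h3 : ∀ u : ℂ, volume ((fun x : ℂ => (x, u)) ⁻¹' {p : ℂ × ℂ | dist p.2 p.1 < ρ}) =
      ENNReal.ofReal (ρ ^ 2 * Real.pi) := by
    intro u
    have : ((fun x : ℂ => (x, u)) ⁻¹' {p : ℂ × ℂ | dist p.2 p.1 < ρ}) = ball u ρ := by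
      ext x
      simp [mem_ball, dist_comm]
    rw [this, Complex.volume_ball, ENNReal.ofReal_mul (by positivity), ENNReal.ofReal_pow hρ]
    congr 1
    rw [← NNReal.coe_real_pi, ENNReal.ofReal_coe_nnreal]
  simp_rw [h3, lintegral_const] at h2
  rw [← h2, h1]
  rfl

theorem lf_fubini {Φ : ℂ → ℂ} (hΦ : Continuous Φ) {a b c d : ℝ} (hab : a ≤ b) (hcd : c ≤ d) :
    (∫ z in Icc a b ×ℂ Icc c d, Φ z = ∫ x in a..b, ∫ y in c..d, Φ (x + y * Complex.I)) ∧
    (∫ z in Icc a b ×ℂ Icc c d, Φ z = ∫ y in c..d, ∫ x in a..b, Φ (x + y * Complex.I)) := by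
  set g : ℝ × ℝ → ℂ := fun p => Φ (p.1 + p.2 * Complex.I) with hg
  have hgc : Continuous g := by fun_prop
  have h1 := Complex.volume_preserving_equiv_real_prod.setIntegral_preimage_emb
    Complex.measurableEquivRealProd.measurableEmbedding g (Icc a b ×ˢ Icc c d)
  have h2 : ∫ z in Icc a b ×ℂ Icc c d, Φ z = ∫ p in Icc a b ×ˢ Icc c d, g p := by
    rw [← h1]
    refine setIntegral_congr_fun ?_ fun z _ => ?_
    · exact (isClosed_Icc.reProdIm isClosed_Icc).measurableSet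
    · simp [hg]
  have hi : Integrable g ((volume.restrict (Icc a b)).prod (volume.restrict (Icc c d))) := by
    rw [Measure.prod_restrict]
    exact hgc.continuousOn.integrableOn_compact (isCompact_Icc.prod isCompact_Icc)
  rw [h2, Measure.volume_eq_prod, ← Measure.prod_restrict]
  simp only [intervalIntegral.integral_of_le hab, intervalIntegral.integral_of_le hcd,
    ← integral_Icc_eq_integral_Ioc]
  exact ⟨integral_prod g hi, integral_prod_symm g hi⟩

theorem lf_tele {G : ℝ → ℂ} (hG : Continuous G) (c d : ℝ) :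
    Tendsto (fun t : ℝ => t⁻¹ • ((∫ y in c..d, G (y + t)) - ∫ y in c..d, G y)) (𝓝[>] 0)
      (𝓝 (G d - G c)) := by
  have hP : ∀ u : ℝ, HasDerivAt (fun t : ℝ => ∫ y in (0 : ℝ)..(u + t), G y) (G u) 0 := by
    intro u
    have h1 : HasDerivAt (fun w : ℝ => ∫ y in (0 : ℝ)..w, G y) (G u) (u + 0) := by
      rw [add_zero]
      exact intervalIntegral.integral_hasDerivAt_right (hG.intervalIntegrable _ _)
        (hG.stronglyMeasurableAtFilter _ _) hG.continuousAt
    exact h1.comp_const_add u 0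
  have h2 : HasDerivAt (fun t : ℝ => ∫ y in c..d, G (y + t)) (G d - G c) 0 := by
    have := (hP d).sub (hP c)
    refine this.congr_of_eventuallyEq (Eventually.of_forall fun t => ?_)
    simp only [Pi.sub_apply]
    rw [intervalIntegral.integral_comp_add_right, intervalIntegral.integral_interval_sub_left
      (hG.intervalIntegrable _ _) (hG.intervalIntegrable _ _)]
  simpa using h2.tendsto_slope_zero_right

theorem lf_quot_split {Φ : ℂ → ℂ} (hΦ : Continuous Φ) {s : Set ℂ} (hs : IsCompact s) (v : ℂ)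
    (t : ℝ) : ∫ z in s, t⁻¹ • (Φ (z + t • v) - Φ z) =
      t⁻¹ • ((∫ z in s, Φ (z + t • v)) - ∫ z in s, Φ z) := by
  rw [integral_smul, integral_sub]
  · exact (by fun_prop : Continuous fun z => Φ (z + t • v)).continuousOn.integrableOn_compact hs
  · exact hΦ.continuousOn.integrableOn_compact hs

theorem lf_im {Φ : ℂ → ℂ} (hΦ : Continuous Φ) {a b c d : ℝ} (hab : a ≤ b) (hcd : c ≤ d) :
    Tendsto (fun t : ℝ => ∫ z in Icc a b ×ℂ Icc c d, t⁻¹ • (Φ (z + t • Complex.I) - Φ z)) (𝓝[>] 0)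
      (𝓝 (∫ x in a..b, (Φ (x + d * Complex.I) - Φ (x + c * Complex.I)))) := by
  set G : ℝ → ℂ := fun y => ∫ x in a..b, Φ (x + y * Complex.I) with hG
  have hGc : Continuous G :=
    intervalIntegral.continuous_parametric_intervalIntegral_of_continuous' (by fun_prop) a b
  rw [intervalIntegral.integral_sub
    ((by fun_prop : Continuous fun x : ℝ => Φ (x + d * Complex.I)).intervalIntegrable _ _)
    ((by fun_prop : Continuous fun x : ℝ => Φ (x + c * Complex.I)).intervalIntegrable _ _)]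
  refine (lf_tele hGc c d).congr fun t => ?_
  rw [lf_quot_split hΦ (isCompact_Icc.reProdIm isCompact_Icc),
    (lf_fubini (Φ := fun z => Φ (z + t • Complex.I)) (by fun_prop) hab hcd).2,
    (lf_fubini hΦ hab hcd).2]
  congr 3
  ext y
  simp only [hG]
  congr 1
  ext x
  congr 1
  push_cast
  rw [Complex.real_smul]
  ring

theorem lf_re {Φ : ℂ → ℂ} (hΦ : Continuous Φ) {a b c d : ℝ} (hab : a ≤ b) (hcd : c ≤ d) :
    Tendsto (fun t : ℝ => ∫ z in Icc a b ×ℂ Icc c d, t⁻¹ • (Φ (z + t • (1 : ℂ)) - Φ z)) (𝓝[>] 0)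
      (𝓝 (∫ y in c..d, (Φ (b + y * Complex.I) - Φ (a + y * Complex.I)))) := by
  set G : ℝ → ℂ := fun x => ∫ y in c..d, Φ (x + y * Complex.I) with hG
  have hGc : Continuous G :=
    intervalIntegral.continuous_parametric_intervalIntegral_of_continuous' (by fun_prop) c d
  rw [intervalIntegral.integral_sub
    ((by fun_prop : Continuous fun y : ℝ => Φ (b + y * Complex.I)).intervalIntegrable _ _)
    ((by fun_prop : Continuous fun y : ℝ => Φ (a + y * Complex.I)).intervalIntegrable _ _)]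
  refine (lf_tele hGc a b).congr fun t => ?_
  rw [lf_quot_split hΦ (isCompact_Icc.reProdIm isCompact_Icc),
    (lf_fubini (Φ := fun z => Φ (z + t • (1 : ℂ))) (by fun_prop) hab hcd).1,
    (lf_fubini hΦ hab hcd).1]
  congr 3
  ext x
  simp only [hG]
  congr 1
  ext y
  congr 1
  push_cast
  rw [Complex.real_smul]
  ring

theorem lf_small (τ : ℝ) (hτ : 0 < τ) (v : ℂ) : ∀ᶠ t : ℝ in 𝓝[>] 0, 0 < t ∧ ‖t • v‖ < τ := by
  have h1 : Tendsto (fun t : ℝ => ‖t • v‖) (𝓝[>] 0) (𝓝 0) := by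
    have : Tendsto (fun t : ℝ => ‖t • v‖) (𝓝 0) (𝓝 ‖(0 : ℝ) • v‖) :=
      (by fun_prop : Continuous fun t : ℝ => ‖t • v‖).tendsto 0
    rw [zero_smul, norm_zero] at this
    exact this.mono_left nhdsWithin_le_nhds
  filter_upwards [self_mem_nhdsWithin, h1.eventually (gt_mem_nhds hτ)] with t h1 h2 using ⟨h1, h2⟩

theorem lf_mem_thick {s : Set ℂ} {τ : ℝ} {z w : ℂ} (hz : z ∈ s) (hw : ‖w‖ ≤ τ) :
    z + w ∈ cthickening τ s :=
  mem_cthickening_of_dist_le _ z _ _ hz (by simpa [dist_eq_norm] using hw)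

namespace LQS
variable {η : ℝ → ℝ} {ψ χ : ℂ → ℂ} {W W' : Set ℂ} {r : ℝ} (h : LQS η ψ χ W W' r)
include h

theorem lf_sq {s : Set ℂ} (hs : IsCompact s) (hW : s ⊆ W) :
    ∫⁻ z in s, ‖fderiv ℝ ψ z‖ₑ ^ 2 < ⊤ := by
  have h1 : ∫⁻ z in s, ‖fderiv ℝ ψ z‖ₑ ^ 2 ≤
      ∫⁻ z in s, ENNReal.ofReal (η 1) * (ENNReal.ofReal |(fderiv ℝ ψ z).det| * 1) := by
    refine setLIntegral_mono' hs.measurableSet fun z hz => ?_
    by_cases hd : DifferentiableAt ℝ ψ z
    · rw [mul_one, ← ENNReal.ofReal_mul' (abs_nonneg _), ← ofReal_norm,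
        ← ENNReal.ofReal_pow (norm_nonneg _)]
      exact ENNReal.ofReal_le_ofReal (h.norm_sq_le (hW hz) hd)
    · simp [fderiv_zero_of_not_differentiableAt hd]
  refine h1.trans_lt ?_
  rw [lintegral_const_mul' _ _ ENNReal.ofReal_ne_top]
  refine ENNReal.mul_lt_top ENNReal.ofReal_lt_top ?_
  refine (h.lintegral_det_le hs.measurableSet hW (g := fun _ => 1) measurable_const).trans_lt ?_
  rw [lintegral_const, one_mul, Measure.restrict_apply_univ]
  exact (hs.image_of_continuousOn (h.cont.mono hW)).measure_lt_top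

theorem lf_quot_sq {s : Set ℂ} (hs : IsCompact s) {τ : ℝ} (hW : cthickening τ s ⊆ W) (v : ℂ)
    {t : ℝ} (ht : 0 < t) (htτ : ‖t • v‖ ≤ τ) (htr : ‖t • v‖ ≤ r) :
    ∫⁻ z in s, ‖t⁻¹ • (ψ (z + t • v) - ψ z)‖ₑ ^ 2 ≤
      ENNReal.ofReal (η 1 ^ 2 * ‖v‖ ^ 2) * volume (ψ '' cthickening τ s) := by
  by_cases hv : v = 0
  · simp [hv]
  have htv : t • v ≠ 0 := smul_ne_zero ht.ne' hv
  have hK : IsCompact (ψ '' cthickening τ s) :=
    hs.cthickening.image_of_continuousOn (h.cont.mono hW)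
  have hKW : ψ '' cthickening τ s ⊆ W' := by
    rintro _ ⟨z, hz, rfl⟩
    exact h.maps (hW hz)
  have hχ : AEMeasurable χ (volume.restrict (ψ '' cthickening τ s)) :=
    (h.cont'.mono hKW).aemeasurable hK.measurableSet
  have : IsFiniteMeasure (volume.restrict (ψ '' cthickening τ s)) :=
    isFiniteMeasure_restrict.2 hK.measure_lt_top.ne
  set ν : Measure ℂ := Measure.map χ (volume.restrict (ψ '' cthickening τ s)) with hν
  have hνu : ν univ = volume (ψ '' cthickening τ s) := by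
    rw [hν, Measure.map_apply_of_aemeasurable hχ MeasurableSet.univ, preimage_univ,
      Measure.restrict_apply_univ]
  have h1 : ∀ z ∈ s, ‖t⁻¹ • (ψ (z + t • v) - ψ z)‖ₑ ^ 2 ≤
      ENNReal.ofReal (η 1 ^ 2 / (t ^ 2 * Real.pi)) * ν (ball z ‖t • v‖) := by
    intro z hz
    have hsub : closedBall z ‖t • v‖ ⊆ cthickening τ s :=
      (closedBall_subset_closedBall htτ).trans (closedBall_subset_cthickening hz τ)
    obtain ⟨hη, hb⟩ := h.ball_sub htv htr (hsub.trans hW)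
    have hη0 : 0 < η 1 := by linarith
    have e1 : volume (ball (ψ z) (‖ψ (z + t • v) - ψ z‖ / η 1)) ≤ ν (ball z ‖t • v‖) := by
      refine le_trans ?_ (Measure.le_map_apply hχ _)
      rw [Measure.restrict_apply' hK.measurableSet]
      refine measure_mono (hb.trans ?_)
      rintro _ ⟨w, hw, rfl⟩
      have hw' := hsub (ball_subset_closedBall hw)
      exact ⟨by simpa [h.linv w (hW hw')] using hw, w, hw', rfl⟩
    refine le_trans (le_of_eq ?_) (mul_le_mul_right e1 _)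
    rw [Complex.volume_ball, ← ENNReal.ofReal_pow (by positivity), ← ENNReal.ofReal_coe_nnreal,
      NNReal.coe_real_pi, ← ENNReal.ofReal_mul (by positivity),
      ← ENNReal.ofReal_mul (by positivity), ← ofReal_norm,
      ← ENNReal.ofReal_pow (norm_nonneg _), norm_smul, Real.norm_of_nonneg (inv_nonneg.2 ht.le)]
    congr 1
    have := Real.pi_pos
    field_simp
  refine (setLIntegral_mono' hs.measurableSet h1).trans ?_
  refine (setLIntegral_le_lintegral _ _).trans ?_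
  rw [lintegral_const_mul' _ _ ENNReal.ofReal_ne_top, lf_tonelli ν (norm_nonneg _), hνu,
    ← mul_assoc, ← ENNReal.ofReal_mul (by positivity)]
  apply le_of_eq
  congr 2
  rw [norm_smul, Real.norm_of_nonneg ht.le]
  have := Real.pi_pos
  field_simp

theorem integrableOn {s : Set ℂ} (hs : IsCompact s) (hW : s ⊆ W) :
    IntegrableOn (fun z => fderiv ℝ ψ z) s := by
  refine ⟨(measurable_fderiv ℝ ψ).aestronglyMeasurable, ?_⟩
  have h1 : ∀ z, ‖fderiv ℝ ψ z‖ₑ ≤ 1 + ‖fderiv ℝ ψ z‖ₑ ^ 2 := by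
    intro z
    rcases le_total ‖fderiv ℝ ψ z‖ₑ 1 with hx | hx
    · exact hx.trans le_self_add
    · refine le_trans ?_ le_add_self
      rw [pow_two]
      exact le_mul_of_one_le_left' hx
  refine (lintegral_mono h1).trans_lt ?_
  rw [lintegral_add_left measurable_const, lintegral_const, one_mul, Measure.restrict_apply_univ]
  exact ENNReal.add_lt_top.2 ⟨hs.measure_lt_top, h.lf_sq hs hW⟩

theorem quot_tendsto {s : Set ℂ} (hs : IsCompact s) (hW : s ⊆ W) (v : ℂ) :
    Tendsto (fun t : ℝ => ∫ z in s, t⁻¹ • (ψ (z + t • v) - ψ z)) (𝓝[>] 0)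
      (𝓝 (∫ z in s, fderiv ℝ ψ z v)) := by
  obtain ⟨τ, hτ, hτW⟩ := hs.exists_cthickening_subset_open h.W_open hW
  have : IsFiniteMeasure (volume.restrict s) := isFiniteMeasure_restrict.2 hs.measure_lt_top.ne
  have hg : AEStronglyMeasurable (fun z => fderiv ℝ ψ z v) (volume.restrict s) :=
    (measurable_fderiv_apply_const ℝ ψ v).aestronglyMeasurable
  have hcont : ∀ᶠ t : ℝ in 𝓝[>] 0, ContinuousOn (fun z => t⁻¹ • (ψ (z + t • v) - ψ z)) s := by
    filter_upwards [lf_small τ hτ v] with t ht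
    refine ContinuousOn.const_smul (ContinuousOn.sub ?_ (h.cont.mono hW)) t⁻¹
    exact h.cont.comp (by fun_prop) fun z hz => hτW (lf_mem_thick hz ht.2.le)
  refine tendsto_integral_of_L1 _ hg ?_ ?_
  · filter_upwards [hcont] with t ht using ht.integrableOn_compact hs
  have hK : volume (ψ '' cthickening τ s) < ⊤ :=
    (hs.cthickening.image_of_continuousOn (h.cont.mono hτW)).measure_lt_top
  have hsq := h.lf_sq hs hW
  refine lf_vitali (M := 2 * (ENNReal.ofReal (η 1 ^ 2 * ‖v‖ ^ 2) * volume (ψ '' cthickening τ s)) +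
    2 * ((∫⁻ z in s, ‖fderiv ℝ ψ z‖ₑ ^ 2) * ‖v‖ₑ ^ 2)) ?_ ?_ ?_ ?_
  · refine ENNReal.add_ne_top.2 ⟨ENNReal.mul_ne_top (by simp)
      (ENNReal.mul_ne_top ENNReal.ofReal_ne_top hK.ne), ENNReal.mul_ne_top (by simp)
      (ENNReal.mul_ne_top hsq.ne (by simp))⟩
  · filter_upwards [hcont] with t ht
    exact ((ht.aestronglyMeasurable hs.measurableSet).sub hg).enorm
  · filter_upwards [hcont, lf_small τ hτ v, lf_small r h.r_pos v] with t ht h1 h2
    refine (lintegral_mono fun z => lf_enorm_sub _ _).trans ?_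
    rw [lintegral_add_left' (((ht.aestronglyMeasurable hs.measurableSet).enorm.pow_const 2).const_mul 2),
      lintegral_const_mul' _ _ (by simp), lintegral_const_mul' _ _ (by simp)]
    refine add_le_add (mul_le_mul_right (h.lf_quot_sq hs hτW v h1.1 h1.2.le h2.2.le) _)
      (mul_le_mul_right ?_ _)
    rw [← lintegral_mul_const' _ _ (by simp)]
    refine lintegral_mono fun z => ?_
    simp only [← mul_pow]
    gcongr
    exact (fderiv ℝ ψ z).le_opENorm v
  · filter_upwards [ae_restrict_mem hs.measurableSet, ae_restrict_of_ae h.ae_diff] with z hz hd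
    have h1 := ((hd (hW hz)).hasFDerivAt.hasLineDerivAt v).tendsto_slope_zero_right
    have h2 := (h1.sub_const (fderiv ℝ ψ z v)).enorm
    simpa using h2

theorem lf_ext {s : Set ℂ} (hs : IsCompact s) (hW : s ⊆ W) :
    ∃ Φ : ℂ → ℂ, Continuous Φ ∧ EqOn Φ ψ s ∧ ∀ v : ℂ,
      Tendsto (fun t : ℝ => ∫ z in s, t⁻¹ • (Φ (z + t • v) - Φ z)) (𝓝[>] 0)
        (𝓝 (∫ z in s, fderiv ℝ ψ z v)) := by
  obtain ⟨τ, hτ, hτW⟩ := hs.exists_cthickening_subset_open h.W_open hW
  obtain ⟨Φ, hΦ⟩ := ContinuousMap.exists_restrict_eq (isClosed_cthickening (δ := τ) (E := s))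
    ⟨_, (h.cont.mono hτW).domRestrict⟩
  have hE : EqOn Φ ψ (cthickening τ s) := fun z hz => DFunLike.congr_fun hΦ ⟨z, hz⟩
  have hE' : EqOn Φ ψ s := hE.mono (self_subset_cthickening s)
  refine ⟨Φ, Φ.continuous, hE', fun v => (h.quot_tendsto hs hW v).congr' ?_⟩
  filter_upwards [lf_small τ hτ v] with t ht
  refine setIntegral_congr_fun hs.measurableSet fun z hz => ?_
  simp only [hE' hz, hE (lf_mem_thick hz ht.2.le)]

theorem rect_im {a b c d : ℝ} (hab : a ≤ b) (hcd : c ≤ d) (hW : Icc a b ×ℂ Icc c d ⊆ W) :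
    ∫ z in Icc a b ×ℂ Icc c d, fderiv ℝ ψ z Complex.I =
      ∫ x in a..b, (ψ (x + d * Complex.I) - ψ (x + c * Complex.I)) := by
  obtain ⟨Φ, hΦ, hE, hT⟩ := h.lf_ext (isCompact_Icc.reProdIm isCompact_Icc) hW
  rw [tendsto_nhds_unique (hT Complex.I) (lf_im hΦ hab hcd)]
  refine intervalIntegral.integral_congr fun x hx => ?_
  rw [uIcc_of_le hab] at hx
  rw [hE, hE]
  · simpa [Complex.mem_reProdIm, hcd] using hx
  · simpa [Complex.mem_reProdIm, hcd] using hx

theorem rect_re {a b c d : ℝ} (hab : a ≤ b) (hcd : c ≤ d) (hW : Icc a b ×ℂ Icc c d ⊆ W) :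
    ∫ z in Icc a b ×ℂ Icc c d, fderiv ℝ ψ z 1 =
      ∫ y in c..d, (ψ (b + y * Complex.I) - ψ (a + y * Complex.I)) := by
  obtain ⟨Φ, hΦ, hE, hT⟩ := h.lf_ext (isCompact_Icc.reProdIm isCompact_Icc) hW
  rw [tendsto_nhds_unique (hT 1) (lf_re hΦ hab hcd)]
  refine intervalIntegral.integral_congr fun y hy => ?_
  rw [uIcc_of_le hcd] at hy
  rw [hE, hE]
  · simpa [Complex.mem_reProdIm, hab] using hy
  · simpa [Complex.mem_reProdIm, hab] using hy

end LQS

end Vale.Agent.P198
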