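import Vale.Agent.P198.LF

/-! Locally quasisymmetric maps send null sets to null sets. -/

namespace Vale.Agent.P198

open Set Filter Topology Metric MeasureTheory
open scoped Classical

theorem ln_vol (a : ℂ) {ρ : ℝ} (hρ : 0 ≤ ρ) :
    volume (closedBall a ρ) ≤ ENNReal.ofReal (4 * ρ ^ 2) := by
  rw [Complex.volume_closedBall, ← ENNReal.ofReal_pow hρ, ← ENNReal.ofReal_coe_nnreal,
    ← ENNReal.ofReal_mul (by positivity), NNReal.coe_real_pi]
  refine ENNReal.ofReal_le_ofReal ?_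
  nlinarith [Real.pi_le_four, sq_nonneg ρ]

namespace LQS
variable {η : ℝ → ℝ} {ψ χ : ℂ → ℂ} {W W' : Set ℂ} {r : ℝ} (h : LQS η ψ χ W W' r)
include h

/-- a thin rectangle sees the increment of the map -/
theorem ln_low {t τ u : ℝ} (ht : 0 < t) (hη : η t ≤ 1 / 4) (hτ : 0 < τ) (hr : τ ≤ r)
    (hu : 0 < u) (hu1 : u ≤ 1) (hut : u ≤ t) {x : ℂ} (hW : closedBall x τ ⊆ W) :
    ∃ R : Set ℂ, R ⊆ closedBall x τ ∧ u * τ / 4 * ‖ψ (x + (τ / 2 : ℝ) * Complex.I) - ψ x‖ ≤
      ‖∫ z in R, fderiv ℝ ψ z Complex.I‖ := by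
  have hR : Icc x.re (x.re + u * τ / 2) ×ℂ Icc x.im (x.im + τ / 2) ⊆ closedBall x τ := by
    intro z hz
    obtain ⟨⟨a1, a2⟩, a3, a4⟩ := Complex.mem_reProdIm.1 hz
    rw [mem_closedBall, dist_eq_norm]
    refine (Complex.norm_le_abs_re_add_abs_im _).trans ?_
    rw [Complex.sub_re, Complex.sub_im, abs_of_nonneg (by linarith), abs_of_nonneg (by linarith)]
    nlinarith
  have hab : x.re ≤ x.re + u * τ / 2 := by nlinarith
  refine ⟨_, hR, ?_⟩
  rw [h.rect_im hab (by linarith) (hR.trans hW)]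
  set y : ℂ := x + (τ / 2 : ℝ) * Complex.I with hy
  set Δ := ψ y - ψ x with hΔ
  have hm : ∀ v ∈ Icc x.re (x.re + u * τ / 2), ∀ w ∈ Icc x.im (x.im + τ / 2),
      (v : ℂ) + (w : ℝ) * Complex.I ∈ W := fun v hv w hw =>
    hW (hR (Complex.mem_reProdIm.2 (by simpa using ⟨hv, hw⟩)))
  have hl : x.im ∈ Icc x.im (x.im + τ / 2) := ⟨le_rfl, by linarith⟩
  have hl' : x.im + τ / 2 ∈ Icc x.im (x.im + τ / 2) := ⟨by linarith, le_rfl⟩
  have hxW : x ∈ W := hW (mem_closedBall_self hτ.le)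
  have hyx : ‖y - x‖ = τ / 2 := by
    rw [hy, add_sub_cancel_left, norm_mul, Complex.norm_I, mul_one, Complex.norm_real,
      Real.norm_of_nonneg (by linarith)]
  have hxy : ‖x - y‖ = τ / 2 := by rw [norm_sub_rev, hyx]
  have hyW : y ∈ W := hW (by rw [mem_closedBall, dist_eq_norm, hyx]; linarith)
  have hc : ∀ w ∈ Icc x.im (x.im + τ / 2), IntervalIntegrable
      (fun v : ℝ => ψ (v + (w : ℝ) * Complex.I)) volume x.re (x.re + u * τ / 2) := by
    intro w hw
    refine ContinuousOn.intervalIntegrable ?_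
    rw [uIcc_of_le hab]
    exact h.cont.comp (by fun_prop) fun v hv => hm v hv w hw
  have hi := (hc _ hl').sub (hc _ hl)
  have e := intervalIntegral.integral_sub hi (intervalIntegrable_const (c := Δ))
  have b := intervalIntegral.norm_integral_le_of_norm_le_const (a := x.re)
    (b := x.re + u * τ / 2) (C := ‖Δ‖ / 2)
    (f := fun v : ℝ => ψ (v + ((x.im + τ / 2 : ℝ) : ℂ) * Complex.I) -
      ψ (v + (x.im : ℂ) * Complex.I) - Δ) (fun v hv => by
      rw [uIoc_of_le hab] at hv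
      have hv' := Ioc_subset_Icc_self hv
      have n1 : ‖((v - x.re : ℝ) : ℂ)‖ ≤ u * τ / 2 := by
        rw [Complex.norm_real, Real.norm_of_nonneg (by linarith [hv'.1])]
        linarith [hv'.2]
      have e1 : (v : ℂ) + (x.im : ℂ) * Complex.I - x = ((v - x.re : ℝ) : ℂ) := by
        apply Complex.ext <;> simp
      have e2 : (v : ℂ) + ((x.im + τ / 2 : ℝ) : ℂ) * Complex.I - y = ((v - x.re : ℝ) : ℂ) := by
        apply Complex.ext <;> simp [hy]
      have q1 := h.qs t ht x hxW _ (hm v hv' _ hl) y hyW (by rw [e1]; nlinarith)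
        (by rw [hyx]; linarith) (by rw [e1, hyx]; nlinarith)
      have q2 := h.qs t ht y hyW _ (hm v hv' _ hl') x hxW (by rw [e2]; nlinarith)
        (by rw [hxy]; linarith) (by rw [e2, hxy]; nlinarith)
      rw [norm_sub_rev (ψ x), ← hΔ] at q2
      rw [← hΔ] at q1
      have e3 : ψ (v + ((x.im + τ / 2 : ℝ) : ℂ) * Complex.I) - ψ (v + (x.im : ℂ) * Complex.I) - Δ =
          (ψ (v + ((x.im + τ / 2 : ℝ) : ℂ) * Complex.I) - ψ y) -
            (ψ (v + (x.im : ℂ) * Complex.I) - ψ x) := by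
        rw [hΔ]
        ring
      rw [e3]
      refine (norm_sub_le _ _).trans ?_
      nlinarith [norm_nonneg Δ])
  rw [e, intervalIntegral.integral_const, add_sub_cancel_left,
    abs_of_nonneg (by positivity)] at b
  have b2 := norm_sub_norm_le ((u * τ / 2) • Δ) (∫ v in x.re..x.re + u * τ / 2,
    (ψ (v + ((x.im + τ / 2 : ℝ) : ℂ) * Complex.I) - ψ (v + (x.im : ℂ) * Complex.I)))
  rw [norm_sub_rev, norm_smul, Real.norm_of_nonneg (by positivity)] at b2
  linarith

/-- null sets carry only a fixed proportion of the image measure of small balls -/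
theorem ln_key (hη : Gauge η) : ∃ C : ℝ, 0 ≤ C ∧ ∀ (x : ℂ) (τ : ℝ) (N : Set ℂ),
    MeasurableSet N → volume N = 0 → 0 < τ → τ ≤ r → closedBall x τ ⊆ W →
    volume (ψ '' closedBall x τ) ≤ ENNReal.ofReal C * volume (ψ '' (closedBall x τ \ N)) := by
  obtain ⟨t, ht, hηt⟩ := hη.2 (1 / 4) (by norm_num)
  have hu : 0 < min t 1 := lt_min ht one_pos
  set u := min t 1 with hu'
  have h1 := hη.1 1
  have h2 := hη.1 2
  refine ⟨4 * η 2 ^ 2 * (256 * η 1 / u ^ 2), by positivity, fun x τ N hN hN0 hτ hr hW => ?_⟩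
  obtain ⟨R, hR, hlow⟩ := h.ln_low ht hηt hτ hr hu (min_le_right _ _) (min_le_left _ _) hW
  set y : ℂ := x + (τ / 2 : ℝ) * Complex.I with hy
  set Δ := ‖ψ y - ψ x‖ with hΔ
  have hΔ0 : 0 ≤ Δ := norm_nonneg _
  have hyx : ‖y - x‖ = τ / 2 := by
    rw [hy, add_sub_cancel_left, norm_mul, Complex.norm_I, mul_one, Complex.norm_real,
      Real.norm_of_nonneg (by linarith)]
  have hyW : y ∈ W := hW (by rw [mem_closedBall, dist_eq_norm, hyx]; linarith)
  have hup : volume (ψ '' closedBall x τ) ≤ ENNReal.ofReal (4 * (η 2 * Δ) ^ 2) := by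
    refine le_trans (measure_mono ?_) (ln_vol (ψ x) (by positivity))
    rintro _ ⟨z, hz, rfl⟩
    have hz' := mem_closedBall_iff_norm.1 hz
    exact mem_closedBall_iff_norm.2 (h.qs 2 two_pos x (hW (mem_closedBall_self hτ.le)) z (hW hz) y
      hyW (hz'.trans hr) (by rw [hyx]; linarith) (by rw [hyx]; linarith))
  have hfin : volume (ψ '' (closedBall x τ \ N)) ≠ ⊤ :=
    ne_top_of_le_ne_top ENNReal.ofReal_ne_top
      ((measure_mono (image_mono fun _ hz => hz.1)).trans hup)
  set m := (volume (ψ '' (closedBall x τ \ N))).toReal with hm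
  have hm0 : 0 ≤ m := ENNReal.toReal_nonneg
  have hmm : volume (ψ '' (closedBall x τ \ N)) = ENNReal.ofReal m :=
    (ENNReal.ofReal_toReal hfin).symm
  have hS : MeasurableSet (closedBall x τ \ N) := measurableSet_closedBall.diff hN
  have key : ∀ l : ℝ, 0 < l → u * τ / 4 * Δ ≤ l * (4 * τ ^ 2) + η 1 / l * m := by
    intro l hl
    refine hlow.trans ?_
    rw [← ENNReal.ofReal_le_ofReal_iff (by positivity), ofReal_norm]
    refine (enorm_integral_le_lintegral_enorm _).trans ?_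
    have a1 : R ≤ᵐ[volume] (closedBall x τ \ N : Set ℂ) := by
      filter_upwards [measure_eq_zero_iff_ae_notMem.1 hN0] with z hz hz'
      exact ⟨hR hz', hz⟩
    refine (lintegral_mono_set' a1).trans ?_
    have a2 : ∀ z ∈ closedBall x τ \ N, ‖fderiv ℝ ψ z Complex.I‖ₑ ≤ ENNReal.ofReal l +
        ENNReal.ofReal (η 1 / l) * (ENNReal.ofReal |(fderiv ℝ ψ z).det| * 1) := by
      intro z hz
      rw [mul_one, ← ENNReal.ofReal_mul (by positivity),
        ← ENNReal.ofReal_add hl.le (by positivity), ← ofReal_norm]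
      refine ENNReal.ofReal_le_ofReal ?_
      have b1 : ‖fderiv ℝ ψ z Complex.I‖ ≤ ‖fderiv ℝ ψ z‖ := by
        simpa using (fderiv ℝ ψ z).le_opNorm Complex.I
      have b2 : ‖fderiv ℝ ψ z‖ ^ 2 ≤ η 1 * |(fderiv ℝ ψ z).det| := by
        by_cases hd : DifferentiableAt ℝ ψ z
        · exact h.norm_sq_le (hW hz.1) hd
        · rw [fderiv_zero_of_not_differentiableAt hd, norm_zero, zero_pow two_ne_zero]
          positivity
      refine b1.trans (le_of_sq_le_sq ?_ (by positivity))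
      have b3 : l * (η 1 / l * |(fderiv ℝ ψ z).det|) = η 1 * |(fderiv ℝ ψ z).det| := by
        field_simp
      have b4 : 0 ≤ η 1 / l * |(fderiv ℝ ψ z).det| := by positivity
      nlinarith [sq_nonneg l, sq_nonneg (η 1 / l * |(fderiv ℝ ψ z).det|), mul_nonneg hl.le b4]
    refine (setLIntegral_mono' hS a2).trans ?_
    rw [lintegral_add_left measurable_const, lintegral_const_mul' _ _ ENNReal.ofReal_ne_top,
      ENNReal.ofReal_add (by positivity) (by positivity), ENNReal.ofReal_mul hl.le,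
      ENNReal.ofReal_mul (p := η 1 / l) (by positivity), setLIntegral_const]
    refine add_le_add (mul_le_mul_right ?_ _) (mul_le_mul_right ?_ _)
    · exact (measure_mono fun _ hz => hz.1).trans (ln_vol x hτ.le)
    · refine (h.lintegral_det_le hS (fun _ hz => hW hz.1) (g := fun _ => 1)
        measurable_const).trans ?_
      rw [setLIntegral_const, one_mul, hmm]
  have hsq : Δ ^ 2 ≤ 256 * η 1 / u ^ 2 * m := by
    rcases hΔ0.eq_or_lt with e | e
    · rw [← e, zero_pow two_ne_zero]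
      positivity
    · have a1 := key (u * Δ / (32 * τ)) (by positivity)
      have a2 : u * Δ / (32 * τ) * (4 * τ ^ 2) = u * τ / 8 * Δ := by
        field_simp
        ring
      have a3 : η 1 / (u * Δ / (32 * τ)) * m = u * τ / 8 / Δ * (256 * η 1 / u ^ 2 * m) := by
        field_simp
        ring
      have a4 : u * τ / 8 / Δ * Δ ^ 2 = u * τ / 8 * Δ := by field_simp
      have a5 : 0 < u * τ / 8 / Δ := by positivity
      refine le_of_mul_le_mul_left ?_ a5
      linarith
  refine hup.trans ?_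
  rw [hmm, ← ENNReal.ofReal_mul (by positivity)]
  refine ENNReal.ofReal_le_ofReal ?_
  have := mul_le_mul_of_nonneg_left hsq (show 0 ≤ 4 * η 2 ^ 2 by positivity)
  nlinarith

end LQS

theorem LQS.null {η : ℝ → ℝ} (hη : Gauge η) {ψ χ : ℂ → ℂ} {W W' : Set ℂ} {r : ℝ}
    (h : LQS η ψ χ W W' r) {s : Set ℂ} (hW : s ⊆ W) (hs : volume s = 0) :
    volume (ψ '' s) = 0 := by
  obtain ⟨C, hC, key⟩ := h.ln_key hη
  refine measure_null_of_locally_null _ ?_
  rintro _ ⟨x0, hx0, rfl⟩
  obtain ⟨δ, hδ, hB⟩ := nhds_basis_closedBall.mem_iff.1 (h.W_open.mem_nhds (hW hx0))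
  have hB' : ball x0 δ ⊆ W := ball_subset_closedBall.trans hB
  have hV : IsOpen (ψ '' ball x0 δ) := h.isOpen_image isOpen_ball hB'
  have hVW : ψ '' ball x0 δ ⊆ W' := by
    rintro _ ⟨z, hz, rfl⟩
    exact h.maps (hB' hz)
  have hχ : AEMeasurable χ (volume.restrict (ψ '' ball x0 δ)) :=
    (h.cont'.mono hVW).aemeasurable hV.measurableSet
  set ν : Measure ℂ := Measure.map χ (volume.restrict (ψ '' ball x0 δ)) with hν
  have hνA : ∀ A, MeasurableSet A → A ⊆ ball x0 δ → ν A = volume (ψ '' A) := by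
    intro A hA hAB
    rw [hν, Measure.map_apply_of_aemeasurable hχ hA, Measure.restrict_apply' hV.measurableSet]
    refine congrArg volume (Set.ext fun w => ⟨?_, ?_⟩)
    · rintro ⟨h1, z, hz, rfl⟩
      rw [mem_preimage, h.linv z (hB' hz)] at h1
      exact ⟨z, h1, rfl⟩
    · rintro ⟨z, hz, rfl⟩
      refine ⟨?_, z, hAB hz, rfl⟩
      rw [mem_preimage, h.linv z (hB' (hAB hz))]
      exact hz
  have hfin : IsFiniteMeasure (volume.restrict (ψ '' ball x0 δ)) := by
    refine isFiniteMeasure_restrict.2 (ne_top_of_le_ne_top ?_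
      (measure_mono (image_mono ball_subset_closedBall)))
    exact ((isCompact_closedBall x0 δ).image_of_continuousOn (h.cont.mono hB)).measure_lt_top.ne
  set N : Set ℂ := toMeasurable volume s ∩ ball x0 δ with hN
  have hNm : MeasurableSet N := (measurableSet_toMeasurable _ _).inter measurableSet_ball
  have hN0 : volume N = 0 :=
    measure_mono_null inter_subset_left (by rw [measure_toMeasurable, hs])
  have hbad : ∀ x ∈ N, ¬ Tendsto (fun τ => ν (N ∩ closedBall x τ) / ν (closedBall x τ))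
      (𝓝[>] 0) (𝓝 1) := by
    intro x hx ht
    obtain ⟨ε, hε, hεB⟩ := nhds_basis_closedBall.mem_iff.1 (isOpen_ball.mem_nhds hx.2)
    have hq : ENNReal.ofReal C / (ENNReal.ofReal C + 1) < 1 := by
      rw [ENNReal.div_lt_iff (Or.inl (by simp)) (Or.inl (by simp)), one_mul]
      exact ENNReal.lt_add_right ENNReal.ofReal_ne_top one_ne_zero
    refine absurd (le_of_tendsto ht ?_) (not_le.2 hq)
    filter_upwards [Ioc_mem_nhdsGT (lt_min hε h.r_pos)] with τ hτ
    have a1 : closedBall x τ ⊆ ball x0 δ :=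
      (closedBall_subset_closedBall (hτ.2.trans (min_le_left _ _))).trans hεB
    have a2 := key x τ N hNm hN0 hτ.1 (hτ.2.trans (min_le_right _ _)) (a1.trans hB')
    rw [← hνA _ measurableSet_closedBall a1,
      ← hνA _ (measurableSet_closedBall.diff hNm) fun z hz => a1 hz.1] at a2
    have a3 := measure_inter_add_sdiff (μ := ν) (closedBall x τ) hNm
    rw [inter_comm] at a3
    refine ENNReal.div_le_of_le_mul ?_
    rw [ENNReal.div_eq_inv_mul, mul_assoc, ← ENNReal.div_eq_inv_mul,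
      ENNReal.le_div_iff_mul_le (Or.inl (by simp)) (Or.inl (by simp)), mul_add, mul_one]
    conv_rhs => rw [← a3, mul_add]
    rw [mul_comm]
    exact add_le_add le_rfl ((measure_mono inter_subset_right).trans a2)
  have hνN : ν N = 0 := by
    have a1 := Besicovitch.ae_tendsto_measure_inter_div ν N
    have a2 : ∀ᵐ x ∂ν.restrict N, False := by
      filter_upwards [a1, ae_restrict_mem hNm] with x h1 h2
      exact hbad x h2 h1
    rw [eventually_false_iff_eq_bot, ae_eq_bot, Measure.restrict_eq_zero] at a2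
    exact a2
  rw [hνA N hNm inter_subset_right] at hνN
  refine ⟨ψ '' s ∩ ψ '' ball x0 δ, inter_mem_nhdsWithin _
    (hV.mem_nhds ⟨x0, mem_ball_self hδ, rfl⟩), measure_mono_null ?_ hνN⟩
  rintro _ ⟨⟨z, hz, rfl⟩, z', hz', e⟩
  have : z' = z := h.injOn (hB' hz') (hW hz) e
  exact ⟨z, ⟨subset_toMeasurable _ _ hz, this ▸ hz'⟩, rfl⟩

theorem LQS.ae_both {η : ℝ → ℝ} (hη : Gauge η) {ψ χ : ℂ → ℂ} {W W' : Set ℂ} {r r' : ℝ}
    (h : LQS η ψ χ W W' r) (h' : LQS η χ ψ W' W r') :
    ∀ᵐ z ∂(volume : Measure ℂ), z ∈ W →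
      DifferentiableAt ℝ ψ z ∧ DifferentiableAt ℝ χ (ψ z) ∧ (fderiv ℝ ψ z).det ≠ 0 := by
  have h1 : volume {w | w ∈ W' ∧ ¬ DifferentiableAt ℝ χ w} = 0 := by
    refine measure_mono_null ?_ (ae_iff.1 h'.ae_diff)
    exact fun w hw hw' => hw.2 (hw' hw.1)
  have h2 := h'.null hη (fun w hw => hw.1) h1
  filter_upwards [h.ae_diff, measure_eq_zero_iff_ae_notMem.1 h2] with z hz hz' hW
  have d1 := hz hW
  have d2 : DifferentiableAt ℝ χ (ψ z) := by
    by_contra hd
    exact hz' ⟨ψ z, ⟨h.maps hW, hd⟩, h.linv z hW⟩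
  refine ⟨d1, d2, fun e => ?_⟩
  have a1 : χ ∘ ψ =ᶠ[𝓝 z] id := by
    filter_upwards [h.W_open.mem_nhds hW] with w hw
    exact h.linv w hw
  have a2 := a1.fderiv_eq (𝕜 := ℝ)
  rw [fderiv_comp z d2 d1, fderiv_id] at a2
  have a3 := congrArg ContinuousLinearMap.det a2
  unfold ContinuousLinearMap.det at a3 e
  rw [ContinuousLinearMap.toLinearMap_comp, LinearMap.det_comp, e, mul_zero] at a3
  simp at a3

end Vale.Agent.P198
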