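import Vale.Agent.P198.Net
import Vale.Agent.P198.AP

/-! The approximate charts do not collapse paths. -/

namespace Vale.Agent.P198

open Set Filter Topology Metric MeasureTheory
open scoped Classical

variable {G : Type*} [Group G] {X : Type} [MetricSpace X] [MulAction G X]

/-- squeezing the line into an interval -/
theorem lighta_line (m : ℝ) {ρ b : ℝ} (hb : 0 < b) (h : ρ < b) : ∃ g : ℝ → ℝ, IsOpenEmbedding g ∧
    (∀ t, |g t - m| ≤ b) ∧ ∀ y, |y - m| ≤ ρ → ∃ t, |t| ≤ 1 ∧ g t = y := by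
  obtain ⟨g, hs, ht⟩ : ∃ g : OpenPartialHomeomorph ℝ ℝ, g.source = univ ∧ g.target = ball m b :=
    ⟨OpenPartialHomeomorph.univBall m b, OpenPartialHomeomorph.univBall_source m b,
      OpenPartialHomeomorph.univBall_target m hb⟩
  have hsub : closedBall m ρ ⊆ g.target := ht ▸ closedBall_subset_ball h
  obtain ⟨l, hl, h1⟩ := ((isCompact_closedBall m ρ).image_of_continuousOn
    (g.continuousOn_symm.mono hsub)).isBounded.exists_pos_norm_le
  refine ⟨fun t => g (l * t), (g.isOpenEmbedding hs).comp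
    (Homeomorph.mulLeft₀ l hl.ne').isOpenEmbedding, fun t => ?_, fun y hy => ?_⟩
  · have h2 := g.map_source (x := l * t) (hs ▸ mem_univ _)
    rw [ht, mem_ball, Real.dist_eq] at h2
    exact h2.le
  · have h2 : y ∈ closedBall m ρ := by rwa [mem_closedBall, Real.dist_eq]
    refine ⟨g.symm y / l, ?_, ?_⟩
    · rw [abs_div, abs_of_pos hl, div_le_one hl]
      exact h1 _ (mem_image_of_mem _ h2)
    · simp only [mul_div_cancel₀ _ hl.ne']
      exact g.right_inv (hsub h2)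

/-- squeezing the plane into the zone -/
theorem lighta_plane {η : ℝ} (hη : 0 < η) (hη1 : η ≤ 1 / 4) : ∃ ψ : ℝ × ℝ → ℝ × ℝ,
    IsOpenEmbedding ψ ∧ (∀ v, ψ v ∈ zone (η / 2)) ∧ ∀ z : ℝ × ℝ, -1 / 8 ≤ z.1 → z.1 ≤ 1 →
      η ≤ z.2 → z.2 ≤ 1 - η → ∃ v ∈ closedBall (0 : ℝ × ℝ) 1, ψ v = z := by
  obtain ⟨g1, h1, h2, h3⟩ := lighta_line (1 / 2) (ρ := 5 / 8) one_pos (by norm_num)
  obtain ⟨g2, h4, h5, h6⟩ := lighta_line (1 / 2) (ρ := 1 / 2 - η) (b := 1 / 2 - η / 2)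
    (by linarith) (by linarith)
  refine ⟨Prod.map g1 g2, h1.prodMap h4, fun v => ?_, fun z e1 e2 e3 e4 => ?_⟩
  · have e1 := abs_le.1 (h2 v.1)
    have e2 := abs_le.1 (h5 v.2)
    exact ⟨⟨show -1 / 2 ≤ g1 v.1 by linarith [e1.1], show g1 v.1 ≤ 3 / 2 by linarith [e1.2]⟩,
      show η / 2 ≤ g2 v.2 by linarith [e2.1], show g2 v.2 ≤ 1 - η / 2 by linarith [e2.2]⟩
  · obtain ⟨s, hs, hs'⟩ := h3 z.1 (abs_le.2 ⟨by linarith, by linarith⟩)
    obtain ⟨t, ht, ht'⟩ := h6 z.2 (abs_le.2 ⟨by linarith, by linarith⟩)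
    exact ⟨(s, t), mem_closedBall_zero_iff.2 (max_le hs ht), Prod.ext hs' ht'⟩

theorem lighta_unif {ψ : ℝ × ℝ → ℝ × ℝ} (hψ : Continuous ψ) {r : ℝ} (hr : 0 < r) :
    ∃ r' : ℝ, 0 < r' ∧ ∀ v ∈ closedBall (0 : ℝ × ℝ) 1, ∀ v' ∈ ball v r', ψ v' ∈ ball (ψ v) r := by
  obtain ⟨c, hc, h⟩ := Metric.uniformContinuousOn_iff.1 ((isCompact_closedBall (0 : ℝ × ℝ)
    2).uniformContinuousOn_of_continuous hψ.continuousOn) r hr
  refine ⟨min c 1, lt_min hc one_pos, fun v hv v' hv' => h v' ?_ v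
    (closedBall_subset_closedBall one_le_two hv) ((mem_ball.1 hv').trans_le (min_le_left _ _))⟩
  have h1 := (mem_ball.1 hv').trans_le (min_le_right _ _)
  have h2 := dist_triangle v' v 0
  exact mem_closedBall.2 (by linarith [mem_closedBall.1 hv])

namespace Ctx
variable (K : Ctx G X) {e : ℝ × ℝ → X} {M : ℝ}

theorem lighta_left {n : ℕ} (E : K.Sol e n) {z : ℝ × ℝ} (hz : z.1 < 0) : Df E z = 0 := by
  unfold Df
  split_ifs with h
  · exact E.pot_left _ h.choose_spec.1 ⟨z, hz, h.choose_spec.2⟩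
  · rfl

theorem light (he : IsOpenEmbedding e) (hM : ∀ m, K.ModLe m M) {η r : ℝ} (hη : 0 < η)
    (hη1 : η ≤ 1 / 4) (hr : 0 < r) : ∃ (ε : ℝ) (n1 : ℕ), 0 < ε ∧ ∀ n, n1 ≤ n →
      ∀ (E : K.Sol e n) (w : ℝ × ℝ), 3 / 8 ≤ w.1 → w.1 ≤ 5 / 8 → ∀ (A : Set X) (a : X),
        ∀ z ∈ sq, η ≤ z.2 → z.2 ≤ 1 - η → JoinedIn A (e z) a → a ∉ e '' ball z r →
        ∃ x ∈ zone (η / 2), e x ∈ A ∧ ε < dist (phi E x) w := by
  obtain ⟨ψ, hψ, hzone, hsurj⟩ := lighta_plane hη hη1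
  obtain ⟨r', hr', hunif⟩ := lighta_unif hψ.continuous (lt_min hr one_pos)
  obtain ⟨C, n1, hC, hnet⟩ := K.net hM (he.comp hψ) hr'
  obtain ⟨C', hC', hap⟩ := K.ap
  obtain ⟨k, hk⟩ := exists_nat_gt (C * C')
  have hk0 : (0 : ℝ) < k := lt_trans (by positivity) hk
  have hk1 : 1 ≤ k := by exact_mod_cast hk0
  obtain ⟨s, hs, hs'⟩ : ∃ s : ℝ, 0 < s ∧ 4 ^ k * s = 1 / 16 :=
    ⟨1 / (16 * 4 ^ k), by positivity, by field_simp⟩
  obtain ⟨n2, hsmall⟩ := K.small_ev he hM (ω := s / 100) (by positivity)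
  refine ⟨s, n1 + n2 + K.cov.n0, hs, fun n hn E w hw1 hw2 A a z hz hz1 hz2 hj ha => ?_⟩
  obtain ⟨f, τ, hτ, hsum, hosc, hf0, hf1⟩ := hap e he n (by omega) E k s (s / 100) w hk1 hs
    hs'.le (hsmall n (by omega) E) (by positivity) le_rfl hw1 hw2
  obtain ⟨v, hv, rfl⟩ := hsurj z (by linarith [hz.1.1]) hz.1.2 hz1 hz2
  obtain ⟨v', hv', hv''⟩ := hsurj (-1 / 8, 1 / 2) le_rfl (by norm_num) (by simp only; linarith)
    (by simp only; linarith)
  have hout : ∀ y ∈ closedBall (0 : ℝ × ℝ) 1, (e ∘ ψ) '' ball y r' ⊆ e '' ball (ψ y) (min r 1) := by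
    rintro y hy _ ⟨y', hy', rfl⟩
    exact ⟨_, hunif y hy y' hy', rfl⟩
  obtain ⟨x, ⟨hx, x', -, rfl⟩, y, ⟨⟨y', hy', rfl⟩, -⟩, hxy⟩ := hnet n (by omega) f τ hτ
    (fun u hu hU => hosc u (Finset.mem_filter.2 ⟨hu, hU.trans (by
      rintro _ ⟨y, -, rfl⟩
      obtain ⟨⟨h1, h2⟩, h3, h4⟩ := hzone y
      exact ⟨ψ y, ⟨⟨by linarith, by linarith⟩, by linarith, by linarith⟩, rfl⟩)⟩))
    A (e '' {y | y.1 < 0}) v v' a (e (-1 / 8 - 1, 1 / 2)) hv hv' hj (by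
      refine JoinedIn.ofLine (f := fun t : ℝ => e (-1 / 8 - t, 1 / 2))
        (he.continuous.comp (by fun_prop)).continuousOn (by simp [hv'']) rfl ?_
      rintro _ ⟨t, ht, rfl⟩
      exact mem_image_of_mem _ (show -1 / 8 - t < 0 by linarith [ht.1]))
    (fun h => ha (image_mono (ball_subset_ball (min_le_left _ _)) (hout v hv h))) (fun h => by
      have h1 := (he.injective.mem_set_image).1 (hout v' hv' h)
      have h2 := (le_max_left _ _).trans_lt ((mem_ball.1 h1).trans_le (min_le_right _ _))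
      rw [hv'', Real.dist_eq] at h2
      norm_num at h2)
  refine ⟨ψ x', hzone x', hx, not_le.1 fun h => ?_⟩
  have h1 : f (e y') = 1 := hf1 y' (by
    have h2 : dist (Df E y') w.1 ≤ dist (phi E y') w := le_max_left _ _
    rw [K.lighta_left E hy', Real.dist_eq, zero_sub, abs_neg] at h2
    linarith [le_abs_self w.1])
  have h2 : f ((e ∘ ψ) x') = 0 := hf0 _ h
  have h3 : C * (C' / k) < 1 := by
    rw [← mul_div_assoc, div_lt_one hk0]
    exact hk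
  rw [h1, h2] at hxy
  have h4 := hxy.trans (mul_le_mul_of_nonneg_left hsum hC.le)
  norm_num at h4
  linarith

end Ctx

end Vale.Agent.P198
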