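import Vale.Agent.P198.Net
import Vale.Agent.P198.AP
import Vale.Agent.P198.LightA

/-! The approximate charts do not collapse paths, and points with close images are close. -/

namespace Vale.Agent.P198

open Set Filter Topology Metric MeasureTheory
open scoped Classical

variable {G : Type*} [Group G] {X : Type} [MetricSpace X] [MulAction G X]

namespace Ctx
variable (K : Ctx G X) {e : ℝ × ℝ → X} {M : ℝ}

theorem lgt_pos {n : ℕ} (E : K.Sol e n) {β : Set (ℝ × ℝ)} (he : IsOpenEmbedding e) (hβ : β ⊆ sq)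
    (hc : IsPreconnected β) (hcov : ∀ z ∈ β, ∃ u ∈ K.fam e n, e z ∈ K.U u) {x y : ℝ × ℝ}
    (hx : x ∈ β) (hy : y ∈ β) (hne : phi E x ≠ phi E y) :
    ∃ u ∈ K.fat (K.fam e n) (e '' β), 0 < E.σ u := by
  by_contra hcon
  push Not at hcon
  have h0 : ∑ u ∈ K.fat (K.fam e n) (e '' β), E.σ u ≤ 0 := Finset.sum_nonpos hcon
  have h1 := (Hf_var E hβ hc hx hy).trans h0
  have h2 : Hf E x = Hf E y := sub_eq_zero.1 (abs_nonpos_iff.1 h1)
  have c1 := hcov x hx
  have c2 := hcov y hy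
  have f1 := hgt_mem_fat.2 ⟨c1.choose_spec.1, x, hx, c1.choose_spec.2⟩
  have f2 := hgt_mem_fat.2 ⟨c2.choose_spec.1, y, hy, c2.choose_spec.2⟩
  have hΓ := hc.image e he.continuous.continuousOn
  have hcov' : ∀ ξ ∈ e '' β, ∃ u ∈ K.fam e n, ξ ∈ K.U u := by
    rintro _ ⟨z, hz, rfl⟩
    exact hcov z hz
  have p1 := K.pot_close E hΓ hcov' f1 f2
  have p2 := K.pot_close E hΓ hcov' f2 f1
  have h3 : Df E x = Df E y := by
    unfold Df
    rw [dif_pos c1, dif_pos c2]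
    linarith [E.σ_nonneg c1.choose, E.σ_nonneg c2.choose]
  exact hne (Prod.ext h3 h2)

theorem lgt_join {n : ℕ} (he : IsOpenEmbedding e) {T : Finset G} (hT : T ⊆ K.fam e n) {u v : G}
    (hu : u ∈ T) (h : K.AChain T u v) {p q : ℝ × ℝ} (hp : e p ∈ K.U u) (hq : e q ∈ K.U v) :
    JoinedIn {z | ∃ i ∈ T, e z ∈ K.U i} p q := by
  have hreach : ∀ i, K.AChain T u i → i ∈ T := by
    intro i hi
    rcases hi.cases_tail with h | ⟨j, -, h⟩
    · exact h ▸ hu
    · exact h.2.1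
  have h1 := union_conn (U := K.U) K.cov.U_conn
    (r := fun x y => x ∈ T ∧ y ∈ T ∧ K.adj x y) (fun x y h => h.2.2) u
  set O := ⋃ i ∈ {i | Relation.ReflTransGen (fun x y => x ∈ T ∧ y ∈ T ∧ K.adj x y) u i}, K.U i
    with hO
  have h2 : O ⊆ range e := by
    intro ξ hξ
    obtain ⟨i, hi, hξi⟩ := mem_iUnion₂.1 hξ
    exact image_subset_range _ _ ((Finset.mem_filter.1 (hT (hreach i hi))).2 hξi)
  have h3 := pre_conn he h1 h2
  have h4 : IsOpen (e ⁻¹' O) :=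
    (isOpen_biUnion fun i _ => K.cov.U_open i).preimage he.continuous
  have hpO : p ∈ e ⁻¹' O := mem_iUnion₂.2 ⟨u, Relation.ReflTransGen.refl, hp⟩
  have hqO : q ∈ e ⁻¹' O := mem_iUnion₂.2 ⟨v, h, hq⟩
  have h5 := (h4.isConnected_iff_isPathConnected.1 ⟨⟨p, hpO⟩, h3⟩).joinedIn p hpO q hqO
  refine h5.mono fun z hz => ?_
  obtain ⟨i, hi, hzi⟩ := mem_iUnion₂.1 hz
  exact ⟨i, hreach i hi, hzi⟩

theorem inj_est (he : IsOpenEmbedding e) (hM : ∀ m, K.ModLe m M) {c r : ℝ} (hc : 0 < c)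
    (hr : 0 < r) : ∃ (ε : ℝ) (n1 : ℕ), 0 < ε ∧ ∀ n, n1 ≤ n → ∀ (E : K.Sol e n) (w : ℝ × ℝ),
      3 / 8 ≤ w.1 → w.1 ≤ 5 / 8 → c ≤ w.2 → w.2 ≤ E.M - c → ∀ x ∈ sq, ∀ y ∈ sq,
        dist (phi E x) w ≤ ε → dist (phi E y) w ≤ ε → dist x y ≤ r := by
  obtain ⟨η, m1, hη, hη4, hends⟩ := K.ends he hM (half_pos hc)
  obtain ⟨m2, hcov⟩ := K.covered he (half_pos hη)
  obtain ⟨L, hL, hcon⟩ := K.connect
  obtain ⟨ε2, m3, hε2, hl2⟩ := K.light he hM hη hη4 hr
  have L0 : 0 < L := by linarith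
  obtain ⟨ε', e0, e1, e2, e3⟩ : ∃ ε' : ℝ, 0 < ε' ∧ (L + 5) * ε' ≤ ε2 ∧ L * ε' ≤ c / 4 ∧
      ε' ≤ 1 / 64 := by
    refine ⟨min (min (ε2 / (L + 5)) (c / 4 / L)) (1 / 64), by positivity, ?_, ?_, min_le_right _ _⟩
    · rw [mul_comm, ← le_div_iff₀ (by linarith)]
      exact (min_le_left _ _).trans (min_le_left _ _)
    · rw [mul_comm, ← le_div_iff₀ L0]
      exact (min_le_left _ _).trans (min_le_right _ _)
  have e4 : ε' ≤ L * ε' := le_mul_of_one_le_left e0.le hL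
  obtain ⟨rH, m4, hrH, hH⟩ := K.Hf_equi he hM (ε := ε' / 4) (by positivity)
  obtain ⟨rD, m5, hrD, hD⟩ := K.Df_equi he hM (half_pos hη) (ε := ε' / 4) (by positivity)
  obtain ⟨r1, s0, s1, s2, s3⟩ : ∃ r1 : ℝ, 0 < r1 ∧ r1 < rH ∧ r1 < rD ∧ r1 ≤ η / 2 := by
    refine ⟨min (min (rH / 2) (rD / 2)) (η / 2), by positivity, ?_, ?_, min_le_right _ _⟩
    · exact ((min_le_left _ _).trans (min_le_left _ _)).trans_lt (half_lt_self hrH)
    · exact ((min_le_left _ _).trans (min_le_right _ _)).trans_lt (half_lt_self hrD)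
  obtain ⟨ε1, m6, hε1, hl1⟩ := K.light he hM hη hη4 s0
  obtain ⟨m7, hS⟩ := K.small_ev he hM (ω := ε' / 4) (by positivity)
  refine ⟨min (ε' / 4) ε1, m1 + m2 + m3 + m4 + m5 + m6 + m7 + K.cov.n0, by positivity,
    fun n hn E w w1 w2 w3 w4 x hx y hy dx dy => ?_⟩
  have hsm := hS n (by omega) E
  have hmid : ∀ z ∈ sq, |Hf E z - w.2| ≤ c / 4 → η ≤ z.2 ∧ z.2 ≤ 1 - η := by
    intro z hz h
    rw [abs_le] at h
    exact hends n (by omega) E z hz (by linarith [h.1]) (by linarith [h.2])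
  set T := (K.fam e n).filter fun x => |E.pot x - w.1| ≤ 3 * ε' ∧ K.U x ⊆ e '' sq ∧
    ∀ z, e z ∈ K.U x → |Hf E z - w.2| ≤ L * ε' with hT
  have side : ∀ x ∈ sq, dist (phi E x) w ≤ min (ε' / 4) ε1 → (η ≤ x.2 ∧ x.2 ≤ 1 - η) ∧
      ∃ β : Set (ℝ × ℝ), Convex ℝ β ∧ x ∈ β ∧ (∀ p ∈ β, dist (phi E p) w ≤ ε' / 2) ∧
        ∃ u ∈ T, 0 < E.σ u ∧ |E.pot u - w.1| ≤ ε' ∧ ∃ p ∈ β, p ∈ sq ∧ e p ∈ K.U u ∧
          |Hf E p - w.2| ≤ ε' := by
    intro x hx dx
    have d1 : dist (phi E x) w ≤ ε' / 4 := dx.trans (min_le_left _ _)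
    have d2 : |Df E x - w.1| ≤ ε' / 4 := (le_max_left _ _).trans d1
    have d3 : |Hf E x - w.2| ≤ ε' / 4 := (le_max_right _ _).trans d1
    obtain ⟨x1, x2⟩ := hmid x hx (by linarith)
    refine ⟨⟨x1, x2⟩, ?_⟩
    set x' : ℝ × ℝ := (x.1, x.2 + r1) with hx'
    have dxx : dist x' x = r1 := by
      rw [Prod.dist_eq, Real.dist_eq, Real.dist_eq]
      simp only [hx', sub_self, abs_zero, add_sub_cancel_left, abs_of_pos s0]
      exact max_eq_right s0.le
    have hZ : Convex ℝ (Icc (0 : ℝ) 1 ×ˢ Icc (η / 2) (1 - η / 2)) :=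
      (convex_Icc _ _).prod (convex_Icc _ _)
    have b1 : segment ℝ x x' ⊆ Icc (0 : ℝ) 1 ×ˢ Icc (η / 2) (1 - η / 2) :=
      hZ.segment_subset ⟨hx.1, by linarith, by linarith⟩
        ⟨hx.1, by simp only [hx']; linarith, by simp only [hx']; linarith⟩
    have b2 : segment ℝ x x' ⊆ sq := fun z hz =>
      ⟨(b1 hz).1, by linarith [(b1 hz).2.1], by linarith [(b1 hz).2.2]⟩
    have b3 : segment ℝ x x' ⊆ zone (η / 2) := fun z hz =>
      ⟨⟨by linarith [(b1 hz).1.1], by linarith [(b1 hz).1.2]⟩, (b1 hz).2⟩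
    have b4 : segment ℝ x x' ⊆ closedBall x r1 :=
      (convex_closedBall x r1).segment_subset (mem_closedBall_self s0.le) dxx.le
    have b5 : ∀ p ∈ segment ℝ x x', |Df E p - w.1| ≤ ε' / 2 ∧ |Hf E p - w.2| ≤ ε' / 2 := by
      intro p hp
      have q1 := hD n (by omega) E p (b3 hp) x (b3 (left_mem_segment ℝ x x'))
        ((mem_closedBall.1 (b4 hp)).trans_lt s2)
      have q2 := hH n (by omega) E p (b2 hp) x hx ((mem_closedBall.1 (b4 hp)).trans_lt s1)
      have q3 := abs_sub_le (Df E p) (Df E x) w.1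
      have q4 := abs_sub_le (Hf E p) (Hf E x) w.2
      constructor <;> linarith
    refine ⟨segment ℝ x x', convex_segment x x', left_mem_segment ℝ x x',
      fun p hp => max_le (b5 p hp).1 (b5 p hp).2, ?_⟩
    obtain ⟨p, -, ⟨p', hp, hpp⟩, dp⟩ := hl1 n (by omega) E w w1 w2 (e '' segment ℝ x x') (e x') x
      hx x1 x2 ((JoinedIn.of_segment_subset subset_rfl).map he.continuous) (by
        rintro ⟨z, hz, h⟩
        rw [he.injective h, mem_ball, dxx] at hz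
        exact lt_irrefl _ hz)
    rw [he.injective hpp] at hp
    obtain ⟨u, hu, hσ⟩ := K.lgt_pos E he b2 (convex_segment x x').isPreconnected
      (fun z hz => (hcov n (by omega) z (b3 hz)).1) hp (left_mem_segment ℝ x x') (by
        intro h
        rw [h] at dp
        linarith [min_le_right (ε' / 4) ε1])
    obtain ⟨huf, q, hq, hqu⟩ := hgt_mem_fat.1 hu
    have q1 := (Df_close E huf hqu).trans (hsm.1 u huf)
    obtain ⟨q2, q3⟩ := b5 q hq
    have q4 : |E.pot u - w.1| ≤ ε' := by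
      have := abs_sub_le (E.pot u) (Df E q) w.1
      rw [abs_sub_comm] at q1
      linarith
    have q5 := abs_le.1 q4
    have q6 := inside E he hsm huf (by linarith [q5.1]) (by linarith [q5.2])
    refine ⟨u, Finset.mem_filter.2 ⟨huf, by linarith, q6, fun z hz => ?_⟩, hσ, q4, q, hq, b2 hq,
      hqu, by linarith⟩
    have q7 := (Hf_osc E he q6 hz hqu).trans (hsm.1 u huf)
    have := abs_sub_le (Hf E z) (Hf E q) w.2
    linarith
  obtain ⟨⟨x1, x2⟩, β, β1, β2, β3, u, hu, σu, pu, p, hp, hp1, hp2, hp3⟩ := side x hx dx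
  obtain ⟨-, β', β1', β2', β3', v, hv, σv, pv, q, hq, hq1, hq2, hq3⟩ := side y hy dy
  have hch := hcon e he n (by omega) E (ε' / 4) ε' w.1 w.2 hsm (by positivity) (by linarith) e3
    (by linarith) (by linarith) (by linarith) (by linarith) (by
      intro z hz h
      obtain ⟨z1, z2⟩ := hmid z hz (h.trans e2)
      exact (hcov n (by omega) z ⟨⟨by linarith [hz.1.1], by linarith [hz.1.2]⟩, by linarith,
        by linarith⟩).1)
    u (Finset.mem_filter.1 hu).1 v (Finset.mem_filter.1 hv).1 σu σv pu pv ⟨p, hp1, hp2, hp3⟩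
    ⟨q, hq1, hq2, hq3⟩
  have j2 := K.lgt_join he (Finset.filter_subset _ _) hu hch hp2 hq2
  have j1 : JoinedIn β x p := JoinedIn.of_segment_subset (β1.segment_subset β2 hp)
  have j3 : JoinedIn β' q y := JoinedIn.of_segment_subset (β1'.segment_subset hq β2')
  have j4 : JoinedIn ((β ∪ β') ∪ {z | ∃ i ∈ T, e z ∈ K.U i}) x y :=
    ((j1.mono (subset_union_left.trans subset_union_left)).trans
      (j2.mono subset_union_right)).trans (j3.mono (subset_union_right.trans subset_union_left))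
  by_contra hxy
  obtain ⟨z, -, ⟨z', hz, hzz⟩, dz⟩ := hl2 n (by omega) E w w1 w2 _ (e y) x hx x1 x2
    (j4.map he.continuous) (by
      rintro ⟨z, hz, h⟩
      rw [he.injective h, mem_ball'] at hz
      exact hxy hz.le)
  rw [he.injective hzz] at hz
  rcases hz with (hz | hz) | ⟨i, hi, hzi⟩
  · linarith [β3 z hz]
  · linarith [β3' z hz]
  · obtain ⟨hif, i1, -, i2⟩ := Finset.mem_filter.1 hi
    have q1 := (Df_close E hif hzi).trans (hsm.1 i hif)
    have q2 := abs_sub_le (Df E z) (E.pot i) w.1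
    have q3 := i2 z hzi
    have q4 : dist (phi E z) w ≤ (L + 5) * ε' :=
      max_le (show |Df E z - w.1| ≤ _ by linarith) (show |Hf E z - w.2| ≤ _ by linarith)
    linarith

end Ctx

end Vale.Agent.P198
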