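import Vale.Agent.P198.Rect

/-! Zooming energy bounds. -/

namespace Vale.Agent.P198

open Set Filter Topology Metric MeasureTheory
open scoped Classical

variable {G : Type*} [Group G] {X : Type} [MetricSpace X] [MulAction G X]

/-- oscillation along a chain of overlapping sets -/
theorem qsa_osc {Y ι : Type*} {W : Finset ι} {U : ι → Set Y} {f : Y → ℝ} {τ : ι → ℝ}
    (hτ : ∀ u, 0 ≤ τ u) (h : ∀ u ∈ W, ∀ x ∈ U u, ∀ y ∈ U u, |f x - f y| ≤ τ u) {a b : ι}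
    (ha : a ∈ W)
    (hab : Relation.ReflTransGen (fun x y => x ∈ W ∧ y ∈ W ∧ (U x ∩ U y).Nonempty) a b)
    {x y : Y} (hx : x ∈ U a) (hy : y ∈ U b) : |f x - f y| ≤ ∑ u ∈ W, τ u := by
  have key : ∃ T ⊆ W, b ∈ T ∧ ∀ c ∈ T, ∀ y ∈ U c, |f x - f y| ≤ ∑ u ∈ T, τ u := by
    clear hy
    induction hab with
    | refl =>
      refine ⟨{a}, Finset.singleton_subset_iff.2 ha, Finset.mem_singleton_self a,
        fun c hc y hy => ?_⟩
      rw [Finset.mem_singleton.1 hc] at hy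
      rw [Finset.sum_singleton]
      exact h a ha x hx y hy
    | @tail b b' _ hb ih =>
      obtain ⟨T, hT, hbT, hT'⟩ := ih
      obtain ⟨-, hb', z, hz, hz'⟩ := hb
      by_cases h1 : b' ∈ T
      · exact ⟨T, hT, h1, hT'⟩
      · refine ⟨insert b' T, Finset.insert_subset hb' hT, Finset.mem_insert_self _ _,
          fun c hc y hy => ?_⟩
        rw [Finset.sum_insert h1]
        rcases Finset.mem_insert.1 hc with rfl | hc
        · linarith [abs_sub_le (f x) (f z) (f y), hT' b hbT z hz, h c hb' z hz' y hy]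
        · linarith [hT' c hc y hy, hτ b']
  obtain ⟨T, hT, hbT, hT'⟩ := key
  exact (hT' b hbT y hy).trans (Finset.sum_le_sum_of_subset_of_nonneg hT fun u _ _ => hτ u)

namespace Ctx
variable (K : Ctx G X)

theorem qsa_d {a : ℝ} {p u v : G} {x : X} (h0 : K.cov.n0 ≤ K.len v)
    (h1 : K.cov.A' + a + K.δ < K.len v) (hx : x ∈ K.U v) (ha : K.P x p⁻¹ ≤ a)
    (hu : K.len u = K.len v + K.len p) (hx' : p • x ∈ K.U u) :
    K.d u (p * v) ≤ 2 * K.cov.A' + 4 * a + 6 * K.δ := by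
  have e1 := K.cov.U_out v x h0 hx
  have e2 := K.cov.U_out u (p • x) (by omega) hx'
  have e3 := (abs_le.1 (K.P_tr p⁻¹ x v)).1
  rw [inv_inv, K.len_inv] at e3
  have e4 := K.P_H2 x v p⁻¹
  have e5 : K.gp v p⁻¹ ≤ a + K.δ := by
    rcases min_cases (K.P x v) (K.gp v p⁻¹) with h | h <;> linarith [h.1]
  have e6 := K.P_H1 (p • x) u (p * v)
  have e7 := K.P_nonneg x p⁻¹
  have e8 : (K.len u : ℝ) = K.len v + K.len p := by exact_mod_cast hu
  have e9 : (K.len (p * v) : ℝ) ≤ K.len p + K.len v := by exact_mod_cast K.len_mul p v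
  have e10 := K.gp_comm v p⁻¹
  have e11 := K.δ_ge
  have e12 : K.len u - K.cov.A' - 2 * a - 2 * K.δ ≤ min (K.P (p • x) u) (K.P (p • x) (p * v)) :=
    le_min (by linarith) (by linarith)
  rw [K.d_eq]
  linarith

theorem zoom (a : ℝ) : ∃ (C : ℝ) (m1 : ℕ), 0 < C ∧ ∀ (p : G) (m : ℕ), m1 ≤ m →
    ∀ (O : Set X) (f : X → ℝ) (τ : G → ℝ), (∀ u, 0 ≤ τ u) →
      (∀ u ∈ K.lev (m + K.len p), K.U u ⊆ O → ∀ x ∈ K.U u, ∀ y ∈ K.U u, |f x - f y| ≤ τ u) →
      ∃ τ' : G → ℝ, (∀ v, 0 ≤ τ' v) ∧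
        ∑ v ∈ K.lev m, τ' v ^ 2 ≤ C * ∑ u ∈ K.lev (m + K.len p), τ u ^ 2 ∧
        ∀ v ∈ K.lev m, (∀ x ∈ K.U v, K.P x p⁻¹ ≤ a) →
          (∀ x ∈ K.U v, ∀ u ∈ K.lev (m + K.len p), p • x ∈ K.U u → K.U u ⊆ O) →
          ∀ x ∈ K.U v, ∀ y ∈ K.U v, |f (p • x) - f (p • y)| ≤ τ' v := by
  obtain ⟨c, hc⟩ := exists_nat_ge (2 * K.cov.A' + 4 * a + 6 * K.δ)
  obtain ⟨m0, hm0⟩ := exists_nat_gt (K.cov.A' + a + K.δ)
  have hD : (0 : ℝ) < (K.D : ℝ) ^ c := by
    have : (2 : ℝ) ≤ K.D := by exact_mod_cast K.two_le_D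
    positivity
  have hcard : ∀ (g : G) (s : Finset G), (∀ x ∈ s, K.d g x ≤ c) → (s.card : ℝ) ≤ (K.D : ℝ) ^ c :=
    fun g s h => by exact_mod_cast K.card_near g c s h
  refine ⟨(K.D : ℝ) ^ c * (K.D : ℝ) ^ c, m0 + K.cov.n0, by positivity,
    fun p m hm O f τ hτ hosc => ⟨fun v => ∑ u ∈ (K.lev (m + K.len p)).filter
      (fun u => K.d u (p * v) ≤ c), τ u, fun v => Finset.sum_nonneg fun u _ => hτ u, ?_,
      fun v hv h1 h2 x hx y hy => ?_⟩⟩
  · calc _ ≤ ∑ v ∈ K.lev m, (K.D : ℝ) ^ c * ∑ u ∈ K.lev (m + K.len p),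
          if K.d u (p * v) ≤ c then τ u ^ 2 else 0 := by
          refine Finset.sum_le_sum fun v _ => sq_sum_le_card_mul_sum_sq.trans ?_
          rw [← Finset.sum_filter]
          refine mul_le_mul_of_nonneg_right (hcard (p * v) _ fun u hu => ?_)
            (Finset.sum_nonneg fun _ _ => sq_nonneg _)
          rw [K.d_comm]
          exact (Finset.mem_filter.1 hu).2
      _ ≤ _ := by
          rw [← Finset.mul_sum, Finset.sum_comm, mul_assoc, Finset.mul_sum (a := (K.D : ℝ) ^ c)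
            (s := K.lev (m + K.len p)) (f := fun u => τ u ^ 2)]
          refine mul_le_mul_of_nonneg_left (Finset.sum_le_sum fun u _ => ?_) hD.le
          rw [← Finset.sum_filter, Finset.sum_const, nsmul_eq_mul]
          refine mul_le_mul_of_nonneg_right (hcard (p⁻¹ * u) _ fun v hv => ?_) (sq_nonneg _)
          rw [← K.d_mul p, mul_inv_cancel_left]
          exact (Finset.mem_filter.1 hv).2
  · have hvm := K.mem_lev.1 hv
    have hn : K.cov.n0 ≤ m + K.len p := by omega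
    have hΓ : IsPreconnected ((fun ξ => p • ξ) '' K.U v) :=
      (K.cov.U_conn v).image _ (K.cont p).continuousOn
    obtain ⟨u, hu, hu'⟩ := K.exists_U hn (p • x)
    obtain ⟨w, hw, hw'⟩ := K.exists_U hn (p • y)
    have hch := cover_chain hΓ (V := K.lev (m + K.len p)) (U := K.U) K.cov.U_open
      (fun y _ => K.exists_U hn y) hu ⟨_, hu', mem_image_of_mem _ hx⟩ hw
      ⟨_, hw', mem_image_of_mem _ hy⟩
    refine (qsa_osc hτ (fun s hs => ?_) (Finset.mem_filter.2 ⟨hu, _, hu', mem_image_of_mem _ hx⟩)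
      hch hu' hw').trans (Finset.sum_le_sum_of_subset_of_nonneg (fun s hs => ?_)
        fun u _ _ => hτ u)
    · obtain ⟨hs1, _, hs2, ξ, hξ, rfl⟩ := Finset.mem_filter.1 hs
      exact hosc s hs1 (h2 ξ hξ s hs1 hs2)
    · obtain ⟨hs1, _, hs2, ξ, hξ, rfl⟩ := Finset.mem_filter.1 hs
      refine Finset.mem_filter.2 ⟨hs1, (K.qsa_d (by omega) (hm0.trans_le ?_) hξ (h1 ξ hξ)
        (by rw [K.mem_lev.1 hs1, hvm]) hs2).trans hc⟩
      exact_mod_cast (by omega : m0 ≤ K.len v)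

end Ctx

end Vale.Agent.P198
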