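import Vale.Agent.P198.Net
import Vale.Agent.P198.QSA

/-! Preparations for the weak quasisymmetry of the limit chart. -/

namespace Vale.Agent.P198

open Set Filter Topology Metric MeasureTheory
open scoped Classical

variable {G : Type*} [Group G] {X : Type} [MetricSpace X] [MulAction G X]

namespace BD
variable (B : BD G X)

theorem qs_chart (B : BD G X) {ε : ℝ} (hε : 0 < ε) (ξ : X) : ∃ e : ℝ × ℝ → X,
    IsOpenEmbedding e ∧ e 0 = ξ ∧ ∀ y ∈ e '' Metric.ball 0 10, dist y ξ < ε := by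
  obtain ⟨e0, -, h0⟩ := B.sph ξ
  have h1 : e0 0 ≠ ξ := by
    have : e0 0 ∈ range e0 := mem_range_self _
    rw [h0] at this
    exact this
  obtain ⟨e1, he1, h2⟩ := B.sph (e0 0)
  obtain ⟨z, hz⟩ : ξ ∈ range e1 := by
    rw [h2]
    exact fun h => h1 (Eq.symm h)
  obtain ⟨s, hs, h3⟩ := Metric.continuousAt_iff.1 (he1.continuous.continuousAt (x := z)) ε hε
  have hc : s / 10 ≠ 0 := by positivity
  refine ⟨fun v => e1 (z + (s / 10) • v), he1.comp ((Homeomorph.addLeft z).isOpenEmbedding.comp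
    (Homeomorph.smulOfNeZero (s / 10) hc).isOpenEmbedding), by simp [hz], ?_⟩
  rintro _ ⟨v, hv, rfl⟩
  rw [← hz]
  refine h3 ?_
  rw [mem_ball_zero_iff] at hv
  rw [dist_self_add_left, norm_smul, Real.norm_of_nonneg (by positivity)]
  nlinarith

theorem qs_charts (B : BD G X) {ε : ℝ} (hε : 0 < ε) : ∃ (t : Finset X) (e : X → ℝ × ℝ → X)
    (ε0 : ℝ), 0 < ε0 ∧ (∀ ξ, IsOpenEmbedding (e ξ)) ∧
    (∀ ξ, ∀ y ∈ e ξ '' Metric.ball 0 10, ∀ y' ∈ e ξ '' Metric.ball 0 10, dist y y' < ε) ∧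
    ∀ y y', dist y y' < ε0 → ∃ ξ ∈ t, y ∈ e ξ '' Metric.ball 0 1 ∧ y' ∈ e ξ '' Metric.ball 0 1 := by
  choose e he h0 h1 using B.qs_chart (half_pos hε)
  have ho : ∀ ξ, IsOpen (e ξ '' Metric.ball 0 1) := fun ξ => (he ξ).isOpenMap _ isOpen_ball
  obtain ⟨t, ht⟩ := B.cpt.elim_finite_subcover (fun ξ => e ξ '' Metric.ball 0 1) ho fun ξ _ =>
    mem_iUnion.2 ⟨ξ, 0, mem_ball_self one_pos, h0 ξ⟩
  obtain ⟨ε0, hε0, h2⟩ := lebesgue_number_lemma_of_metric (c := fun ξ : t => e ξ '' Metric.ball 0 1)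
    B.cpt (fun ξ => ho ξ) fun y hy => by
      obtain ⟨ξ, hξ, h⟩ := mem_iUnion₂.1 (ht hy)
      exact mem_iUnion.2 ⟨⟨ξ, hξ⟩, h⟩
  refine ⟨t, e, ε0, hε0, he, fun ξ y hy y' hy' => ?_, fun y y' h => ?_⟩
  · have := dist_triangle_right y y' ξ
    linarith [h1 ξ y hy, h1 ξ y' hy']
  · obtain ⟨ξ, hξ⟩ := h2 y (mem_univ y)
    exact ⟨ξ, ξ.2, hξ (mem_ball_self hε0), hξ (mem_ball'.2 h)⟩

theorem qs_P0 (ξ : X) (i : ℕ) : B.P ((B.ray ξ i)⁻¹ • ξ) (B.ray ξ i)⁻¹ ≤ B.δ := by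
  have h := B.P_inv (B.ray ξ i) ξ
  rw [B.P_ray, B.ray_len] at h
  linarith [(abs_le.1 h).2]

theorem qs_P {ξ y : X} {i : ℕ} {R : ℝ} (h : B.Near R ((B.ray ξ i)⁻¹ • ξ) y) (hR : 3 * B.δ < R) :
    B.P y (B.ray ξ i)⁻¹ ≤ 3 * B.δ := by
  have h1 := h.symm.P_ge (B.ray ξ i)⁻¹
  have h2 := B.qs_P0 ξ i
  rcases min_cases R (B.P y (B.ray ξ i)⁻¹) with h3 | h3
  · linarith [h3.1]
  · linarith [h3.1]

theorem qs_back {ξ y : X} {i : ℕ} {R : ℝ} (h : B.Near R ((B.ray ξ i)⁻¹ • ξ) y)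
    (hR : 4 * B.δ ≤ R) : B.Near (R + i - 7 * B.δ) ξ (B.ray ξ i • y) := by
  have h2 := B.qs_P0 ξ i
  have h1 := h.coc (B.ray ξ i) (by linarith)
  rw [smul_inv_smul, B.h_eq, B.len_inv, B.ray_len] at h1
  exact h1.mono (by linarith)

theorem qs_fwd {ξ η : X} {i : ℕ} {R : ℝ} (h : B.Near R ξ η) (hR : i + 3 * B.δ ≤ R) :
    B.Near (R - i - 5 * B.δ) ((B.ray ξ i)⁻¹ • ξ) ((B.ray ξ i)⁻¹ • η) := by
  have h1 := h.coc (B.ray ξ i)⁻¹ (by rw [inv_inv, B.P_ray]; exact hR)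
  rw [inv_inv, B.ray_h] at h1
  exact h1.mono (by linarith)

end BD

namespace PreChart
variable {K : Ctx G X} (Q : PreChart K)

theorem qs_cpt {s : ℝ} (hs : s ≤ Q.ρ) : IsCompact (Q.ι '' closedBall Q.w0 s) :=
  (isCompact_closedBall _ _).image_of_continuousOn (Q.ι_cont.mono (closedBall_subset_closedBall hs))

theorem qs_join (g : G) {u u' : ℝ × ℝ} {S : Set X}
    (h : ∀ v ∈ segment ℝ u u', v ∈ closedBall Q.w0 Q.ρ ∧ g • Q.ι v ∈ S) :
    JoinedIn S (g • Q.ι u) (g • Q.ι u') := by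
  have hm : ∀ s ∈ Icc (0 : ℝ) 1, AffineMap.lineMap u u' s ∈ segment ℝ u u' := fun s hs => by
    rw [segment_eq_image_lineMap]
    exact mem_image_of_mem _ hs
  refine JoinedIn.ofLine (f := fun s : ℝ => g • Q.ι (AffineMap.lineMap u u' s)) ?_ (by simp)
    (by simp) ?_
  · exact (K.cont g).comp_continuousOn (Q.ι_cont.comp AffineMap.lineMap_continuous.continuousOn
      fun s hs => (h _ (hm s hs)).1)
  · rintro _ ⟨s, hs, rfl⟩
    exact (h _ (hm s hs)).2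

/-- points that are near on the sphere are close in the chart, with room around them -/
theorem qs_room : ∃ (R : ℝ) (n1 : ℕ), (∀ v ∈ closedBall Q.w0 Q.ρ, ∀ v' ∈ closedBall Q.w0 Q.ρ,
      K.Near R (Q.ι v) (Q.ι v') → dist v v' < Q.ρ / 10) ∧
    ∀ v ∈ closedBall Q.w0 (Q.ρ / 2), ∀ η, K.Near R (Q.ι v) η → ∀ u, n1 ≤ K.len u → η ∈ K.U u →
      K.U u ⊆ Q.ι '' ball Q.w0 Q.ρ := by
  have hρ := Q.ρ_pos
  obtain ⟨ε1, hε1, h1⟩ := Metric.uniformContinuousOn_iff.1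
    ((Q.qs_cpt le_rfl).uniformContinuousOn_of_continuous Q.φ_cont) (Q.ρ / 10) (by positivity)
  obtain ⟨ε2, hε2, h2⟩ := (Q.qs_cpt (s := Q.ρ / 2) (by linarith)).exists_thickening_subset_open
    Q.isOpen (image_mono (closedBall_subset_ball (by linarith)))
  obtain ⟨R, hR⟩ := K.near_dist (lt_min hε1 (half_pos hε2))
  obtain ⟨n1, hn⟩ := K.U_small (half_pos hε2)
  refine ⟨R, n1, fun v hv v' hv' h => ?_, fun v hv η h u hu hη y hy => h2 ?_⟩
  · have := h1 _ (mem_image_of_mem _ hv) _ (mem_image_of_mem _ hv')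
      ((hR _ _ h).trans_le (min_le_left _ _))
    rwa [Q.linv v hv, Q.linv v' hv'] at this
  · refine mem_thickening_iff.2 ⟨_, mem_image_of_mem _ hv, ?_⟩
    have h3 := (hR _ _ h).trans_le (min_le_right _ _)
    have h4 := hn u hu y hy η hη
    have h5 := dist_triangle_right y (Q.ι v) η
    linarith

theorem qs_far (R : ℝ) : ∃ c : ℝ, 0 < c ∧ ∀ v ∈ closedBall Q.w0 Q.ρ, ∀ v' ∈ closedBall Q.w0 Q.ρ,
    ¬ K.Near R (Q.ι v) (Q.ι v') → c ≤ dist v v' := by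
  obtain ⟨ε, hε, h1⟩ := K.dist_near R
  obtain ⟨c, hc, h2⟩ := Metric.uniformContinuousOn_iff.1
    ((isCompact_closedBall _ _).uniformContinuousOn_of_continuous Q.ι_cont) ε hε
  exact ⟨c, hc, fun v hv v' hv' h => not_lt.1 fun hh => h (h1 _ _ (h2 v hv v' hv' hh))⟩

end PreChart

/-- the radial segment away from `x` -/
theorem qs_radial {x a : ℝ × ℝ} {s : ℝ} (h0 : 0 < dist a x) (h1 : dist a x ≤ s) :
    ∃ a' : ℝ × ℝ, dist a' x = s ∧ ∀ v ∈ segment ℝ a a', dist a x ≤ dist v x ∧ dist v x ≤ s := by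
  have ht : 1 ≤ s / dist a x := (one_le_div h0).2 h1
  have hd : ∀ c : ℝ, 0 ≤ c → dist (x + c • (a - x)) x = c * dist a x := fun c hc => by
    rw [dist_self_add_left, norm_smul, Real.norm_of_nonneg hc, dist_eq_norm]
  refine ⟨x + (s / dist a x) • (a - x), by rw [hd _ (by linarith)]; field_simp, ?_⟩
  rintro _ ⟨c1, c2, hc1, hc2, hc, rfl⟩
  have e1 : c1 • a + c2 • (x + (s / dist a x) • (a - x)) =
      x + (c1 + c2 * (s / dist a x)) • (a - x) := by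
    obtain rfl : c1 = 1 - c2 := by linarith
    module
  have e2 : s / dist a x * dist a x = s := by field_simp
  rw [e1, hd _ (by positivity)]
  constructor <;> nlinarith

end Vale.Agent.P198
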