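import Vale.Agent.P198.Net
import Vale.Agent.P198.QSA
import Vale.Agent.P198.QSAux

/-! The limit chart is weakly quasisymmetric. -/

namespace Vale.Agent.P198

open Set Filter Topology Metric MeasureTheory
open scoped Classical

variable {G : Type*} [Group G] {X : Type} [MetricSpace X] [MulAction G X]

namespace Ctx
variable (K : Ctx G X)

theorem qs_main {M : ℝ} (hM : ∀ m, K.ModLe m M) (Q : PreChart K) {k : ℝ} (hk : 0 ≤ k) :
    ∃ L : ℝ, 0 ≤ L ∧ ∀ x ∈ closedBall Q.w0 (Q.ρ / 20), ∀ a ∈ closedBall Q.w0 (Q.ρ / 20),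
      ∀ b ∈ closedBall Q.w0 (Q.ρ / 20), ∀ R : ℝ, ¬ K.Near R (Q.ι x) (Q.ι b) →
        K.Near (R - k) (Q.ι x) (Q.ι a) → dist a x ≤ L * dist b x := by
  have hρ := Q.ρ_pos
  have hr0 := Q.r0_pos
  have hδ := K.δ_ge
  obtain ⟨ε', hε', hN'⟩ := K.dist_near (7 * K.δ)
  obtain ⟨t, e, ε0, hε0, he, hdiam, hleb⟩ := K.qs_charts hε'
  obtain ⟨R0, hR0⟩ := K.near_dist hε0
  obtain ⟨B0, hB1, hB2⟩ : ∃ B0 : ℝ, 5 * K.δ ≤ B0 ∧ R0 ≤ B0 - 5 * K.δ :=
    ⟨max R0 0 + 5 * K.δ, by linarith [le_max_right R0 0], by linarith [le_max_left R0 0]⟩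
  choose r hr hr' using fun ξ => K.near_of_dist (he ξ) (isCompact_closedBall (0 : ℝ × ℝ) 1)
    (k + B0 + 1 + 7 * K.δ)
  choose Cn nn hCn hnet using fun ξ => K.net hM (he ξ) (lt_min (hr ξ) one_pos)
  obtain ⟨Cz, m1, hCz, hzoom⟩ := K.zoom (3 * K.δ)
  obtain ⟨RN, nU, hfar, hroom⟩ := Q.qs_room
  obtain ⟨k', hk'⟩ := exists_nat_gt (max ((∑ ξ ∈ t, Cn ξ) * Cz * Q.C) 0)
  have hk0 : (0 : ℝ) < k' := (le_max_right _ _).trans_lt hk'
  have hk1 : 1 ≤ k' := by exact_mod_cast hk0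
  obtain ⟨c2, hc2, hc2'⟩ := Q.qs_far (max RN 0 + 1 + k + B0)
  obtain ⟨c, hc, hcc, hcr⟩ : ∃ c : ℝ, 0 < c ∧ c ≤ c2 ∧ 4 ^ k' * (2 * c) ≤ Q.r0 := by
    refine ⟨min c2 (Q.r0 / (2 * 4 ^ k')), lt_min hc2 (by positivity), min_le_left _ _, ?_⟩
    have := (le_div_iff₀ (by positivity)).1 (min_le_right c2 (Q.r0 / (2 * 4 ^ k')))
    linarith
  refine ⟨4 * 4 ^ k' + Q.ρ / c, by positivity, fun x hx a ha b hb R hxb hxa => ?_⟩
  have sub : ∀ {s : ℝ} {v : ℝ × ℝ}, s ≤ Q.ρ → v ∈ closedBall Q.w0 s → v ∈ closedBall Q.w0 Q.ρ :=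
    fun hs hv => closedBall_subset_closedBall hs hv
  have hx1 := sub (by linarith) hx
  have hdist : ∀ v ∈ closedBall Q.w0 (Q.ρ / 20), dist v x ≤ Q.ρ / 10 := fun v hv => by
    have := dist_triangle_right v x Q.w0
    linarith [mem_closedBall.1 hx, mem_closedBall.1 hv]
  have hball : ∀ v, dist v x ≤ Q.ρ / 4 → v ∈ ball Q.w0 Q.ρ := fun v hv => by
    have := dist_triangle v x Q.w0
    exact mem_ball.2 (by linarith [mem_closedBall.1 hx])
  have hbx : 0 < dist b x := dist_pos.2 fun h => hxb (by rw [h]; exact K.near_refl _ _)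
  have h4 : (0 : ℝ) < 4 ^ k' := by positivity
  by_contra hcon
  rw [not_le, add_mul] at hcon
  have hp1 : 0 < 4 * 4 ^ k' * dist b x := by positivity
  have hp2 : 0 < Q.ρ / c * dist b x := by positivity
  have hbc : dist b x < c := by
    by_contra h
    have h1 : Q.ρ / c * c ≤ Q.ρ / c * dist b x :=
      mul_le_mul_of_nonneg_left (not_lt.1 h) (by positivity)
    rw [div_mul_cancel₀ _ hc.ne'] at h1
    linarith [hdist a ha]
  have hR : max RN 0 + 1 ≤ R - k - B0 := by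
    by_contra h
    have := hc2' x hx1 b (sub (by linarith) hb) fun hh => hxb (hh.mono (by linarith [not_le.1 h]))
    rw [dist_comm] at this
    linarith
  obtain ⟨i, hi1, hi2⟩ : ∃ i : ℕ, (i : ℝ) ≤ R - k - B0 ∧ R - k - B0 < i + 1 :=
    ⟨⌊R - k - B0⌋₊, Nat.floor_le (by linarith [le_max_right RN 0]), Nat.lt_floor_add_one _⟩
  have hiR : RN ≤ i := by linarith [le_max_left RN 0]
  obtain ⟨ξ, hξ, ⟨z, hz, hz'⟩, ⟨w, hw, hw'⟩⟩ := hleb _ _ (hR0 _ _
    ((K.qs_fwd (i := i) hxa (by linarith)).mono (by linarith)))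
  have h10 : ball (0 : ℝ × ℝ) 1 ⊆ ball 0 10 := ball_subset_ball (by norm_num)
  have hnear : ∀ y ∈ e ξ '' ball 0 10, K.Near (7 * K.δ) ((K.ray (Q.ι x) i)⁻¹ • Q.ι x) y :=
    fun y hy => hN' _ _ (hdiam ξ _ ⟨z, h10 hz, hz'⟩ y hy)
  have hback : ∀ y ∈ e ξ '' ball 0 10, K.Near RN (Q.ι x) (K.ray (Q.ι x) i • y) :=
    fun y hy => (K.qs_back (hnear y hy) (by linarith)).mono (by linarith)
  obtain ⟨n, hn, f, τ, hτ, hsum, hosc, hf0, hf1⟩ := Q.lap k' hk1 (2 * dist b x) (by positivity)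
    (le_trans (by gcongr) hcr) x hx1 (m1 + nn ξ + nU + i)
  obtain ⟨m, rfl⟩ : ∃ m, n = m + K.len (K.ray (Q.ι x) i) := ⟨n - i, by rw [K.ray_len]; omega⟩
  rw [K.ray_len] at hn
  obtain ⟨τ', hτ', hsum', hosc'⟩ := hzoom (K.ray (Q.ι x) i) m (by omega) _ f τ hτ hosc
  obtain ⟨a', ha1, ha2⟩ := qs_radial (x := x) (a := a) (s := Q.ρ / 4) (by linarith)
    (by linarith [hdist a ha])
  have hseg : ∀ v ∈ segment ℝ x b, dist v x ≤ dist b x := fun v hv =>
    (convex_closedBall x (dist b x)).segment_subset (mem_closedBall_self hbx.le)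
      (mem_closedBall.2 le_rfl) hv
  obtain ⟨y, ⟨hy, -⟩, y', ⟨hy', -⟩, hyy⟩ := hnet ξ m (by omega)
    (fun ζ => f (K.ray (Q.ι x) i • ζ)) τ' hτ'
    (fun v hv hU => hosc' v hv (fun ζ hζ => K.qs_P (hnear ζ (hU hζ)) (by linarith))
      fun ζ hζ u hu hu' => hroom x (closedBall_subset_closedBall (by linarith) hx) _
        (hback ζ (hU hζ)) u (by rw [K.mem_lev.1 hu]; omega) hu')
    {ζ | f (K.ray (Q.ι x) i • ζ) = 0} {ζ | f (K.ray (Q.ι x) i • ζ) = 1} z w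
    ((K.ray (Q.ι x) i)⁻¹ • Q.ι b) ((K.ray (Q.ι x) i)⁻¹ • Q.ι a') (ball_subset_closedBall hz)
    (ball_subset_closedBall hw) (by
      rw [hz']
      refine Q.qs_join _ fun v hv => ?_
      have h1 := hball v (by linarith [hseg v hv, hdist b hb])
      refine ⟨ball_subset_closedBall h1, ?_⟩
      rw [mem_setOf_eq, smul_inv_smul]
      exact hf0 v h1 (by linarith [hseg v hv])) (by
      rw [hw']
      refine Q.qs_join _ fun v hv => ?_
      have h1 := hball v (ha2 v hv).2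
      refine ⟨ball_subset_closedBall h1, ?_⟩
      rw [mem_setOf_eq, smul_inv_smul]
      exact hf1 v h1 (by linarith [(ha2 v hv).1])) (by
      rintro ⟨v, hv, hv'⟩
      have h1 := hr' ξ z (ball_subset_closedBall hz) v
        ((mem_ball'.1 hv).trans_le (min_le_left _ _))
      rw [hz', hv'] at h1
      have h2 := K.qs_back h1 (by linarith)
      rw [smul_inv_smul] at h2
      exact hxb (h2.mono (by linarith))) (by
      rintro ⟨v, hv, hv'⟩
      have h1 : v ∈ ball (0 : ℝ × ℝ) 10 := by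
        have := dist_triangle v w 0
        exact mem_ball.2 (by
          linarith [mem_ball.1 hw, (mem_ball.1 hv).trans_le (min_le_right _ _)])
      have h2 := hback _ ⟨v, h1, hv'⟩
      rw [smul_inv_smul] at h2
      have h3 := hfar x hx1 a' (ball_subset_closedBall (hball a' ha1.le)) h2
      rw [dist_comm] at h3
      linarith)
  rw [mem_setOf_eq] at hy hy'
  simp only [hy, hy'] at hyy
  have h1 : Cn ξ ≤ ∑ ξ ∈ t, Cn ξ := Finset.single_le_sum (fun ξ _ => (hCn ξ).le) hξ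
  have h2 := mul_le_mul h1 (hsum'.trans (mul_le_mul_of_nonneg_left hsum hCz.le))
    (Finset.sum_nonneg fun _ _ => sq_nonneg _) ((hCn ξ).le.trans h1)
  have h3 : (∑ ξ ∈ t, Cn ξ) * (Cz * (Q.C / k')) < 1 := by
    rw [← mul_div_assoc, ← mul_div_assoc, div_lt_one hk0, ← mul_assoc]
    exact (le_max_left _ _).trans_lt hk'
  norm_num at hyy
  linarith

end Ctx

/-- the affine map from the disc into the plane -/
noncomputable def qsA (w0 : ℝ × ℝ) (s : ℝ) (z : ℂ) : ℝ × ℝ := (w0.1 + s * z.re, w0.2 + s * z.im)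

/-- the inverse affine map -/
noncomputable def qsB (w0 : ℝ × ℝ) (s : ℝ) (v : ℝ × ℝ) : ℂ :=
  (((v.1 - w0.1) / s : ℝ) : ℂ) + (((v.2 - w0.2) / s : ℝ) : ℂ) * Complex.I

theorem qsA_cont (w0 : ℝ × ℝ) (s : ℝ) : Continuous (qsA w0 s) := by
  unfold qsA
  fun_prop

theorem qsB_cont (w0 : ℝ × ℝ) (s : ℝ) : Continuous (qsB w0 s) := by
  unfold qsB
  fun_prop

theorem qsB_A (w0 : ℝ × ℝ) {s : ℝ} (hs : 0 < s) (z : ℂ) : qsB w0 s (qsA w0 s z) = z := by
  simp only [qsA, qsB, add_sub_cancel_left, mul_div_cancel_left₀ _ hs.ne', Complex.re_add_im]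

theorem qsA_B (w0 : ℝ × ℝ) {s : ℝ} (hs : 0 < s) (v : ℝ × ℝ) : qsA w0 s (qsB w0 s v) = v := by
  refine Prod.ext ?_ ?_
  · simp [qsA, qsB, -Complex.ofReal_div, -Complex.ofReal_sub, mul_div_cancel₀ _ hs.ne']
  · simp [qsA, qsB, -Complex.ofReal_div, -Complex.ofReal_sub, mul_div_cancel₀ _ hs.ne']

theorem qsA_dist (w0 : ℝ × ℝ) {s : ℝ} (hs : 0 < s) (z z' : ℂ) :
    dist (qsA w0 s z) (qsA w0 s z') = s * max |(z - z').re| |(z - z').im| := by
  simp only [qsA, Prod.dist_eq, Real.dist_eq, add_sub_add_left_eq_sub, ← mul_sub, abs_mul,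
    abs_of_pos hs, Complex.sub_re, Complex.sub_im, mul_max_of_nonneg _ _ hs.le]

theorem qsA_le (w0 : ℝ × ℝ) {s : ℝ} (hs : 0 < s) (z z' : ℂ) :
    dist (qsA w0 s z) (qsA w0 s z') ≤ s * ‖z - z'‖ := by
  rw [qsA_dist w0 hs]
  exact mul_le_mul_of_nonneg_left
    (max_le (Complex.abs_re_le_norm _) (Complex.abs_im_le_norm _)) hs.le

theorem qsA_ge (w0 : ℝ × ℝ) {s : ℝ} (hs : 0 < s) (z z' : ℂ) :
    s * ‖z - z'‖ ≤ 2 * dist (qsA w0 s z) (qsA w0 s z') := by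
  rw [qsA_dist w0 hs, mul_left_comm]
  refine mul_le_mul_of_nonneg_left ((Complex.norm_le_abs_re_add_abs_im _).trans ?_) hs.le
  linarith [le_max_left |(z - z').re| |(z - z').im|, le_max_right |(z - z').re| |(z - z').im|]

theorem qsA_mem (w0 : ℝ × ℝ) {s : ℝ} (hs : 0 < s) {z : ℂ} (hz : z ∈ closedBall (0 : ℂ) 1) :
    qsA w0 s z ∈ closedBall w0 s := by
  have h := qsA_le w0 hs z 0
  have h0 : qsA w0 s 0 = w0 := by simp [qsA]
  rw [h0, sub_zero] at h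
  exact h.trans (mul_le_of_le_one_right hs.le (mem_closedBall_zero_iff.1 hz))

namespace Ctx
variable (K : Ctx G X)

theorem exists_qsc {M : ℝ} (hM : ∀ m, K.ModLe m M) (Q : PreChart K) : Nonempty (QSC K.toBD) := by
  have hρ := Q.ρ_pos
  have hs : 0 < Q.ρ / 20 := by positivity
  have h1 : ∀ z ∈ closedBall (0 : ℂ) 1, qsA Q.w0 (Q.ρ / 20) z ∈ ball Q.w0 Q.ρ := fun z hz =>
    closedBall_subset_ball (by linarith) (qsA_mem Q.w0 hs hz)
  have h2 : ∀ z ∈ closedBall (0 : ℂ) 1, qsA Q.w0 (Q.ρ / 20) z ∈ closedBall Q.w0 Q.ρ :=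
    fun z hz => ball_subset_closedBall (h1 z hz)
  refine ⟨⟨fun ξ => qsB Q.w0 (Q.ρ / 20) (Q.φ ξ), fun z => Q.ι (qsA Q.w0 (Q.ρ / 20) z),
    Q.ι_cont.comp (qsA_cont _ _).continuousOn h2, fun z hz => ?_, ?_, ?_, fun k => ?_⟩⟩
  · rw [Q.linv _ (h2 z hz), qsB_A _ hs]
  · have e1 : (fun z => Q.ι (qsA Q.w0 (Q.ρ / 20) z)) '' ball 0 1 = Q.ι '' ball Q.w0 Q.ρ ∩
        Q.φ ⁻¹' (qsB Q.w0 (Q.ρ / 20) ⁻¹' ball 0 1) := by
      ext ξ
      constructor
      · rintro ⟨z, hz, rfl⟩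
        refine ⟨mem_image_of_mem _ (h1 z (ball_subset_closedBall hz)), ?_⟩
        rw [mem_preimage, mem_preimage, Q.linv _ (h2 z (ball_subset_closedBall hz)), qsB_A _ hs]
        exact hz
      · rintro ⟨⟨v, hv, rfl⟩, h⟩
        rw [mem_preimage, mem_preimage, Q.linv _ (ball_subset_closedBall hv)] at h
        exact ⟨_, h, by simp only [qsA_B _ hs]⟩
    rw [e1]
    exact (Q.φ_cont.mono (image_mono ball_subset_closedBall)).isOpen_inter_preimage Q.isOpen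
      (isOpen_ball.preimage (qsB_cont _ _))
  · refine (qsB_cont _ _).comp_continuousOn (Q.φ_cont.mono ?_)
    rintro _ ⟨z, hz, rfl⟩
    exact mem_image_of_mem _ (h2 z hz)
  · obtain ⟨L, hL, h⟩ := K.qs_main hM Q (le_max_right k 0)
    refine ⟨2 * L, fun x hx a ha b hb R h3 h4 => ?_⟩
    have h5 := h _ (qsA_mem Q.w0 hs (ball_subset_closedBall hx)) _
      (qsA_mem Q.w0 hs (ball_subset_closedBall ha)) _
      (qsA_mem Q.w0 hs (ball_subset_closedBall hb)) R h3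
      (h4.mono (by linarith [le_max_left k 0]))
    have h6 := h5.trans (mul_le_mul_of_nonneg_left (qsA_le Q.w0 hs b x) hL)
    refine le_of_mul_le_mul_left ((qsA_ge Q.w0 hs a x).trans ?_) hs
    linarith

end Ctx

end Vale.Agent.P198
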