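import Vale.Agent.P198.Bdry
import Vale.Agent.P198.Bound
import Vale.Agent.P198.Chart
import Vale.Agent.P198.QS
import Vale.Agent.P198.Holo
import Vale.Agent.P198.HypB

/-! Cannon's conjecture. -/

namespace Vale.Agent.P198

theorem main {G : Type*} [Group G] (S : Finset G) (hS : Subgroup.closure (S : Set G) = ⊤)
    (hyp : IsHyperbolic S) (hb : Nonempty (Boundary S ≃ₜ Sph)) :
    ∃ ρ : G →* Equiv.Perm H3, Geometric ρ := by
  obtain ⟨θ⟩ := hb
  obtain ⟨inst, ⟨B⟩⟩ := exists_BD hS hyp θ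
  have : Nonempty Sph := (NormedSpace.sphere_nonempty.2 zero_le_one).to_subtype
  obtain ⟨K, -⟩ := B.exists_ctx
  obtain ⟨M, hM⟩ := K.mod_bounded
  obtain ⟨P⟩ := K.exists_prechart hM
  obtain ⟨Q⟩ := K.exists_qsc hM P
  obtain ⟨F, hF⟩ := Q.holo
  exact geometric K.toBD F hF

end Vale.Agent.P198
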