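import Vale.Agent.P198.Word

/-! Rays and horofunctions. -/

namespace Vale.Agent.P198

open Set Filter Topology Metric MeasureTheory
open scoped Classical

variable {G : Type*} [Group G] {S : Finset G}

/-- the horofunction of a ray -/
noncomputable def hor (r : Ray S) (a : G) : ℝ := ⨅ N : ℕ, ((wdist S (r.1 N) a : ℝ) - N)

/-- four point condition -/
def Four (S : Finset G) (δ : ℕ) : Prop :=
  ∀ a b c : G, min (gpr (wlen S) a b) (gpr (wlen S) b c) - δ ≤ gpr (wlen S) a c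

theorem ry_len (r : Ray S) (n : ℕ) : wlen S (r.1 n) = n := by
  have := r.2.2 0 n (Nat.zero_le _)
  rwa [r.2.1, wd_one] at this

theorem hor_ev (hS : Subgroup.closure (S : Set G) = ⊤) (r : Ray S) (a : G) :
    ∀ᶠ N : ℕ in atTop, hor r a = (wdist S (r.1 N) a : ℝ) - N := by
  let f : ℕ → ℕ := fun N => wdist S (r.1 N) a + wlen S a - N
  have h1 : ∀ N, N ≤ wdist S (r.1 N) a + wlen S a := fun N => by
    have := wd_tri hS 1 a (r.1 N)
    rw [wd_one, wd_one, ry_len, wd_comm hS] at this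
    omega
  obtain ⟨N0, hN0⟩ : sInf (range f) ∈ range f := Nat.sInf_mem (range_nonempty f)
  have h2 : ∀ M, f N0 ≤ f M := fun M => hN0 ▸ Nat.sInf_le ⟨M, rfl⟩
  have h3 : ∀ N, N0 ≤ N → ∀ M : ℕ,
      (wdist S (r.1 N) a : ℝ) - N ≤ (wdist S (r.1 M) a : ℝ) - M := fun N hN M => by
    have a1 := wd_tri hS (r.1 N) (r.1 N0) a
    rw [wd_comm hS (r.1 N) (r.1 N0), r.2.2 _ _ hN] at a1
    have a2 := h2 M
    have a3 := h1 N0
    have a4 := h1 M
    have a5 : wdist S (r.1 N) a + M ≤ wdist S (r.1 M) a + N := by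
      simp only [f] at a2
      omega
    have a6 : (wdist S (r.1 N) a : ℝ) + M ≤ wdist S (r.1 M) a + N := by exact_mod_cast a5
    linarith
  filter_upwards [eventually_ge_atTop N0] with N hN
  exact le_antisymm (ciInf_le ⟨_, forall_mem_range.2 (h3 N hN)⟩ N) (le_ciInf (h3 N hN))

theorem ray_len (r : Ray S) (n : ℕ) : wlen S (r.1 n) = n := by
  exact ry_len r n

theorem ppr_ev (hS : Subgroup.closure (S : Set G) = ⊤) (r : Ray S) (a : G) :
    ∀ᶠ N : ℕ in atTop, ppr (wlen S) (hor r) a = gpr (wlen S) (r.1 N) a := by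
  filter_upwards [hor_ev hS r a] with N hN
  rw [ppr, hN, wd_gpr, ray_len]
  ring

theorem hor_one (hS : Subgroup.closure (S : Set G) = ⊤) (r : Ray S) : hor r 1 = 0 := by
  obtain ⟨N, hN⟩ := (hor_ev hS r 1).exists
  rw [hN, wd_comm hS, wd_one, ray_len, sub_self]

theorem hor_ray (hS : Subgroup.closure (S : Set G) = ⊤) (r : Ray S) (n : ℕ) :
    hor r (r.1 n) = -n := by
  obtain ⟨N, hN, hn⟩ := ((hor_ev hS r (r.1 n)).and (eventually_ge_atTop n)).exists
  rw [hN, wd_comm hS, r.2.2 _ _ hn, Nat.cast_sub hn]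
  ring

theorem hor_lip (hS : Subgroup.closure (S : Set G) = ⊤) (r : Ray S) (a b : G) :
    hor r a - hor r b ≤ wlen S (a⁻¹ * b) := by
  obtain ⟨N, h1, h2⟩ := ((hor_ev hS r a).and (hor_ev hS r b)).exists
  have h3 := wd_tri hS (r.1 N) b a
  rw [wd_comm hS b a] at h3
  have h4 : (wdist S (r.1 N) a : ℝ) ≤ wdist S (r.1 N) b + wlen S (a⁻¹ * b) := by exact_mod_cast h3
  rw [h1, h2]
  linarith

theorem hor_H1 (hS : Subgroup.closure (S : Set G) = ⊤) {δ : ℕ} (h4 : Four S δ) (r : Ray S)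
    (a b : G) : min (ppr (wlen S) (hor r) a) (ppr (wlen S) (hor r) b) - δ ≤ gpr (wlen S) a b := by
  obtain ⟨N, h1, h2⟩ := ((ppr_ev hS r a).and (ppr_ev hS r b)).exists
  rw [h1, h2, wd_gpr_comm hS]
  exact h4 _ _ _

theorem hor_H2 (hS : Subgroup.closure (S : Set G) = ⊤) {δ : ℕ} (h4 : Four S δ) (r : Ray S)
    (a b : G) : min (ppr (wlen S) (hor r) a) (gpr (wlen S) a b) - δ ≤ ppr (wlen S) (hor r) b := by
  obtain ⟨N, h1, h2⟩ := ((ppr_ev hS r a).and (ppr_ev hS r b)).exists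
  rw [h1, h2]
  exact h4 _ _ _

theorem gpr_ray_mono (hS : Subgroup.closure (S : Set G) = ⊤) (r s : Ray S) :
    Monotone fun N => gpr (wlen S) (r.1 N) (s.1 N) := by
  refine monotone_nat_of_le_succ fun N => ?_
  have a1 := wd_tri hS (r.1 (N + 1)) (r.1 N) (s.1 (N + 1))
  have a2 := wd_tri hS (r.1 N) (s.1 N) (s.1 (N + 1))
  rw [wd_comm hS (r.1 (N + 1)) (r.1 N), r.2.2 _ _ (Nat.le_succ N)] at a1
  rw [s.2.2 _ _ (Nat.le_succ N)] at a2
  have a3 : wdist S (r.1 (N + 1)) (s.1 (N + 1)) ≤ wdist S (r.1 N) (s.1 N) + 2 := by omega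
  have a4 : (wdist S (r.1 (N + 1)) (s.1 (N + 1)) : ℝ) ≤ wdist S (r.1 N) (s.1 N) + 2 := by
    exact_mod_cast a3
  simp only [wd_gpr, ray_len]
  push_cast
  linarith

theorem ry_gpr (r : Ray S) {i N : ℕ} (h : i ≤ N) : gpr (wlen S) (r.1 i) (r.1 N) = i := by
  rw [wd_gpr, ray_len, ray_len, r.2.2 _ _ h, Nat.cast_sub h]
  ring

theorem asym_iff (hS : Subgroup.closure (S : Set G) = ⊤) {δ : ℕ} (h4 : Four S δ) (r s : Ray S) :
    Asym S r s ↔ Tendsto (fun N => gpr (wlen S) (r.1 N) (s.1 N)) atTop atTop := by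
  constructor
  · rintro ⟨K, h, -⟩
    refine tendsto_atTop_mono (fun i => ?_)
      (tendsto_atTop_add_const_right _ (-(K : ℝ)) tendsto_natCast_atTop_atTop)
    obtain ⟨j, hj⟩ := h i
    have a1 := wd_tri hS 1 (r.1 i) (s.1 j)
    have a2 := wd_tri hS 1 (s.1 j) (r.1 i)
    have a3 := wd_tri hS (r.1 i) (s.1 j) (s.1 i)
    rw [wd_one, wd_one, ray_len, ray_len] at a1 a2
    rw [wd_comm hS] at a2
    have a4 : wdist S (r.1 i) (s.1 i) ≤ 2 * K := by
      rcases le_total i j with hij | hij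
      · rw [wd_comm hS (s.1 j), s.2.2 _ _ hij] at a3
        omega
      · rw [s.2.2 _ _ hij] at a3
        omega
    have a5 : (wdist S (r.1 i) (s.1 i) : ℝ) ≤ 2 * K := by exact_mod_cast a4
    simp only [wd_gpr, ray_len]
    linarith
  · intro h
    have key : ∀ i, wdist S (r.1 i) (s.1 i) ≤ 4 * δ := fun i => by
      obtain ⟨N, h1, h2⟩ := ((h.eventually_ge_atTop i).and (eventually_ge_atTop i)).exists
      have a1 := h4 (r.1 i) (r.1 N) (s.1 N)
      have a2 := h4 (r.1 i) (s.1 N) (s.1 i)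
      rw [ry_gpr r h2, min_eq_left h1] at a1
      rw [wd_gpr_comm hS (s.1 N), ry_gpr s h2, wd_gpr (r.1 i) (s.1 i), ray_len, ray_len] at a2
      have a3 : (i : ℝ) - δ ≤ min (gpr (wlen S) (r.1 i) (s.1 N)) i :=
        le_min a1 (sub_le_self _ (Nat.cast_nonneg _))
      have a4 : (wdist S (r.1 i) (s.1 i) : ℝ) ≤ 4 * δ := by linarith
      exact_mod_cast a4
    exact ⟨4 * δ, fun i => ⟨i, key i⟩, fun i => ⟨i, key i⟩⟩

theorem asym_equiv (hS : Subgroup.closure (S : Set G) = ⊤) : Equivalence (Asym S) := by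
  refine ⟨fun r => ⟨0, fun i => ⟨i, (wd_self _).le⟩, fun i => ⟨i, (wd_self _).le⟩⟩, ?_, ?_⟩
  · rintro r s ⟨K, h1, h2⟩
    exact ⟨K, fun i => (h2 i).imp fun j hj => by rwa [wd_comm hS],
      fun i => (h1 i).imp fun j hj => by rwa [wd_comm hS]⟩
  · rintro r s t ⟨K, h1, h2⟩ ⟨K', h3, h4⟩
    refine ⟨K + K', fun i => ?_, fun k => ?_⟩
    · obtain ⟨j, hj⟩ := h1 i
      obtain ⟨k, hk⟩ := h3 j
      exact ⟨k, (wd_tri hS _ _ _).trans (add_le_add hj hk)⟩
    · obtain ⟨j, hj⟩ := h4 k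
      obtain ⟨i, hi⟩ := h2 j
      exact ⟨i, (wd_tri hS _ _ _).trans (add_le_add hi hj)⟩

theorem ray_compact (hS : Subgroup.closure (S : Set G) = ⊤) : CompactSpace (Ray S) := by
  let _ : TopologicalSpace G := ⊥
  have : DiscreteTopology G := ⟨rfl⟩
  obtain ⟨D, ball, -, hb, -⟩ := exists_ball hS
  have h1 : IsCompact (Set.pi univ fun n : ℕ => (ball n : Set G)) :=
    isCompact_univ_pi fun n => (ball n).finite_toSet.isCompact
  have h2 : IsClosed {r : ℕ → G | r 0 = 1 ∧ ∀ i j, i ≤ j → wdist S (r i) (r j) = j - i} := by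
    refine ((isClosed_discrete {1}).preimage (continuous_apply 0)).inter ?_
    show IsClosed {r : ℕ → G | ∀ i j, i ≤ j → wdist S (r i) (r j) = j - i}
    simp only [ofPred_forall]
    refine isClosed_iInter fun i => isClosed_iInter fun j => isClosed_iInter fun _ => ?_
    have hc : Continuous fun r : ℕ → G => (r i, r j) := by fun_prop
    exact (isClosed_discrete {p : G × G | wdist S p.1 p.2 = j - i}).preimage hc
  exact isCompact_iff_compactSpace.1 (h1.of_isClosed_subset h2 fun r hr n _ =>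
    (hb n _).2 (ray_len ⟨r, hr⟩ n).le)

theorem exists_translate (hS : Subgroup.closure (S : Set G) = ⊤) {δ : ℕ} (h4 : Four S δ) (g : G)
    (r : Ray S) : ∃ s : Ray S, Tendsto (fun N => gpr (wlen S) (s.1 N) (g * r.1 N)) atTop atTop := by
  obtain ⟨D, ball, -, hb, -⟩ := exists_ball hS
  choose c c0 c1 hc using fun N => exists_geod hS 1 (g * r.1 N)
  have hL : ∀ N, N ≤ wdist S 1 (g * r.1 N) + wlen S g := fun N => by
    have a1 := wlen_mul hS g⁻¹ (g * r.1 N)
    rw [inv_mul_cancel_left, ray_len, wlen_inv hS] at a1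
    rw [wd_one]
    omega
  have hev : ∀ k : ℕ, ∀ᶠ N in (hyperfilter ℕ : Filter ℕ), k ≤ N := fun k =>
    (eventually_ge_atTop k).filter_mono Nat.hyperfilter_le_atTop
  have h1 : ∀ k, ∃ x, ∀ᶠ N in (hyperfilter ℕ : Filter ℕ),
      c N k = x ∧ k ≤ wdist S 1 (g * r.1 N) := fun k => by
    have a1 : ∀ᶠ N in (hyperfilter ℕ : Filter ℕ), ∃ x ∈ (ball k : Set G),
        c N k = x ∧ k ≤ wdist S 1 (g * r.1 N) := by
      filter_upwards [hev (k + wlen S g)] with N hN
      have a2 : k ≤ wdist S 1 (g * r.1 N) := by have := hL N; omega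
      refine ⟨_, (hb k _).2 ?_, rfl, a2⟩
      rw [← wd_one]
      exact (wd_pt (c0 N) (c1 N) (hc N) a2).1.le
    obtain ⟨x, -, hx⟩ := (Ultrafilter.eventually_exists_mem_iff (ball k).finite_toSet).1 a1
    exact ⟨x, hx⟩
  choose s hs using h1
  refine ⟨⟨s, ?_, fun i j hij => ?_⟩, ?_⟩
  · obtain ⟨N, hN, -⟩ := (hs 0).exists
    rw [← hN, c0]
  · obtain ⟨N, ⟨h1, -⟩, h2, h3⟩ := ((hs i).and (hs j)).exists
    rw [← h1, ← h2]
    exact hc N i j hij h3
  · refine tendsto_atTop_mono (fun k => ?_) (tendsto_atTop_add_const_right _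
      (-(wlen S g : ℝ) - δ) tendsto_natCast_atTop_atTop)
    obtain ⟨N, ⟨h1, h2⟩, h3⟩ := ((hs k).and (hev k)).exists
    obtain ⟨d1, d2⟩ := wd_pt (c0 N) (c1 N) (hc N) h2
    have a1 := h4 (s k) (g * r.1 N) (g * r.1 k)
    have a2 : gpr (wlen S) (s k) (g * r.1 N) = k := by
      rw [wd_gpr, ← h1, ← wd_one, ← wd_one, d1, d2, Nat.cast_sub h2]
      ring
    have a3 : (k : ℝ) - wlen S g ≤ gpr (wlen S) (g * r.1 N) (g * r.1 k) := by
      rw [wd_gpr, wd_mul, wd_comm hS, r.2.2 _ _ h3, Nat.cast_sub h3, ← wd_one (g * r.1 N),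
        ← wd_one (g * r.1 k)]
      have b1 : (N : ℝ) ≤ wdist S 1 (g * r.1 N) + wlen S g := by exact_mod_cast hL N
      have b2 : (k : ℝ) ≤ wdist S 1 (g * r.1 k) + wlen S g := by exact_mod_cast hL k
      linarith
    have a4 : (k : ℝ) - wlen S g ≤
        min (gpr (wlen S) (s k) (g * r.1 N)) (gpr (wlen S) (g * r.1 N) (g * r.1 k)) :=
      le_min (a2 ▸ sub_le_self _ (Nat.cast_nonneg _)) a3
    show _ ≤ gpr (wlen S) (s k) (g * r.1 k)
    linarith

theorem ry_four {δ : ℕ} (h4 : Four S δ) (w x y z : G) :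
    min (((wdist S w x : ℝ) + wdist S w y - wdist S x y) / 2)
      (((wdist S w y : ℝ) + wdist S w z - wdist S y z) / 2) - δ ≤
      ((wdist S w x : ℝ) + wdist S w z - wdist S x z) / 2 := by
  have := h4 (w⁻¹ * x) (w⁻¹ * y) (w⁻¹ * z)
  simp only [wd_gpr, wd_mul] at this
  exact this

theorem hor_H4 (hS : Subgroup.closure (S : Set G) = ⊤) {δ : ℕ} (h4 : Four S δ) {g : G}
    {r s : Ray S} (h : Tendsto (fun N => gpr (wlen S) (s.1 N) (g * r.1 N)) atTop atTop) (a b : G) :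
    |hor s (g * a) - hor s (g * b) - (hor r a - hor r b)| ≤ 2 * δ := by
  obtain ⟨N, ⟨⟨h1, h2⟩, h3, h5⟩, h6⟩ := ((((hor_ev hS s (g * a)).and (hor_ev hS s (g * b))).and
    ((hor_ev hS r a).and (hor_ev hS r b))).and
    (h.eventually_ge_atTop (wdist S 1 (g * a) + wdist S (g * a) (g * b)))).exists
  rw [h1, h2, h3, h5, ← wd_mul g (r.1 N) a, ← wd_mul g (r.1 N) b]
  rw [wd_gpr, ← wd_one, ← wd_one] at h6
  generalize s.1 N = x at *
  generalize g * r.1 N = y at *
  generalize g * a = w at *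
  generalize g * b = z at *
  have tri : ∀ a b c : G, (wdist S a c : ℝ) ≤ wdist S a b + wdist S b c := fun a b c => by
    exact_mod_cast wd_tri hS a b c
  have a1 := ry_four h4 w y x z
  have a2 := ry_four h4 w x y z
  have t1 := tri 1 w x
  have t2 := tri 1 w y
  have t3 := tri w z x
  have t4 := tri w z y
  rw [wd_comm hS z] at t3 t4
  rw [wd_comm hS y x] at a1
  rw [min_eq_right (by linarith [Nat.cast_nonneg (α := ℝ) (wdist S x z)])] at a1
  rw [min_eq_right (by linarith [Nat.cast_nonneg (α := ℝ) (wdist S y z)])] at a2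
  rw [wd_comm hS x w, wd_comm hS y w, abs_le]
  constructor <;> linarith

end Vale.Agent.P198
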