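import Vale.Agent.P198.Defs

/-! Plane topology: crossings. -/

namespace Vale.Agent.P198

open Set Filter Topology Metric MeasureTheory
open scoped Classical

theorem cross {γ O : Set (ℝ × ℝ)} (hγ : γ ⊆ sq) (hc : IsPreconnected γ) (h0 : ∃ a ∈ γ, a.2 = 0)
    (h1 : ∃ b ∈ γ, b.2 = 1) (hO : IsOpen O) (hOc : IsPreconnected O) (hOs : O ⊆ strip)
    (hl : ∃ a ∈ O, a.1 < 0) (hr : ∃ b ∈ O, 1 < b.1) : (γ ∩ O).Nonempty := by
  obtain ⟨a0, ha0, ha0'⟩ := h0
  obtain ⟨b0, hb0, hb0'⟩ := h1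
  obtain ⟨a, ha, ha'⟩ := hl
  obtain ⟨b, hb, hb'⟩ := hr
  have hj : JoinedIn O a b :=
    ((hO.isConnected_iff_isPathConnected).1 ⟨⟨a, ha⟩, hOc⟩).joinedIn a ha b hb
  set p := hj.somePath with hp
  have hpO : ∀ s : ℝ, p.extend s ∈ O := fun s => hj.somePath_mem _
  by_contra hne
  rw [not_nonempty_iff_eq_empty] at hne
  set V : Set (ℝ × ℝ) := (range p)ᶜ ∩ {w | a.1 < w.1 ∧ w.1 < b.1} with hV
  have hVo : IsOpen V := (isCompact_range p.continuous).isClosed.isOpen_compl.inter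
    ((isOpen_lt continuous_const continuous_fst).inter (isOpen_lt continuous_fst continuous_const))
  have hγV : γ ⊆ V := by
    intro w hw
    refine ⟨?_, ?_, ?_⟩
    · rintro ⟨s, rfl⟩
      exact (eq_empty_iff_forall_notMem.1 hne) _ ⟨hw, hj.somePath_mem s⟩
    · exact ha'.trans_le (hγ hw).1.1
    · exact lt_of_le_of_lt (hγ hw).1.2 hb'
  have hsub : γ ⊆ connectedComponentIn V a0 := hc.subset_connectedComponentIn ha0 hγV
  have hj' : JoinedIn V a0 b0 :=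
    (((hVo.connectedComponentIn.isConnected_iff_isPathConnected).1
      (isConnected_connectedComponentIn_iff.2 (hγV ha0))).joinedIn a0 (hsub ha0) b0
        (hsub hb0)).mono (connectedComponentIn_subset _ _)
  set q := hj'.somePath with hq
  have hqV : ∀ s : ℝ, q.extend s ∈ V := fun s => hj'.somePath_mem _
  obtain ⟨w, -, e1, e2⟩ := P032.pm (fun w => (p.extend w.1).1 - (q.extend w.2).1)
    (fun w => (q.extend w.2).2 - (p.extend w.1).2) (by fun_prop) (by fun_prop)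
    (fun w _ hw => by
      rw [hw, p.extend_zero]
      linarith [(hqV w.2).2.1])
    (fun w _ hw => by
      rw [hw, p.extend_one]
      linarith [(hqV w.2).2.2])
    (fun w _ hw => by
      rw [hw, q.extend_zero, ha0']
      linarith [(hOs (hpO w.1)).2.1])
    (fun w _ hw => by
      rw [hw, q.extend_one, hb0']
      linarith [(hOs (hpO w.1)).2.2])
  have e3 : p.extend w.1 = q.extend w.2 := Prod.ext (by linarith) (by linarith)
  refine (hqV w.2).1 ?_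
  rw [← e3, ← p.extend_range]
  exact mem_range_self _

theorem sep_cross {O1 O2 : Set (ℝ × ℝ)} (h1 : IsOpen O1) (h2 : IsOpen O2) (hd : Disjoint O1 O2)
    (hl : ∀ z ∈ zone 0, z.1 < 0 → z ∈ O1) (hr : ∀ z ∈ zone 0, 1 < z.1 → z ∈ O2) :
    ∃ γ, Cross γ ∧ ∀ z ∈ γ, z ∉ O1 ∧ z ∉ O2 := by
  set φ : ℝ × ℝ → ℝ × ℝ := fun p => (2 * p.1 - 1 / 2, p.2) with hφ
  have hφc : Continuous φ := by fun_prop
  have hz : ∀ p ∈ P032.sq, φ p ∈ zone 0 := by
    rintro p ⟨⟨a1, a2⟩, a3, a4⟩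
    exact ⟨⟨by simp only [hφ]; linarith, by simp only [hφ]; linarith⟩, a3, by simpa using a4⟩
  obtain ⟨K, hK, k1, k2, ⟨a, ha, ha'⟩, b, hb, hb'⟩ := P032.sep0 (A := φ ⁻¹' O2ᶜ) (B := φ ⁻¹' O1ᶜ)
    (h2.isClosed_compl.preimage hφc) (h1.isClosed_compl.preimage hφc)
    (fun p _ => by
      by_cases hp : φ p ∈ O2
      · exact Or.inr fun h => Set.disjoint_left.1 hd h hp
      · exact Or.inl hp)
    (fun p hp h0 h => h (hl _ (hz p hp) (by simp only [hφ]; linarith)))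
    (fun p hp h0 h => h (hr _ (hz p hp) (by simp only [hφ]; linarith)))
  refine ⟨φ '' K, ⟨?_, k1.image hφc, k2.image _ hφc.continuousOn, ⟨φ a, ⟨a, ha, rfl⟩, ha'⟩,
    φ b, ⟨b, hb, rfl⟩, hb'⟩, ?_⟩
  · rintro _ ⟨p, hp, rfl⟩
    obtain ⟨p1, p2, p3⟩ := hK hp
    exact ⟨⟨not_lt.1 fun h => p3 (hl _ (hz p p1) h), not_lt.1 fun h => p2 (hr _ (hz p p1) h)⟩,
      p1.2⟩
  · rintro _ ⟨p, hp, rfl⟩
    exact ⟨(hK hp).2.2, (hK hp).2.1⟩

theorem slab {Y : Type*} [MetricSpace Y] {β : Set Y} (hβ : IsCompact β) (hc : IsPreconnected β)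
    {f : Y → ℝ} (hf : Continuous f) {a b : ℝ} (hab : a ≤ b) (h0 : ∃ x ∈ β, f x ≤ a)
    (h1 : ∃ y ∈ β, b ≤ f y) :
    ∃ β' ⊆ β, IsCompact β' ∧ IsPreconnected β' ∧ (∀ x ∈ β', a ≤ f x ∧ f x ≤ b) ∧
      (∃ x ∈ β', f x = a) ∧ ∃ y ∈ β', f y = b := by
  have hZ : IsCompact (β ∩ f ⁻¹' Icc a b) := hβ.inter_right (isClosed_Icc.preimage hf)
  rcases P032.cut (P := {x | f x = a}) (Q := {x | f x = b}) hZ (isClosed_eq hf continuous_const)
    (isClosed_eq hf continuous_const) with ⟨K, hK, k1, k2, k3, k4⟩ | ⟨Z1, Z2, z1, z2, z3, z4, z5, z6⟩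
  · exact ⟨K, fun x hx => (hK hx).1, k1, k2, fun x hx => (hK hx).2, k3, k4⟩
  exfalso
  obtain ⟨x0, hx0, hx0'⟩ := h0
  obtain ⟨y0, hy0, hy0'⟩ := h1
  obtain ⟨x, hx, hU, hV⟩ := isPreconnected_closed_iff.1 hc
    ({x | f x ≤ a} ∪ Z1 ∩ f ⁻¹' Icc a b) ({x | b ≤ f x} ∪ Z2 ∩ f ⁻¹' Icc a b)
    ((isClosed_le hf continuous_const).union (z1.isClosed.inter (isClosed_Icc.preimage hf)))
    ((isClosed_le continuous_const hf).union (z2.isClosed.inter (isClosed_Icc.preimage hf)))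
    (fun x hx => by
      rcases le_total (f x) a with h | h
      · exact Or.inl (Or.inl h)
      rcases le_total b (f x) with h' | h'
      · exact Or.inr (Or.inl h')
      rcases z3 ⟨hx, h, h'⟩ with h'' | h''
      · exact Or.inl (Or.inr ⟨h'', h, h'⟩)
      · exact Or.inr (Or.inr ⟨h'', h, h'⟩))
    ⟨x0, hx0, Or.inl hx0'⟩ ⟨y0, hy0, Or.inl hy0'⟩
  rcases hU with hU | hU <;> rcases hV with hV | hV
  · have hU' : f x ≤ a := hU
    have hV' : b ≤ f x := hV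
    rcases z3 ⟨hx, hab.trans hV', hU'.trans hab⟩ with h | h
    · exact Set.disjoint_left.1 z5 h (le_antisymm (hU'.trans hab) hV')
    · exact Set.disjoint_left.1 z6 h (le_antisymm hU' (hab.trans hV'))
  · exact Set.disjoint_left.1 z6 hV.1 (le_antisymm hU hV.2.1)
  · exact Set.disjoint_left.1 z5 hU.1 (le_antisymm hU.2.2 hV)
  · exact Set.disjoint_left.1 z4 hU.1 hV.1

theorem box_exit {Y : Type*} [TopologicalSpace Y] [T2Space Y] {e : ℝ × ℝ → Y}
    (he : IsOpenEmbedding e) {A : Set Y} {z : ℝ × ℝ} {a : Y} {r : ℝ} (hr : 0 < r)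
    (hj : JoinedIn A (e z) a) (ha : a ∉ e '' ball z r) :
    ∃ β ⊆ closedBall z r, IsCompact β ∧ IsPreconnected β ∧ z ∈ β ∧ (∃ w ∈ β, dist w z = r) ∧
      e '' β ⊆ A := by
  set p := hj.somePath with hp
  have hpA : ∀ s : ℝ, p.extend s ∈ A := fun s => hj.somePath_mem _
  have hpc : Continuous p.extend := p.continuous_extend
  have hBo : IsOpen (e '' ball z r) := he.isOpenMap _ isOpen_ball
  have hKc : IsClosed (e '' closedBall z r) :=
    ((isCompact_closedBall z r).image he.continuous).isClosed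
  set T : Set ℝ := Ici 0 ∩ p.extend ⁻¹' (e '' ball z r)ᶜ with hT
  have hTc : IsClosed T := isClosed_Ici.inter (hBo.isClosed_compl.preimage hpc)
  have hT1 : (1 : ℝ) ∈ T := ⟨mem_Ici.2 zero_le_one, by simpa using ha⟩
  have hTb : BddBelow T := ⟨0, fun t ht => ht.1⟩
  set τ := sInf T with hτ
  have hτT : τ ∈ T := hTc.csInf_mem ⟨1, hT1⟩ hTb
  have h0 : p.extend 0 ∈ e '' ball z r := ⟨z, mem_ball_self hr, p.extend_zero.symm⟩
  have hτ0 : 0 < τ := lt_of_le_of_ne hτT.1 fun h => hτT.2 (h ▸ h0)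
  have hlt : Ico 0 τ ⊆ p.extend ⁻¹' (e '' closedBall z r) := by
    intro t ht
    have : t ∉ T := notMem_of_lt_csInf ht.2 hTb
    have h2 : p.extend t ∈ e '' ball z r := by
      by_contra h
      exact this ⟨ht.1, h⟩
    exact image_mono ball_subset_closedBall h2
  have hle : Icc 0 τ ⊆ p.extend ⁻¹' (e '' closedBall z r) := by
    rw [← closure_Ico hτ0.ne]
    exact closure_minimal hlt (hKc.preimage hpc)
  have him : e '' (e ⁻¹' (p.extend '' Icc 0 τ)) = p.extend '' Icc 0 τ := by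
    refine image_preimage_eq_of_subset ?_
    rintro _ ⟨t, ht, rfl⟩
    exact image_subset_range _ _ (hle ht)
  refine ⟨e ⁻¹' (p.extend '' Icc 0 τ), ?_, ?_, ?_, ?_, ?_, ?_⟩
  · rintro w ⟨t, ht, hw⟩
    obtain ⟨w', hw', h⟩ := hle ht
    rwa [← he.injective (h.trans hw)]
  · rw [he.isInducing.isCompact_iff, him]
    exact isCompact_Icc.image hpc
  · rw [← he.isInducing.isPreconnected_image, him]
    exact isPreconnected_Icc.image _ hpc.continuousOn
  · exact ⟨0, ⟨le_rfl, hτ0.le⟩, p.extend_zero⟩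
  · obtain ⟨w, hw, h⟩ := hle ⟨hτ0.le, le_rfl⟩
    refine ⟨w, ⟨τ, ⟨hτ0.le, le_rfl⟩, h.symm⟩, le_antisymm hw (not_lt.1 fun hlt' => ?_)⟩
    exact hτT.2 ⟨w, hlt', h⟩
  · rw [him]
    rintro _ ⟨t, -, rfl⟩
    exact hpA t

end Vale.Agent.P198
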