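import Vale.Agent.P198.Defs
import Vale.Agent.P198.TopA

/-! Plane topology. -/

namespace Vale.Agent.P198

open Set Filter Topology Metric MeasureTheory
open scoped Classical

theorem cover_chain {Y ι : Type*} [TopologicalSpace Y] {Γ : Set Y} (hΓ : IsPreconnected Γ)
    {V : Finset ι} {U : ι → Set Y} (hU : ∀ i, IsOpen (U i)) (hc : ∀ y ∈ Γ, ∃ i ∈ V, y ∈ U i)
    {a b : ι} (ha : a ∈ V) (ha' : (U a ∩ Γ).Nonempty) (hb : b ∈ V) (hb' : (U b ∩ Γ).Nonempty) :
    Relation.ReflTransGen (fun x y => x ∈ V.filter (fun i => (U i ∩ Γ).Nonempty) ∧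
      y ∈ V.filter (fun i => (U i ∩ Γ).Nonempty) ∧ (U x ∩ U y).Nonempty) a b := by
  by_contra hne
  set R : ι → Prop := fun i => Relation.ReflTransGen
    (fun x y => x ∈ V.filter (fun i => (U i ∩ Γ).Nonempty) ∧
      y ∈ V.filter (fun i => (U i ∩ Γ).Nonempty) ∧ (U x ∩ U y).Nonempty) a i with hR
  obtain ⟨y, hy, h1, h2⟩ := hΓ (⋃ i ∈ {i | i ∈ V ∧ R i}, U i) (⋃ i ∈ {i | i ∈ V ∧ ¬ R i}, U i)
    (isOpen_biUnion fun i _ => hU i) (isOpen_biUnion fun i _ => hU i)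
    (fun y hy => by
      obtain ⟨i, hi, hyi⟩ := hc y hy
      by_cases h : R i
      · exact Or.inl (mem_biUnion (show i ∈ {i | i ∈ V ∧ R i} from ⟨hi, h⟩) hyi)
      · exact Or.inr (mem_biUnion (show i ∈ {i | i ∈ V ∧ ¬ R i} from ⟨hi, h⟩) hyi))
    (by
      obtain ⟨y, h1, h2⟩ := ha'
      exact ⟨y, h2, mem_biUnion (show a ∈ {i | i ∈ V ∧ R i} from ⟨ha, Relation.ReflTransGen.refl⟩) h1⟩)
    (by
      obtain ⟨y, h1, h2⟩ := hb'
      exact ⟨y, h2, mem_biUnion (show b ∈ {i | i ∈ V ∧ ¬ R i} from ⟨hb, hne⟩) h1⟩)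
  obtain ⟨i, ⟨hi, hRi⟩, hyi⟩ := mem_iUnion₂.1 h1
  obtain ⟨j, ⟨hj, hRj⟩, hyj⟩ := mem_iUnion₂.1 h2
  exact hRj (Relation.ReflTransGen.tail hRi ⟨Finset.mem_filter.2 ⟨hi, y, hyi, hy⟩,
    Finset.mem_filter.2 ⟨hj, y, hyj, hy⟩, y, hyi, hyj⟩)

theorem union_conn {Y ι : Type*} [TopologicalSpace Y] {U : ι → Set Y}
    (hU : ∀ i, IsPreconnected (U i)) {r : ι → ι → Prop} (hr : ∀ x y, r x y → (U x ∩ U y).Nonempty)
    (a : ι) : IsPreconnected (⋃ i ∈ {i | Relation.ReflTransGen r a i}, U i) := by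
  have key : ∀ i, Relation.ReflTransGen r a i →
      Relation.ReflTransGen (fun i j => (U i ∩ U j).Nonempty ∧
        i ∈ {i | Relation.ReflTransGen r a i}) a i ∧
      Relation.ReflTransGen (fun i j => (U i ∩ U j).Nonempty ∧
        i ∈ {i | Relation.ReflTransGen r a i}) i a := by
    intro i hi
    induction hi with
    | refl => exact ⟨Relation.ReflTransGen.refl, Relation.ReflTransGen.refl⟩
    | tail h1 h2 ih =>
      refine ⟨ih.1.tail ⟨hr _ _ h2, h1⟩, Relation.ReflTransGen.head ⟨?_, h1.tail h2⟩ ih.2⟩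
      rw [inter_comm]
      exact hr _ _ h2
  exact IsPreconnected.biUnion_of_reflTransGen (fun i _ => hU i)
    fun i hi j hj => (key i hi).2.trans (key j hj).1

theorem bump_lev {Y : Type*} [MetricSpace Y] {γ : Set Y} (hγ : IsCompact γ)
    (hc : IsPreconnected γ) {f : Y → ℝ} {ω a b : ℝ}
    (hf : ∀ z ∈ γ, ∃ r : ℝ, 0 < r ∧ ∀ w ∈ γ, dist z w < r → |f z - f w| ≤ ω) {z : Y} (hz : z ∈ γ)
    (hza : a ≤ f z) (hzb : f z ≤ b) (hout : ∃ w ∈ γ, f w < a ∨ b < f w) :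
    ∃ C ⊆ γ, IsPreconnected C ∧ z ∈ C ∧ (∀ w ∈ C, a ≤ f w ∧ f w ≤ b) ∧
      ∃ w ∈ C, f w ≤ a + 2 * ω ∨ b - 2 * ω ≤ f w := by
  set G : Set Y := {w | w ∈ γ ∧ (f w < a ∨ b < f w)} with hG
  have hGne : G.Nonempty := hout
  have hFγ : closure G ⊆ γ := closure_minimal (fun w hw => hw.1) hγ.isClosed
  have hFc : IsCompact (closure G) := hγ.of_isClosed_subset isClosed_closure hFγ
  choose! ρ hρ hρf using hf
  set N : Set Y := ⋃ p ∈ closure G, ball p (ρ p) with hN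
  have hNo : IsOpen N := isOpen_biUnion fun p _ => isOpen_ball
  have hFN : closure G ⊆ N := fun p hp => mem_biUnion hp (mem_ball_self (hρ p (hFγ hp)))
  have hgood : ∀ w ∈ γ, w ∈ N → f w ≤ a + 2 * ω ∨ b - 2 * ω ≤ f w := by
    intro w hw hwN
    obtain ⟨p, hp, hwp⟩ := mem_iUnion₂.1 hwN
    obtain ⟨g, hg, hpg⟩ := Metric.mem_closure_iff.1 hp _ (hρ p (hFγ hp))
    have h1 := abs_le.1 (hρf p (hFγ hp) w hw (by rw [dist_comm]; exact hwp))
    have h2 := abs_le.1 (hρf p (hFγ hp) g hg.1 hpg)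
    rcases hg.2 with h | h
    · left
      linarith [h1.1, h2.2]
    · right
      linarith [h1.2, h2.1]
  by_cases hzN : z ∈ N
  · refine ⟨{z}, singleton_subset_iff.2 hz, isPreconnected_singleton, rfl, ?_, z, rfl,
      hgood z hz hzN⟩
    rintro w rfl
    exact ⟨hza, hzb⟩
  obtain ⟨δ, hδ, hδN⟩ := hFc.exists_thickening_subset_open hNo hFN
  have hFne : (closure G).Nonempty := hGne.closure
  have hd : Continuous fun w => infDist w (closure G) := continuous_infDist_pt _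
  have hzd : δ ≤ infDist z (closure G) :=
    not_lt.1 fun h => hzN (hδN ((mem_thickening_iff_infDist_lt hFne).2 h))
  have hZc : IsClosed {w | δ / 2 ≤ infDist w (closure G)} := isClosed_le continuous_const hd
  rcases P032.cut (P := {z}) (Q := {w | infDist w (closure G) = δ / 2}) (hγ.inter_right hZc)
    isClosed_singleton (isClosed_eq hd continuous_const) with
    ⟨K, hK, -, k2, k3, k4⟩ | ⟨Z1, Z2, z1, z2, z3, z4, z5, z6⟩
  · obtain ⟨_, hzK, rfl⟩ := k3
    obtain ⟨w, hwK, hw⟩ := k4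
    refine ⟨K, fun x hx => (hK hx).1, k2, hzK, fun x hx => ?_, w, hwK, hgood w (hK hwK).1
      (hδN ((mem_thickening_iff_infDist_lt hFne).2 (by rw [show infDist w (closure G) = δ / 2 from hw]; linarith)))⟩
    by_contra hcon
    have hxG : x ∈ G := ⟨(hK hx).1, by
      rw [not_and_or, not_le, not_le] at hcon
      exact hcon⟩
    have h1 : δ / 2 ≤ infDist x (closure G) := (hK hx).2
    rw [infDist_zero_of_mem (subset_closure hxG)] at h1
    linarith
  exfalso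
  obtain ⟨g, hg⟩ := hGne
  have hz1 : z ∈ Z1 := (z3 ⟨hz, show δ / 2 ≤ infDist z (closure G) by linarith⟩).resolve_right
    fun h => Set.disjoint_left.1 z6 h rfl
  obtain ⟨x, -, hU, hV⟩ := isPreconnected_closed_iff.1 hc
    (Z1 ∩ {w | δ / 2 ≤ infDist w (closure G)}) (Z2 ∪ {w | infDist w (closure G) ≤ δ / 2})
    (z1.isClosed.inter hZc) (z2.isClosed.union (isClosed_le hd continuous_const))
    (fun x hx => by
      rcases le_total (δ / 2) (infDist x (closure G)) with h | h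
      · rcases z3 ⟨hx, h⟩ with h' | h'
        · exact Or.inl ⟨h', h⟩
        · exact Or.inr (Or.inl h')
      · exact Or.inr (Or.inr h))
    ⟨z, hz, hz1, show δ / 2 ≤ infDist z (closure G) by linarith⟩
    ⟨g, hg.1, Or.inr (show infDist g (closure G) ≤ δ / 2 by
      rw [infDist_zero_of_mem (subset_closure hg)]; linarith)⟩
  rcases hV with hV | hV
  · exact Set.disjoint_left.1 z4 hU.1 hV
  · exact Set.disjoint_left.1 z5 hU.1 (le_antisymm hV hU.2)

end Vale.Agent.P198
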