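import Vale.Agent.P198.Basic
import Vale.Agent.P198.Ext
import Vale.Agent.P198.Top

/-! Shadows in a chart rectangle: metric facts. -/

namespace Vale.Agent.P198

open Set Filter Topology Metric MeasureTheory
open scoped Classical

variable {G : Type*} [Group G] {X : Type} [MetricSpace X] [MulAction G X]

namespace Ctx
variable (K : Ctx G X) {e : ℝ × ℝ → X}

theorem adj_symm {u v : G} (h : K.adj u v) : K.adj v u := by
  obtain ⟨x, h1, h2⟩ := h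
  exact ⟨x, h2, h1⟩

theorem adj_self {u : G} (h : K.cov.n0 ≤ K.len u) : K.adj u u := by
  obtain ⟨ξ, hξ⟩ := K.vis u
  have h1 : ξ ∈ K.U u := K.cov.U_in u ξ h (by linarith [K.δ_ge])
  exact ⟨ξ, h1, h1⟩

theorem adj_d {n : ℕ} (hn : K.cov.n0 ≤ n) {u v : G} (hu : u ∈ K.lev n) (hv : v ∈ K.lev n)
    (h : K.adj u v) : K.d u v ≤ K.lam := by
  obtain ⟨ξ, h1, h2⟩ := h
  rw [BD.mem_lev] at hu hv
  have a1 := K.cov.U_out u ξ (hu ▸ hn) h1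
  have a2 := K.cov.U_out v ξ (hv ▸ hn) h2
  have a3 := K.P_H1 ξ u v
  have a4 := K.d_eq u v
  rw [hu] at a1 a4
  rw [hv] at a2 a4
  have a5 := le_min a1 a2
  rw [lam]
  push_cast
  linarith

theorem achain_chain {n : ℕ} (hn : K.cov.n0 ≤ n) {c : Finset G} (hc : c ⊆ K.lev n) {a b : G}
    (h : K.AChain c a b) : K.Chain c a b := by
  induction h with
  | refl => exact Relation.ReflTransGen.refl
  | tail _ hxy ih => exact ih.tail ⟨hxy.1, hxy.2.1, K.adj_d hn (hc hxy.1) (hc hxy.2.1) hxy.2.2⟩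

theorem fam_subset (n : ℕ) : K.fam e n ⊆ K.lev n := Finset.filter_subset _ _

theorem exists_U {n : ℕ} (hn : K.cov.n0 ≤ n) (ξ : X) : ∃ u ∈ K.lev n, ξ ∈ K.U u := by
  refine ⟨K.ray ξ n, (BD.mem_lev _).2 (K.ray_len ξ n), K.cov.U_in _ _ (by rwa [K.ray_len]) ?_⟩
  rw [K.P_ray, K.ray_len]
  linarith [K.δ_ge, Nat.cast_nonneg (α := ℝ) K.Cv]

theorem ra_P (R : ℝ) : ∃ n1 : ℕ, K.cov.n0 ≤ n1 ∧ ∀ u, n1 ≤ K.len u → ∀ ξ ∈ K.U u, R ≤ K.P ξ u := by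
  refine ⟨max K.cov.n0 (⌈R⌉₊ + K.cov.A'), le_max_left _ _, fun u hu ξ hξ => ?_⟩
  have a1 := K.cov.U_out u ξ ((le_max_left _ _).trans hu) hξ
  have a2 : ((⌈R⌉₊ + K.cov.A' : ℕ) : ℝ) ≤ K.len u := by
    exact_mod_cast (le_max_right _ _).trans hu
  push_cast at a2
  linarith [Nat.le_ceil R]

theorem U_small {ε : ℝ} (hε : 0 < ε) :
    ∃ n1 : ℕ, ∀ u, n1 ≤ K.len u → ∀ a ∈ K.U u, ∀ b ∈ K.U u, dist a b < ε := by
  obtain ⟨R, hR⟩ := K.near_dist hε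
  obtain ⟨n1, -, h⟩ := K.ra_P R
  exact ⟨n1, fun u hu a ha b hb => hR a b ⟨u, h u hu a ha, h u hu b hb⟩⟩

theorem pre_conn (he : IsOpenEmbedding e) {O : Set X} (hO : IsPreconnected O) (h : O ⊆ range e) :
    IsPreconnected (e ⁻¹' O) := by
  exact hO.preimage_of_isOpenMap he.injective he.isOpenMap h

theorem cen (he : IsOpenEmbedding e) {C : Set (ℝ × ℝ)} (hC : IsCompact C) {ε : ℝ} (hε : 0 < ε) :
    ∃ R : ℝ, ∀ z ∈ C, ∀ ξ, K.Near R (e z) ξ → ∃ w, ξ = e w ∧ dist z w < ε := by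
  obtain ⟨r, hr, h⟩ := lebesgue_number_lemma_of_metric (hC.image he.continuous)
    (c := fun z : ℝ × ℝ => e '' ball z (ε / 2)) (fun z => he.isOpenMap _ isOpen_ball) (by
      rintro _ ⟨z, -, rfl⟩
      exact mem_iUnion.2 ⟨z, z, mem_ball_self (half_pos hε), rfl⟩)
  obtain ⟨R, hR⟩ := K.near_dist hr
  refine ⟨R, fun z hz ξ hn => ?_⟩
  obtain ⟨z', hz'⟩ := h _ ⟨z, hz, rfl⟩
  obtain ⟨w, hw, rfl⟩ := hz' (mem_ball'.2 (hR _ _ hn))
  obtain ⟨y, hy, e1⟩ := hz' (mem_ball_self hr)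
  obtain rfl := he.injective e1
  refine ⟨w, rfl, ?_⟩
  rw [mem_ball] at hw hy
  linarith [dist_triangle_right y w z']

theorem near_of_dist (he : IsOpenEmbedding e) {C : Set (ℝ × ℝ)} (hC : IsCompact C) (R : ℝ) :
    ∃ r : ℝ, 0 < r ∧ ∀ z ∈ C, ∀ w, dist z w < r → K.Near R (e z) (e w) := by
  obtain ⟨ε, hε, h1⟩ := K.dist_near R
  obtain ⟨r, hr, h⟩ := lebesgue_number_lemma_of_metric hC
    (c := fun x : X => e ⁻¹' ball x (ε / 2)) (fun _ => isOpen_ball.preimage he.continuous)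
    fun z _ => mem_iUnion.2 ⟨e z, mem_ball_self (half_pos hε)⟩
  refine ⟨r, hr, fun z hz w hw => h1 _ _ ?_⟩
  obtain ⟨x, hx⟩ := h z hz
  have a1 : dist (e z) x < ε / 2 := hx (mem_ball_self hr)
  have a2 : dist (e w) x < ε / 2 := hx (mem_ball'.2 hw)
  linarith [dist_triangle_right (e z) (e w) x]

theorem ra_dist {z w : ℝ × ℝ} {ε : ℝ} (h : dist z w < ε) :
    (-ε < z.1 - w.1 ∧ z.1 - w.1 < ε) ∧ -ε < z.2 - w.2 ∧ z.2 - w.2 < ε := by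
  rw [Prod.dist_eq, max_lt_iff, Real.dist_eq, Real.dist_eq, abs_lt, abs_lt] at h
  exact h

theorem covered (he : IsOpenEmbedding e) {η : ℝ} (hη : 0 < η) : ∃ n1 : ℕ, ∀ n, n1 ≤ n →
    ∀ z ∈ zone η, (∃ u ∈ K.fam e n, e z ∈ K.U u) ∧ ∀ u ∈ K.lev n, e z ∈ K.U u → u ∈ K.fam e n := by
  obtain ⟨R, hR⟩ := K.cen he (C := zone η) (isCompact_Icc.prod isCompact_Icc)
    (lt_min hη one_half_pos)
  obtain ⟨n1, h0, h1⟩ := K.ra_P R
  refine ⟨n1, fun n hn z hz => ?_⟩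
  have key : ∀ u ∈ K.lev n, e z ∈ K.U u → u ∈ K.fam e n := fun u hu hzu => by
    have hl : n1 ≤ K.len u := by rwa [(BD.mem_lev _).1 hu]
    refine Finset.mem_filter.2 ⟨hu, fun ξ hξ => ?_⟩
    obtain ⟨w, rfl, hw⟩ := hR z hz ξ ⟨u, h1 u hl _ hzu, h1 u hl _ hξ⟩
    obtain ⟨⟨a1, a2⟩, a3, a4⟩ := hz
    obtain ⟨⟨b1, b2⟩, b3, b4⟩ := ra_dist hw
    have c1 := min_le_left η (1 / 2)
    have c2 := min_le_right η (1 / 2)
    exact ⟨w, ⟨⟨by linarith, by linarith⟩, by linarith, by linarith⟩, rfl⟩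
  obtain ⟨u, hu, hzu⟩ := K.exists_U (h0.trans hn) (e z)
  exact ⟨⟨u, key u hu hzu, hzu⟩, key⟩

theorem exists_sol (he : IsOpenEmbedding e) : ∃ n1 : ℕ, ∀ n, n1 ≤ n → Nonempty (K.Sol e n) := by
  obtain ⟨n1, h⟩ := K.covered he one_half_pos
  refine ⟨n1, fun n hn => exists_ext ?_⟩
  have hΓ : IsPreconnected (e '' zone (1 / 2)) :=
    ((convex_Icc _ _).prod (convex_Icc _ _)).isPreconnected.image e he.continuous.continuousOn
  have hc : ∀ y ∈ e '' zone (1 / 2), ∃ u ∈ K.fam e n, y ∈ K.U u := by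
    rintro _ ⟨z, hz, rfl⟩
    exact (h n hn z hz).1
  have z1 : ((-1 / 2, 1 / 2) : ℝ × ℝ) ∈ zone (1 / 2) :=
    ⟨⟨by norm_num, by norm_num⟩, by norm_num, by norm_num⟩
  have z2 : ((3 / 2, 1 / 2) : ℝ × ℝ) ∈ zone (1 / 2) :=
    ⟨⟨by norm_num, by norm_num⟩, by norm_num, by norm_num⟩
  obtain ⟨a, ha, ha'⟩ := (h n hn _ z1).1
  obtain ⟨b, hb, hb'⟩ := (h n hn _ z2).1
  refine ⟨K.fat (K.fam e n) (e '' zone (1 / 2)), Finset.filter_subset _ _, a,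
    Finset.mem_filter.2 ⟨ha, _, ha', _, z1, rfl⟩, ⟨_, by norm_num, ha'⟩,
    ⟨b, Finset.mem_filter.2 ⟨hb, _, hb', _, z2, rfl⟩, _, by norm_num, hb'⟩, fun u hu => ?_⟩
  obtain ⟨hu1, hu2⟩ := Finset.mem_filter.1 hu
  exact cover_chain hΓ K.cov.U_open hc ha ⟨_, ha', _, z1, rfl⟩ hu1 hu2

theorem lc (he : IsOpenEmbedding e) {η : ℝ} (hη : 0 < η) : ∃ (R : ℝ) (n1 : ℕ), ∀ n, n1 ≤ n →
    ∀ γ, Cross γ → ∀ z ∈ γ, η ≤ z.2 → z.2 ≤ 1 - η → ∀ u ∈ K.fat (K.fam e n) (e '' γ),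
      e z ∈ K.U u → ∃ b ∈ K.fat (K.fam e n) (e '' γ),
        K.AChain (K.fat (K.fam e n) (e '' γ)) u b ∧ K.P (e z) b < R := by
  have hη4 : 0 < η / 4 := by positivity
  obtain ⟨R, hR⟩ := K.cen he P032.sq_compact hη4
  obtain ⟨n1, -, h1⟩ := K.ra_P R
  obtain ⟨n2, h2⟩ := K.covered he (half_pos hη)
  refine ⟨R, max n1 n2, fun n hn γ hγ z hz z1 z2 u hu hzu => ?_⟩
  obtain ⟨hsq, -, hcon, ⟨a, ha, ha0⟩, -⟩ := hγ
  by_contra hne
  push Not at hne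
  let F := K.fat (K.fam e n) (e '' γ)
  let W : Set (ℝ × ℝ) := ⋃ b ∈ {b | b ∈ F ∧ K.AChain F u b}, e ⁻¹' K.U b
  have hW : IsOpen W := isOpen_biUnion fun b _ => (K.cov.U_open b).preimage he.continuous
  have hd : W ⊆ ball z (η / 4) := fun w hw => by
    obtain ⟨b, hb, hwb⟩ := mem_iUnion₂.1 hw
    have hl : n1 ≤ K.len b := by
      rw [(BD.mem_lev _).1 (K.fam_subset n (Finset.mem_filter.1 hb.1).1)]
      exact (le_max_left _ _).trans hn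
    obtain ⟨w', e1, hw'⟩ := hR z (hsq hz) (e w) ⟨b, hne b hb.1 hb.2, h1 b hl _ hwb⟩
    rw [he.injective e1]
    exact mem_ball'.2 hw'
  have hsub : γ ⊆ W := by
    refine hcon.subset_of_closure_inter_subset hW
      ⟨z, hz, mem_iUnion₂.2 ⟨u, ⟨hu, Relation.ReflTransGen.refl⟩, hzu⟩⟩ fun w hw => ?_
    have a1 : dist z w < η / 2 := by
      have := closure_ball_subset_closedBall (closure_mono hd hw.1)
      rw [mem_closedBall'] at this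
      linarith
    obtain ⟨-, b3, b4⟩ := ra_dist a1
    obtain ⟨⟨c1, c2⟩, -⟩ := hsq hw.2
    obtain ⟨v, hv, hwv⟩ := (h2 n ((le_max_right _ _).trans hn) w
      ⟨⟨by linarith, by linarith⟩, by linarith, by linarith⟩).1
    have hvF : v ∈ F := Finset.mem_filter.2 ⟨hv, _, hwv, w, hw.2, rfl⟩
    obtain ⟨w', hw1, hw2⟩ := mem_closure_iff.1 hw.1 _
      ((K.cov.U_open v).preimage he.continuous) hwv
    obtain ⟨b, hb, hwb⟩ := mem_iUnion₂.1 hw2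
    exact mem_iUnion₂.2 ⟨v, ⟨hvF, hb.2.tail ⟨hb.1, hvF, _, hwb, hw1⟩⟩, hwv⟩
  obtain ⟨-, b3, b4⟩ := ra_dist (mem_ball'.1 (hd (hsub ha)))
  linarith

theorem ra_symm {c : Finset G} {a b : G} (h : K.AChain c a b) : K.AChain c b a := by
  induction h with
  | refl => exact Relation.ReflTransGen.refl
  | tail _ h ih => exact Relation.ReflTransGen.head ⟨h.2.1, h.1, K.adj_symm h.2.2⟩ ih

theorem lr_far (he : IsOpenEmbedding e) : ∃ (R : ℝ) (n1 : ℕ), ∀ n, n1 ≤ n → ∀ c,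
    IsLR (K.fam e n) K.adj (K.Lf e) (K.Rt e) c → ∀ u ∈ c, ∀ ξ : X,
      ∃ b ∈ c, K.AChain c u b ∧ K.P ξ b ≤ R := by
  obtain ⟨R, hR⟩ := K.cen he (C := Icc (-1) 2 ×ˢ Icc 0 1) (isCompact_Icc.prod isCompact_Icc)
    one_pos
  obtain ⟨n1, -, h1⟩ := K.ra_P (R + 2 * K.δ)
  refine ⟨R + 2 * K.δ, n1, fun n hn c hc u hu ξ => ?_⟩
  obtain ⟨hV, a, ha, ⟨z, z0, hz⟩, ⟨b, hb, z', z1, hz'⟩, hch⟩ := hc
  have hua : K.AChain c u a := K.ra_symm (hch u hu)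
  by_contra hne
  push Not at hne
  have a1 := hne a ha hua
  have a2 := hne b hb (hua.trans (hch b hb))
  have hl : ∀ v ∈ c, n1 ≤ K.len v := fun v hv => by
    rwa [(BD.mem_lev _).1 (K.fam_subset n (hV hv))]
  have a3 := K.P_H1 ξ a b
  have a4 := K.P_H2 (e z) a b
  have a5 := h1 a (hl a ha) _ hz
  have a6 := h1 b (hl b hb) _ hz'
  have a7 := le_min a1.le a2.le
  have hδ := K.δ_ge
  have a8 : R + K.δ ≤ min (K.P (e z) a) (K.gp a b) := le_min (by linarith) (by linarith)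
  obtain ⟨y, hy, e1⟩ := (Finset.mem_filter.1 (hV ha)).2 hz
  obtain rfl := he.injective e1
  obtain ⟨w, e2, hw⟩ := hR y ⟨Ioo_subset_Icc_self hy.1, Ioo_subset_Icc_self hy.2⟩ (e z')
    ⟨b, by linarith, by linarith⟩
  obtain rfl := he.injective e2
  obtain ⟨⟨b1, -⟩, -⟩ := ra_dist hw
  linarith

end Ctx

end Vale.Agent.P198
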