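import Vale.Agent.P198.Basic
import Vale.Agent.P198.Ext
import Vale.Agent.P198.Top
import Vale.Agent.P198.RectA

/-! Shadows in a chart rectangle. -/

namespace Vale.Agent.P198

open Set Filter Topology Metric MeasureTheory
open scoped Classical

variable {G : Type*} [Group G] {X : Type} [MetricSpace X] [MulAction G X]

namespace Ctx
variable (K : Ctx G X) {e : ℝ × ℝ → X}

theorem path_block (he : IsOpenEmbedding e) (n : ℕ) {γ : Set (ℝ × ℝ)} (hγ : γ ⊆ sq)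
    (hc : IsPreconnected γ) (h0 : ∃ a ∈ γ, a.2 = 0) (h1 : ∃ b ∈ γ, b.2 = 1) :
    Blocking (K.fam e n) K.adj (K.Lf e) (K.Rt e) (K.fat (K.fam e n) (e '' γ)) := by
  rintro c ⟨hcV, a, ha, ⟨za, hza, hza'⟩, ⟨b, hb, zb, hzb, hzb'⟩, hr⟩
  have hmem : ∀ i, Relation.ReflTransGen (fun x y => x ∈ c ∧ y ∈ c ∧ K.adj x y) a i → i ∈ c := by
    intro i hi
    rcases hi with _ | ⟨_, hi⟩
    · exact ha
    · exact hi.2.1
  have hsub : (⋃ i ∈ {i | Relation.ReflTransGen (fun x y => x ∈ c ∧ y ∈ c ∧ K.adj x y) a i},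
      K.U i) ⊆ e '' strip := iUnion₂_subset fun i hi => (Finset.mem_filter.1 (hcV (hmem i hi))).2
  obtain ⟨z, hz, hz'⟩ := cross hγ hc h0 h1
    ((isOpen_biUnion fun i _ => K.cov.U_open i).preimage he.continuous)
    (pre_conn he (union_conn (U := K.U) K.cov.U_conn
      (r := fun x y => x ∈ c ∧ y ∈ c ∧ K.adj x y) (fun _ _ h => h.2.2) a)
      (hsub.trans (image_subset_range _ _)))
    (fun z hz => (he.injective.mem_set_image).1 (hsub hz))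
    ⟨za, mem_iUnion₂.2 ⟨a, Relation.ReflTransGen.refl, hza'⟩, hza⟩
    ⟨zb, mem_iUnion₂.2 ⟨b, hr b hb, hzb'⟩, hzb⟩
  obtain ⟨i, hi, hi'⟩ := mem_iUnion₂.1 hz'
  exact ⟨i, hmem i hi, Finset.mem_filter.2 ⟨hcV (hmem i hi), _, hi', mem_image_of_mem _ hz⟩⟩

theorem block_cross (he : IsOpenEmbedding e) (n : ℕ) {S : Finset G}
    (hS : Blocking (K.fam e n) K.adj (K.Lf e) (K.Rt e) S) :
    ∃ γ, Cross γ ∧ K.fat (K.fam e n) (e '' γ) ⊆ S := by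
  obtain ⟨F, hF⟩ : ∃ F : Finset G, ∀ u, u ∈ F ↔ u ∈ K.fam e n ∧ u ∉ S :=
    ⟨K.fam e n \ S, fun u => Finset.mem_sdiff⟩
  obtain ⟨r, hr⟩ : ∃ r : G → G → Prop, ∀ x y, r x y ↔ x ∈ F ∧ y ∈ F ∧ K.adj x y :=
    ⟨_, fun _ _ => Iff.rfl⟩
  obtain ⟨Re, hRe⟩ : ∃ Re : Set G, ∀ u, u ∈ Re ↔
      u ∈ F ∧ ∃ a ∈ F, K.Lf e a ∧ Relation.ReflTransGen r a u := ⟨{u | _}, fun _ => Iff.rfl⟩
  have hno : ∀ b ∈ Re, ¬ K.Rt e b := fun b hb hb' => by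
    obtain ⟨hbF, a, haF, haL, hab⟩ := (hRe b).1 hb
    obtain ⟨c, hc⟩ : ∃ c : Finset G, ∀ u, u ∈ c ↔ u ∈ F ∧ Relation.ReflTransGen r a u :=
      ⟨F.filter _, fun u => Finset.mem_filter⟩
    obtain ⟨u, hu, hu'⟩ := hS c ⟨fun u hu => ((hF u).1 ((hc u).1 hu).1).1, a,
      (hc a).2 ⟨haF, Relation.ReflTransGen.refl⟩, haL, ⟨b, (hc b).2 ⟨hbF, hab⟩, hb'⟩,
      fun u hu => by
        have h1 := ((hc u).1 hu).2
        clear hu
        induction h1 with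
        | refl => exact Relation.ReflTransGen.refl
        | tail h2 h3 ih =>
          obtain ⟨h4, h5, h6⟩ := (hr _ _).1 h3
          exact ih.tail ⟨(hc _).2 ⟨h4, h2⟩, (hc _).2 ⟨h5, h2.tail h3⟩, h6⟩⟩
    exact ((hF u).1 ((hc u).1 hu).1).2 hu'
  obtain ⟨γ, hγ, h⟩ := sep_cross (O1 := {z | z.1 < 0} ∪ e ⁻¹' ⋃ u ∈ Re, K.U u)
    (O2 := {z | 1 < z.1} ∪ e ⁻¹' ⋃ u ∈ {u | u ∈ F ∧ u ∉ Re}, K.U u)
    ((isOpen_lt continuous_fst continuous_const).union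
      ((isOpen_biUnion fun i _ => K.cov.U_open i).preimage he.continuous))
    ((isOpen_lt continuous_const continuous_fst).union
      ((isOpen_biUnion fun i _ => K.cov.U_open i).preimage he.continuous))
    (by
      rw [disjoint_left]
      rintro z (h1 | h1) (h2 | h2)
      · exact lt_asymm (lt_trans (show z.1 < 0 from h1) one_pos) (show 1 < z.1 from h2)
      · obtain ⟨v, hv, hv'⟩ := mem_iUnion₂.1 h2
        exact hv.2 ((hRe v).2 ⟨hv.1, v, hv.1, ⟨z, h1, hv'⟩, Relation.ReflTransGen.refl⟩)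
      · obtain ⟨u, hu, hu'⟩ := mem_iUnion₂.1 h1
        exact hno u hu ⟨z, h2, hu'⟩
      · obtain ⟨u, hu, hu'⟩ := mem_iUnion₂.1 h1
        obtain ⟨v, hv, hv'⟩ := mem_iUnion₂.1 h2
        obtain ⟨huF, a, haF, haL, hau⟩ := (hRe u).1 hu
        exact hv.2 ((hRe v).2 ⟨hv.1, a, haF, haL, hau.tail ((hr _ _).2 ⟨huF, hv.1, _, hu', hv'⟩)⟩))
    (fun z _ hz => Or.inl hz) (fun z _ hz => Or.inl hz)
  refine ⟨γ, hγ, fun u hu => by_contra fun huS => ?_⟩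
  obtain ⟨h1, _, h2, z, hz, rfl⟩ := Finset.mem_filter.1 hu
  by_cases h3 : u ∈ Re
  · exact (h z hz).1 (Or.inr (mem_iUnion₂.2 ⟨u, h3, h2⟩))
  · exact (h z hz).2 (Or.inr (mem_iUnion₂.2 ⟨u, ⟨(hF u).2 ⟨h1, huS⟩, h3⟩, h2⟩))

theorem good_cross (he : IsOpenEmbedding e) {n : ℕ} (E : K.Sol e n) {t : ℝ} (ht : E.Good t) :
    ∃ γ, Cross γ ∧ K.fat (K.fam e n) (e '' γ) = E.lv t := by
  obtain ⟨γ, hγ, h⟩ := K.block_cross he n (E.lv_block ht.1)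
  exact ⟨γ, hγ, E.good_min ht h (K.path_block he n hγ.1 hγ.2.2.1 hγ.2.2.2.1 hγ.2.2.2.2)⟩

theorem ivt {n : ℕ} (E : K.Sol e n) {Γ : Set X} (hΓ : IsPreconnected Γ)
    (hc : ∀ ξ ∈ Γ, ∃ u ∈ K.fam e n, ξ ∈ K.U u) {u v : G} (hu : u ∈ K.fat (K.fam e n) Γ)
    (hv : v ∈ K.fat (K.fam e n) Γ) {s : ℝ} (h1 : E.pot u < s) (h2 : s ≤ E.pot v + E.σ v) :
    ∃ x ∈ K.fat (K.fam e n) Γ, x ∈ E.lv s := by
  by_contra hcon
  have h3 : ∀ x ∈ K.fat (K.fam e n) Γ, E.pot x < s → E.pot x + E.σ x < s := fun x hx h =>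
    not_le.1 fun h' => hcon ⟨x, hx, Finset.mem_filter.2 ⟨(Finset.mem_filter.1 hx).1, h, h'⟩⟩
  have h4 := cover_chain hΓ (U := K.U) K.cov.U_open hc (Finset.mem_filter.1 hu).1
    (Finset.mem_filter.1 hu).2 (Finset.mem_filter.1 hv).1 (Finset.mem_filter.1 hv).2
  refine not_lt.2 h2 ?_
  clear hv h2
  induction h4 with
  | refl => exact h3 u hu h1
  | tail _ h5 ih =>
    exact h3 _ h5.2.1 ((E.pot_adj _ (Finset.mem_filter.1 h5.1).1 _ (Finset.mem_filter.1 h5.2.1).1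
      h5.2.2).trans_lt ih)

theorem pot_close {n : ℕ} (E : K.Sol e n) {Γ : Set X} (hΓ : IsPreconnected Γ)
    (hc : ∀ ξ ∈ Γ, ∃ u ∈ K.fam e n, ξ ∈ K.U u) {u v : G} (hu : u ∈ K.fat (K.fam e n) Γ)
    (hv : v ∈ K.fat (K.fam e n) Γ) :
    E.pot v + E.σ v - E.pot u ≤ ∑ x ∈ K.fat (K.fam e n) Γ, E.σ x := by
  have h1 : Ioc (E.pot u) (E.pot v + E.σ v) ⊆
      ⋃ x ∈ K.fat (K.fam e n) Γ, Ioc (E.pot x) (E.pot x + E.σ x) := fun s hs => by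
    obtain ⟨x, hx, hx'⟩ := K.ivt E hΓ hc hu hv hs.1 hs.2
    exact mem_iUnion₂.2 ⟨x, hx, (Finset.mem_filter.1 hx').2⟩
  have h2 := (measure_mono (μ := (volume : Measure ℝ)) h1).trans (measure_biUnion_finset_le _ _)
  simp only [Real.volume_Ioc, add_sub_cancel_left] at h2
  rwa [← ENNReal.ofReal_sum_of_nonneg fun x _ => E.σ_nonneg x, ENNReal.ofReal_le_ofReal_iff
    (Finset.sum_nonneg fun x _ => E.σ_nonneg x)] at h2

end Ctx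

end Vale.Agent.P198
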