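import Mathlib

/-! Statement-level definitions for Cannon's conjecture. -/

namespace Vale.Agent.P198

variable {G : Type*} [Group G]

/-- word length with respect to `S` and its inverses -/
noncomputable def wlen (S : Finset G) (g : G) : ℕ :=
  sInf {n | ∃ l : List G, (∀ x ∈ l, x ∈ S ∨ x⁻¹ ∈ S) ∧ l.length = n ∧ l.prod = g}

/-- word metric (distance in the Cayley graph) -/
noncomputable def wdist (S : Finset G) (a b : G) : ℕ := wlen S (a⁻¹ * b)

/-- `c 0, ..., c n` is a geodesic segment of the Cayley graph -/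
def IsGeod (S : Finset G) (c : ℕ → G) (n : ℕ) : Prop :=
  ∀ i j, i ≤ j → j ≤ n → wdist S (c i) (c j) = j - i

/-- geodesic triangles are slim -/
def IsHyperbolic (S : Finset G) : Prop :=
  ∃ δ : ℕ, ∀ (a b c : ℕ → G) (l m n : ℕ), IsGeod S a l → IsGeod S b m → IsGeod S c n →
    a l = b 0 → b m = c 0 → c n = a 0 → ∀ i ≤ l,
      (∃ j ≤ m, wdist S (a i) (b j) ≤ δ) ∨ ∃ k ≤ n, wdist S (a i) (c k) ≤ δ

/-- geodesic rays from the identity -/
def Ray (S : Finset G) : Type _ :=
  {r : ℕ → G // r 0 = 1 ∧ ∀ i j, i ≤ j → wdist S (r i) (r j) = j - i}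

/-- pointwise convergence of rays, `G` discrete -/
instance (S : Finset G) : TopologicalSpace (Ray S) :=
  TopologicalSpace.induced Subtype.val (@Pi.topologicalSpace ℕ (fun _ => G) fun _ => ⊥)

/-- bounded Hausdorff distance -/
def Asym (S : Finset G) (r s : Ray S) : Prop :=
  ∃ K : ℕ, (∀ i, ∃ j, wdist S (r.1 i) (s.1 j) ≤ K) ∧ ∀ j, ∃ i, wdist S (r.1 i) (s.1 j) ≤ K

/-- the Gromov boundary -/
def Boundary (S : Finset G) : Type _ := Quot (Asym S)

/-- the quotient topology -/
instance (S : Finset G) : TopologicalSpace (Boundary S) :=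
  TopologicalSpace.coinduced (Quot.mk (Asym S)) inferInstance

/-- upper half space -/
def H3 : Type := {p : ℂ × ℝ // 0 < p.2}

noncomputable instance : TopologicalSpace H3 :=
  TopologicalSpace.induced Subtype.val inferInstance

/-- hyperbolic distance in the upper half space model -/
noncomputable def hdist (p q : H3) : ℝ :=
  Real.arcosh (1 + (‖p.1.1 - q.1.1‖ ^ 2 + (p.1.2 - q.1.2) ^ 2) / (2 * p.1.2 * q.1.2))

/-- a proper cocompact isometric action on hyperbolic 3-space with finite kernel -/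
def Geometric (ρ : G →* Equiv.Perm H3) : Prop :=
  (∀ g p q, hdist (ρ g p) (ρ g q) = hdist p q) ∧
  (∀ K : Set H3, IsCompact K → {g : G | ((ρ g '' K) ∩ K).Nonempty}.Finite) ∧
  (∃ K : Set H3, IsCompact K ∧ ⋃ g : G, ρ g '' K = Set.univ) ∧
  (ρ.ker : Set G).Finite

end Vale.Agent.P198
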