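import Vale.Agent.P198.Rect

/-! Tournaments and the exceptional levels. -/

namespace Vale.Agent.P198

open Set Filter Topology Metric MeasureTheory
open scoped Classical

theorem tour_card {ι : Type*} (s : Finset ι) (r : ι → ℕ) (E : ι → ι → Prop)
    (hE : ∀ a ∈ s, ∀ b ∈ s, a ≠ b → E a b ∨ E b a)
    (hr : ∀ a ∈ s, (s.filter fun b => b ≠ a ∧ E a b).card ≤ r a) (k : ℕ) :
    (s.filter fun a => r a ≤ k).card ≤ 2 * k + 1 := by
  set A := s.filter fun a => r a ≤ k with hA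
  have hs : A ⊆ s := Finset.filter_subset _ _
  set f : ι → ι → ℕ := fun a b => if b ≠ a ∧ E a b then 1 else 0 with hf
  have h1 : ∀ a ∈ A, A.card ≤ 1 + ∑ b ∈ A, (f a b + f b a) := by
    intro a ha
    rw [← Finset.card_erase_add_one ha, add_comm, Finset.card_eq_sum_ones]
    refine Nat.add_le_add_left (le_trans (Finset.sum_le_sum fun b hb => ?_)
      (Finset.sum_le_sum_of_subset (Finset.erase_subset a A))) _
    have hb1 := Finset.ne_of_mem_erase hb
    rcases hE a (hs ha) b (hs (Finset.mem_of_mem_erase hb)) hb1.symm with h | h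
    · simp [hf, hb1, h]
    · simp [hf, hb1.symm, h]
  have h2 : ∑ a ∈ A, ∑ b ∈ A, f a b ≤ A.card * k := by
    refine Finset.sum_le_card_nsmul _ _ _ fun a ha => ?_
    rw [hf, ← Finset.card_filter]
    exact (Finset.card_le_card (Finset.filter_subset_filter _ hs)).trans
      ((hr a (hs ha)).trans (Finset.mem_filter.1 ha).2)
  have h3 := Finset.sum_le_sum h1
  simp only [Finset.sum_add_distrib, Finset.sum_const, smul_eq_mul, mul_one] at h3
  rw [Finset.sum_comm (f := fun a b => f b a)] at h3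
  rcases Nat.eq_zero_or_pos A.card with h | h
  · omega
  · refine Nat.le_of_mul_le_mul_left ?_ h
    nlinarith

theorem tour {ι : Type*} (s : Finset ι) (r : ι → ℕ) (E : ι → ι → Prop)
    (hE : ∀ a ∈ s, ∀ b ∈ s, a ≠ b → E a b ∨ E b a)
    (hr : ∀ a ∈ s, (s.filter fun b => b ≠ a ∧ E a b).card ≤ r a) (N : ℕ)
    (hN : ∀ a ∈ s, r a ≤ 2 ^ N) : ∑ a ∈ s, 1 / ((max (r a) 1 : ℕ) : ℝ) ≤ 8 * (N + 1) := by
  have hc := tour_card s r E hE hr
  have key : ∀ n : ℕ, ∑ a ∈ s.filter (fun a => r a ≤ 2 ^ n), 1 / ((max (r a) 1 : ℕ) : ℝ) ≤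
      8 * (n + 1) := by
    intro n
    induction n with
    | zero =>
      refine (Finset.sum_le_card_nsmul _ _ 1 fun a _ => ?_).trans ?_
      · exact div_le_one_of_le₀ (by exact_mod_cast le_max_right _ _) (by positivity)
      · have : ((s.filter fun a => r a ≤ 2 ^ 0).card : ℝ) ≤ 3 := by exact_mod_cast hc _
        simp only [nsmul_eq_mul]
        norm_num at this ⊢
        linarith
    | succ n ih =>
      rw [← Finset.sum_filter_add_sum_filter_not _ (fun a => r a ≤ 2 ^ n)]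
      have h1 : (s.filter fun a => r a ≤ 2 ^ (n + 1)).filter (fun a => r a ≤ 2 ^ n) =
          s.filter fun a => r a ≤ 2 ^ n := by
        rw [Finset.filter_filter]
        refine Finset.filter_congr fun a _ => ⟨fun h => h.2, fun h => ⟨?_, h⟩⟩
        rw [pow_succ]
        omega
      have hp : (1 : ℝ) ≤ 2 ^ n := one_le_pow₀ one_le_two
      have h2 : ∑ a ∈ (s.filter fun a => r a ≤ 2 ^ (n + 1)).filter (fun a => ¬ r a ≤ 2 ^ n),
          1 / ((max (r a) 1 : ℕ) : ℝ) ≤ 8 := by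
        refine (Finset.sum_le_card_nsmul _ _ (1 / 2 ^ n) fun a ha => ?_).trans ?_
        · refine one_div_le_one_div_of_le (by positivity) ?_
          exact_mod_cast (not_le.1 (Finset.mem_filter.1 ha).2).le.trans (le_max_left _ _)
        · have : (((s.filter fun a => r a ≤ 2 ^ (n + 1)).filter
              (fun a => ¬ r a ≤ 2 ^ n)).card : ℝ) ≤ 2 * 2 ^ (n + 1) + 1 := by
            exact_mod_cast (Finset.card_filter_le _ _).trans (hc _)
          rw [nsmul_eq_mul, mul_one_div, div_le_iff₀ (by positivity)]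
          rw [pow_succ (2 : ℝ)] at this
          linarith
      rw [h1]
      push_cast at ih h2 ⊢
      linarith
  have := key N
  rwa [Finset.filter_true_of_mem hN] at this

variable {G : Type*} [Group G] {X : Type} [MetricSpace X] [MulAction G X]

namespace Ctx
variable (K : Ctx G X) {e : ℝ × ℝ → X}

/-- levels close to the ends of the range of the potential on a coarse shadow -/
def Edge {n : ℕ} (E : K.Sol e n) (J : ℕ) (κ : ℝ) : Set ℝ :=
  {t | ∃ y ∈ K.lev J, ∃ h : (K.fat (K.fam e n) (K.U y)).Nonempty,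
    t ∈ Icc ((K.fat (K.fam e n) (K.U y)).inf' h E.pot - κ) ((K.fat (K.fam e n) (K.U y)).inf' h E.pot) ∨
    t ∈ Icc ((K.fat (K.fam e n) (K.U y)).sup' h fun u => E.pot u + E.σ u)
      (((K.fat (K.fam e n) (K.U y)).sup' h fun u => E.pot u + E.σ u) + κ)}

/-- levels whose translates are heavy -/
def Heavy {n : ℕ} (E : K.Sol e n) (j l : ℕ) (κ : ℝ) : Set ℝ :=
  {t | t ∈ Ioc (0 : ℝ) 1 ∧ ∃ g ∈ K.ball (2 * j),
    κ ≤ ∑ u ∈ (K.fam e n).filter (fun u => ∃ v ∈ E.lv t, K.d u (g * v) ≤ l), E.σ u}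

theorem vol_edge {n : ℕ} (E : K.Sol e n) (J : ℕ) {κ : ℝ} (hκ : 0 ≤ κ) :
    volume (K.Edge E J κ) ≤ ENNReal.ofReal (2 * κ * K.D ^ J) := by
  have h1 : ∀ (p : Prop) (a b : p → ℝ), volume {t : ℝ | ∃ h : p, t ∈ Icc (a h - κ) (a h) ∨
      t ∈ Icc (b h) (b h + κ)} ≤ ENNReal.ofReal (2 * κ) := by
    intro p a b
    by_cases h : p
    · refine (measure_mono (t := Icc (a h - κ) (a h) ∪ Icc (b h) (b h + κ))
        fun t ht => ht.elim fun _ => id).trans ((measure_union_le _ _).trans ?_)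
      rw [Real.volume_Icc, Real.volume_Icc, sub_sub_cancel, add_sub_cancel_left, two_mul,
        ENNReal.ofReal_add hκ hκ]
    · simp [h]
  refine le_trans (measure_mono fun t ⟨y, hy, ht⟩ => mem_iUnion₂.2 ⟨y, hy, ht⟩)
    ((measure_biUnion_finset_le _ _).trans ((Finset.sum_le_card_nsmul _ _ _
      fun y _ => h1 _ _ _).trans ?_))
  rw [nsmul_eq_mul, ← ENNReal.ofReal_natCast, ← ENNReal.ofReal_mul (by positivity), mul_comm]
  refine ENNReal.ofReal_le_ofReal (mul_le_mul_of_nonneg_left ?_ (by positivity))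
  exact_mod_cast K.card_lev J

theorem heavy_pair {n : ℕ} (E : K.Sol e n) (g : G) (l : ℕ) :
    ∑ v ∈ K.fam e n, (∑ u ∈ K.fam e n, if K.d u (g * v) ≤ l then E.σ u else 0) * E.σ v ≤
      K.D ^ l * E.M := by
  have h1 : ∀ (P : G → G → Prop), (∀ v, ((K.fam e n).filter (P v)).card ≤ K.D ^ l) →
      ∑ v ∈ K.fam e n, ∑ u ∈ K.fam e n, (if P v u then E.σ v ^ 2 else 0) ≤ K.D ^ l * E.M := by
    intro P hP
    rw [← E.sum_sq, Finset.mul_sum]
    refine Finset.sum_le_sum fun v _ => ?_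
    rw [← Finset.sum_filter, Finset.sum_const, nsmul_eq_mul]
    exact mul_le_mul_of_nonneg_right (by exact_mod_cast hP v) (sq_nonneg _)
  have h2 := h1 (fun v u => K.d u (g * v) ≤ l) fun v => K.card_near (g * v) l _ fun x hx => by
    rw [K.d_comm]
    exact (Finset.mem_filter.1 hx).2
  have h3 := h1 (fun u v => K.d u (g * v) ≤ l) fun u => K.card_near (g⁻¹ * u) l _ fun x hx => by
    rw [← K.d_mul g, mul_inv_cancel_left]
    exact (Finset.mem_filter.1 hx).2
  rw [Finset.sum_comm] at h3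
  have h4 : ∑ v ∈ K.fam e n, (∑ u ∈ K.fam e n, if K.d u (g * v) ≤ l then E.σ u else 0) * E.σ v ≤
      ∑ v ∈ K.fam e n, ((∑ u ∈ K.fam e n, if K.d u (g * v) ≤ l then E.σ v ^ 2 else 0) +
        ∑ u ∈ K.fam e n, if K.d u (g * v) ≤ l then E.σ u ^ 2 else 0) / 2 := by
    refine Finset.sum_le_sum fun v _ => ?_
    rw [Finset.sum_mul, ← Finset.sum_add_distrib, Finset.sum_div]
    refine Finset.sum_le_sum fun u _ => ?_
    split_ifs
    · nlinarith [sq_nonneg (E.σ u - E.σ v)]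
    · simp
  rw [← Finset.sum_div, Finset.sum_add_distrib] at h4
  linarith

theorem vol_heavy {n : ℕ} (E : K.Sol e n) (j l : ℕ) {κ : ℝ} (hκ : 0 < κ) :
    volume (K.Heavy E j l κ) ≤ ENNReal.ofReal (K.D ^ (2 * j) * K.D ^ l * E.M / κ) := by
  have hw : ∀ g v u, 0 ≤ if K.d u (g * v) ≤ l then E.σ u else 0 := fun g v u => by
    split_ifs
    · exact E.σ_nonneg u
    · exact le_rfl
  have h1 : ∀ g : G, volume {t : ℝ | t ∈ Ioc (0 : ℝ) 1 ∧
      κ ≤ ∑ u ∈ (K.fam e n).filter (fun u => ∃ v ∈ E.lv t, K.d u (g * v) ≤ l), E.σ u} ≤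
      ENNReal.ofReal (K.D ^ l * E.M / κ) := by
    intro g
    refine (E.markov (w := fun v => ∑ u ∈ K.fam e n, if K.d u (g * v) ≤ l then E.σ u else 0)
      (fun v => Finset.sum_nonneg fun u _ => hw g v u) hκ fun t ht => ⟨ht.1, ht.2.trans ?_⟩).trans
      (ENNReal.ofReal_le_ofReal (div_le_div_of_nonneg_right (K.heavy_pair E g l) hκ.le))
    rw [Finset.sum_comm, Finset.sum_filter]
    refine Finset.sum_le_sum fun u _ => ?_
    split_ifs with h
    · obtain ⟨v, hv, hv'⟩ := h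
      refine le_trans ?_ (Finset.single_le_sum (fun v _ => hw g v u) hv)
      rw [if_pos hv']
    · exact Finset.sum_nonneg fun v _ => hw g v u
  have hM := E.M_pos
  have h2 : K.Heavy E j l κ ⊆ ⋃ g ∈ K.ball (2 * j), {t : ℝ | t ∈ Ioc (0 : ℝ) 1 ∧
      κ ≤ ∑ u ∈ (K.fam e n).filter (fun u => ∃ v ∈ E.lv t, K.d u (g * v) ≤ l), E.σ u} :=
    fun t ⟨ht, g, hg, ht'⟩ => mem_iUnion₂.2 ⟨g, hg, ht, ht'⟩
  refine le_trans (measure_mono h2)
    ((measure_biUnion_finset_le _ _).trans ((Finset.sum_le_card_nsmul _ _ _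
      fun g _ => h1 g).trans ?_))
  rw [nsmul_eq_mul, ← ENNReal.ofReal_natCast, ← ENNReal.ofReal_mul (by positivity), mul_assoc,
    mul_div_assoc (_ ^ (2 * j))]
  refine ENNReal.ofReal_le_ofReal (mul_le_mul_of_nonneg_right ?_ (by positivity))
  exact_mod_cast K.card_ball (2 * j)

end Ctx

end Vale.Agent.P198
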