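import Vale.Agent.P198.Rect
import Vale.Agent.P198.WCA

/-! Weak consistency of level continua through a common microscopic vertex. -/

namespace Vale.Agent.P198

open Set Filter Topology Metric MeasureTheory
open scoped Classical

variable {G : Type*} [Group G] {X : Type} [MetricSpace X] [MulAction G X]

namespace Ctx
variable (K : Ctx G X) {e : ℝ × ℝ → X}

theorem wc_len {n : ℕ} {u : G} (hu : u ∈ K.fam e n) : K.len u = n :=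
  K.mem_lev.1 (K.fam_subset n hu)

theorem wc_out {n : ℕ} (hn : K.cov.n0 ≤ n) {u : G} (hu : K.len u = n) {a : X} (ha : a ∈ K.U u) :
    (n : ℝ) - K.cov.A' ≤ K.P a u := by
  have := K.cov.U_out u a (hu ▸ hn) ha
  rwa [hu] at this

theorem wc_near {n : ℕ} (hn : K.cov.n0 ≤ n) {u : G} (hu : K.len u = n) {a b : X} (ha : a ∈ K.U u)
    (hb : b ∈ K.U u) : K.Near ((n : ℝ) - K.cov.A') a b :=
  ⟨u, K.wc_out hn hu ha, K.wc_out hn hu hb⟩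

theorem wc_mem_fat {V : Finset G} {Γ : Set X} {u : G} :
    u ∈ K.fat V Γ ↔ u ∈ V ∧ (K.U u ∩ Γ).Nonempty := Finset.mem_filter

theorem wc_reach {c : Finset G} {a b : G} (ha : a ∈ c) (h : K.AChain c a b) : b ∈ c := by
  induction h with
  | refl => exact ha
  | tail _ h _ => exact h.2.1

theorem wc_zone {z w : ℝ × ℝ} (hz : z ∈ sq) (h1 : 7 / 16 ≤ z.2) (h2 : z.2 ≤ 9 / 16)
    (h : dist z w < 1 / 16) : w ∈ zone (1 / 4) := by
  rw [Prod.dist_eq, max_lt_iff, Real.dist_eq, Real.dist_eq, abs_lt, abs_lt] at h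
  obtain ⟨⟨a, b⟩, c, d⟩ := h
  obtain ⟨⟨h3, h4⟩, -⟩ := hz
  refine ⟨⟨?_, ?_⟩, ?_, ?_⟩ <;> linarith

/-- the base point of the continuum is close to the middle point -/
theorem wc_base (he : IsOpenEmbedding e) {Rc : ℝ}
    (hc : ∀ z ∈ sq, ∀ ξ, K.Near Rc (e z) ξ → ∃ w, ξ = e w ∧ dist z w < 1 / 16) {n j : ℕ}
    (hn : K.cov.n0 ≤ n) (hnj : (j : ℝ) + K.cov.A' ≤ n) (hj : Rc + 2 * K.δ + K.a3 + K.δ ≤ j)
    {z z0 : ℝ × ℝ} (hz : z ∈ sq) (hz2 : z.2 = 1 / 2) {ξ : X} (hξ : K.Near (Rc + 2 * K.δ) (e z) ξ)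
    {u : G} (hu : K.len u = n) (h0 : e z0 ∈ K.U u) (hg : (j : ℝ) - K.a3 ≤ K.gp u (K.ray ξ j)) :
    7 / 16 ≤ z0.2 ∧ z0.2 ≤ 9 / 16 := by
  have h1 := K.wc_out hn hu h0
  have h2 := K.P_H2 (e z0) u (K.ray ξ j)
  have ha3 : (0 : ℝ) ≤ K.a3 := Nat.cast_nonneg _
  have hδ := K.δ_ge
  have h3 : (j : ℝ) - K.a3 ≤ min (K.P (e z0) u) (K.gp u (K.ray ξ j)) := le_min (by linarith) hg
  have h4 : K.Near ((j : ℝ) - K.a3 - K.δ) ξ (e z0) :=
    ⟨K.ray ξ j, by rw [K.P_ray]; linarith, by linarith⟩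
  have h5 := (hξ.trans h4).mono (R' := Rc) (by
    have : Rc + 2 * K.δ ≤ min (Rc + 2 * K.δ) ((j : ℝ) - K.a3 - K.δ) := le_min le_rfl (by linarith)
    linarith)
  obtain ⟨w, hw, hd⟩ := hc z hz _ h5
  obtain rfl := he.injective hw
  rw [Prod.dist_eq, max_lt_iff, Real.dist_eq, Real.dist_eq, abs_lt, abs_lt] at hd
  constructor <;> linarith [hd.2.1, hd.2.2]

/-- a translated shadow meets the shadow of the translate -/
theorem wc_meet {n : ℕ} (hn : K.cov.n0 ≤ n) {g u' : G} (hu' : K.len u' = n)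
    (hu : K.len (g * u') = n) (hg : (K.len g : ℝ) / 2 + K.δ + K.Cv < n) :
    ∃ a ∈ K.U u', g • a ∈ K.U (g * u') := by
  obtain ⟨ξ, hξ⟩ := K.vis (g * u')
  have hδ := K.δ_ge
  rw [hu] at hξ
  refine ⟨g⁻¹ • ξ, ?_, ?_⟩
  · have h1 := K.P_tr g ξ (g * u')
    have h2 := K.len_tr g (g * u')
    rw [inv_mul_cancel_left] at h1 h2
    rw [hu, hu', K.gp_comm] at h2
    have h3 := K.P_H1 ξ g (g * u')
    have h4 : K.P ξ g ≤ K.len g / 2 + K.δ := by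
      rcases min_choice (K.P ξ g) (K.P ξ (g * u')) with h | h <;> rw [h] at h3 <;> linarith
    rw [abs_le] at h1
    refine K.cov.U_in u' _ (hu' ▸ hn) ?_
    rw [hu']
    linarith [h1.1]
  · rw [smul_inv_smul]
    refine K.cov.U_in _ _ (hu ▸ hn) ?_
    rw [hu]
    linarith

theorem wc_d {n : ℕ} (hn : K.cov.n0 ≤ n) {g v x : G} {j : ℕ} (hg : K.len g ≤ 2 * j)
    (hv : K.len v = n) (hx : K.len x = n) {a : X} (ha : a ∈ K.U v) (hxa : g • a ∈ K.U x) :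
    K.d x (g * v) ≤ ((6 * j + 2 * K.cov.A' + 4 * K.δ : ℕ) : ℝ) := by
  have h1 := K.wc_out hn hx hxa
  have h2 := K.wc_out hn hv ha
  have h3 := K.P_smul g a v
  have h4 := K.P_H1 (g • a) x (g * v)
  have h5 : (K.len (g * v) : ℝ) ≤ K.len g + K.len v := by exact_mod_cast K.len_mul g v
  have h6 : (K.len g : ℝ) ≤ 2 * j := by exact_mod_cast hg
  have hδ := K.δ_ge
  have h7 : (n : ℝ) - K.cov.A' - 2 * j - K.δ ≤ min (K.P (g • a) x) (K.P (g • a) (g * v)) :=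
    le_min (by linarith [(Nat.cast_nonneg j : (0 : ℝ) ≤ j)]) (by linarith)
  rw [K.d_eq, hx]
  rw [hv] at h5
  push_cast
  linarith

/-- the final step: a level close to a coarse shadow but missing it is an edge level -/
theorem wc_edge {n J : ℕ} (E : K.Sol e n) {κ t : ℝ} {y u1 : G} (hy : y ∈ K.lev J)
    (hc : ∀ ξ ∈ K.U y, ∃ u ∈ K.fam e n, ξ ∈ K.U u) (hu1 : u1 ∈ K.fat (K.fam e n) (K.U y))
    (hmiss : ∀ x ∈ K.fat (K.fam e n) (K.U y), x ∉ E.lv t) (h1 : t ≤ E.pot u1 + κ)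
    (h2 : E.pot u1 + E.σ u1 ≤ t + κ) : t ∈ K.Edge E J κ := by
  refine ⟨y, hy, ⟨u1, hu1⟩, ?_⟩
  have hσ := E.σ_nonneg u1
  by_cases h : ∃ u ∈ K.fat (K.fam e n) (K.U y), E.pot u < t
  · obtain ⟨u, hu, hut⟩ := h
    right
    have hall : ∀ v ∈ K.fat (K.fam e n) (K.U y), E.pot v + E.σ v ≤ t := by
      intro v hv
      by_contra hvt
      obtain ⟨x, hx, hx'⟩ := K.ivt E (K.cov.U_conn y) hc hu hv hut (not_le.1 hvt).le
      exact hmiss x hx hx'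
    constructor
    · exact Finset.sup'_le _ _ hall
    · have := Finset.le_sup' (fun u => E.pot u + E.σ u) hu1
      linarith
  · left
    push Not at h
    constructor
    · have := Finset.inf'_le E.pot hu1
      linarith
    · exact Finset.le_inf' _ _ h

theorem wc (he : IsOpenEmbedding e) : ∃ (R2 B0 : ℝ) (j1 : ℕ), ∀ j, j1 ≤ j → ∃ J l n1 : ℕ,
    ∀ n, n1 ≤ n → ∀ (E : K.Sol e n) (κ t t' : ℝ) (γ γ' : Set (ℝ × ℝ)) (z z' : ℝ × ℝ) (ξ ξ' : X)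
      (u u' : G), E.Good t → E.Good t' → t ∉ K.Edge E J κ → t' ∉ K.Heavy E j l κ →
      Cross γ → Cross γ' → K.fat (K.fam e n) (e '' γ) = E.lv t →
      K.fat (K.fam e n) (e '' γ') = E.lv t' → z ∈ γ → z.2 = 1 / 2 → z' ∈ γ' → z'.2 = 1 / 2 →
      K.Near B0 (e z) ξ → K.Near B0 (e z') ξ' → u ∈ E.lv t → u' ∈ E.lv t' →
      (j : ℝ) - K.a3 ≤ K.gp u (K.ray ξ j) → (j : ℝ) - K.a3 ≤ K.gp u' (K.ray ξ' j) →
      (K.ray ξ j)⁻¹ * u = (K.ray ξ' j)⁻¹ * u' →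
      K.Mac R2 (e '' γ) (K.ray ξ j * (K.ray ξ' j)⁻¹) ∨
        K.Mac R2 (e '' γ') (K.ray ξ' j * (K.ray ξ j)⁻¹) := by
  obtain ⟨Rl, nl, hl⟩ := K.lc he (η := 1 / 4) (by norm_num)
  obtain ⟨Rc, hc⟩ := K.cen he (C := sq) (isCompact_Icc.prod isCompact_Icc) (ε := 1 / 16)
    (by norm_num)
  obtain ⟨nc, hcov⟩ := K.covered he (η := 1 / 4) (by norm_num)
  have hδ := K.δ_ge
  obtain ⟨R2, hR2c, hR2l⟩ : ∃ R2 : ℝ, Rc + 6 * K.δ ≤ R2 ∧ Rl + 6 * K.δ ≤ R2 :=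
    ⟨max Rc Rl + 6 * K.δ, by linarith [le_max_left Rc Rl], by linarith [le_max_right Rc Rl]⟩
  obtain ⟨j1, hj1⟩ := exists_nat_ge (Rc + 2 * K.δ + K.a3 + K.δ)
  refine ⟨R2, Rc + 2 * K.δ, j1, fun j hj => ?_⟩
  have hj' : Rc + 2 * K.δ + K.a3 + K.δ ≤ j := hj1.trans (by exact_mod_cast hj)
  obtain ⟨J0, hJ0⟩ := exists_nat_ge (R2 + K.δ + 2 * j + K.cov.A')
  obtain ⟨J, hJ, hJn⟩ : ∃ J : ℕ, R2 + K.δ + 2 * j + K.cov.A' ≤ J ∧ K.cov.n0 ≤ J :=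
    ⟨J0 + K.cov.n0, by push_cast; linarith [(Nat.cast_nonneg _ : (0 : ℝ) ≤ K.cov.n0)], by omega⟩
  refine ⟨J, 6 * j + 2 * K.cov.A' + 4 * K.δ,
    nl + nc + J + 2 * j + K.cov.A' + 2 * K.δ + K.Cv + 1, fun n hn => ?_⟩
  intro E κ t t' γ γ' z z' ξ ξ' u u' ht ht' hE hH hγ hγ' hf hf' hz hz2 hz' hz2' hξ hξ' hu hu'
    hg hg' heq
  have hj0 : (0 : ℝ) ≤ j := Nat.cast_nonneg _
  have hA0 : (0 : ℝ) ≤ K.cov.A' := Nat.cast_nonneg _
  have hC0 : (0 : ℝ) ≤ K.Cv := Nat.cast_nonneg _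
  have hJ0' : (0 : ℝ) ≤ J := Nat.cast_nonneg _
  have hn0 : K.cov.n0 ≤ n := by omega
  have hnJ : (J : ℝ) + 2 * j + K.cov.A' + 2 * K.δ + K.Cv + 1 ≤ n := by
    have : J + 2 * j + K.cov.A' + 2 * K.δ + K.Cv + 1 ≤ n := by omega
    exact_mod_cast this
  set g := K.ray ξ j * (K.ray ξ' j)⁻¹ with hgdef
  have hgi : K.ray ξ' j * (K.ray ξ j)⁻¹ = g⁻¹ := by rw [hgdef]; group
  have hug : u = g * u' := by
    rw [hgdef, mul_assoc, ← heq]; group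
  have hglen : K.len g ≤ 2 * j := by
    have := K.len_mul (K.ray ξ j) (K.ray ξ' j)⁻¹
    rw [K.len_inv, K.ray_len, K.ray_len, ← hgdef] at this
    omega
  have hglen' : (K.len g : ℝ) ≤ 2 * j := by exact_mod_cast hglen
  rw [hgi]
  by_contra hcon
  rw [not_or] at hcon
  obtain ⟨N1, N2⟩ := hcon
  simp only [BD.Mac, not_exists, not_and, not_not, inv_inv] at N1 N2
  have huf := hu
  have huf' := hu'
  rw [← hf] at huf
  rw [← hf'] at huf'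
  obtain ⟨hufam, _, h0U, z0, hz0, rfl⟩ := K.wc_mem_fat.1 huf
  obtain ⟨hufam', _, h0U', z0', hz0', rfl⟩ := K.wc_mem_fat.1 huf'
  have hul := K.wc_len hufam
  have hul' := K.wc_len hufam'
  obtain ⟨b1, b2⟩ := K.wc_base he hc hn0 (by linarith) hj' (hγ.1 hz) hz2 hξ hul h0U hg
  obtain ⟨b1', b2'⟩ := K.wc_base he hc hn0 (by linarith) hj' (hγ'.1 hz') hz2' hξ' hul' h0U' hg'
  obtain ⟨b, hb, hchain, hbP⟩ := hl n (by omega) γ' hγ' z0' hz0' (by linarith) (by linarith) u'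
    huf' h0U'
  have hcov' : ∀ ζ, K.Near Rc (e z0) ζ → ∃ x ∈ K.fam e n, ζ ∈ K.U x := by
    intro ζ hζ
    obtain ⟨w, rfl, hd⟩ := hc z0 (hγ.1 hz0) ζ hζ
    exact (hcov n (by omega) w (wc_zone (hγ.1 hz0) b1 b2 hd)).1
  have hbase : K.Near ((n : ℝ) - K.cov.A' - 2 * j - K.δ) (g • e z0') (e z0) := by
    refine ⟨u, ?_, ?_⟩
    · have h1 := K.P_smul g (e z0') u'
      have h2 := K.wc_out hn0 hul' h0U'
      rw [← hug] at h1
      linarith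
    · have := K.wc_out hn0 hul h0U
      linarith
  set F' := K.fat (K.fam e n) (e '' γ') with hF'
  set Γ : Set X := ⋃ v ∈ {v | K.AChain F' u' v}, (fun a => g • a) '' K.U v with hΓ
  have hΓc : IsPreconnected Γ := by
    refine union_conn (U := fun v => (fun a => g • a) '' K.U v)
      (r := fun x y => x ∈ F' ∧ y ∈ F' ∧ K.adj x y)
      (fun v => (K.cov.U_conn v).image _ (K.cont g).continuousOn) ?_ u'
    rintro x y ⟨-, -, a, ha, ha'⟩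
    exact ⟨g • a, ⟨a, ha, rfl⟩, ⟨a, ha', rfl⟩⟩
  have hmemΓ : ∀ v, K.AChain F' u' v → ∀ a ∈ K.U v, g • a ∈ Γ := fun v hv a ha =>
    mem_iUnion₂.2 ⟨v, hv, a, ha, rfl⟩
  have hΓn : ∀ ζ ∈ Γ, K.Near (R2 - 4 * K.δ) (e z0) ζ := by
    intro ζ hζ
    obtain ⟨v, hv, a, ha, rfl⟩ := mem_iUnion₂.1 hζ
    obtain ⟨hvf, c, hcU, hcγ⟩ := K.wc_mem_fat.1 (K.wc_reach huf' hv)
    have h1 := (K.wc_near hn0 (K.wc_len hvf) hcU ha).smul g
    have h2 := N2 _ ⟨z0', hz0', rfl⟩ _ hcγ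
    have h3 := (h2.trans h1).mono (R' := R2 - 2 * K.δ) (by
      have : R2 ≤ min R2 ((n : ℝ) - K.cov.A' - K.len g - K.δ) := le_min le_rfl (by linarith)
      linarith)
    refine (hbase.symm.trans h3).mono ?_
    have : R2 - 2 * K.δ ≤ min ((n : ℝ) - K.cov.A' - 2 * j - K.δ) (R2 - 2 * K.δ) :=
      le_min (by linarith) le_rfl
    linarith
  have hΓcov : ∀ ζ ∈ Γ, ∃ x ∈ K.fam e n, ζ ∈ K.U x := fun ζ hζ =>
    hcov' ζ ((hΓn ζ hζ).mono (by linarith))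
  have huΓ : u ∈ K.fat (K.fam e n) Γ := by
    obtain ⟨a, ha, ha'⟩ := K.wc_meet hn0 (g := g) hul' (hug ▸ hul) (by linarith)
    exact K.wc_mem_fat.2 ⟨hufam, g • a, hug ▸ ha', hmemΓ u' Relation.ReflTransGen.refl a ha⟩
  have hsum : ∑ x ∈ K.fat (K.fam e n) Γ, E.σ x ≤ κ := by
    have h1 : ¬ κ ≤ ∑ x ∈ (K.fam e n).filter (fun x => ∃ v ∈ E.lv t',
        K.d x (g * v) ≤ ((6 * j + 2 * K.cov.A' + 4 * K.δ : ℕ) : ℝ)), E.σ x := fun h =>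
      hH ⟨ht'.1, g, (K.mem_ball _ _).2 hglen, h⟩
    refine le_trans (Finset.sum_le_sum_of_subset_of_nonneg ?_ fun x _ _ => E.σ_nonneg x)
      (not_le.1 h1).le
    intro x hx
    obtain ⟨hxf, ζ, hζx, hζ⟩ := K.wc_mem_fat.1 hx
    obtain ⟨v, hv, a, ha, rfl⟩ := mem_iUnion₂.1 hζ
    have hvF := K.wc_reach huf' hv
    refine Finset.mem_filter.2 ⟨hxf, v, hf' ▸ hvF, ?_⟩
    exact K.wc_d hn0 hglen (K.wc_len (K.wc_mem_fat.1 hvF).1) (K.wc_len hxf) ha hζx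
  obtain ⟨hbf, ζ', hζb, hζγ⟩ := K.wc_mem_fat.1 hb
  have hζΓ : g • ζ' ∈ Γ := hmemΓ b hchain ζ' hζb
  set y := K.ray (g • ζ') J with hy
  have hyl : K.len y = J := K.ray_len _ _
  have hζy : g • ζ' ∈ K.U y := by
    refine K.cov.U_in y _ (hyl ▸ hJn) ?_
    rw [hyl, hy, K.P_ray]
    linarith
  have hfar : ∀ a ∈ e '' γ, ¬ K.Near (R2 - K.δ + 2 * j) a (g • ζ') := by
    intro a ha hN
    have h1 := hN.smul g⁻¹
    rw [inv_smul_smul, K.len_inv] at h1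
    have h2 := N1 _ ⟨z0, hz0, rfl⟩ _ ha
    have h3 := hbase.smul g⁻¹
    rw [inv_smul_smul, K.len_inv] at h3
    have h4 := (h3.trans h2).mono (R' := R2 - 2 * K.δ) (by
      have : R2 ≤ min ((n : ℝ) - K.cov.A' - 2 * j - K.δ - K.len g - K.δ) R2 :=
        le_min (by linarith) le_rfl
      linarith)
    have h5 := (h4.trans h1).mono (R' := R2 - 4 * K.δ) (by
      have : R2 - 2 * K.δ ≤ min (R2 - 2 * K.δ) (R2 - K.δ + 2 * j - K.len g - K.δ) :=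
        le_min le_rfl (by linarith)
      linarith)
    have h6 := h5.symm.P_ge b
    have h7 := K.wc_out hn0 (K.wc_len hbf) hζb
    have : R2 - 4 * K.δ ≤ min (R2 - 4 * K.δ) (K.P ζ' b) := le_min le_rfl (by linarith)
    linarith
  have hycov : ∀ c ∈ K.U y, ∃ x ∈ K.fam e n, c ∈ K.U x := by
    intro c hcy
    refine hcov' c (((hΓn _ hζΓ).trans (K.wc_near hJn hyl hζy hcy)).mono ?_)
    have : R2 - 4 * K.δ ≤ min (R2 - 4 * K.δ) ((J : ℝ) - K.cov.A') := le_min le_rfl (by linarith)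
    linarith
  obtain ⟨u1, hu1, hu1ζ⟩ := hΓcov _ hζΓ
  have hu1Γ : u1 ∈ K.fat (K.fam e n) Γ := K.wc_mem_fat.2 ⟨hu1, _, hu1ζ, hζΓ⟩
  have hp1 := K.pot_close E hΓc hΓcov hu1Γ huΓ
  have hp2 := K.pot_close E hΓc hΓcov huΓ hu1Γ
  obtain ⟨-, hut1, hut2⟩ := Finset.mem_filter.1 hu
  refine hE (K.wc_edge E (K.mem_lev.2 hyl) hycov (K.wc_mem_fat.2 ⟨hu1, _, hu1ζ, hζy⟩) ?_
    (by linarith) (by linarith))
  intro x hx hxt
  rw [← hf] at hxt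
  obtain ⟨hxf, c, hcx, hcy⟩ := K.wc_mem_fat.1 hx
  obtain ⟨-, a, hax, haγ⟩ := K.wc_mem_fat.1 hxt
  refine hfar a haγ (((K.wc_near hn0 (K.wc_len hxf) hax hcx).trans
    (K.wc_near hJn hyl hcy hζy)).mono ?_)
  have : (J : ℝ) - K.cov.A' ≤ min ((n : ℝ) - K.cov.A') ((J : ℝ) - K.cov.A') :=
    le_min (by linarith) le_rfl
  linarith

end Ctx

end Vale.Agent.P198
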