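import Vale.Agent.P198.Stmt
import Vale.Agent.P198.Defs

/-! The word metric. -/

namespace Vale.Agent.P198

open Set Filter Topology Metric MeasureTheory
open scoped Classical

variable {G : Type*} [Group G] {S : Finset G}

theorem wd_le (l : List G) (h : ∀ x ∈ l, x ∈ S ∨ x⁻¹ ∈ S) : wlen S l.prod ≤ l.length :=
  Nat.sInf_le ⟨l, h, rfl, rfl⟩

theorem wd_inv_list {l : List G} (h : ∀ x ∈ l, x ∈ S ∨ x⁻¹ ∈ S) :
    ∀ x ∈ (l.map fun x => x⁻¹).reverse, x ∈ S ∨ x⁻¹ ∈ S := by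
  intro x hx
  obtain ⟨y, hy, rfl⟩ := List.mem_map.1 (List.mem_reverse.1 hx)
  rw [inv_inv]
  exact (h y hy).symm

theorem wd_exists (hS : Subgroup.closure (S : Set G) = ⊤) (a : G) :
    ∃ l : List G, (∀ x ∈ l, x ∈ S ∨ x⁻¹ ∈ S) ∧ l.length = wlen S a ∧ l.prod = a := by
  have h1 : ∃ l : List G, (∀ x ∈ l, x ∈ S ∨ x⁻¹ ∈ S) ∧ l.prod = a := by
    have ha : a ∈ Subgroup.closure (S : Set G) := hS ▸ Subgroup.mem_top a
    induction ha using Subgroup.closure_induction with
    | mem x hx => exact ⟨[x], by simpa using Or.inl hx, by simp⟩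
    | one => exact ⟨[], by simp, rfl⟩
    | mul x y _ _ hx hy =>
      obtain ⟨l, h1, rfl⟩ := hx
      obtain ⟨l', h2, rfl⟩ := hy
      exact ⟨l ++ l', fun x hx => (List.mem_append.1 hx).elim (h1 x) (h2 x), List.prod_append⟩
    | inv x _ hx =>
      obtain ⟨l, h1, rfl⟩ := hx
      exact ⟨_, wd_inv_list h1, (List.prod_inv_reverse l).symm⟩
  obtain ⟨l, h1, h2⟩ := h1
  exact Nat.sInf_mem (s := {n | ∃ l : List G, (∀ x ∈ l, x ∈ S ∨ x⁻¹ ∈ S) ∧ l.length = n ∧
    l.prod = a}) ⟨_, l, h1, rfl, h2⟩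

theorem wlen_one : wlen S 1 = 0 := by
  exact Nat.le_zero.1 (wd_le (S := S) [] (by simp))

theorem wlen_inv (hS : Subgroup.closure (S : Set G) = ⊤) (a : G) : wlen S a⁻¹ = wlen S a := by
  have h : ∀ a : G, wlen S a⁻¹ ≤ wlen S a := fun a => by
    obtain ⟨l, h1, h2, rfl⟩ := wd_exists hS a
    have := wd_le _ (wd_inv_list h1)
    rwa [← List.prod_inv_reverse, List.length_reverse, List.length_map, h2] at this
  exact le_antisymm (h a) (by simpa using h a⁻¹)

theorem wlen_mul (hS : Subgroup.closure (S : Set G) = ⊤) (a b : G) :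
    wlen S (a * b) ≤ wlen S a + wlen S b := by
  obtain ⟨l, h1, h2, rfl⟩ := wd_exists hS a
  obtain ⟨l', h3, h4, rfl⟩ := wd_exists hS b
  have := wd_le (l ++ l') fun x hx => (List.mem_append.1 hx).elim (h1 x) (h3 x)
  rwa [List.prod_append, List.length_append, h2, h4] at this

theorem wd_tri (hS : Subgroup.closure (S : Set G) = ⊤) (a b c : G) :
    wdist S a c ≤ wdist S a b + wdist S b c := by
  have := wlen_mul hS (a⁻¹ * b) (b⁻¹ * c)
  rwa [mul_assoc, mul_inv_cancel_left] at this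

theorem wd_comm (hS : Subgroup.closure (S : Set G) = ⊤) (a b : G) :
    wdist S a b = wdist S b a := by
  rw [wdist, ← wlen_inv hS, mul_inv_rev, inv_inv, wdist]

theorem wd_self (a : G) : wdist S a a = 0 := by rw [wdist, inv_mul_cancel, wlen_one]

theorem wd_one (a : G) : wdist S 1 a = wlen S a := by rw [wdist, inv_one, one_mul]

theorem wd_mul (g a b : G) : wdist S (g * a) (g * b) = wdist S a b := by
  rw [wdist, wdist, mul_inv_rev, mul_assoc, inv_mul_cancel_left]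

theorem wd_gpr (a b : G) :
    gpr (wlen S) a b = ((wlen S a : ℝ) + wlen S b - wdist S a b) / 2 := rfl

theorem wd_gpr_comm (hS : Subgroup.closure (S : Set G) = ⊤) (a b : G) :
    gpr (wlen S) a b = gpr (wlen S) b a := by
  rw [wd_gpr, wd_gpr, wd_comm hS, add_comm]

theorem exists_geod (hS : Subgroup.closure (S : Set G) = ⊤) (a b : G) :
    ∃ c : ℕ → G, c 0 = a ∧ c (wdist S a b) = b ∧ IsGeod S c (wdist S a b) := by
  obtain ⟨l, h1, h2, h3⟩ := wd_exists hS (a⁻¹ * b)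
  have h2' : l.length = wdist S a b := h2
  have e0 : a * (l.take 0).prod = a := by simp
  have e1 : a * (l.take (wdist S a b)).prod = b := by
    rw [← h2', List.take_length, h3, mul_inv_cancel_left]
  have hle : ∀ i j, i ≤ j → wdist S (a * (l.take i).prod) (a * (l.take j).prod) ≤ j - i := by
    intro i j hij
    have e2 : (l.take j).prod = (l.take i).prod * ((l.take j).drop i).prod := by
      rw [← List.prod_append]
      conv_lhs => rw [← List.take_append_drop i (l.take j), List.take_take, min_eq_left hij]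
    have e3 : (a * (l.take i).prod)⁻¹ * (a * (l.take j).prod) = ((l.take j).drop i).prod := by
      rw [e2]; group
    rw [wdist, e3]
    refine (wd_le _ fun x hx => h1 x (List.mem_of_mem_take (List.mem_of_mem_drop hx))).trans ?_
    rw [List.length_drop, List.length_take]
    omega
  refine ⟨fun i => a * (l.take i).prod, e0, e1, fun i j hij hj => le_antisymm (hle i j hij) ?_⟩
  have a1 := hle 0 i (Nat.zero_le _)
  have a2 := hle j _ hj
  rw [e0] at a1
  rw [e1] at a2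
  have a3 := wd_tri hS a (a * (l.take i).prod) b
  have a4 := wd_tri hS (a * (l.take i).prod) (a * (l.take j).prod) b
  beta_reduce
  omega

open Pointwise in
theorem exists_ball (hS : Subgroup.closure (S : Set G) = ⊤) :
    ∃ (D : ℕ) (ball : ℕ → Finset G), 2 ≤ D ∧ (∀ r a, a ∈ ball r ↔ wlen S a ≤ r) ∧
      ∀ r, (ball r).card ≤ D ^ r := by
  let T : Finset G := insert 1 (S ∪ S.image fun x => x⁻¹)
  have h1 : ∀ l : List G, (∀ x ∈ l, x ∈ S ∨ x⁻¹ ∈ S) → l.prod ∈ T ^ l.length := by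
    intro l
    induction l with
    | nil => simp
    | cons x l ih =>
      intro h
      rw [List.prod_cons, List.length_cons, pow_succ']
      refine Finset.mul_mem_mul ?_ (ih fun y hy => h y (List.mem_cons_of_mem _ hy))
      refine Finset.mem_insert_of_mem (Finset.mem_union.2 ((h x List.mem_cons_self).imp id ?_))
      exact fun hx => Finset.mem_image.2 ⟨_, hx, inv_inv x⟩
  refine ⟨T.card + 2, fun r => (T ^ r).filter fun a => wlen S a ≤ r, by omega, fun r a => ?_,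
    fun r => ?_⟩
  · rw [Finset.mem_filter]
    refine ⟨fun h => h.2, fun h => ⟨?_, h⟩⟩
    obtain ⟨l, h2, h3, rfl⟩ := wd_exists hS a
    exact Finset.pow_subset_pow_right (Finset.mem_insert_self _ _) (h3 ▸ h) (h1 l h2)
  · exact (Finset.card_filter_le _ _).trans (Finset.card_pow_le.trans
      (Nat.pow_le_pow_left (by omega) _))

theorem wd_pt {c : ℕ → G} {x y : G} {n i : ℕ} (h0 : c 0 = x) (h1 : c n = y) (h : IsGeod S c n)
    (hi : i ≤ n) : wdist S x (c i) = i ∧ wdist S (c i) y = n - i :=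
  ⟨h0 ▸ h 0 i (Nat.zero_le _) hi, h1 ▸ h i n hi le_rfl⟩

theorem wd_near (hS : Subgroup.closure (S : Set G) = ⊤) {c : ℕ → G} {x y : G} {n i : ℕ}
    (h0 : c 0 = x) (h1 : c n = y) (h : IsGeod S c n) (hi : i ≤ n) (p : G) :
    wdist S x p + wdist S p y ≤ n + 2 * wdist S p (c i) := by
  obtain ⟨d1, d2⟩ := wd_pt h0 h1 h hi
  have t1 := wd_tri hS x (c i) p
  have t2 := wd_tri hS p (c i) y
  rw [wd_comm hS (c i) p] at t1
  omega

theorem wd_low (hS : Subgroup.closure (S : Set G) = ⊤) {c : ℕ → G} {x y : G} {n i : ℕ}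
    (h0 : c 0 = x) (h1 : c n = y) (h : IsGeod S c n) (hi : i ≤ n) (p : G) :
    wdist S 1 x + wdist S 1 y ≤ n + 2 * wdist S 1 p + 2 * wdist S p (c i) := by
  obtain ⟨d1, d2⟩ := wd_pt h0 h1 h hi
  have t1 := wd_tri hS 1 (c i) x
  have t2 := wd_tri hS 1 (c i) y
  have t3 := wd_tri hS 1 p (c i)
  rw [wd_comm hS (c i) x] at t1
  omega

theorem four_point (hS : Subgroup.closure (S : Set G) = ⊤) (hyp : IsHyperbolic S) :
    ∃ δ : ℕ, ∀ a b c : G,
      min (gpr (wlen S) a b) (gpr (wlen S) b c) - δ ≤ gpr (wlen S) a c := by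
  obtain ⟨δ, hδ⟩ := hyp
  refine ⟨3 * δ + 1, fun a b c => ?_⟩
  obtain ⟨γ, g0, g1, hγ⟩ := exists_geod hS a c
  obtain ⟨α, a0, a1, hα⟩ := exists_geod hS 1 a
  obtain ⟨β, b0, b1, hβ⟩ := exists_geod hS c 1
  obtain ⟨μ, m0, m1, hμ⟩ := exists_geod hS c b
  obtain ⟨ν, n0, n1, hν⟩ := exists_geod hS b a
  have t1 := wd_tri hS 1 a c
  have t2 := wd_tri hS 1 c a
  rw [wd_comm hS c a] at t2
  obtain ⟨i, hi⟩ : ∃ i, i = (wdist S 1 a + wdist S a c - wdist S 1 c) / 2 := ⟨_, rfl⟩
  have hin : i ≤ wdist S a c := by omega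
  obtain ⟨d1, d2⟩ := wd_pt g0 g1 hγ hin
  have k1 : 2 * wdist S 1 (γ i) + wdist S a c ≤ wdist S 1 a + wdist S 1 c + 4 * δ + 1 := by
    rcases hδ γ β α _ _ _ hγ hβ hα (g1.trans b0.symm) (b1.trans a0.symm) (a1.trans g0.symm) i hin
      with ⟨j, hj, h⟩ | ⟨j, hj, h⟩
    · have := wd_near hS b0 b1 hβ hj (γ i)
      rw [wd_comm hS c, wd_comm hS c, wd_comm hS (γ i) 1] at this
      omega
    · have := wd_near hS a0 a1 hα hj (γ i)
      rw [wd_comm hS (γ i) a] at this
      omega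
  rw [wd_gpr, wd_gpr, wd_gpr, ← wd_one a, ← wd_one b, ← wd_one c]
  have k1' : (2 * wdist S 1 (γ i) + wdist S a c : ℝ) ≤ wdist S 1 a + wdist S 1 c + 4 * δ + 1 := by
    exact_mod_cast k1
  rcases hδ γ μ ν _ _ _ hγ hμ hν (g1.trans m0.symm) (m1.trans n0.symm) (n1.trans g0.symm) i hin
    with ⟨j, hj, h⟩ | ⟨j, hj, h⟩
  · have k2 := wd_low hS m0 m1 hμ hj (γ i)
    rw [wd_comm hS c b] at k2
    have k3 : (wdist S 1 c + wdist S 1 b : ℝ) ≤ wdist S b c + 2 * wdist S 1 (γ i) + 2 * δ := by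
      have : wdist S 1 c + wdist S 1 b ≤ wdist S b c + 2 * wdist S 1 (γ i) + 2 * δ := by omega
      exact_mod_cast this
    push_cast
    linarith [min_le_right (((wdist S 1 a : ℝ) + wdist S 1 b - wdist S a b) / 2)
      (((wdist S 1 b : ℝ) + wdist S 1 c - wdist S b c) / 2)]
  · have k2 := wd_low hS n0 n1 hν hj (γ i)
    rw [wd_comm hS b a] at k2
    have k3 : (wdist S 1 b + wdist S 1 a : ℝ) ≤ wdist S a b + 2 * wdist S 1 (γ i) + 2 * δ := by
      have : wdist S 1 b + wdist S 1 a ≤ wdist S a b + 2 * wdist S 1 (γ i) + 2 * δ := by omega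
      exact_mod_cast this
    push_cast
    linarith [min_le_left (((wdist S 1 a : ℝ) + wdist S 1 b - wdist S a b) / 2)
      (((wdist S 1 b : ℝ) + wdist S 1 c - wdist S b c) / 2)]

end Vale.Agent.P198
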